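import Vale.Agent.Lib.P028K.Defs

/-! Part Basics. -/

open Finset

namespace Vale.Agent.Lib.P028K

open Vale.Agent.Lib.P028
open Vale.Agent.Lib.P028T

noncomputable section

variable {B M : ℕ} [NeZero M]

lemma norm_zc (x : ZMod M) : ‖zc x‖ = 1 := by
  unfold zc
  rw [ZMod.stdAddChar_apply]
  exact Circle.norm_coe _

lemma zc_add (x y : ZMod M) : zc (x + y) = zc x * zc y := by
  unfold zc
  exact AddChar.map_add_eq_mul _ _ _

/-- Mean zero of the character. -/
lemma sum_zc (hM : 2 ≤ M) : ∑ x : ZMod M, zc x = 0 := by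
  unfold zc
  apply AddChar.sum_eq_zero_of_ne_one
  intro h
  have h1 : (ZMod.stdAddChar : AddChar (ZMod M) ℂ) 1 = (ZMod.stdAddChar : AddChar (ZMod M) ℂ) 0 := by
    rw [h]
    simp
  have h2 := ZMod.injective_stdAddChar h1
  have : Fact (1 < M) := ⟨by omega⟩
  exact one_ne_zero h2

/-- Mean of an integer power, for `0 < |j|`, `|j| < M`. -/
lemma sum_zc_zpow (j : ℤ) (hj : j ≠ 0) (hjM : |j| < M) : ∑ x : ZMod M, zc x ^ j = 0 := by
  have h1 : ∀ x : ZMod M, zc x ^ j = AddChar.mulShift (ZMod.stdAddChar : AddChar (ZMod M) ℂ) (j : ZMod M) x := by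
    intro x
    rw [AddChar.mulShift_apply]
    unfold zc
    rw [← AddChar.map_zsmul_eq_zpow]
    congr 1
    rw [zsmul_eq_mul]
  simp only [h1]
  apply AddChar.sum_eq_zero_of_ne_one
  apply ZMod.isPrimitive_stdAddChar M
  intro h0
  rw [ZMod.intCast_zmod_eq_zero_iff_dvd] at h0
  have h2 := Int.eq_zero_of_abs_lt_dvd h0 hjM
  exact hj h2

lemma norm_zp (ω : Om B M) (p : ℕ) : ‖zp ω p‖ = 1 := by
  unfold zp
  split_ifs with h
  · exact norm_zc _
  · simp

lemma ff_one (ω : Om B M) : ff ω 1 = 1 := by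
  simp [ff]

private lemma ff_eq_prod (ω : Om B M) (n : ℕ) :
    ff ω n = n.factorization.prod (fun p k => zp ω p ^ k) := by
  rw [Nat.prod_factorization_eq_prod_primeFactors]
  rfl

lemma ff_mul (ω : Om B M) {m n : ℕ} (hm : m ≠ 0) (hn : n ≠ 0) : ff ω (m * n) = ff ω m * ff ω n := by
  rw [ff_eq_prod, ff_eq_prod, ff_eq_prod, Nat.factorization_mul hm hn]
  exact Finsupp.prod_add_index' (fun _ => pow_zero _) (fun _ _ _ => pow_add _ _ _)

lemma norm_ff (ω : Om B M) (n : ℕ) : ‖ff ω n‖ = 1 := by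
  unfold ff
  rw [norm_prod]
  apply Finset.prod_eq_one
  intro p _
  rw [norm_pow, norm_zp, one_pow]

/-- `ff` of a number with all primes below `i` depends on coordinates below `i`. -/
lemma ff_dep {i n : ℕ} (h : ∀ p ∈ n.primeFactors, p < i) : DepBelow (B := B) (M := M) i (fun ω => ff ω n) := by
  intro ω ω' hω
  unfold ff
  apply Finset.prod_congr rfl
  intro p hp
  congr 1
  unfold zp
  split_ifs with hpB
  · rw [hω ⟨p, hpB⟩ (h p hp)]
  · rfl

private lemma card_Om_pos : (0:ℝ) < (Fintype.card (Om B M) : ℝ) := by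
  exact_mod_cast Fintype.card_pos

lemma EE_const (c : ℝ) : EE (fun _ : Om B M => c) = c := by
  unfold EE
  rw [Finset.sum_const, Finset.card_univ, nsmul_eq_mul]
  have := card_Om_pos (B := B) (M := M)
  field_simp

lemma EE_add (F G : Om B M → ℝ) : EE (fun ω => F ω + G ω) = EE F + EE G := by
  unfold EE
  rw [Finset.sum_add_distrib, add_div]

lemma EE_mul_left (c : ℝ) (F : Om B M → ℝ) : EE (fun ω => c * F ω) = c * EE F := by
  unfold EE
  rw [← Finset.mul_sum, mul_div_assoc]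

lemma EE_sum {ι : Type*} (s : Finset ι) (F : ι → Om B M → ℝ) :
    EE (fun ω => ∑ i ∈ s, F i ω) = ∑ i ∈ s, EE (F i) := by
  unfold EE
  rw [Finset.sum_comm, Finset.sum_div]

lemma EE_mono {F G : Om B M → ℝ} (h : ∀ ω, F ω ≤ G ω) : EE F ≤ EE G := by
  unfold EE
  exact div_le_div_of_nonneg_right (Finset.sum_le_sum fun ω _ => h ω) card_Om_pos.le

lemma EE_nonneg {F : Om B M → ℝ} (h : ∀ ω, 0 ≤ F ω) : 0 ≤ EE F := by
  unfold EE
  exact div_nonneg (Finset.sum_nonneg fun ω _ => h ω) card_Om_pos.le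

/-- Averaging over one coordinate. -/
lemma EE_update (i : Fin B) (F : Om B M → ℝ) :
    EE F = EE (fun ω => (∑ x : ZMod M, F (Function.update ω i x)) / (M:ℝ)) := by
  have hM0 : (M:ℝ) ≠ 0 := by exact_mod_cast NeZero.ne M
  have key : ∑ ω : Om B M, ∑ x : ZMod M, F (Function.update ω i x) = (M:ℝ) * ∑ ω, F ω := by
    have hinv : Function.Involutive (fun d : Om B M × ZMod M => (Function.update d.1 i d.2, d.1 i)) := by
      rintro ⟨ω, x⟩
      simp
    have h1 : ∑ d : Om B M × ZMod M, F (Function.update d.1 i d.2) =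
        ∑ d : Om B M × ZMod M, F d.1 := by
      exact Fintype.sum_equiv hinv.toPerm _ _ (fun d => rfl)
    rw [Fintype.sum_prod_type] at h1
    rw [h1, Fintype.sum_prod_type]
    simp only [Finset.sum_const, Finset.card_univ, ZMod.card, nsmul_eq_mul]
    rw [Finset.mul_sum]
  unfold EE
  congr 1
  rw [← Finset.sum_div, key]
  field_simp

private lemma ff_eq_prod_fin {n : ℕ} (hn : Fits B M n) (ω : Om B M) :
    ff ω n = ∏ i : Fin B, zc (ω i) ^ (n.factorization (i:ℕ)) := by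
  unfold ff
  have h1 : ∏ p ∈ n.primeFactors, zp ω p ^ n.factorization p =
      ∏ p ∈ (range B), zp ω p ^ n.factorization p := by
    apply Finset.prod_subset
    · intro p hp
      exact Finset.mem_range.2 (hn.2.1 p hp)
    · intro p _ hp
      rw [← Nat.support_factorization, Finsupp.notMem_support_iff] at hp
      rw [hp, pow_zero]
  rw [h1, Finset.prod_range]
  apply Finset.prod_congr rfl
  intro i _
  congr 1
  unfold zp
  rw [dif_pos i.2]

/-- Orthogonality. -/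
lemma ortho {m n : ℕ} (hm : Fits B M m) (hn : Fits B M n) :
    (∑ ω : Om B M, ff ω m * (starRingEnd ℂ) (ff ω n))
      = if m = n then (Fintype.card (Om B M) : ℂ) else 0 := by
  split_ifs with h
  · subst h
    have h1 : ∀ ω : Om B M, ff ω m * (starRingEnd ℂ) (ff ω m) = 1 := by
      intro ω
      rw [Complex.mul_conj, Complex.normSq_eq_norm_sq, norm_ff]
      simp
    simp only [h1]
    simp [Finset.card_univ]
  · -- a prime where the valuations differ
    obtain ⟨p, hp⟩ : ∃ p, m.factorization p ≠ n.factorization p := by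
      by_contra hcon
      push Not at hcon
      exact h (Nat.eq_of_factorization_eq hm.1 hn.1 hcon)
    have hpB : p < B := by
      by_cases h1 : m.factorization p = 0
      · have h2 : n.factorization p ≠ 0 := by
          intro h3
          exact hp (h1.trans h3.symm)
        apply hn.2.1
        rw [← Nat.support_factorization]
        exact Finsupp.mem_support_iff.2 h2
      · apply hm.2.1
        rw [← Nat.support_factorization]
        exact Finsupp.mem_support_iff.2 h1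
    have hconj : ∀ z : ℂ, ‖z‖ = 1 → (starRingEnd ℂ) z = z⁻¹ := by
      intro z hz
      exact (Complex.inv_eq_conj hz).symm
    have hterm : ∀ ω : Om B M, ff ω m * (starRingEnd ℂ) (ff ω n) =
        ∏ i : Fin B, zc (ω i) ^ (((m.factorization (i:ℕ) : ℤ)) - (n.factorization (i:ℕ) : ℤ)) := by
      intro ω
      rw [hconj _ (norm_ff ω n), ff_eq_prod_fin hm, ff_eq_prod_fin hn, ← Finset.prod_inv_distrib,
        ← Finset.prod_mul_distrib]
      apply Finset.prod_congr rfl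
      intro i _
      have hne : zc (ω i) ≠ 0 := by
        intro h0
        have := norm_zc (ω i)
        rw [h0, norm_zero] at this
        exact zero_ne_one this
      rw [zpow_sub₀ hne, zpow_natCast, zpow_natCast, div_eq_mul_inv]
    simp only [hterm]
    have hprod : ∑ ω : Om B M, ∏ i : Fin B, zc (ω i) ^ (((m.factorization (i:ℕ) : ℤ)) - (n.factorization (i:ℕ) : ℤ)) =
        ∏ i : Fin B, ∑ x : ZMod M, zc x ^ (((m.factorization (i:ℕ) : ℤ)) - (n.factorization (i:ℕ) : ℤ)) := by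
      rw [Finset.prod_univ_sum, Fintype.piFinset_univ]
    rw [hprod]
    apply Finset.prod_eq_zero (Finset.mem_univ (⟨p, hpB⟩ : Fin B))
    apply sum_zc_zpow
    · simp only
      omega
    · simp only
      have h3 := hm.2.2 p
      have h4 := hn.2.2 p
      rw [abs_lt]
      constructor <;> omega

/-- A power of a nonnegative real, with `1 / k` in the exponent. -/
private lemma pow_rpow_one_div {k : ℕ} (hk : 1 ≤ k) {c : ℝ} (hc : 0 ≤ c) :
    (c ^ k) ^ ((1:ℝ) / (k:ℝ)) = c := by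
  rw [one_div]
  exact Real.pow_rpow_inv_natCast hc (by omega)

/-- Hölder for the pair `x^(k-1)`, `V`. -/
lemma EE_holder (k : ℕ) (hk : 1 ≤ k) {x V : Om B M → ℝ} (hx : ∀ ω, 0 ≤ x ω) (hV : ∀ ω, 0 ≤ V ω) :
    EE (fun ω => x ω ^ (k - 1) * V ω) ≤
      (EE fun ω => x ω ^ k) ^ (((k:ℝ) - 1) / k) * (EE fun ω => V ω ^ k) ^ ((1:ℝ) / k) := by
  rcases Nat.lt_or_ge k 2 with h1 | h2
  · have hk1 : k = 1 := by omega
    subst hk1
    simp
  have hkR : (2:ℝ) ≤ k := by exact_mod_cast h2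
  have hk0 : (0:ℝ) < k := by linarith
  -- conjugate exponents `p = k/(k-1)`, `q = k`
  set p : ℝ := (k:ℝ) / ((k:ℝ) - 1) with hp
  have hk1' : (0:ℝ) < (k:ℝ) - 1 := by linarith
  have hconj : p.HolderConjugate (k:ℝ) := by
    refine (Real.holderConjugate_iff).2 ⟨?_, ?_⟩
    · rw [hp, lt_div_iff₀ hk1']
      linarith
    · rw [hp]
      field_simp
      ring
  have h3 := Real.inner_le_Lp_mul_Lq (Finset.univ : Finset (Om B M)) (fun ω => x ω ^ (k - 1)) V hconj
  have hpk : ∀ ω, |x ω ^ (k - 1)| ^ p = x ω ^ k := by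
    intro ω
    rw [abs_of_nonneg (pow_nonneg (hx ω) _)]
    rw [← Real.rpow_natCast (x ω) (k - 1), ← Real.rpow_mul (hx ω)]
    have : (((k - 1 : ℕ) : ℝ)) * p = k := by
      rw [Nat.cast_sub hk, hp]
      push_cast
      field_simp
    rw [this, Real.rpow_natCast]
  have hVk : ∀ ω, |V ω| ^ (k:ℝ) = V ω ^ k := by
    intro ω
    rw [abs_of_nonneg (hV ω), Real.rpow_natCast]
  simp only [hpk, hVk] at h3
  have h1p : (1:ℝ) / p = ((k:ℝ) - 1) / k := by
    rw [hp]
    field_simp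
  rw [h1p] at h3
  set N : ℝ := (Fintype.card (Om B M) : ℝ) with hN
  have hN0 : 0 < N := card_Om_pos
  set A : ℝ := ∑ ω, x ω ^ k with hA
  set C : ℝ := ∑ ω, V ω ^ k with hC
  have hA0 : 0 ≤ A := Finset.sum_nonneg fun ω _ => pow_nonneg (hx ω) _
  have hC0 : 0 ≤ C := Finset.sum_nonneg fun ω _ => pow_nonneg (hV ω) _
  unfold EE
  rw [Real.div_rpow hA0 hN0.le, Real.div_rpow hC0 hN0.le, div_mul_div_comm,
    ← Real.rpow_add hN0]
  have hsum : ((k:ℝ) - 1) / k + 1 / k = 1 := by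
    field_simp
    ring
  rw [hsum, Real.rpow_one]
  exact div_le_div_of_nonneg_right h3 hN0.le

lemma nr_nonneg (k : ℕ) (V : Om B M → ℝ) : 0 ≤ nr k V := by
  unfold nr
  apply Real.rpow_nonneg
  exact EE_nonneg fun ω => pow_nonneg (abs_nonneg _) _

lemma mm_nonneg (k : ℕ) (F : Om B M → ℂ) : 0 ≤ mm k F := by
  unfold mm
  apply Real.rpow_nonneg
  exact EE_nonneg fun ω => pow_nonneg (norm_nonneg _) _

private lemma nr_eq_Lp (k : ℕ) (hk : 1 ≤ k) (V : Om B M → ℝ) :
    nr k V = (∑ ω, |V ω| ^ (k:ℝ)) ^ ((1:ℝ) / (k:ℝ)) /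
      (Fintype.card (Om B M) : ℝ) ^ ((1:ℝ) / (k:ℝ)) := by
  unfold nr EE
  rw [Real.div_rpow (Finset.sum_nonneg fun ω _ => pow_nonneg (abs_nonneg _) _) card_Om_pos.le]
  simp only [Real.rpow_natCast]

lemma nr_add (k : ℕ) (hk : 1 ≤ k) (V W : Om B M → ℝ) :
    nr k (fun ω => V ω + W ω) ≤ nr k V + nr k W := by
  rw [nr_eq_Lp k hk, nr_eq_Lp k hk, nr_eq_Lp k hk, ← add_div]
  have h1 : (1:ℝ) ≤ (k:ℝ) := by exact_mod_cast hk
  apply div_le_div_of_nonneg_right (Real.Lp_add_le _ _ _ h1)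
  exact Real.rpow_nonneg card_Om_pos.le _

lemma nr_const (k : ℕ) (hk : 1 ≤ k) (c : ℝ) (hc : 0 ≤ c) : nr k (fun _ : Om B M => c) = c := by
  unfold nr
  rw [EE_const, abs_of_nonneg hc]
  exact pow_rpow_one_div hk hc

lemma nr_sum {ι : Type*} (k : ℕ) (hk : 1 ≤ k) (s : Finset ι) (V : ι → Om B M → ℝ) :
    nr k (fun ω => ∑ i ∈ s, V i ω) ≤ ∑ i ∈ s, nr k (V i) := by
  classical
  induction s using Finset.induction_on with
  | empty =>
    simp only [Finset.sum_empty]
    rw [nr_const k hk 0 le_rfl]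
  | insert a s ha ih =>
    simp only [Finset.sum_insert ha]
    exact (nr_add k hk _ _).trans (add_le_add_right ih _)

lemma nr_mono (k : ℕ) (hk : 1 ≤ k) {V W : Om B M → ℝ} (h : ∀ ω, |V ω| ≤ |W ω|) : nr k V ≤ nr k W := by
  unfold nr
  apply Real.rpow_le_rpow
  · exact EE_nonneg fun ω => pow_nonneg (abs_nonneg _) _
  · exact EE_mono fun ω => pow_le_pow_left₀ (abs_nonneg _) (h ω) _
  · positivity

lemma nr_const_mul (k : ℕ) (hk : 1 ≤ k) (c : ℝ) (hc : 0 ≤ c) (V : Om B M → ℝ) :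
    nr k (fun ω => c * V ω) = c * nr k V := by
  unfold nr
  have h1 : (fun ω => |c * V ω| ^ k) = fun ω => c ^ k * |V ω| ^ k := by
    funext ω
    rw [abs_mul, abs_of_nonneg hc, mul_pow]
  rw [h1, EE_mul_left, Real.mul_rpow (pow_nonneg hc _)
    (EE_nonneg fun ω => pow_nonneg (abs_nonneg _) _), pow_rpow_one_div hk hc]

private lemma mm_eq_nr (k : ℕ) (F : Om B M → ℂ) : mm k F = nr (2 * k) (fun ω => ‖F ω‖) := by
  unfold mm nr
  simp only [abs_norm]
  push_cast
  rfl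

lemma mm_add (k : ℕ) (hk : 1 ≤ k) (F G : Om B M → ℂ) :
    mm k (fun ω => F ω + G ω) ≤ mm k F + mm k G := by
  rw [mm_eq_nr, mm_eq_nr, mm_eq_nr]
  have h2k : 1 ≤ 2 * k := by omega
  refine (nr_mono (2 * k) h2k (W := fun ω => ‖F ω‖ + ‖G ω‖) ?_).trans (nr_add (2 * k) h2k _ _)
  intro ω
  rw [abs_norm, abs_of_nonneg (add_nonneg (norm_nonneg _) (norm_nonneg _))]
  exact norm_add_le _ _

lemma mm_sum {ι : Type*} (k : ℕ) (hk : 1 ≤ k) (s : Finset ι) (F : ι → Om B M → ℂ) :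
    mm k (fun ω => ∑ i ∈ s, F i ω) ≤ ∑ i ∈ s, mm k (F i) := by
  classical
  simp only [mm_eq_nr]
  have h2k : 1 ≤ 2 * k := by omega
  refine (nr_mono (2 * k) h2k (W := fun ω => ∑ i ∈ s, ‖F i ω‖) ?_).trans
    (nr_sum (2 * k) h2k s (fun i ω => ‖F i ω‖))
  intro ω
  rw [abs_norm, abs_of_nonneg (Finset.sum_nonneg fun i _ => norm_nonneg _)]
  exact norm_sum_le _ _

lemma mm_sq (k : ℕ) (hk : 1 ≤ k) (F : Om B M → ℂ) :
    mm k F ^ 2 = nr k (fun ω => ‖F ω‖ ^ 2) := by
  unfold mm nr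
  have h0 : 0 ≤ EE fun ω => ‖F ω‖ ^ (2 * k) := EE_nonneg fun ω => pow_nonneg (norm_nonneg _) _
  have h1 : (fun ω => |‖F ω‖ ^ 2| ^ k) = fun ω => ‖F ω‖ ^ (2 * k) := by
    funext ω
    rw [abs_of_nonneg (pow_nonneg (norm_nonneg _) _), ← pow_mul]
  rw [h1, ← Real.rpow_natCast, ← Real.rpow_mul h0]
  congr 1
  have hk0 : (k:ℝ) ≠ 0 := by
    have : (1:ℝ) ≤ k := by exact_mod_cast hk
    linarith
  push_cast
  field_simp

/-- Multiplying by a unimodular function does not change the norm. -/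
lemma mm_unimod (k : ℕ) (hk : 1 ≤ k) (F G : Om B M → ℂ) (h : ∀ ω, ‖G ω‖ = 1) :
    mm k (fun ω => G ω * F ω) = mm k F := by
  unfold mm
  congr 1
  unfold EE
  congr 1
  apply Finset.sum_congr rfl
  intro ω _
  simp only [norm_mul, h ω, one_mul]

/-- Norms increase with `k`. -/
lemma nr_mono_k {k k' : ℕ} (hk : 1 ≤ k) (hkk : k ≤ k') (V : Om B M → ℝ) : nr k V ≤ nr k' V := by
  have hk0 : (0:ℝ) < k := by exact_mod_cast hk
  have hk'0 : (0:ℝ) < k' := by exact_mod_cast (lt_of_lt_of_le hk hkk)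
  have hp : (1:ℝ) ≤ (k':ℝ) / k := by
    rw [le_div_iff₀ hk0, one_mul]
    exact_mod_cast hkk
  set N : ℝ := (Fintype.card (Om B M) : ℝ) with hN
  have hN0 : 0 < N := card_Om_pos
  have h1 := Real.rpow_arith_mean_le_arith_mean_rpow (Finset.univ : Finset (Om B M))
    (fun _ => 1 / N) (fun ω => |V ω| ^ k) (fun _ _ => by positivity)
    (by
      rw [Finset.sum_const, Finset.card_univ, nsmul_eq_mul]
      exact mul_one_div_cancel hN0.ne')
    (fun ω _ => pow_nonneg (abs_nonneg _) _) hp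
  have h2 : ∑ ω, (1 / N) * |V ω| ^ k = EE fun ω => |V ω| ^ k := by
    unfold EE
    rw [← Finset.mul_sum, one_div, inv_mul_eq_div]
  have h3 : ∑ ω, (1 / N) * (|V ω| ^ k) ^ ((k':ℝ) / k) = EE fun ω => |V ω| ^ k' := by
    unfold EE
    have : ∀ ω, (|V ω| ^ k) ^ ((k':ℝ) / k) = |V ω| ^ k' := by
      intro ω
      rw [← Real.rpow_natCast, ← Real.rpow_mul (abs_nonneg _)]
      rw [mul_div_cancel₀ _ hk0.ne', Real.rpow_natCast]
    simp only [this]
    rw [← Finset.mul_sum, one_div, inv_mul_eq_div]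
  rw [h2, h3] at h1
  have hA : 0 ≤ EE fun ω => |V ω| ^ k := EE_nonneg fun ω => pow_nonneg (abs_nonneg _) _
  unfold nr
  have h4 := Real.rpow_le_rpow (Real.rpow_nonneg hA _) h1 (by positivity : (0:ℝ) ≤ (1:ℝ) / k')
  rw [← Real.rpow_mul hA] at h4
  have h5 : (k':ℝ) / k * (1 / k') = 1 / k := by
    field_simp
  rwa [h5] at h4

/-- `L^k` of the modulus against `L^(2k)`. -/
lemma nr_norm_le_mm (k : ℕ) (hk : 1 ≤ k) (F : Om B M → ℂ) :
    nr k (fun ω => ‖F ω‖) ≤ mm k F := by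
  rw [mm_eq_nr]
  exact nr_mono_k hk (by omega) _

end

end Vale.Agent.Lib.P028K
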