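import Vale.Agent.Lib.P028K.CIcell

/-! Part CImain: the core inequality. Blueprint section 13. -/

open Finset

namespace Vale.Agent.Lib.P028K

open Vale.Agent.Lib.P028
open Vale.Agent.Lib.P028T
open Vale.Agent.Lib.P028T.GcdAux
open Vale.Agent.Lib.P028G

noncomputable section

/-- A numerical fact: `(n+1)^2 exp ((n+1)^(ε/2)) ≤ exp ((n+1)^ε)` for large `n`. -/
lemma num_E {ε : ℝ} (hε : 0 < ε) :
    ∃ n0 : ℕ, ∀ n : ℕ, n0 ≤ n →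
      ((n:ℝ) + 1) ^ 2 * Real.exp (((n:ℝ) + 1) ^ (ε / 2)) ≤ Real.exp (((n:ℝ) + 1) ^ ε) := by
  have h1 : Filter.Tendsto (fun x : ℝ => x ^ (ε / 2)) Filter.atTop Filter.atTop :=
    tendsto_rpow_atTop (by positivity)
  have h2 := (isLittleO_log_rpow_atTop hε).bound (show (0:ℝ) < 1 / 4 by norm_num)
  have h3 : ∀ᶠ x : ℝ in Filter.atTop, 2 ≤ x ^ (ε / 2) := h1.eventually_ge_atTop 2
  have h4 : ∀ᶠ x : ℝ in Filter.atTop, (1:ℝ) ≤ x := Filter.eventually_ge_atTop 1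
  have h5 := (h2.and (h3.and h4))
  obtain ⟨x0, hx0⟩ := Filter.eventually_atTop.1 h5
  refine ⟨⌈x0⌉₊, fun n hn => ?_⟩
  have hx : x0 ≤ (n:ℝ) + 1 := by
    have : (⌈x0⌉₊ : ℝ) ≤ n := by exact_mod_cast hn
    have h6 := Nat.le_ceil x0
    linarith
  obtain ⟨hA, hB, hC⟩ := hx0 _ hx
  set x : ℝ := (n:ℝ) + 1 with hxdef
  have hxpos : 0 < x := by linarith
  have hy : x ^ ε = x ^ (ε / 2) * x ^ (ε / 2) := by
    rw [← Real.rpow_add hxpos]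
    congr 1
    ring
  set y := x ^ (ε / 2) with hydef
  have hlog : Real.log x ≤ 1 / 4 * (y * y) := by
    rw [← hy]
    have h7 : ‖Real.log x‖ ≤ 1 / 4 * ‖x ^ ε‖ := hA
    rw [Real.norm_eq_abs, Real.norm_eq_abs, abs_of_nonneg (Real.rpow_nonneg hxpos.le _)] at h7
    exact (le_abs_self _).trans h7
  have hsq : x ^ 2 = Real.exp (2 * Real.log x) := by
    rw [mul_comm, Real.exp_mul, Real.exp_log hxpos]
    norm_cast
  rw [hsq, ← Real.exp_add, hy]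
  apply Real.exp_le_exp.2
  nlinarith

/-- A numerical fact: the excess `GG` is small against any power of `2 ^ n`. -/
lemma num_G {c : ℝ} (hc : 0 < c) :
    ∃ n0 : ℕ, ∀ n : ℕ, n0 ≤ n →
      2 * (((n:ℝ) + 1) ^ 2 * GG n) ≤ ((2:ℝ) ^ n) ^ c := by
  have hlog2 : 0 < Real.log 2 := Real.log_pos (by norm_num)
  set c' := c * Real.log 2 with hc'
  have hc'pos : 0 < c' := by positivity
  set s := min (c' / 1000) 1 with hs
  have hspos : 0 < s := lt_min (by positivity) one_pos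
  have hs1 : s ≤ 1 := min_le_right _ _
  have hs2 : s ≤ c' / 1000 := min_le_left _ _
  have h2 := Real.isLittleO_log_id_atTop.bound (show (0:ℝ) < s ^ 2 by positivity)
  obtain ⟨x0, hx0⟩ := Filter.eventually_atTop.1 h2
  have hlog2le : Real.log 2 ≤ 1 := by
    have := Real.log_two_lt_d9
    linarith
  refine ⟨max ⌈x0⌉₊ ⌈(c' + 1) / (c' / 2)⌉₊, fun n hn => ?_⟩
  have hn1 : ⌈x0⌉₊ ≤ n := (le_max_left _ _).trans hn
  have hn2 : ⌈(c' + 1) / (c' / 2)⌉₊ ≤ n := (le_max_right _ _).trans hn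
  have hn0 : (0:ℝ) ≤ n := Nat.cast_nonneg n
  have hx : x0 ≤ (n:ℝ) + 2 := by
    have : (⌈x0⌉₊ : ℝ) ≤ n := by exact_mod_cast hn1
    have h6 := Nat.le_ceil x0
    linarith
  have hlogx : Real.log ((n:ℝ) + 2) ≤ s ^ 2 * ((n:ℝ) + 2) := by
    have h7 := hx0 _ hx
    simp only [id, Real.norm_eq_abs] at h7
    rw [abs_of_nonneg (show (0:ℝ) ≤ (n:ℝ) + 2 by linarith)] at h7
    exact (le_abs_self _).trans h7
  have hn3 : (c' + 1) / (c' / 2) ≤ n := by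
    have : ((⌈(c' + 1) / (c' / 2)⌉₊ : ℕ) : ℝ) ≤ n := by exact_mod_cast hn2
    exact (Nat.le_ceil _).trans this
  have hn4 : c' + 1 ≤ n * (c' / 2) := by
    rwa [div_le_iff₀ (by positivity)] at hn3
  -- the scale
  have hAA : AA n ≤ s * ((n:ℝ) + 2) := by
    unfold AA
    rw [Real.sqrt_le_left (by positivity)]
    have hl0 : 0 ≤ Real.log ((n:ℝ) + 2) := Real.log_nonneg (by linarith)
    have : ((n:ℝ) + 1) * Real.log ((n:ℝ) + 2) ≤ ((n:ℝ) + 2) * (s ^ 2 * ((n:ℝ) + 2)) :=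
      mul_le_mul (by linarith) hlogx hl0 (by linarith)
    calc ((n:ℝ) + 1) * Real.log ((n:ℝ) + 2) ≤ ((n:ℝ) + 2) * (s ^ 2 * ((n:ℝ) + 2)) := this
      _ = (s * ((n:ℝ) + 2)) ^ 2 := by ring
  have hx1 : (0:ℝ) < (n:ℝ) + 1 := by linarith
  have hsq : ((n:ℝ) + 1) ^ 2 = Real.exp (2 * Real.log ((n:ℝ) + 1)) := by
    rw [mul_comm, Real.exp_mul, Real.exp_log hx1]
    norm_cast
  have h22 : (2:ℝ) = Real.exp (Real.log 2) := (Real.exp_log (by norm_num)).symm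
  have hpow : ((2:ℝ) ^ n) ^ c = Real.exp (c' * n) := by
    rw [← Real.rpow_natCast, ← Real.rpow_mul (by norm_num), Real.rpow_def_of_pos (by norm_num)]
    congr 1
    rw [hc']
    ring
  have hlogn1 : Real.log ((n:ℝ) + 1) ≤ Real.log ((n:ℝ) + 2) :=
    Real.log_le_log hx1 (by linarith)
  rw [hpow, hsq]
  unfold GG
  calc 2 * (Real.exp (2 * Real.log ((n:ℝ) + 1)) * Real.exp (100 * AA n))
      = Real.exp (Real.log 2 + (2 * Real.log ((n:ℝ) + 1) + 100 * AA n)) := by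
        rw [Real.exp_add, Real.exp_add, Real.exp_log (by norm_num)]
    _ ≤ Real.exp (c' * n) := by
        apply Real.exp_le_exp.2
        have h8 : s ^ 2 ≤ s := by nlinarith
        have h9 : 2 * Real.log ((n:ℝ) + 1) ≤ 2 * (s * ((n:ℝ) + 2)) := by
          have : s ^ 2 * ((n:ℝ) + 2) ≤ s * ((n:ℝ) + 2) :=
            mul_le_mul_of_nonneg_right h8 (by linarith)
          linarith
        have h10 : 102 * (s * ((n:ℝ) + 2)) ≤ 102 * (c' / 1000 * ((n:ℝ) + 2)) := by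
          have := mul_le_mul_of_nonneg_right hs2 (show (0:ℝ) ≤ (n:ℝ) + 2 by linarith)
          linarith
        nlinarith

/-- The gate: a pair with small Bohr norm has a large height. -/
lemma gate {γ c₀ : ℝ} {κ : ℕ} (hγ : Dio γ c₀ κ) (hc₀ : 0 < c₀) :
    ∃ n0 : ℕ, ∀ n : ℕ, n0 ≤ n → ∀ A B H : ℕ, A ≠ B → A < 2 * H → B < 2 * H →
      dn (((A:ℝ) - B) * γ) < 4 * (H:ℝ) / (2:ℝ) ^ n →
      ((2:ℝ) ^ n) ^ ((1:ℝ) / (2 * ((κ:ℝ) + 1))) ≤ H := by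
  set X : ℝ := (2:ℝ) ^ (κ + 2) / c₀ with hX
  have hXpos : 0 < X := by positivity
  obtain ⟨n0, hn0⟩ := pow_unbounded_of_one_lt (X ^ 2) (show (1:ℝ) < 2 by norm_num)
  refine ⟨n0, fun n hn A B H hne hA hB hdn => ?_⟩
  by_contra hcon
  push Not at hcon
  set N : ℝ := (2:ℝ) ^ n with hN
  have hNpos : 0 < N := by positivity
  have hNX : X ^ 2 < N := hn0.trans_le (pow_le_pow_right₀ (by norm_num) hn)
  -- the difference
  obtain ⟨m, hm1, hm2, hdnm⟩ : ∃ m : ℕ, 1 ≤ m ∧ m < 2 * H ∧ dn ((m:ℝ) * γ) = dn (((A:ℝ) - B) * γ) := by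
    rcases lt_or_gt_of_ne hne with h | h
    · refine ⟨B - A, by omega, by omega, ?_⟩
      rw [Nat.cast_sub h.le, ← dn_neg]
      congr 1
      ring
    · refine ⟨A - B, by omega, by omega, ?_⟩
      rw [Nat.cast_sub h.le]
  have hD := hγ m hm1
  rw [hdnm] at hD
  have hHpos : 0 < H := by omega
  have hHR : (0:ℝ) < H := by exact_mod_cast hHpos
  have hmR : (0:ℝ) < m := by exact_mod_cast hm1
  have hm2R : (m:ℝ) ≤ 2 * H := by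
    have : (m:ℝ) < 2 * H := by exact_mod_cast hm2
    exact this.le
  have h1 : c₀ / (2 * (H:ℝ)) ^ κ ≤ c₀ / (m:ℝ) ^ κ := by
    apply div_le_div_of_nonneg_left hc₀.le (by positivity)
    exact pow_le_pow_left₀ hmR.le hm2R κ
  have h2 : c₀ / (2 * (H:ℝ)) ^ κ < 4 * (H:ℝ) / N := (h1.trans hD).trans_lt hdn
  have h3 : c₀ * N < 4 * (H:ℝ) * (2 * (H:ℝ)) ^ κ := by
    rw [div_lt_div_iff₀ (by positivity) hNpos] at h2
    exact h2
  have h4 : 4 * (H:ℝ) * (2 * (H:ℝ)) ^ κ = 2 ^ (κ + 2) * (H:ℝ) ^ (κ + 1) := by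
    rw [mul_pow]
    ring
  rw [h4] at h3
  -- the power of `H`
  have hpowH : (H:ℝ) ^ (κ + 1) < N ^ ((1:ℝ) / 2) := by
    have h5 := pow_lt_pow_left₀ hcon hHR.le (show κ + 1 ≠ 0 by omega)
    have h6 : (N ^ ((1:ℝ) / (2 * ((κ:ℝ) + 1)))) ^ (κ + 1) = N ^ ((1:ℝ) / 2) := by
      rw [← Real.rpow_natCast, ← Real.rpow_mul hNpos.le]
      congr 1
      push_cast
      field_simp
    rwa [h6] at h5
  have hsqrt : N ^ ((1:ℝ) / 2) * N ^ ((1:ℝ) / 2) = N := by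
    rw [← Real.rpow_add hNpos]
    norm_num
  set W := N ^ ((1:ℝ) / 2) with hW
  have hWpos : 0 < W := by positivity
  have h7 : c₀ * N < 2 ^ (κ + 2) * W := by
    have : (2:ℝ) ^ (κ + 2) * (H:ℝ) ^ (κ + 1) < 2 ^ (κ + 2) * W :=
      mul_lt_mul_of_pos_left hpowH (by positivity)
    linarith
  have h8 : W < X := by
    rw [hX, lt_div_iff₀ hc₀]
    have : c₀ * (W * W) < 2 ^ (κ + 2) * W := by rw [hsqrt]; exact h7
    have h9 : W * c₀ * W < 2 ^ (κ + 2) * W := by linarith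
    exact lt_of_mul_lt_mul_right h9 hWpos.le
  have h10 : W * W < X * X := mul_lt_mul'' h8 h8 hWpos.le hWpos.le
  rw [hsqrt] at h10
  nlinarith

/-- The pairs of the Bohr sum. -/
def goodSet (γ N : ℝ) (F : Finset ℕ) : Finset (ℕ × ℕ) :=
  (F ×ˢ F).filter (fun p => p.1 ≠ p.2 ∧ (ht p.1 p.2 : ℝ) / N < 1 / 768 ∧
      dn (((lowA p.1 p.2 : ℝ) - lowB p.1 p.2) * γ) < 2 * ((ht p.1 p.2 : ℝ) / N))

/-- The dyadic cell of a pair. -/
def idxP (p : ℕ × ℕ) : ℕ × ℕ := (Nat.log 2 (lowB p.1 p.2), Nat.log 2 (lowA p.1 p.2))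

/-- The pairs of a dyadic cell. -/
def cellSet (F : Finset ℕ) (M₁ M₂ : ℕ) : Finset (ℕ × ℕ) :=
  (F ×ˢ F).filter (fun p => M₂ ≤ lowA p.1 p.2 ∧ lowA p.1 p.2 < 2 * M₂ ∧
    M₁ ≤ lowB p.1 p.2 ∧ lowB p.1 p.2 < 2 * M₁)

lemma btSum_eq (γ N : ℝ) (F : Finset ℕ) :
    btSum γ N F = ∑ p ∈ goodSet γ N F, (1:ℝ) / (ht p.1 p.2 : ℝ) := by
  unfold btSum goodSet
  rw [Finset.sum_filter, Finset.sum_product]

/-- The number of pairs in a cell is at most the kernel at zero twist. -/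
lemma cell_card_le_BBc (F : Finset ℕ) (M₁ M₂ : ℕ) :
    ((cellSet F M₁ M₂).card : ℝ) ≤ ‖BBc F (Nn M₂ 1) (Nn M₁ 1) 0‖ := by
  refine le_trans ?_ (Complex.re_le_norm _)
  have hre : (BBc F (Nn M₂ 1) (Nn M₁ 1) 0).re =
      ∑ q ∈ F, ∑ r ∈ F, ∑ n ∈ Nn M₂ 1, ∑ m ∈ Nn M₁ 1, (if q * n = r * m then (1:ℝ) else 0) := by
    unfold BBc
    simp only [Complex.re_sum]
    refine Finset.sum_congr rfl fun q _ => Finset.sum_congr rfl fun r _ =>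
      Finset.sum_congr rfl fun n _ => Finset.sum_congr rfl fun m _ => ?_
    split_ifs with h
    · simp [ee]
    · simp
  unfold cellSet
  rw [hre, Finset.card_filter]
  push_cast
  rw [Finset.sum_product]
  refine Finset.sum_le_sum fun q hq => Finset.sum_le_sum fun r hr => ?_
  have hnonneg : ∀ n ∈ Nn M₂ 1, 0 ≤ ∑ m ∈ Nn M₁ 1, (if q * n = r * m then (1:ℝ) else 0) := by
    intro n _
    refine Finset.sum_nonneg fun m _ => ?_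
    split_ifs <;> norm_num
  split_ifs with h
  · obtain ⟨h1, h2, h3, h4⟩ : M₂ ≤ lowA q r ∧ lowA q r < 2 * M₂ ∧ M₁ ≤ lowB q r ∧ lowB q r < 2 * M₁ := h
    have hA : lowA q r ∈ Nn M₂ 1 := by
      unfold Nn
      refine Finset.mem_filter.2 ⟨Finset.mem_range.2 (by omega), by simpa using h1, by simpa using h2⟩
    have hB : lowB q r ∈ Nn M₁ 1 := by
      unfold Nn
      refine Finset.mem_filter.2 ⟨Finset.mem_range.2 (by omega), by simpa using h3, by simpa using h4⟩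
    have hEq : q * lowA q r = r * lowB q r := by
      have h5 := lowA_mul q r
      have h6 := lowB_mul q r
      calc q * lowA q r = (lowB q r * Nat.gcd q r) * lowA q r := by rw [h6]
        _ = (lowA q r * Nat.gcd q r) * lowB q r := by ring
        _ = r * lowB q r := by rw [h5]
    calc (1:ℝ) = if q * lowA q r = r * lowB q r then (1:ℝ) else 0 := by rw [if_pos hEq]
      _ ≤ ∑ m ∈ Nn M₁ 1, (if q * lowA q r = r * m then (1:ℝ) else 0) :=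
          Finset.single_le_sum (f := fun m => if q * lowA q r = r * m then (1:ℝ) else 0)
            (fun m _ => by
              show (0:ℝ) ≤ if q * lowA q r = r * m then (1:ℝ) else 0
              split_ifs <;> norm_num) hB
      _ ≤ _ := Finset.single_le_sum hnonneg hA
  · exact Finset.sum_nonneg hnonneg

/-- The kernel of two intervals, trivial bound. -/
lemma BB_interval (n : ℕ) (F : Finset ℕ) (hF : ∀ q ∈ F, 1 ≤ q) (hK1 : 1 ≤ F.card)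
    (hK : (F.card : ℝ) ≤ 2 * 2 ^ n * GG n) (hK2 : 2 ≤ F.card) (M₁ M₂ : ℕ) (hM₁ : 1 ≤ M₁) (hM₂ : 1 ≤ M₂)
    (hM₁K : M₁ ≤ F.card) (hM₂K : M₂ ≤ F.card) :
    ‖BBc F (Nn M₂ 1) (Nn M₁ 1) 0‖ ≤
      2 * (F.card : ℝ) * GG n * Real.sqrt ((M₁:ℝ) * M₂) := by
  have hF0 : ∀ q ∈ F, q ≠ 0 := fun q hq => by have := hF q hq; omega
  have hmem : ∀ M : ℕ, 1 ≤ M → ∀ x ∈ Nn M 1, 1 ≤ x ∧ x ≤ 2 * M := by
    intro M hM x hx
    unfold Nn at hx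
    obtain ⟨_, h1, h2⟩ := Finset.mem_filter.1 hx
    simp only [one_mul] at h1 h2
    omega
  have hN0 : ∀ M : ℕ, 1 ≤ M → ∀ x ∈ Nn M 1, x ≠ 0 := fun M hM x hx => by
    have := (hmem M hM x hx).1
    omega
  have hY : ∀ M : ℕ, M ≤ F.card → 2 * M ≤ F.card ^ 2 := by
    intro M hM
    nlinarith
  have h1 := BB_trivial n F (Nn M₁ 1) 0 M₁ hF hK1 hK (hmem M₁ hM₁) (hY M₁ hM₁K)
  have h2 := BB_trivial n F (Nn M₂ 1) 0 M₂ hF hK1 hK (hmem M₂ hM₂) (hY M₂ hM₂K)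
  have h3 := BB_cauchy F (Nn M₂ 1) (Nn M₁ 1) 0 hF0 (hN0 M₂ hM₂) (hN0 M₁ hM₁)
  have h4 := BB_re_nonneg F (Nn M₁ 1) 0 hF0 (hN0 M₁ hM₁)
  have h5 := BB_re_nonneg F (Nn M₂ 1) 0 hF0 (hN0 M₂ hM₂)
  have hG0 : 0 < GG n := Real.exp_pos _
  have hM : (0:ℝ) ≤ (M₁:ℝ) * M₂ := by positivity
  have hs : Real.sqrt ((M₁:ℝ) * M₂) ^ 2 = (M₁:ℝ) * M₂ := Real.sq_sqrt hM
  rw [← pow_le_pow_iff_left₀ (norm_nonneg _) (by positivity) (two_ne_zero)]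
  calc ‖BBc F (Nn M₂ 1) (Nn M₁ 1) 0‖ ^ 2
      ≤ (BBc F (Nn M₂ 1) (Nn M₂ 1) 0).re * (BBc F (Nn M₁ 1) (Nn M₁ 1) 0).re := h3
    _ ≤ (2 * (M₂:ℝ) * (F.card : ℝ) * GG n) * (2 * (M₁:ℝ) * (F.card : ℝ) * GG n) :=
        mul_le_mul h2 h1 h4 (by positivity)
    _ = (2 * (F.card : ℝ) * GG n * Real.sqrt ((M₁:ℝ) * M₂)) ^ 2 := by
        rw [mul_pow, hs]
        ring

lemma good_low {γ N : ℝ} {F : Finset ℕ} (hF : ∀ q ∈ F, 1 ≤ q) {p : ℕ × ℕ}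
    (hp : p ∈ goodSet γ N F) : 1 ≤ lowA p.1 p.2 ∧ 1 ≤ lowB p.1 p.2 := by
  obtain ⟨h1, _⟩ := Finset.mem_filter.1 hp
  obtain ⟨h2, h3⟩ := Finset.mem_product.1 h1
  exact ⟨lowA_pos (hF _ h3), lowB_pos (hF _ h2)⟩

lemma good_ht_lt {γ : ℝ} {n : ℕ} {F : Finset ℕ} {p : ℕ × ℕ}
    (hp : p ∈ goodSet γ ((2:ℝ) ^ n) F) : ht p.1 p.2 < 2 ^ n := by
  have hNpos : (0:ℝ) < (2:ℝ) ^ n := by positivity
  have h1 : (ht p.1 p.2 : ℝ) / (2:ℝ) ^ n < 1 / 768 := (Finset.mem_filter.1 hp).2.2.1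
  have h2 : (ht p.1 p.2 : ℝ) < (2:ℝ) ^ n := by
    rw [div_lt_iff₀ hNpos] at h1
    nlinarith
  have h3 : (ht p.1 p.2 : ℝ) < ((2 ^ n : ℕ) : ℝ) := by
    push_cast
    exact h2
  exact_mod_cast h3

lemma good_idx_mem {γ : ℝ} {n : ℕ} {F : Finset ℕ} (hF : ∀ q ∈ F, 1 ≤ q) {p : ℕ × ℕ}
    (hp : p ∈ goodSet γ ((2:ℝ) ^ n) F) :
    idxP p ∈ Finset.range (n + 1) ×ˢ Finset.range (n + 1) := by
  obtain ⟨hA, hB⟩ := good_low hF hp
  have h1 := good_ht_lt hp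
  have hAle : lowA p.1 p.2 ≤ ht p.1 p.2 := le_max_left _ _
  have hBle : lowB p.1 p.2 ≤ ht p.1 p.2 := le_max_right _ _
  refine Finset.mem_product.2 ⟨Finset.mem_range.2 ?_, Finset.mem_range.2 ?_⟩
  · have := Nat.log_lt_of_lt_pow (b := 2) (x := n) (y := lowB p.1 p.2) (by omega) (by omega)
    show Nat.log 2 (lowB p.1 p.2) < n + 1
    omega
  · have := Nat.log_lt_of_lt_pow (b := 2) (x := n) (y := lowA p.1 p.2) (by omega) (by omega)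
    show Nat.log 2 (lowA p.1 p.2) < n + 1
    omega

lemma fibre_facts {γ N : ℝ} {F : Finset ℕ} (hF : ∀ q ∈ F, 1 ≤ q) {i p : ℕ × ℕ}
    (hp : p ∈ goodSet γ N F) (hi : idxP p = i) :
    2 ^ i.2 ≤ lowA p.1 p.2 ∧ lowA p.1 p.2 < 2 * 2 ^ i.2 ∧
      2 ^ i.1 ≤ lowB p.1 p.2 ∧ lowB p.1 p.2 < 2 * 2 ^ i.1 := by
  obtain ⟨hA, hB⟩ := good_low hF hp
  have h1 : Nat.log 2 (lowB p.1 p.2) = i.1 := by rw [← hi]; rfl
  have h2 : Nat.log 2 (lowA p.1 p.2) = i.2 := by rw [← hi]; rfl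
  have h3 := Nat.pow_log_le_self 2 (show lowA p.1 p.2 ≠ 0 by omega)
  have h4 := Nat.lt_pow_succ_log_self (b := 2) (by norm_num) (lowA p.1 p.2)
  have h5 := Nat.pow_log_le_self 2 (show lowB p.1 p.2 ≠ 0 by omega)
  have h6 := Nat.lt_pow_succ_log_self (b := 2) (by norm_num) (lowB p.1 p.2)
  rw [h2] at h3 h4
  rw [h1] at h5 h6
  rw [pow_succ] at h4 h6
  exact ⟨h3, by omega, h5, by omega⟩

lemma ht_bounds {p : ℕ × ℕ} {M₁ M₂ : ℕ}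
    (h : M₂ ≤ lowA p.1 p.2 ∧ lowA p.1 p.2 < 2 * M₂ ∧ M₁ ≤ lowB p.1 p.2 ∧ lowB p.1 p.2 < 2 * M₁) :
    max M₁ M₂ ≤ ht p.1 p.2 ∧ ht p.1 p.2 < 2 * max M₁ M₂ := by
  obtain ⟨h1, h2, h3, h4⟩ := h
  unfold ht
  constructor
  · exact max_le (le_max_of_le_right h3) (le_max_of_le_left h1)
  · apply max_lt
    · have := le_max_right M₁ M₂
      omega
    · have := le_max_left M₁ M₂
      omega

lemma sum_ht_le (S : Finset (ℕ × ℕ)) (Hh : ℕ) (hHh : 1 ≤ Hh) (h : ∀ p ∈ S, Hh ≤ ht p.1 p.2) :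
    ∑ p ∈ S, (1:ℝ) / (ht p.1 p.2 : ℝ) ≤ (S.card : ℝ) * (1 / (Hh:ℝ)) := by
  have hHR : (0:ℝ) < Hh := by exact_mod_cast hHh
  rw [← nsmul_eq_mul]
  refine Finset.sum_le_card_nsmul _ _ _ fun p hp => ?_
  have h1 : (Hh:ℝ) ≤ ht p.1 p.2 := by exact_mod_cast h p hp
  exact one_div_le_one_div_of_le hHR h1

lemma fibre_main (N K E X c : ℝ) (hN : 0 < N) (hK : 0 ≤ K) (hE : 0 ≤ E) (hX : 0 ≤ X) (hc : 0 ≤ c)
    (S : Finset (ℕ × ℕ)) (M₁ M₂ : ℕ) (hM₁ : 1 ≤ M₁) (hS : ∀ p ∈ S, max M₁ M₂ ≤ ht p.1 p.2)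
    (hcard : (S.card : ℝ) ≤ 400 * ((max M₁ M₂ : ℕ) : ℝ) / N * c +
      48 * K * Real.sqrt ((M₁:ℝ) * M₂) * E) :
    ∑ p ∈ S, (1:ℝ) / (ht p.1 p.2 : ℝ) ≤ 400 / N * c + 48 * K * E + K * X := by
  have hHpos : 1 ≤ max M₁ M₂ := hM₁.trans (le_max_left _ _)
  obtain ⟨Hh, hHh⟩ : ∃ Hh, Hh = max M₁ M₂ := ⟨_, rfl⟩
  rw [← hHh] at hHpos hS hcard
  have hHR : (0:ℝ) < Hh := by exact_mod_cast hHpos
  have hsqrtH : Real.sqrt ((M₁:ℝ) * M₂) ≤ Hh := by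
    rw [Real.sqrt_le_left hHR.le]
    have h1 : (M₁:ℝ) ≤ Hh := by
      rw [hHh]
      exact_mod_cast le_max_left M₁ M₂
    have h2 : (M₂:ℝ) ≤ Hh := by
      rw [hHh]
      exact_mod_cast le_max_right M₁ M₂
    have h3 : (0:ℝ) ≤ M₂ := Nat.cast_nonneg _
    nlinarith
  calc ∑ p ∈ S, (1:ℝ) / (ht p.1 p.2 : ℝ) ≤ (S.card : ℝ) * (1 / (Hh:ℝ)) := sum_ht_le S Hh hHpos hS
    _ ≤ (400 * (Hh:ℝ) / N * c + 48 * K * Real.sqrt ((M₁:ℝ) * M₂) * E) * (1 / (Hh:ℝ)) :=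
        mul_le_mul_of_nonneg_right hcard (by positivity)
    _ = 400 / N * c + 48 * K * E * (Real.sqrt ((M₁:ℝ) * M₂) / Hh) := by
        field_simp
    _ ≤ 400 / N * c + 48 * K * E * 1 := by
        have h5 : Real.sqrt ((M₁:ℝ) * M₂) / Hh ≤ 1 := by
          rw [div_le_one hHR]
          exact hsqrtH
        have h48 : 0 ≤ 48 * K * E := by positivity
        have := mul_le_mul_of_nonneg_left h5 h48
        linarith
    _ ≤ _ := by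
        have : 0 ≤ K * X := by positivity
        linarith

lemma sqrt_thin (M₁ M₂ : ℕ) (a y : ℝ) (ha : 0 < a) (hy : 0 < y) (hy2 : y ^ 2 = a)
    (hgate : a * a ≤ ((max M₁ M₂ : ℕ) : ℝ)) (hbig : ¬ (a ≤ (M₁:ℝ) ∧ a ≤ (M₂:ℝ))) :
    Real.sqrt ((M₁:ℝ) * M₂) ≤ ((max M₁ M₂ : ℕ) : ℝ) / y := by
  obtain ⟨Hh, hHh⟩ : ∃ Hh : ℝ, Hh = ((max M₁ M₂ : ℕ) : ℝ) := ⟨_, rfl⟩
  rw [← hHh] at hgate ⊢
  have hHR : 0 < Hh := lt_of_lt_of_le (by positivity) hgate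
  have hM1R : (0:ℝ) ≤ M₁ := Nat.cast_nonneg _
  have hM2R : (0:ℝ) ≤ M₂ := Nat.cast_nonneg _
  have hM1H : (M₁:ℝ) ≤ Hh := by
    rw [hHh]
    exact_mod_cast le_max_left M₁ M₂
  have hM2H : (M₂:ℝ) ≤ Hh := by
    rw [hHh]
    exact_mod_cast le_max_right M₁ M₂
  have hmin : (M₁:ℝ) * M₂ * a ≤ Hh * Hh := by
    rcases not_and_or.1 hbig with h | h
    · push Not at h
      have h3 : (M₁:ℝ) * a ≤ a * a := mul_le_mul_of_nonneg_right h.le ha.le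
      calc (M₁:ℝ) * M₂ * a = (M₁ * a) * M₂ := by ring
        _ ≤ Hh * Hh := mul_le_mul (h3.trans hgate) hM2H hM2R hHR.le
    · push Not at h
      have h3 : (M₂:ℝ) * a ≤ a * a := mul_le_mul_of_nonneg_right h.le ha.le
      calc (M₁:ℝ) * M₂ * a = (M₂ * a) * M₁ := by ring
        _ ≤ Hh * Hh := mul_le_mul (h3.trans hgate) hM1H hM1R hHR.le
  rw [Real.sqrt_le_left (by positivity), div_pow, hy2, le_div_iff₀ ha]
  calc (M₁:ℝ) * M₂ * a ≤ Hh * Hh := hmin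
    _ = Hh ^ 2 := by ring

lemma fibre_thin (N K E G y c : ℝ) (hN : 0 < N) (hK : 0 ≤ K) (hE : 0 ≤ E) (hG : 0 ≤ G) (hy : 0 < y)
    (hc : 0 ≤ c) (S : Finset (ℕ × ℕ)) (M₁ M₂ : ℕ) (hM₁ : 1 ≤ M₁)
    (hS : ∀ p ∈ S, max M₁ M₂ ≤ ht p.1 p.2)
    (hcard : (S.card : ℝ) ≤ 2 * K * G * Real.sqrt ((M₁:ℝ) * M₂))
    (hsq : Real.sqrt ((M₁:ℝ) * M₂) ≤ ((max M₁ M₂ : ℕ) : ℝ) / y) :
    ∑ p ∈ S, (1:ℝ) / (ht p.1 p.2 : ℝ) ≤ 400 / N * c + 48 * K * E + K * (2 * G / y) := by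
  have hHpos : 1 ≤ max M₁ M₂ := hM₁.trans (le_max_left _ _)
  obtain ⟨Hh, hHh⟩ : ∃ Hh, Hh = max M₁ M₂ := ⟨_, rfl⟩
  rw [← hHh] at hHpos hS hsq
  have hHR : (0:ℝ) < Hh := by exact_mod_cast hHpos
  calc ∑ p ∈ S, (1:ℝ) / (ht p.1 p.2 : ℝ) ≤ (S.card : ℝ) * (1 / (Hh:ℝ)) := sum_ht_le S Hh hHpos hS
    _ ≤ (2 * K * G * ((Hh:ℝ) / y)) * (1 / (Hh:ℝ)) := by
        apply mul_le_mul_of_nonneg_right _ (by positivity)
        refine hcard.trans ?_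
        exact mul_le_mul_of_nonneg_left hsq (by positivity)
    _ = K * (2 * G / y) := by
        field_simp
    _ ≤ _ := by
        have h3 : 0 ≤ 400 / N * c := by positivity
        have h4 : 0 ≤ 48 * K * E := by positivity
        linarith

/-- One dyadic fibre. -/
lemma fibre_bound {γ E a y : ℝ} {n : ℕ} {F : Finset ℕ} (hF : ∀ q ∈ F, 1 ≤ q)
    (hNK : (2:ℝ) ^ n ≤ F.card) (hKGG : (F.card : ℝ) ≤ 2 * 2 ^ n * GG n)
    (hcard2 : 2 ≤ F.card) (hE : 0 ≤ E) (ha : 0 < a) (hy : 0 < y) (hy2 : y ^ 2 = a)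
    (hcell : ∀ M₁ M₂ : ℕ, a ≤ (M₁:ℝ) → a ≤ (M₂:ℝ) → (max M₁ M₂ : ℕ) ≤ 2 ^ n →
      (((F ×ˢ F).filter (fun p => p.1 ≠ p.2 ∧ M₂ ≤ lowA p.1 p.2 ∧ lowA p.1 p.2 < 2 * M₂ ∧ M₁ ≤ lowB p.1 p.2 ∧ lowB p.1 p.2 < 2 * M₁ ∧
          dn (((lowA p.1 p.2 : ℝ) - lowB p.1 p.2) * γ) < 8 * (max M₁ M₂ : ℕ) / (2:ℝ) ^ n)).card : ℝ)
        ≤ 400 * (max M₁ M₂ : ℕ) / (2:ℝ) ^ n * ((cellSet F M₁ M₂).card : ℝ)
          + 48 * F.card * Real.sqrt ((M₁:ℝ) * M₂) * E)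
    (hgate : ∀ A B H : ℕ, A ≠ B → A < 2 * H → B < 2 * H →
      dn (((A:ℝ) - B) * γ) < 4 * (H:ℝ) / (2:ℝ) ^ n → a * a ≤ H)
    (i : ℕ × ℕ) (hi1 : i.1 ≤ n) (hi2 : i.2 ≤ n) :
    ∑ p ∈ (goodSet γ ((2:ℝ) ^ n) F).filter (fun p => idxP p = i), (1:ℝ) / (ht p.1 p.2 : ℝ)
      ≤ 400 / (2:ℝ) ^ n * ((cellSet F (2 ^ i.1) (2 ^ i.2)).card : ℝ) + 48 * (F.card : ℝ) * E
        + (F.card : ℝ) * (2 * GG n / y) := by
  have hNpos : (0:ℝ) < (2:ℝ) ^ n := by positivity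
  obtain ⟨S, hSdef⟩ : ∃ S, S = (goodSet γ ((2:ℝ) ^ n) F).filter (fun p => idxP p = i) := ⟨_, rfl⟩
  rw [← hSdef]
  obtain ⟨M₁, hM₁⟩ : ∃ M₁ : ℕ, M₁ = 2 ^ i.1 := ⟨_, rfl⟩
  obtain ⟨M₂, hM₂⟩ : ∃ M₂ : ℕ, M₂ = 2 ^ i.2 := ⟨_, rfl⟩
  rw [← hM₁, ← hM₂]
  have hM₁pos : 1 ≤ M₁ := by
    rw [hM₁]
    exact Nat.one_le_two_pow
  have hM₂pos : 1 ≤ M₂ := by
    rw [hM₂]
    exact Nat.one_le_two_pow
  have hM₁n : M₁ ≤ 2 ^ n := by
    rw [hM₁]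
    exact Nat.pow_le_pow_right (by norm_num) hi1
  have hM₂n : M₂ ≤ 2 ^ n := by
    rw [hM₂]
    exact Nat.pow_le_pow_right (by norm_num) hi2
  have hHhn : max M₁ M₂ ≤ 2 ^ n := max_le hM₁n hM₂n
  have hcardK : 2 ^ n ≤ F.card := by
    have : ((2 ^ n : ℕ) : ℝ) ≤ F.card := by
      push_cast
      exact hNK
    exact_mod_cast this
  have hcell0 : (0:ℝ) ≤ ((cellSet F M₁ M₂).card : ℝ) := Nat.cast_nonneg _
  have hK0 : (0:ℝ) ≤ (F.card : ℝ) := Nat.cast_nonneg _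
  have hG0 : 0 < GG n := Real.exp_pos _
  have hfact : ∀ p ∈ S, M₂ ≤ lowA p.1 p.2 ∧ lowA p.1 p.2 < 2 * M₂ ∧ M₁ ≤ lowB p.1 p.2 ∧ lowB p.1 p.2 < 2 * M₁ := by
    intro p hp
    rw [hSdef] at hp
    obtain ⟨hp1, hp2⟩ := Finset.mem_filter.1 hp
    rw [hM₁, hM₂]
    exact fibre_facts hF hp1 hp2
  have hmemG : ∀ p ∈ S, p ∈ goodSet γ ((2:ℝ) ^ n) F := by
    intro p hp
    rw [hSdef] at hp
    exact (Finset.mem_filter.1 hp).1
  have hhtH : ∀ p ∈ S, max M₁ M₂ ≤ ht p.1 p.2 := fun p hp => (ht_bounds (hfact p hp)).1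
  by_cases hemp : S = ∅
  · rw [hemp]
    simp only [Finset.sum_empty]
    positivity
  obtain ⟨p₀, hp₀⟩ := Finset.nonempty_iff_ne_empty.2 hemp
  -- the gate
  have hgateH : a * a ≤ ((max M₁ M₂ : ℕ) : ℝ) := by
    obtain ⟨hg1, _, hg3⟩ := (Finset.mem_filter.1 (hmemG p₀ hp₀)).2
    have hAB : lowA p₀.1 p₀.2 ≠ lowB p₀.1 p₀.2 := by
      intro h
      apply hg1
      calc p₀.1 = lowB p₀.1 p₀.2 * Nat.gcd p₀.1 p₀.2 := (lowB_mul _ _).symm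
        _ = lowA p₀.1 p₀.2 * Nat.gcd p₀.1 p₀.2 := by rw [h]
        _ = p₀.2 := lowA_mul _ _
    have hlt2 := (ht_bounds (hfact p₀ hp₀)).2
    have hle : (ht p₀.1 p₀.2 : ℝ) < 2 * ((max M₁ M₂ : ℕ) : ℝ) := by exact_mod_cast hlt2
    have hdn : dn (((lowA p₀.1 p₀.2 : ℝ) - lowB p₀.1 p₀.2) * γ) < 4 * ((max M₁ M₂ : ℕ) : ℝ) / (2:ℝ) ^ n := by
      refine hg3.trans_le ?_
      rw [mul_div_assoc', div_le_div_iff_of_pos_right hNpos]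
      linarith
    exact hgate _ _ _ hAB (lt_of_le_of_lt (le_max_left _ _) hlt2)
      (lt_of_le_of_lt (le_max_right _ _) hlt2) hdn
  by_cases hbig : a ≤ (M₁:ℝ) ∧ a ≤ (M₂:ℝ)
  · -- the main case
    have hb := hcell M₁ M₂ hbig.1 hbig.2 hHhn
    have hsub : S ⊆ (F ×ˢ F).filter (fun p => p.1 ≠ p.2 ∧ M₂ ≤ lowA p.1 p.2 ∧
        lowA p.1 p.2 < 2 * M₂ ∧ M₁ ≤ lowB p.1 p.2 ∧ lowB p.1 p.2 < 2 * M₁ ∧
        dn (((lowA p.1 p.2 : ℝ) - lowB p.1 p.2) * γ) < 8 * (max M₁ M₂ : ℕ) / (2:ℝ) ^ n) := by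
      intro p hp
      obtain ⟨hpF, hg1, _, hg3⟩ := Finset.mem_filter.1 (hmemG p hp)
      obtain ⟨a1, a2, a3, a4⟩ := hfact p hp
      refine Finset.mem_filter.2 ⟨hpF, hg1, a1, a2, a3, a4, ?_⟩
      have hlt2 := (ht_bounds (hfact p hp)).2
      have hle : (ht p.1 p.2 : ℝ) < 2 * ((max M₁ M₂ : ℕ) : ℝ) := by exact_mod_cast hlt2
      refine hg3.trans_le ?_
      rw [mul_div_assoc', div_le_div_iff_of_pos_right hNpos]
      linarith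
    have hcardle := Finset.card_le_card hsub
    have hcardleR : (S.card : ℝ) ≤ _ :=
      (show (S.card : ℝ) ≤ _ by exact_mod_cast hcardle).trans hb
    exact fibre_main _ _ _ _ _ hNpos hK0 hE (by positivity) hcell0 S M₁ M₂ hM₁pos hhtH hcardleR
  · -- the thin case
    have hsub : S ⊆ cellSet F M₁ M₂ := by
      intro p hp
      obtain ⟨hpF, _⟩ := Finset.mem_filter.1 (hmemG p hp)
      exact Finset.mem_filter.2 ⟨hpF, hfact p hp⟩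
    have hcardle := Finset.card_le_card hsub
    have h1 := cell_card_le_BBc F M₁ M₂
    have h2 := BB_interval n F hF (by omega) hKGG hcard2 M₁ M₂ hM₁pos hM₂pos
      (hM₁n.trans hcardK) (hM₂n.trans hcardK)
    have hcardleR : (S.card : ℝ) ≤ 2 * (F.card : ℝ) * GG n * Real.sqrt ((M₁:ℝ) * M₂) :=
      (show (S.card : ℝ) ≤ _ by exact_mod_cast hcardle).trans (h1.trans h2)
    exact fibre_thin _ _ _ _ _ _ hNpos hK0 hE hG0.le hy hcell0 S M₁ M₂ hM₁pos hhtH hcardleR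
      (sqrt_thin M₁ M₂ a y ha hy hy2 hgateH hbig)

lemma cells_total (F : Finset ℕ) (n : ℕ) :
    ∑ i ∈ Finset.range (n + 1) ×ˢ Finset.range (n + 1), ((cellSet F (2 ^ i.1) (2 ^ i.2)).card : ℝ)
      ≤ (F.card : ℝ) ^ 2 := by
  have hle : ∀ i ∈ Finset.range (n + 1) ×ˢ Finset.range (n + 1), ((cellSet F (2 ^ i.1) (2 ^ i.2)).card : ℝ) ≤
      (((F ×ˢ F).filter (fun p => idxP p = i)).card : ℝ) := by
    intro i _
    have hsub : cellSet F (2 ^ i.1) (2 ^ i.2) ⊆ (F ×ˢ F).filter (fun p => idxP p = i) := by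
      intro p hp
      obtain ⟨hpF, h1, h2, h3, h4⟩ := Finset.mem_filter.1 hp
      refine Finset.mem_filter.2 ⟨hpF, ?_⟩
      have h5 : Nat.log 2 (lowB p.1 p.2) = i.1 := by
        apply Nat.log_eq_of_pow_le_of_lt_pow h3
        rw [pow_succ]
        omega
      have h6 : Nat.log 2 (lowA p.1 p.2) = i.2 := by
        apply Nat.log_eq_of_pow_le_of_lt_pow h1
        rw [pow_succ]
        omega
      exact Prod.ext h5 h6
    exact_mod_cast Finset.card_le_card hsub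
  refine (Finset.sum_le_sum hle).trans ?_
  have h2 : ∑ i ∈ Finset.range (n + 1) ×ˢ Finset.range (n + 1),
      ((F ×ˢ F).filter (fun p => idxP p = i)).card ≤ (F ×ˢ F).card := by
    rw [Finset.sum_card_fiberwise_eq_card_filter]
    exact Finset.card_filter_le _ _
  have h3 : ((F ×ˢ F).card : ℝ) = (F.card : ℝ) ^ 2 := by
    rw [Finset.card_product]
    push_cast
    ring
  rw [← h3]
  exact_mod_cast h2

/-- The assembly of the fibres, with abstract numerics. -/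
lemma assemble {γ E X : ℝ} {n : ℕ} {F : Finset ℕ} (hF : ∀ q ∈ F, 1 ≤ q)
    (hNK : (2:ℝ) ^ n ≤ F.card) (hE : 0 ≤ E) (hX : 0 ≤ X)
    (hfib : ∀ i : ℕ × ℕ, i.1 ≤ n → i.2 ≤ n →
      ∑ p ∈ (goodSet γ ((2:ℝ) ^ n) F).filter (fun p => idxP p = i), (1:ℝ) / (ht p.1 p.2 : ℝ)
      ≤ 400 / (2:ℝ) ^ n * ((cellSet F (2 ^ i.1) (2 ^ i.2)).card : ℝ) + 48 * (F.card : ℝ) * E
        + (F.card : ℝ) * X)
    (hnumE : ((n:ℝ) + 1) ^ 2 * E ≤ (F.card : ℝ) / (2:ℝ) ^ n)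
    (hnumX : ((n:ℝ) + 1) ^ 2 * X ≤ 1) :
    btSum γ ((2:ℝ) ^ n) F ≤ 449 * (F.card : ℝ) ^ 2 / (2:ℝ) ^ n := by
  obtain ⟨N, hN⟩ : ∃ N : ℝ, N = (2:ℝ) ^ n := ⟨_, rfl⟩
  rw [← hN] at hNK hfib hnumE ⊢
  have hNpos : 0 < N := by rw [hN]; positivity
  obtain ⟨K, hK⟩ : ∃ K : ℝ, K = (F.card : ℝ) := ⟨_, rfl⟩
  rw [← hK] at hNK hfib hnumE ⊢
  have hKpos : 0 < K := lt_of_lt_of_le hNpos hNK
  have hKN : 1 ≤ K / N := by rwa [le_div_iff₀ hNpos, one_mul]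
  have hmaps : ∀ p ∈ goodSet γ N F, idxP p ∈ Finset.range (n + 1) ×ˢ Finset.range (n + 1) := by
    intro p hp
    rw [hN] at hp
    exact good_idx_mem hF hp
  have hcells := cells_total F n
  rw [← hK] at hcells
  obtain ⟨T, hT⟩ : ∃ T, T = Finset.range (n + 1) ×ˢ Finset.range (n + 1) := ⟨_, rfl⟩
  rw [← hT] at hmaps hcells
  have hTcard : (T.card : ℝ) = ((n:ℝ) + 1) ^ 2 := by
    rw [hT, Finset.card_product, Finset.card_range]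
    push_cast
    ring
  have hfib' : ∀ i ∈ T, ∑ p ∈ (goodSet γ N F).filter (fun p => idxP p = i), (1:ℝ) / (ht p.1 p.2 : ℝ)
      ≤ 400 / N * ((cellSet F (2 ^ i.1) (2 ^ i.2)).card : ℝ) + 48 * K * E + K * X := by
    intro i hi
    rw [hT] at hi
    obtain ⟨hi1, hi2⟩ := Finset.mem_product.1 hi
    have hi1' := Finset.mem_range.1 hi1
    have hi2' := Finset.mem_range.1 hi2
    exact hfib i (by omega) (by omega)
  rw [btSum_eq, ← Finset.sum_fiberwise_of_maps_to hmaps]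
  calc ∑ i ∈ T, ∑ p ∈ (goodSet γ N F).filter (fun p => idxP p = i), (1:ℝ) / (ht p.1 p.2 : ℝ)
      ≤ ∑ i ∈ T, (400 / N * ((cellSet F (2 ^ i.1) (2 ^ i.2)).card : ℝ) + 48 * K * E + K * X) :=
        Finset.sum_le_sum hfib'
    _ = 400 / N * ∑ i ∈ T, ((cellSet F (2 ^ i.1) (2 ^ i.2)).card : ℝ) + (T.card : ℝ) * (48 * K * E + K * X) := by
        rw [Finset.sum_add_distrib, Finset.sum_add_distrib, Finset.mul_sum]
        simp only [Finset.sum_const, nsmul_eq_mul]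
        ring
    _ ≤ 400 / N * K ^ 2 + (((n:ℝ) + 1) ^ 2 * (48 * K * E + K * X)) := by
        rw [hTcard]
        have : 400 / N * ∑ i ∈ T, ((cellSet F (2 ^ i.1) (2 ^ i.2)).card : ℝ) ≤ 400 / N * K ^ 2 :=
          mul_le_mul_of_nonneg_left hcells (by positivity)
        linarith
    _ = 400 / N * K ^ 2 + (48 * K * (((n:ℝ) + 1) ^ 2 * E) + K * (((n:ℝ) + 1) ^ 2 * X)) := by ring
    _ ≤ 400 / N * K ^ 2 + (48 * K * (K / N) + K * (K / N)) := by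
        have h1 : 48 * K * (((n:ℝ) + 1) ^ 2 * E) ≤ 48 * K * (K / N) :=
          mul_le_mul_of_nonneg_left hnumE (by positivity)
        have h2 : K * (((n:ℝ) + 1) ^ 2 * X) ≤ K * (K / N) :=
          mul_le_mul_of_nonneg_left (hnumX.trans hKN) hKpos.le
        linarith
    _ = 449 * K ^ 2 / N := by
        field_simp
        ring

/-- The core inequality. -/
theorem CI_main {γ c₀ : ℝ} {κ : ℕ} (hγ : Dio γ c₀ κ) (hc₀ : 0 < c₀) (hκ : 1 ≤ κ) (ε : ℝ) (hε : 0 < ε) (hε1 : ε ≤ 1 / 2) :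
    ∃ n0 : ℕ, ∃ C : ℝ, 0 < C ∧ ∀ n : ℕ, n0 ≤ n → ∀ F : Finset ℕ, (∀ q ∈ F, 1 ≤ q) →
      (2:ℝ) ^ n * GE ε n ≤ F.card → (F.card : ℝ) ≤ 2 * 2 ^ n * GE ε n →
      btSum γ ((2:ℝ) ^ n) F ≤ C * (F.card : ℝ) ^ 2 / (2:ℝ) ^ n := by
  obtain ⟨n1, hcell⟩ := cell_bound hγ hc₀ hκ (ε / 2) (by positivity) (by linarith)
  obtain ⟨n2, hE⟩ := num_E hε
  have hκ0 : (0:ℝ) < (κ:ℝ) + 1 := by positivity
  obtain ⟨τ, hτ⟩ : ∃ τ : ℝ, τ = (1:ℝ) / (4 * ((κ:ℝ) + 1)) := ⟨_, rfl⟩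
  have hτpos : 0 < τ := by rw [hτ]; positivity
  have h2τ : (1:ℝ) / (2 * ((κ:ℝ) + 1)) = τ + τ := by
    rw [hτ]
    field_simp
    norm_num
  obtain ⟨n3, hG⟩ := num_G (c := τ / 2) (by positivity)
  obtain ⟨n4, hgate⟩ := gate hγ hc₀ (κ := κ)
  refine ⟨max (max n1 n2) (max n3 (max n4 1)), 449, by norm_num, ?_⟩
  intro n hn F hF hlow hup
  have hn1 : n1 ≤ n := (le_max_left _ _ |>.trans (le_max_left _ _)).trans hn
  have hn2 : n2 ≤ n := (le_max_right _ _ |>.trans (le_max_left _ _)).trans hn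
  have hn3 : n3 ≤ n := (le_max_left _ _ |>.trans (le_max_right _ _)).trans hn
  have hn4 : n4 ≤ n := ((le_max_left _ _).trans (le_max_right _ _) |>.trans (le_max_right _ _)).trans hn
  have hn5 : 1 ≤ n := ((le_max_right _ _).trans (le_max_right _ _) |>.trans (le_max_right _ _)).trans hn
  have hNpos : (0:ℝ) < (2:ℝ) ^ n := by positivity
  have hGE1 : 1 ≤ GE ε n := Real.one_le_exp (by positivity)
  have hNK : (2:ℝ) ^ n ≤ F.card := by nlinarith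
  have hGEKN : GE ε n ≤ (F.card : ℝ) / (2:ℝ) ^ n := by rwa [le_div_iff₀ hNpos, mul_comm]
  have hcardK : 2 ^ n ≤ F.card := by
    have : ((2 ^ n : ℕ) : ℝ) ≤ F.card := by
      push_cast
      exact hNK
    exact_mod_cast this
  have hcard2 : 2 ≤ F.card := by
    calc 2 = 2 ^ 1 := by norm_num
      _ ≤ 2 ^ n := Nat.pow_le_pow_right (by norm_num) hn5
      _ ≤ _ := hcardK
  have hKGG : (F.card : ℝ) ≤ 2 * 2 ^ n * GG n := by
    refine hup.trans ?_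
    have := GE_le_GG ε hε hε1 n
    have h2N : (0:ℝ) ≤ 2 * 2 ^ n := by positivity
    exact mul_le_mul_of_nonneg_left this h2N
  have hGG0 : 0 < GG n := Real.exp_pos _
  obtain ⟨a, ha⟩ : ∃ a : ℝ, a = ((2:ℝ) ^ n) ^ τ := ⟨_, rfl⟩
  obtain ⟨y, hy⟩ : ∃ y : ℝ, y = ((2:ℝ) ^ n) ^ (τ / 2) := ⟨_, rfl⟩
  have hapos : 0 < a := by rw [ha]; positivity
  have hypos : 0 < y := by rw [hy]; positivity
  have hy2 : y ^ 2 = a := by
    rw [hy, ha, ← Real.rpow_natCast, ← Real.rpow_mul hNpos.le]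
    congr 1
    push_cast
    ring
  have hgate' : ∀ A B H : ℕ, A ≠ B → A < 2 * H → B < 2 * H →
      dn (((A:ℝ) - B) * γ) < 4 * (H:ℝ) / (2:ℝ) ^ n → a * a ≤ H := by
    intro A B H h1 h2 h3 h4
    have h5 := hgate n hn4 A B H h1 h2 h3 h4
    rw [h2τ, Real.rpow_add hNpos, ← ha] at h5
    exact h5
  have hcell' := hcell n hn1 F hF (by omega) hNK hKGG
  rw [← hτ, ← ha] at hcell'
  have hfib := fibre_bound (γ := γ) (E := Real.exp (((n:ℝ) + 1) ^ (ε / 2))) (a := a) (y := y)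
    hF hNK hKGG hcard2 (Real.exp_pos _).le hapos hypos hy2 hcell' hgate'
  have hnumX : ((n:ℝ) + 1) ^ 2 * (2 * GG n / y) ≤ 1 := by
    have h1 := hG n hn3
    rw [← hy] at h1
    have h2 : ((n:ℝ) + 1) ^ 2 * (2 * GG n / y) = 2 * (((n:ℝ) + 1) ^ 2 * GG n) / y := by ring
    rw [h2, div_le_one hypos]
    exact h1
  exact assemble hF hNK (Real.exp_pos _).le (by positivity)
    (fun i hi1 hi2 => hfib i hi1 hi2) ((hE n hn2).trans hGEKN) hnumX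

end

end Vale.Agent.Lib.P028K
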