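import Vale.Agent.Lib.P028K.ML
import Vale.Agent.Lib.P028T.GcdSum

/-! Part CIcell: one cell of the core inequality. Blueprint section 13. -/

open Finset

namespace Vale.Agent.Lib.P028K

open Vale.Agent.Lib.P028
open Vale.Agent.Lib.P028T
open Vale.Agent.Lib.P028T.GcdAux
open Vale.Agent.Lib.P028G

noncomputable section

/-- The Bohr pair sum at level `N`. -/
def btSum (γ : ℝ) (N : ℝ) (F : Finset ℕ) : ℝ :=
  ∑ q ∈ F, ∑ r ∈ F, if q ≠ r ∧ (ht q r : ℝ) / N < 1 / 768 ∧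
      dn (((lowA q r : ℝ) - lowB q r) * γ) < 2 * ((ht q r : ℝ) / N) then 1 / (ht q r : ℝ) else 0

/-- Möbius sum over divisors. -/
private lemma moebius_divisors (n : ℕ) :
    ∑ e ∈ n.divisors, ((ArithmeticFunction.moebius e : ℤ) : ℂ) = if n = 1 then 1 else 0 := by
  have hsum : ∑ e ∈ n.divisors, ArithmeticFunction.moebius e = if n = 1 then 1 else 0 := by
    have := ArithmeticFunction.moebius_mul_coe_zeta
    have h2 := congrArg (fun f : ArithmeticFunction ℤ => f n) this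
    simp only [ArithmeticFunction.coe_mul_zeta_apply, ArithmeticFunction.one_apply] at h2
    exact h2
  calc ∑ e ∈ n.divisors, ((ArithmeticFunction.moebius e : ℤ) : ℂ)
      = ((∑ e ∈ n.divisors, ArithmeticFunction.moebius e : ℤ) : ℂ) := by push_cast; rfl
    _ = _ := by rw [hsum]; split_ifs <;> simp

/-- The term of a multiple `t` of the primitive pair `(A, B)`. -/
private def cg (θ : ℝ) (M₁ M₂ A B t : ℕ) : ℂ :=
  if M₂ ≤ t * A ∧ t * A < 2 * M₂ ∧ M₁ ≤ t * B ∧ t * B < 2 * M₁ then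
    ee (θ * ((t:ℝ) * ((A:ℝ) - B))) else 0

/-- Solutions of `q n = r m` are the multiples of the primitive pair. -/
private lemma sol_pair {q r n m : ℕ} (hq : 1 ≤ q) (hr : 1 ≤ r) (h : q * n = r * m) :
    ∃ s, n = s * lowA q r ∧ m = s * lowB q r := by
  have hg : 0 < Nat.gcd q r := Nat.gcd_pos_of_pos_left r hq
  have hcop := low_coprime (x := q) (y := r) hq
  have h1 : lowB q r * n = lowA q r * m := by
    have h2 := lowB_mul q r
    have h3 := lowA_mul q r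
    apply Nat.eq_of_mul_eq_mul_left hg
    calc Nat.gcd q r * (lowB q r * n) = (lowB q r * Nat.gcd q r) * n := by ring
      _ = q * n := by rw [h2]
      _ = r * m := h
      _ = (lowA q r * Nat.gcd q r) * m := by rw [h3]
      _ = Nat.gcd q r * (lowA q r * m) := by ring
  have hdvd : lowA q r ∣ n := (Nat.Coprime.dvd_mul_left hcop).1 (Dvd.intro _ h1.symm)
  obtain ⟨s, rfl⟩ := hdvd
  refine ⟨s, by ring, ?_⟩
  have hApos : 0 < lowA q r := lowA_pos hr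
  apply Nat.eq_of_mul_eq_mul_left hApos
  calc lowA q r * m = lowB q r * (lowA q r * s) := h1.symm
    _ = lowA q r * (s * lowB q r) := by ring

/-- One value of `d`: the pairs over `d` are the multiples of `d`. -/
private lemma fibre_sum {q r : ℕ} (hq : 1 ≤ q) (hr : 1 ≤ r) {M₁ M₂ d : ℕ} (hM₁ : 1 ≤ M₁)
    (hM₂ : 1 ≤ M₂) (hd : 1 ≤ d) (θ : ℝ) :
    ∑ n ∈ Nn M₂ d, ∑ m ∈ Nn M₁ d, (if q * n = r * m then ee (((d:ℝ) * θ) * ((n:ℝ) - m)) else 0)
      = ∑ t ∈ Icc 1 (2 * min M₁ M₂), if d ∣ t then cg θ M₁ M₂ (lowA q r) (lowB q r) t else 0 := by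
  set A := lowA q r with hAd
  set B := lowB q r with hBd
  have hA : 1 ≤ A := lowA_pos hr
  have hB : 1 ≤ B := lowB_pos hq
  have hAB : q * A = r * B := by
    have h2 : B * Nat.gcd q r = q := lowB_mul q r
    have h3 : A * Nat.gcd q r = r := lowA_mul q r
    calc q * A = (B * Nat.gcd q r) * A := by rw [h2]
      _ = (A * Nat.gcd q r) * B := by ring
      _ = r * B := by rw [h3]
  rw [← Finset.sum_product']
  rw [← Finset.sum_filter]
  have hR : ∀ t ∈ Icc 1 (2 * min M₁ M₂), (if d ∣ t then cg θ M₁ M₂ A B t else 0)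
      = if (d ∣ t ∧ M₂ ≤ t * A ∧ t * A < 2 * M₂ ∧ M₁ ≤ t * B ∧ t * B < 2 * M₁) then
        ee (θ * ((t:ℝ) * ((A:ℝ) - B))) else 0 := by
    intro t _
    unfold cg
    by_cases h1 : d ∣ t
    · simp [h1]
    · simp [h1]
  rw [Finset.sum_congr rfl hR, ← Finset.sum_filter]
  refine Finset.sum_nbij' (fun x => d * (x.1 / A)) (fun t => ((t / d) * A, (t / d) * B)) ?_ ?_ ?_ ?_ ?_
  · rintro ⟨n, m⟩ hx
    simp only [Nn, Finset.mem_filter, Finset.mem_product, Finset.mem_range] at hx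
    obtain ⟨⟨⟨_, h1, h2⟩, _, h3, h4⟩, h5⟩ := hx
    obtain ⟨s, hns, hms⟩ := sol_pair hq hr h5
    rw [← hAd] at hns
    rw [← hBd] at hms
    subst hns
    subst hms
    have hs : 1 ≤ s := by
      rcases Nat.eq_zero_or_pos s with h0 | h0
      · subst h0; simp at h1; omega
      · exact h0
    simp only [Nat.mul_div_cancel _ (show 0 < A by omega)]
    have e1 : d * (s * A) = d * s * A := by ring
    have e2 : d * (s * B) = d * s * B := by ring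
    rw [e1] at h1 h2
    rw [e2] at h3 h4
    have h6 : d * s ≤ d * s * A := Nat.le_mul_of_pos_right _ (by omega)
    have h7 : d * s ≤ d * s * B := Nat.le_mul_of_pos_right _ (by omega)
    have h8 : 1 ≤ d * s := Nat.mul_pos (by omega) (by omega)
    simp only [Finset.mem_filter, Finset.mem_Icc]
    refine ⟨⟨h8, ?_⟩, Dvd.intro _ rfl, h1, h2, h3, h4⟩
    omega
  · intro t ht
    simp only [Finset.mem_filter, Finset.mem_Icc] at ht
    obtain ⟨⟨h0, _⟩, ⟨c, rfl⟩, h1, h2, h3, h4⟩ := ht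
    simp only [Nat.mul_div_cancel_left _ (show 0 < d by omega)]
    have e1 : d * (c * A) = d * c * A := by ring
    have e2 : d * (c * B) = d * c * B := by ring
    have h6 : c * A ≤ d * c * A := by
      calc c * A = 1 * (c * A) := (one_mul _).symm
        _ ≤ d * (c * A) := Nat.mul_le_mul_right _ hd
        _ = d * c * A := e1
    have h7 : c * B ≤ d * c * B := by
      calc c * B = 1 * (c * B) := (one_mul _).symm
        _ ≤ d * (c * B) := Nat.mul_le_mul_right _ hd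
        _ = d * c * B := e2
    simp only [Nn, Finset.mem_filter, Finset.mem_product, Finset.mem_range]
    refine ⟨⟨⟨by omega, by rw [e1]; exact h1, by rw [e1]; exact h2⟩,
      by omega, by rw [e2]; exact h3, by rw [e2]; exact h4⟩, ?_⟩
    calc q * (c * A) = c * (q * A) := by ring
      _ = c * (r * B) := by rw [hAB]
      _ = r * (c * B) := by ring
  · rintro ⟨n, m⟩ hx
    simp only [Nn, Finset.mem_filter, Finset.mem_product, Finset.mem_range] at hx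
    obtain ⟨_, h5⟩ := hx
    obtain ⟨s, hns, hms⟩ := sol_pair hq hr h5
    rw [← hAd] at hns
    rw [← hBd] at hms
    subst hns
    subst hms
    simp only [Nat.mul_div_cancel _ (show 0 < A by omega),
      Nat.mul_div_cancel_left _ (show 0 < d by omega)]
  · intro t ht
    simp only [Finset.mem_filter, Finset.mem_Icc] at ht
    obtain ⟨_, ⟨c, rfl⟩, _⟩ := ht
    simp only [Nat.mul_div_cancel_left _ (show 0 < d by omega),
      Nat.mul_div_cancel _ (show 0 < A by omega)]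
  · rintro ⟨n, m⟩ hx
    simp only [Nn, Finset.mem_filter, Finset.mem_product, Finset.mem_range] at hx
    obtain ⟨_, h5⟩ := hx
    obtain ⟨s, hns, hms⟩ := sol_pair hq hr h5
    rw [← hAd] at hns
    rw [← hBd] at hms
    subst hns
    subst hms
    simp only [Nat.mul_div_cancel _ (show 0 < A by omega)]
    congr 1
    push_cast
    ring

private lemma sum_four {ι κ : Type} (D : Finset ι) (F : Finset κ) (a : ι → ℂ)
    (X : κ → κ → ι → ℂ) :
    ∑ d ∈ D, a d * ∑ q ∈ F, ∑ r ∈ F, X q r d = ∑ q ∈ F, ∑ r ∈ F, ∑ d ∈ D, a d * X q r d := by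
  simp only [Finset.mul_sum]
  rw [Finset.sum_comm]
  refine Finset.sum_congr rfl fun q _ => ?_
  rw [Finset.sum_comm]

/-- Möbius: coprime pairs in a cell as a sum of kernels. -/
theorem cell_moebius (F : Finset ℕ) (hF : ∀ q ∈ F, 1 ≤ q) (M₁ M₂ : ℕ) (hM₁ : 1 ≤ M₁) (hM₂ : 1 ≤ M₂) (θ : ℝ) :
    ∑ q ∈ F, ∑ r ∈ F, (if M₂ ≤ lowA q r ∧ lowA q r < 2 * M₂ ∧ M₁ ≤ lowB q r ∧ lowB q r < 2 * M₁ then
        ee (θ * ((lowA q r : ℝ) - lowB q r)) else 0)
      = ∑ d ∈ Icc 1 (2 * min M₁ M₂), ((ArithmeticFunction.moebius d : ℤ) : ℂ) *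
          BBc F (Nn M₂ d) (Nn M₁ d) (((d : ℕ):ℝ) * θ) := by
  unfold BBc
  rw [sum_four]
  refine Finset.sum_congr rfl fun q hq => Finset.sum_congr rfl fun r hr => ?_
  have hq1 := hF q hq
  have hr1 := hF r hr
  set D := 2 * min M₁ M₂ with hD
  have hD1 : 1 ≤ D := by
    have : 1 ≤ min M₁ M₂ := le_min hM₁ hM₂
    omega
  have h1 : ∑ d ∈ Icc 1 D, ((ArithmeticFunction.moebius d : ℤ) : ℂ) *
        ∑ n ∈ Nn M₂ d, ∑ m ∈ Nn M₁ d,
          (if q * n = r * m then ee (((d:ℝ) * θ) * ((n:ℝ) - m)) else 0)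
      = ∑ d ∈ Icc 1 D, ∑ t ∈ Icc 1 D, ((ArithmeticFunction.moebius d : ℤ) : ℂ) *
          (if d ∣ t then cg θ M₁ M₂ (lowA q r) (lowB q r) t else 0) := by
    refine Finset.sum_congr rfl fun d hd => ?_
    rw [fibre_sum hq1 hr1 hM₁ hM₂ (Finset.mem_Icc.1 hd).1 θ, Finset.mul_sum]
  rw [h1, Finset.sum_comm]
  have h2 : ∀ t ∈ Icc 1 D, ∑ d ∈ Icc 1 D, ((ArithmeticFunction.moebius d : ℤ) : ℂ) *
        (if d ∣ t then cg θ M₁ M₂ (lowA q r) (lowB q r) t else 0)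
      = if t = 1 then cg θ M₁ M₂ (lowA q r) (lowB q r) t else 0 := by
    intro t ht
    obtain ⟨ht1, ht2⟩ := Finset.mem_Icc.1 ht
    have h3 : (Icc 1 D).filter (fun d => d ∣ t) = t.divisors := by
      ext d
      simp only [Finset.mem_filter, Finset.mem_Icc, Nat.mem_divisors]
      constructor
      · rintro ⟨_, h⟩
        exact ⟨h, by omega⟩
      · rintro ⟨h, _⟩
        have h4 := Nat.le_of_dvd (by omega) h
        have h5 := Nat.pos_of_dvd_of_pos h (by omega)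
        exact ⟨⟨by omega, by omega⟩, h⟩
    have h4 : ∀ d ∈ Icc 1 D, ((ArithmeticFunction.moebius d : ℤ) : ℂ) *
        (if d ∣ t then cg θ M₁ M₂ (lowA q r) (lowB q r) t else 0)
        = if d ∣ t then ((ArithmeticFunction.moebius d : ℤ) : ℂ) *
            cg θ M₁ M₂ (lowA q r) (lowB q r) t else 0 := by
      intro d _
      split_ifs <;> simp
    rw [Finset.sum_congr rfl h4, ← Finset.sum_filter, h3, ← Finset.sum_mul, moebius_divisors]
    split_ifs <;> simp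
  rw [Finset.sum_congr rfl h2, Finset.sum_ite_eq' (Icc 1 D) 1]
  rw [if_pos (Finset.mem_Icc.2 ⟨le_rfl, hD1⟩)]
  unfold cg
  simp only [one_mul, Nat.cast_one]

private lemma Nn_ne_zero {Mm d n : ℕ} (hM : 1 ≤ Mm) (hn : n ∈ Nn Mm d) : n ≠ 0 := by
  rintro rfl
  have := (Finset.mem_filter.1 hn).2.1
  simp at this
  omega

/-- The sum of the kernels over twists and divisors, for a cell. -/
private lemma sum_T_le {F : Finset ℕ} (hF : ∀ q ∈ F, 1 ≤ q) {M₁ M₂ L : ℕ} (hM₁ : 1 ≤ M₁) (hM₂ : 1 ≤ M₂)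
    {γ E : ℝ} (hE : 0 ≤ E)
    (h₁ : ∑ j ∈ Ico 1 L, ∑ d ∈ Icc 1 (2 * M₁), (BBc F (Nn M₁ d) (Nn M₁ d) (((j * d : ℕ):ℝ) * γ)).re
        ≤ (L:ℝ) * F.card * M₁ * E)
    (h₂ : ∑ j ∈ Ico 1 L, ∑ d ∈ Icc 1 (2 * M₂), (BBc F (Nn M₂ d) (Nn M₂ d) (((j * d : ℕ):ℝ) * γ)).re
        ≤ (L:ℝ) * F.card * M₂ * E) :
    ∑ j ∈ Ico 1 L, ‖∑ d ∈ Icc 1 (2 * min M₁ M₂), ((ArithmeticFunction.moebius d : ℤ) : ℂ) *
        BBc F (Nn M₂ d) (Nn M₁ d) (((d : ℕ):ℝ) * ((j:ℝ) * γ))‖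
      ≤ (L:ℝ) * F.card * Real.sqrt ((M₁:ℝ) * M₂) * E := by
  have hF0 : ∀ q ∈ F, q ≠ 0 := fun q hq => by have := hF q hq; omega
  set D := 2 * min M₁ M₂ with hD
  set s := (Ico 1 L) ×ˢ (Icc 1 D) with hs
  let X : ℕ × ℕ → ℝ := fun x => (BBc F (Nn M₂ x.2) (Nn M₂ x.2) (((x.1 * x.2 : ℕ):ℝ) * γ)).re
  let Y : ℕ × ℕ → ℝ := fun x => (BBc F (Nn M₁ x.2) (Nn M₁ x.2) (((x.1 * x.2 : ℕ):ℝ) * γ)).re
  have hX0 : ∀ x, 0 ≤ X x := fun x =>
    BB_re_nonneg F _ _ hF0 (fun n hn => Nn_ne_zero hM₂ hn)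
  have hY0 : ∀ x, 0 ≤ Y x := fun x =>
    BB_re_nonneg F _ _ hF0 (fun n hn => Nn_ne_zero hM₁ hn)
  have hterm : ∀ j ∈ Ico 1 L, ‖∑ d ∈ Icc 1 D, ((ArithmeticFunction.moebius d : ℤ) : ℂ) *
        BBc F (Nn M₂ d) (Nn M₁ d) (((d : ℕ):ℝ) * ((j:ℝ) * γ))‖
      ≤ ∑ d ∈ Icc 1 D, Real.sqrt (X (j, d)) * Real.sqrt (Y (j, d)) := by
    intro j _
    refine (norm_sum_le _ _).trans (Finset.sum_le_sum fun d _ => ?_)
    rw [norm_mul]
    have h1 : ‖((ArithmeticFunction.moebius d : ℤ) : ℂ)‖ ≤ 1 := by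
      rw [Complex.norm_intCast]
      exact_mod_cast ArithmeticFunction.abs_moebius_le_one
    have hθ : ((d : ℕ):ℝ) * ((j:ℝ) * γ) = ((j * d : ℕ):ℝ) * γ := by push_cast; ring
    rw [hθ]
    have h2 := BB_cauchy F (Nn M₂ d) (Nn M₁ d) (((j * d : ℕ):ℝ) * γ) hF0
      (fun n hn => Nn_ne_zero hM₂ hn) (fun n hn => Nn_ne_zero hM₁ hn)
    have h3 : ‖BBc F (Nn M₂ d) (Nn M₁ d) (((j * d : ℕ):ℝ) * γ)‖
        ≤ Real.sqrt (X (j, d)) * Real.sqrt (Y (j, d)) := by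
      rw [← Real.sqrt_mul (hX0 _)]
      exact Real.le_sqrt_of_sq_le h2
    calc _ ≤ 1 * ‖BBc F (Nn M₂ d) (Nn M₁ d) (((j * d : ℕ):ℝ) * γ)‖ := by gcongr
      _ ≤ _ := by rw [one_mul]; exact h3
  have hS : ∑ j ∈ Ico 1 L, ∑ d ∈ Icc 1 D, Real.sqrt (X (j, d)) * Real.sqrt (Y (j, d))
      = ∑ x ∈ s, Real.sqrt (X x) * Real.sqrt (Y x) := by
    rw [hs, Finset.sum_product]
  have hCS := Real.sum_sqrt_mul_sqrt_le s hX0 hY0
  have hXs : ∑ x ∈ s, X x ≤ (L:ℝ) * F.card * M₂ * E := by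
    refine le_trans ?_ h₂
    rw [hs, Finset.sum_product]
    refine Finset.sum_le_sum fun j _ => ?_
    refine Finset.sum_le_sum_of_subset_of_nonneg ?_ fun d _ _ => hX0 (j, d)
    exact Finset.Icc_subset_Icc le_rfl (by
      have := min_le_right M₁ M₂
      omega)
  have hYs : ∑ x ∈ s, Y x ≤ (L:ℝ) * F.card * M₁ * E := by
    refine le_trans ?_ h₁
    rw [hs, Finset.sum_product]
    refine Finset.sum_le_sum fun j _ => ?_
    refine Finset.sum_le_sum_of_subset_of_nonneg ?_ fun d _ _ => hY0 (j, d)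
    exact Finset.Icc_subset_Icc le_rfl (by
      have := min_le_left M₁ M₂
      omega)
  have hfin : Real.sqrt ((L:ℝ) * F.card * M₂ * E) * Real.sqrt ((L:ℝ) * F.card * M₁ * E)
      = (L:ℝ) * F.card * Real.sqrt ((M₁:ℝ) * M₂) * E := by
    have ha : 0 ≤ (L:ℝ) * F.card * E := by positivity
    have e1 : (L:ℝ) * F.card * M₂ * E = ((L:ℝ) * F.card * E) * M₂ := by ring
    have e2 : (L:ℝ) * F.card * M₁ * E = ((L:ℝ) * F.card * E) * M₁ := by ring
    rw [e1, e2, ← Real.sqrt_mul (by positivity)]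
    have e3 : ((L:ℝ) * F.card * E) * M₂ * (((L:ℝ) * F.card * E) * M₁)
        = ((L:ℝ) * F.card * E) ^ 2 * ((M₁:ℝ) * M₂) := by ring
    rw [e3, Real.sqrt_mul (by positivity), Real.sqrt_sq ha]
    ring
  calc _ ≤ ∑ j ∈ Ico 1 L, ∑ d ∈ Icc 1 D, Real.sqrt (X (j, d)) * Real.sqrt (Y (j, d)) :=
        Finset.sum_le_sum hterm
    _ = ∑ x ∈ s, Real.sqrt (X x) * Real.sqrt (Y x) := hS
    _ ≤ Real.sqrt (∑ x ∈ s, X x) * Real.sqrt (∑ x ∈ s, Y x) := hCS
    _ ≤ Real.sqrt ((L:ℝ) * F.card * M₂ * E) * Real.sqrt ((L:ℝ) * F.card * M₁ * E) := by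
        gcongr
    _ = _ := hfin

/-- The character sum of a finite family of integers `x p`. -/
private def TT {ι : Type} (C : Finset ι) (w : ι → ℝ) (x : ℝ) : ℂ := ∑ p ∈ C, ee (x * w p)

private lemma norm_TT_neg {ι : Type} (C : Finset ι) (w : ι → ℝ) (x : ℝ) :
    ‖TT C w (-x)‖ = ‖TT C w x‖ := by
  have h : TT C w (-x) = (starRingEnd ℂ) (TT C w x) := by
    unfold TT
    rw [map_sum]
    refine Finset.sum_congr rfl fun p _ => ?_
    rw [← ee_neg]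
    congr 1
    ring
  rw [h, Complex.norm_conj]

private lemma norm_TT_zero {ι : Type} (C : Finset ι) (w : ι → ℝ) :
    ‖TT C w 0‖ = C.card := by
  unfold TT
  simp [ee_zero]

/-- Fejér: the sum of the kernel is at most the diagonal plus the twisted sums. -/
private lemma sum_fej_le {ι : Type} (C : Finset ι) (w : ι → ℝ) (γ : ℝ) (L : ℕ) :
    (∑ p ∈ C, Fej L (w p * γ)) * (L:ℝ) ^ 2 ≤
      (L:ℝ) * C.card + 2 * (L:ℝ) * ∑ j ∈ Ico 1 L, ‖TT C w ((j:ℝ) * γ)‖ := by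
  have hexp : (((∑ p ∈ C, Fej L (w p * γ) : ℝ) : ℂ)) * (L:ℂ) ^ 2
      = ∑ a ∈ range L, ∑ a' ∈ range L, TT C w (((a:ℝ) - a') * γ) := by
    push_cast
    rw [Finset.sum_mul]
    simp_rw [Fej_expand]
    rw [Finset.sum_comm]
    refine Finset.sum_congr rfl fun a _ => ?_
    rw [Finset.sum_comm]
    refine Finset.sum_congr rfl fun a' _ => ?_
    unfold TT
    refine Finset.sum_congr rfl fun p _ => ?_
    congr 1
    ring
  have hX0 : 0 ≤ ∑ p ∈ C, Fej L (w p * γ) := Finset.sum_nonneg fun _ _ => Fej_nonneg _ _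
  have hnorm : (∑ p ∈ C, Fej L (w p * γ)) * (L:ℝ) ^ 2 =
      ‖∑ a ∈ range L, ∑ a' ∈ range L, TT C w (((a:ℝ) - a') * γ)‖ := by
    rw [← hexp, norm_mul, Complex.norm_real, norm_pow, Complex.norm_natCast, Real.norm_eq_abs,
      abs_of_nonneg hX0]
  set S := ∑ j ∈ Ico 1 L, ‖TT C w ((j:ℝ) * γ)‖ with hS
  have hS0 : 0 ≤ S := Finset.sum_nonneg fun _ _ => norm_nonneg _
  have hfix : ∀ a ∈ range L, ∑ a' ∈ range L, ‖TT C w (((a:ℝ) - a') * γ)‖ ≤ (C.card : ℝ) + 2 * S := by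
    intro a ha
    have haL := Finset.mem_range.1 ha
    set U : ℕ → ℝ := fun j => ‖TT C w ((j:ℝ) * γ)‖ with hU
    have hU0 : ∀ j, 0 ≤ U j := fun j => norm_nonneg _
    have hpoint : ∀ a' ∈ range L, ‖TT C w (((a:ℝ) - a') * γ)‖ ≤
        (if a' = a then (C.card : ℝ) else 0) + (if a' < a then U (a - a') else 0)
          + (if a < a' then U (a' - a) else 0) := by
      intro a' _
      rcases lt_trichotomy a' a with h | h | h
      · simp only [h, if_true, h.ne, if_false, not_lt.2 h.le, add_zero, zero_add, hU]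
        have : ((a:ℝ) - a') = ((a - a' : ℕ):ℝ) := by
          rw [Nat.cast_sub h.le]
        rw [this]
      · subst h
        simp only [if_true, lt_irrefl, if_false, add_zero, sub_self, zero_mul]
        rw [norm_TT_zero]
      · simp only [h, if_true, h.ne', if_false, not_lt.2 h.le, zero_add, hU]
        have : ((a:ℝ) - a') * γ = -(((a' - a : ℕ):ℝ) * γ) := by
          rw [Nat.cast_sub h.le]
          ring
        rw [this, norm_TT_neg]
    have h1 : ∑ a' ∈ range L, (if a' = a then (C.card : ℝ) else 0) = C.card := by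
      rw [Finset.sum_ite_eq' (range L) a]
      simp [ha]
    have h2 : ∑ a' ∈ range L, (if a' < a then U (a - a') else 0) ≤ S := by
      rw [← Finset.sum_filter]
      have hinj : Set.InjOn (fun a' => a - a') (((range L).filter fun a' => a' < a) : Finset ℕ) := by
        intro x hx y hy hxy
        have hx' := (Finset.mem_filter.1 hx).2
        have hy' := (Finset.mem_filter.1 hy).2
        simp only at hxy
        omega
      have h3 := Finset.sum_image (f := U) hinj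
      rw [← h3]
      refine Finset.sum_le_sum_of_subset_of_nonneg ?_ fun _ _ _ => hU0 _
      intro j hj
      obtain ⟨x, hx, rfl⟩ := Finset.mem_image.1 hj
      have hx' := (Finset.mem_filter.1 hx).2
      exact Finset.mem_Ico.2 ⟨by omega, by omega⟩
    have h3 : ∑ a' ∈ range L, (if a < a' then U (a' - a) else 0) ≤ S := by
      rw [← Finset.sum_filter]
      have hinj : Set.InjOn (fun a' => a' - a) (((range L).filter fun a' => a < a') : Finset ℕ) := by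
        intro x hx y hy hxy
        have hx' := (Finset.mem_filter.1 hx).2
        have hy' := (Finset.mem_filter.1 hy).2
        simp only at hxy
        omega
      have h3 := Finset.sum_image (f := U) hinj
      rw [← h3]
      refine Finset.sum_le_sum_of_subset_of_nonneg ?_ fun _ _ _ => hU0 _
      intro j hj
      obtain ⟨x, hx, rfl⟩ := Finset.mem_image.1 hj
      have hx' := Finset.mem_filter.1 hx
      have hx2 := Finset.mem_range.1 hx'.1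
      exact Finset.mem_Ico.2 ⟨by omega, by omega⟩
    calc _ ≤ ∑ a' ∈ range L, ((if a' = a then (C.card : ℝ) else 0) + (if a' < a then U (a - a') else 0)
          + (if a < a' then U (a' - a) else 0)) := Finset.sum_le_sum hpoint
      _ = _ := by rw [Finset.sum_add_distrib, Finset.sum_add_distrib]
      _ ≤ (C.card : ℝ) + S + S := by
          rw [h1]
          linarith
      _ = _ := by ring
  rw [hnorm]
  calc _ ≤ ∑ a ∈ range L, ∑ a' ∈ range L, ‖TT C w (((a:ℝ) - a') * γ)‖ :=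
        (norm_sum_le _ _).trans (Finset.sum_le_sum fun a _ => norm_sum_le _ _)
    _ ≤ ∑ _a ∈ range L, ((C.card : ℝ) + 2 * S) := Finset.sum_le_sum hfix
    _ = _ := by
        rw [Finset.sum_const, Finset.card_range, nsmul_eq_mul]
        ring

/-- The numerics of the length of the kernel. -/
private lemma L_facts {n H : ℕ} (hH : 1 ≤ H) (hcase : 48 * H ≤ 2 ^ n) :
    1 ≤ 2 ^ n / (48 * H) ∧ ((2 ^ n / (48 * H) : ℕ) : ℝ) * (48 * (H:ℝ)) ≤ (2:ℝ) ^ n ∧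
      (2:ℝ) ^ n ≤ 2 * ((2 ^ n / (48 * H) : ℕ) : ℝ) * (48 * (H:ℝ)) := by
  set L : ℕ := 2 ^ n / (48 * H) with hL
  have hL1 : 1 ≤ L := Nat.div_pos hcase (by omega)
  refine ⟨hL1, ?_, ?_⟩
  · have h3 : L * (48 * H) ≤ 2 ^ n := Nat.div_mul_le_self _ _
    have h4 : ((L * (48 * H) : ℕ) : ℝ) ≤ ((2 ^ n : ℕ) : ℝ) := by exact_mod_cast h3
    push_cast at h4
    exact h4
  · have h3 : 2 ^ n < (L + 1) * (48 * H) := by
      have := Nat.lt_mul_div_succ (2 ^ n) (show 0 < 48 * H by omega)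
      rw [mul_comm] at this
      exact this
    have h3' : 2 ^ n ≤ 2 * L * (48 * H) := by
      have h5 : (L + 1) * (48 * H) ≤ (2 * L) * (48 * H) := Nat.mul_le_mul_right _ (by omega)
      omega
    have h4 : ((2 ^ n : ℕ) : ℝ) ≤ ((2 * L * (48 * H) : ℕ) : ℝ) := by exact_mod_cast h3'
    push_cast at h4
    exact h4

/-- The final numerics of the cell bound. -/
private lemma cell_assemble {N Hr Lr Cc Cc' X S Fc Q E : ℝ} (hN : 0 < N) (hH : 0 < Hr) (hL : 0 < Lr)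
    (hL3 : N ≤ 2 * Lr * (48 * Hr)) (hCc : 0 ≤ Cc) (hfej : X * Lr ^ 2 ≤ Lr * Cc + 2 * Lr * S)
    (hcount : Cc' ≤ 4 * X) (hS : S ≤ Lr * Fc * Q * E) (hpos : 0 ≤ Fc * Q * E) :
    Cc' ≤ 400 * Hr / N * Cc + 48 * Fc * Q * E := by
  have hL2' : (0:ℝ) < Lr ^ 2 := by positivity
  have hXle : X ≤ Cc / Lr + 2 * S / Lr := by
    have h1 : X * Lr ^ 2 ≤ (Cc / Lr + 2 * S / Lr) * Lr ^ 2 := by
      have e : (Cc / Lr + 2 * S / Lr) * Lr ^ 2 = Lr * Cc + 2 * Lr * S := by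
        field_simp
      rw [e]
      exact hfej
    exact le_of_mul_le_mul_right h1 hL2'
  have hdiag : 4 * (Cc / Lr) ≤ 400 * Hr / N * Cc := by
    have h1 : 4 / Lr ≤ 400 * Hr / N := by
      rw [div_le_div_iff₀ hL hN]
      have h2 : 0 ≤ Lr * Hr := by positivity
      nlinarith
    calc 4 * (Cc / Lr) = 4 / Lr * Cc := by ring
      _ ≤ _ := mul_le_mul_of_nonneg_right h1 hCc
  have hoff : 4 * (2 * S / Lr) ≤ 8 * (Fc * Q * E) := by
    have e : 4 * (2 * S / Lr) = 8 * S / Lr := by ring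
    rw [e, div_le_iff₀ hL]
    have e2 : Lr * Fc * Q * E = Lr * (Fc * Q * E) := by ring
    rw [e2] at hS
    linarith
  have e3 : 48 * Fc * Q * E = 48 * (Fc * Q * E) := by ring
  rw [e3]
  linarith

/-- The cell bound, for `√H ≤ M₁`, `M₂ = H`, or `√H ≤ M₂`, `M₁ = H`: Fejér, `cell_moebius`, `BB_cauchy`, `ML_main`. -/
theorem cell_bound {γ c₀ : ℝ} {κ : ℕ} (hγ : Dio γ c₀ κ) (hc₀ : 0 < c₀) (hκ : 1 ≤ κ) (ε : ℝ) (hε : 0 < ε) (hε1 : ε ≤ 1 / 2) :
    ∃ n0 : ℕ, ∀ n : ℕ, n0 ≤ n → ∀ F : Finset ℕ, (∀ q ∈ F, 1 ≤ q) → 1 ≤ F.card →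
      (2:ℝ) ^ n ≤ F.card → (F.card : ℝ) ≤ 2 * 2 ^ n * GG n → ∀ M₁ M₂ : ℕ,
      ((2:ℝ) ^ n) ^ ((1:ℝ) / (4 * ((κ:ℝ) + 1))) ≤ M₁ → ((2:ℝ) ^ n) ^ ((1:ℝ) / (4 * ((κ:ℝ) + 1))) ≤ M₂ →
      (max M₁ M₂ : ℕ) ≤ 2 ^ n →
      (((F ×ˢ F).filter (fun p => p.1 ≠ p.2 ∧ M₂ ≤ lowA p.1 p.2 ∧ lowA p.1 p.2 < 2 * M₂ ∧ M₁ ≤ lowB p.1 p.2 ∧ lowB p.1 p.2 < 2 * M₁ ∧
          dn (((lowA p.1 p.2 : ℝ) - lowB p.1 p.2) * γ) < 8 * (max M₁ M₂ : ℕ) / (2:ℝ) ^ n)).card : ℝ)
        ≤ 400 * (max M₁ M₂ : ℕ) / (2:ℝ) ^ n * (((F ×ˢ F).filter (fun p => M₂ ≤ lowA p.1 p.2 ∧ lowA p.1 p.2 < 2 * M₂ ∧ M₁ ≤ lowB p.1 p.2 ∧ lowB p.1 p.2 < 2 * M₁)).card : ℝ)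
          + 48 * F.card * Real.sqrt ((M₁:ℝ) * M₂) * Real.exp (((n:ℝ) + 1) ^ ε) := by
  obtain ⟨n0, hn0⟩ := ML_main hγ hc₀ hκ ε hε hε1
  refine ⟨n0, fun n hn F hF hK1 hKn hKN M₁ M₂ hM₁ hM₂ hH => ?_⟩
  set N : ℝ := (2:ℝ) ^ n with hN
  have hNpos : 0 < N := by positivity
  have hN1 : 1 ≤ N := one_le_pow₀ (by norm_num)
  have hexp0 : 0 ≤ (1:ℝ) / (4 * ((κ:ℝ) + 1)) := by positivity
  have hpow1 : 1 ≤ N ^ ((1:ℝ) / (4 * ((κ:ℝ) + 1))) := Real.one_le_rpow hN1 hexp0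
  have hM₁1 : 1 ≤ M₁ := by
    have : (1:ℝ) ≤ M₁ := hpow1.trans hM₁
    exact_mod_cast this
  have hM₂1 : 1 ≤ M₂ := by
    have : (1:ℝ) ≤ M₂ := hpow1.trans hM₂
    exact_mod_cast this
  set H : ℕ := max M₁ M₂ with hHd
  have hH1 : 1 ≤ H := le_max_of_le_left hM₁1
  have hHpos : (0:ℝ) < H := by exact_mod_cast hH1
  set E := Real.exp (((n:ℝ) + 1) ^ ε) with hE
  have hE0 : 0 ≤ E := (Real.exp_pos _).le
  set C := (F ×ˢ F).filter (fun p => M₂ ≤ lowA p.1 p.2 ∧ lowA p.1 p.2 < 2 * M₂ ∧ M₁ ≤ lowB p.1 p.2 ∧ lowB p.1 p.2 < 2 * M₁) with hC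
  set C' := (F ×ˢ F).filter (fun p => p.1 ≠ p.2 ∧ M₂ ≤ lowA p.1 p.2 ∧ lowA p.1 p.2 < 2 * M₂ ∧ M₁ ≤ lowB p.1 p.2 ∧ lowB p.1 p.2 < 2 * M₁ ∧
          dn (((lowA p.1 p.2 : ℝ) - lowB p.1 p.2) * γ) < 8 * (H : ℝ) / N) with hC'
  have hsub : C' ⊆ C := by
    intro p hp
    rw [hC', Finset.mem_filter] at hp
    obtain ⟨h1, _, h2, h3, h4, h5, _⟩ := hp
    exact Finset.mem_filter.2 ⟨h1, h2, h3, h4, h5⟩
  have hcardle : (C'.card : ℝ) ≤ C.card := by exact_mod_cast Finset.card_le_card hsub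
  have hsq0 : 0 ≤ Real.sqrt ((M₁:ℝ) * M₂) := Real.sqrt_nonneg _
  have hF0 : (0:ℝ) ≤ F.card := by positivity
  have hlast0 : 0 ≤ 48 * (F.card : ℝ) * Real.sqrt ((M₁:ℝ) * M₂) * E := by positivity
  by_cases hcase : N < 48 * (H:ℝ)
  · -- the coefficient is at least one
    have h1 : 1 ≤ 400 * (H:ℝ) / N := by
      rw [le_div_iff₀ hNpos]
      nlinarith
    have h2 : (C.card : ℝ) ≤ 400 * (H:ℝ) / N * C.card := by
      have : (0:ℝ) ≤ C.card := by positivity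
      nlinarith
    linarith
  push Not at hcase
  have hcaseN : 48 * H ≤ 2 ^ n := by
    have : ((48 * H : ℕ) : ℝ) ≤ ((2 ^ n : ℕ) : ℝ) := by
      push_cast
      exact hcase
    exact_mod_cast this
  set L : ℕ := 2 ^ n / (48 * H) with hL
  obtain ⟨hL1, hL2, hL3⟩ := L_facts hH1 hcaseN
  have hL1' : 1 ≤ L := hL1
  have hLpos : (0:ℝ) < L := by exact_mod_cast hL1'
  have hLle : L ≤ 2 ^ n := Nat.div_le_self _ _
  -- the weights
  let w : ℕ × ℕ → ℝ := fun p => (lowA p.1 p.2 : ℝ) - lowB p.1 p.2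
  have hfej : ∀ p ∈ C', (1:ℝ) / 4 ≤ Fej L (w p * γ) := by
    intro p hp
    have h1 := (Finset.mem_filter.1 hp).2.2.2.2.2.2
    refine Fej_ge L hL1 _ (8 * (H:ℝ) / N) ?_ h1
    have e : 6 * (L:ℝ) * (8 * (H:ℝ) / N) = ((L:ℝ) * (48 * (H:ℝ))) / N := by ring
    rw [e, div_le_one hNpos]
    exact hL2
  have hcount : (C'.card : ℝ) ≤ 4 * ∑ p ∈ C, Fej L (w p * γ) := by
    have h1 : (C'.card : ℝ) * (1 / 4) ≤ ∑ p ∈ C', Fej L (w p * γ) := by
      have := Finset.card_nsmul_le_sum C' (fun p => Fej L (w p * γ)) (1 / 4) hfej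
      simpa [nsmul_eq_mul] using this
    have h2 : ∑ p ∈ C', Fej L (w p * γ) ≤ ∑ p ∈ C, Fej L (w p * γ) :=
      Finset.sum_le_sum_of_subset_of_nonneg hsub fun _ _ _ => Fej_nonneg _ _
    linarith
  -- the twisted sums
  have hTT : ∀ j ∈ Ico 1 L, TT C w ((j:ℝ) * γ) =
      ∑ d ∈ Icc 1 (2 * min M₁ M₂), ((ArithmeticFunction.moebius d : ℤ) : ℂ) *
        BBc F (Nn M₂ d) (Nn M₁ d) (((d : ℕ):ℝ) * ((j:ℝ) * γ)) := by
    intro j _
    rw [← cell_moebius F hF M₁ M₂ hM₁1 hM₂1 ((j:ℝ) * γ)]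
    unfold TT
    rw [hC, Finset.sum_filter, Finset.sum_product]
  have hS : ∑ j ∈ Ico 1 L, ‖TT C w ((j:ℝ) * γ)‖ ≤ (L:ℝ) * F.card * Real.sqrt ((M₁:ℝ) * M₂) * E := by
    rw [Finset.sum_congr rfl fun j hj => by rw [hTT j hj]]
    refine sum_T_le hF hM₁1 hM₂1 hE0 ?_ ?_
    · exact hn0 n hn F hF hK1 hKn hKN M₁ L hM₁ (by
        have := le_max_left M₁ M₂
        omega) hL1 hLle
    · exact hn0 n hn F hF hK1 hKn hKN M₂ L hM₂ (by
        have := le_max_right M₁ M₂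
        omega) hL1 hLle
  have hfejsum := sum_fej_le C w γ L
  have hpos0 : 0 ≤ (F.card : ℝ) * Real.sqrt ((M₁:ℝ) * M₂) * E := by positivity
  exact cell_assemble hNpos hHpos hLpos hL3 (by positivity) hfejsum hcount hS hpos0

end

end Vale.Agent.Lib.P028K
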