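import Vale.Agent.Lib.P028K.Basics

/-! Part Chain: the square function inequality for a martingale in the torus coordinates. -/

open Finset

namespace Vale.Agent.Lib.P028K

open Vale.Agent.Lib.P028
open Vale.Agent.Lib.P028T

noncomputable section

variable {B M : ℕ} [NeZero M]

/-- One step: for reals `α, β ≥ 0`, `|t| ≤ 2 sqrt(α β)`. (Two cases: `16 k² β ≤ α` and its complement.) -/
lemma one_step_real (k : ℕ) (hk : 1 ≤ k) {α β t : ℝ} (hα : 0 ≤ α) (hβ : 0 ≤ β) (ht : t ^ 2 ≤ 4 * α * β) :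
    (α + β + t) ^ k ≤ α ^ k + k * α ^ (k - 1) * t + 10 * k ^ 2 * α ^ (k - 1) * β + (25 * k ^ 2 * β) ^ k := by
  obtain ⟨n, rfl⟩ : ∃ n, k = n + 1 := ⟨k - 1, by omega⟩
  simp only [Nat.add_sub_cancel]
  set K : ℝ := ((n + 1 : ℕ) : ℝ) with hK
  have hK1 : (1 : ℝ) ≤ K := by
    rw [hK]
    exact_mod_cast hk
  have hK2 : 1 ≤ K ^ 2 := by nlinarith
  have hpow : α ^ (n + 1) = α ^ n * α := pow_succ α n
  have hαn : 0 ≤ α ^ n := by positivity
  have h0 : 0 ≤ α + β + t := by
    have h1 : t ^ 2 ≤ (α + β) ^ 2 := by nlinarith [sq_nonneg (α - β)]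
    have h2 := abs_le_of_sq_le_sq' h1 (by positivity)
    linarith [h2.1]
  have hb0 : 0 ≤ (25 * K ^ 2 * β) ^ (n + 1) := by positivity
  by_cases hcase : 16 * K ^ 2 * β ≤ α ∧ 0 < α
  · obtain ⟨hc1, hαpos⟩ := hcase
    have hβα : 16 * β ≤ α := by nlinarith
    have hsq : (β + t) ^ 2 ≤ 9 * α * β := by
      nlinarith [sq_nonneg (β - t), mul_nonneg hβ (sub_nonneg.2 hβα)]
    set r : ℝ := (β + t) / α with hr
    set x : ℝ := K * r with hx
    have hr2 : r ^ 2 * α ≤ 9 * β := by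
      have : r ^ 2 * α ^ 2 = (β + t) ^ 2 := by
        rw [hr]
        field_simp
      have h3 : r ^ 2 * α * α ≤ (9 * β) * α := by nlinarith
      exact le_of_mul_le_mul_right h3 hαpos
    have hx2 : x ^ 2 * α ≤ 9 * K ^ 2 * β := by
      rw [hx, mul_pow]
      nlinarith
    have hx21 : x ^ 2 ≤ 1 := by
      have h3 : x ^ 2 * α ≤ 1 * α := by nlinarith
      exact le_of_mul_le_mul_right h3 hαpos
    have hxabs : |x| ≤ 1 := (sq_le_one_iff_abs_le_one x).1 hx21
    have hr1 : 0 ≤ 1 + r := by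
      have : 1 + r = (α + β + t) / α := by
        rw [hr]
        field_simp
        ring
      rw [this]
      positivity
    have hexp1 : (1 + r) ^ (n + 1) ≤ Real.exp x := by
      have h4 : 1 + r ≤ Real.exp r := by linarith [Real.add_one_le_exp r]
      calc (1 + r) ^ (n + 1) ≤ (Real.exp r) ^ (n + 1) := pow_le_pow_left₀ hr1 h4 _
        _ = Real.exp x := by
            rw [← Real.exp_nat_mul, hx, hK]
    have hexp2 : Real.exp x ≤ 1 + x + x ^ 2 := by
      have h5 := Real.abs_exp_sub_one_sub_id_le hxabs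
      have h6 := (abs_le.1 h5).2
      linarith
    have hmain : α + β + t = α * (1 + r) := by
      rw [hr]
      field_simp
      ring
    have hxα : α * x = K * (β + t) := by
      rw [hx, hr]
      field_simp
    calc (α + β + t) ^ (n + 1) = α ^ (n + 1) * (1 + r) ^ (n + 1) := by
          rw [hmain, mul_pow]
      _ ≤ α ^ (n + 1) * (1 + x + x ^ 2) := by
          refine mul_le_mul_of_nonneg_left (hexp1.trans hexp2) (by positivity)
      _ = α ^ n * α + α ^ n * (α * x) + α ^ n * (x ^ 2 * α) := by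
          rw [hpow]
          ring
      _ ≤ α ^ n * α + α ^ n * (K * (β + t)) + α ^ n * (9 * K ^ 2 * β) := by
          rw [hxα]
          have := mul_le_mul_of_nonneg_left hx2 hαn
          linarith
      _ ≤ α ^ (n + 1) + K * α ^ n * t + 10 * K ^ 2 * α ^ n * β +
            (25 * K ^ 2 * β) ^ (n + 1) := by
          rw [hpow]
          have h7 : K * β ≤ K ^ 2 * β := mul_le_mul_of_nonneg_right (by nlinarith) hβ
          have h8 := mul_le_mul_of_nonneg_left h7 hαn
          nlinarith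
  · have hc2 : α ≤ 16 * K ^ 2 * β := by
      by_contra hcon
      push Not at hcon
      have hα0 : 0 < α := by
        have : 0 ≤ 16 * K ^ 2 * β := by positivity
        linarith
      exact hcase ⟨hcon.le, hα0⟩
    have hKβ : 0 ≤ K * β := by positivity
    have ht8 : t ≤ 8 * K * β := by
      have h1 : t ^ 2 ≤ (8 * K * β) ^ 2 := by
        have : α * β ≤ 16 * K ^ 2 * β * β := mul_le_mul_of_nonneg_right hc2 hβ
        nlinarith
      exact (abs_le_of_sq_le_sq' h1 (by positivity)).2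
    have hup : α + β + t ≤ 25 * K ^ 2 * β := by
      have h2 : β ≤ K ^ 2 * β := by nlinarith
      have h3 : K * β ≤ K ^ 2 * β := mul_le_mul_of_nonneg_right (by nlinarith) hβ
      nlinarith
    have hrest : 0 ≤ α + K * t + 10 * K ^ 2 * β := by
      have h1 : (K * t) ^ 2 ≤ (α + K ^ 2 * β) ^ 2 := by
        have h2 : K ^ 2 * t ^ 2 ≤ K ^ 2 * (4 * α * β) :=
          mul_le_mul_of_nonneg_left ht (by positivity)
        nlinarith [sq_nonneg (α - K ^ 2 * β)]
      have h3 := (abs_le_of_sq_le_sq' h1 (by positivity)).1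
      have h4 : 0 ≤ K ^ 2 * β := by positivity
      nlinarith
    have hrest2 : 0 ≤ α ^ (n + 1) + K * α ^ n * t + 10 * K ^ 2 * α ^ n * β := by
      have := mul_nonneg hαn hrest
      rw [hpow]
      nlinarith
    have := pow_le_pow_left₀ h0 hup (n + 1)
    linarith

/-! ### Running sums -/

section Running

variable {ι : Type*} [Fintype ι]

/-- The running sum below `m`. -/
private def Sp (X : Fin B → Om B M → ι → ℂ) (m : ℕ) (ω : Om B M) (a : ι) : ℂ :=
  ∑ i ∈ univ.filter (fun i : Fin B => (i : ℕ) < m), zc (ω i) * X i ω a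

/-- The square function of the running sum. -/
private def xp (X : Fin B → Om B M → ι → ℂ) (m : ℕ) (ω : Om B M) : ℝ :=
  ∑ a, ‖Sp X m ω a‖ ^ 2

/-- The size of one increment. -/
private def bp (X : Fin B → Om B M → ι → ℂ) (i : Fin B) (ω : Om B M) : ℝ :=
  ∑ a, ‖X i ω a‖ ^ 2

/-- The coefficient of the character in the cross term. -/
private def cp (X : Fin B → Om B M → ι → ℂ) (i : Fin B) (ω : Om B M) : ℂ :=
  ∑ a, (starRingEnd ℂ) (Sp X (i : ℕ) ω a) * X i ω a

/-- The cross term. -/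
private def tp (X : Fin B → Om B M → ι → ℂ) (i : Fin B) (ω : Om B M) : ℝ :=
  2 * (zc (ω i) * cp X i ω).re

private lemma filter_succ (i : Fin B) :
    univ.filter (fun j : Fin B => (j : ℕ) < (i : ℕ) + 1) =
      insert i (univ.filter (fun j : Fin B => (j : ℕ) < (i : ℕ))) := by
  ext j
  simp only [Finset.mem_filter, Finset.mem_univ, true_and, Finset.mem_insert, Fin.ext_iff]
  omega

private lemma Sp_succ (X : Fin B → Om B M → ι → ℂ) (i : Fin B) (ω : Om B M) (a : ι) :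
    Sp X ((i : ℕ) + 1) ω a = Sp X (i : ℕ) ω a + zc (ω i) * X i ω a := by
  unfold Sp
  rw [filter_succ, Finset.sum_insert (by simp), add_comm]

private lemma xp_succ (X : Fin B → Om B M → ι → ℂ) (i : Fin B) (ω : Om B M) :
    xp X ((i : ℕ) + 1) ω = xp X (i : ℕ) ω + bp X i ω + tp X i ω := by
  unfold xp bp tp cp
  rw [← Finset.sum_add_distrib, Finset.mul_sum, Complex.re_sum, Finset.mul_sum,
    ← Finset.sum_add_distrib]
  refine Finset.sum_congr rfl ?_
  intro a _
  rw [Sp_succ]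
  set A := Sp X (i : ℕ) ω a
  set Y := X i ω a
  set z := zc (ω i)
  have hz : ‖z‖ = 1 := norm_zc _
  have h1 : ‖A + z * Y‖ ^ 2 = ‖A‖ ^ 2 + ‖z * Y‖ ^ 2 + 2 * (A * (starRingEnd ℂ) (z * Y)).re := by
    simp only [Complex.sq_norm]
    rw [Complex.normSq_add]
  have h2 : ‖z * Y‖ = ‖Y‖ := by
    rw [norm_mul, hz, one_mul]
  have h3 : (A * (starRingEnd ℂ) (z * Y)).re = (z * ((starRingEnd ℂ) A * Y)).re := by
    rw [← Complex.conj_re]
    congr 1
    simp only [map_mul, Complex.conj_conj]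
    ring
  rw [h1, h2, h3]

private lemma tp_sq (X : Fin B → Om B M → ι → ℂ) (i : Fin B) (ω : Om B M) :
    tp X i ω ^ 2 ≤ 4 * xp X (i : ℕ) ω * bp X i ω := by
  have hz : ‖zc (ω i)‖ = 1 := norm_zc _
  have h1 : |(zc (ω i) * cp X i ω).re| ≤ ‖cp X i ω‖ := by
    refine (Complex.abs_re_le_norm _).trans ?_
    rw [norm_mul, hz, one_mul]
  have h2 : ‖cp X i ω‖ ≤ ∑ a, ‖Sp X (i : ℕ) ω a‖ * ‖X i ω a‖ := by
    unfold cp
    refine (norm_sum_le _ _).trans (le_of_eq ?_)
    refine Finset.sum_congr rfl ?_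
    intro a _
    rw [norm_mul, Complex.norm_conj]
  have h3 : (∑ a, ‖Sp X (i : ℕ) ω a‖ * ‖X i ω a‖) ^ 2 ≤ xp X (i : ℕ) ω * bp X i ω :=
    Finset.sum_mul_sq_le_sq_mul_sq _ _ _
  have h4 : ‖cp X i ω‖ ^ 2 ≤ xp X (i : ℕ) ω * bp X i ω :=
    (pow_le_pow_left₀ (norm_nonneg _) h2 2).trans h3
  have h5 : (zc (ω i) * cp X i ω).re ^ 2 ≤ ‖cp X i ω‖ ^ 2 := by
    rw [← sq_abs]
    exact pow_le_pow_left₀ (abs_nonneg _) h1 2
  unfold tp
  nlinarith

private lemma xp_nonneg (X : Fin B → Om B M → ι → ℂ) (m : ℕ) (ω : Om B M) : 0 ≤ xp X m ω :=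
  Finset.sum_nonneg fun _ _ => by positivity

private lemma bp_nonneg (X : Fin B → Om B M → ι → ℂ) (i : Fin B) (ω : Om B M) : 0 ≤ bp X i ω :=
  Finset.sum_nonneg fun _ _ => by positivity

private lemma xp_zero (X : Fin B → Om B M → ι → ℂ) (ω : Om B M) : xp X 0 ω = 0 := by
  unfold xp Sp
  simp

/-- Invariance under a change of the coordinate `j`. -/
private lemma dep_update {F : Om B M → ℂ} {n : ℕ} (hF : DepBelow n F) (j : Fin B)
    (hj : n ≤ (j : ℕ)) (ω : Om B M) (y : ZMod M) : F (Function.update ω j y) = F ω := by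
  refine hF _ _ ?_
  intro l hl
  have : l ≠ j := by
    intro h
    rw [h] at hl
    omega
  exact Function.update_of_ne this _ _

private lemma Sp_update (X : Fin B → Om B M → ι → ℂ)
    (hdep : ∀ (i : Fin B) (a : ι), DepBelow (i : ℕ) (fun ω => X i ω a))
    (m : ℕ) (j : Fin B) (hj : m ≤ (j : ℕ)) (ω : Om B M) (y : ZMod M) (a : ι) :
    Sp X m (Function.update ω j y) a = Sp X m ω a := by
  unfold Sp
  refine Finset.sum_congr rfl ?_
  intro l hl
  have hl' : (l : ℕ) < m := (Finset.mem_filter.1 hl).2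
  have hne : l ≠ j := by
    intro h
    rw [h] at hl'
    omega
  rw [Function.update_of_ne hne]
  have : X l (Function.update ω j y) a = X l ω a := dep_update (hdep l a) j (by omega) ω y
  rw [this]

private lemma xp_update (X : Fin B → Om B M → ι → ℂ)
    (hdep : ∀ (i : Fin B) (a : ι), DepBelow (i : ℕ) (fun ω => X i ω a))
    (m : ℕ) (j : Fin B) (hj : m ≤ (j : ℕ)) (ω : Om B M) (y : ZMod M) :
    xp X m (Function.update ω j y) = xp X m ω := by
  unfold xp
  simp only [Sp_update X hdep m j hj]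

private lemma bp_update (X : Fin B → Om B M → ι → ℂ)
    (hdep : ∀ (i : Fin B) (a : ι), DepBelow (i : ℕ) (fun ω => X i ω a))
    (i j : Fin B) (hj : (i : ℕ) ≤ (j : ℕ)) (ω : Om B M) (y : ZMod M) :
    bp X i (Function.update ω j y) = bp X i ω := by
  unfold bp
  refine Finset.sum_congr rfl ?_
  intro a _
  have : X i (Function.update ω j y) a = X i ω a := dep_update (hdep i a) j hj ω y
  rw [this]

private lemma cp_update (X : Fin B → Om B M → ι → ℂ)
    (hdep : ∀ (i : Fin B) (a : ι), DepBelow (i : ℕ) (fun ω => X i ω a))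
    (i : Fin B) (ω : Om B M) (y : ZMod M) :
    cp X i (Function.update ω i y) = cp X i ω := by
  unfold cp
  refine Finset.sum_congr rfl ?_
  intro a _
  have : X i (Function.update ω i y) a = X i ω a := dep_update (hdep i a) i le_rfl ω y
  rw [this, Sp_update X hdep (i : ℕ) i le_rfl]

/-- The cross term has mean zero against anything independent of the coordinate. -/
private lemma mean_zero (hM : 2 ≤ M) (X : Fin B → Om B M → ι → ℂ)
    (hdep : ∀ (i : Fin B) (a : ι), DepBelow (i : ℕ) (fun ω => X i ω a))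
    (i : Fin B) (G : Om B M → ℝ) (hG : ∀ ω y, G (Function.update ω i y) = G ω) :
    EE (fun ω => G ω * tp X i ω) = 0 := by
  rw [EE_update i]
  have h0 : ∀ ω : Om B M, (∑ y : ZMod M, G (Function.update ω i y) *
      tp X i (Function.update ω i y)) / (M : ℝ) = 0 := by
    intro ω
    have h1 : ∑ y : ZMod M, G (Function.update ω i y) * tp X i (Function.update ω i y) = 0 := by
      have h2 : ∀ y : ZMod M, G (Function.update ω i y) * tp X i (Function.update ω i y) =
          G ω * 2 * (zc y * cp X i ω).re := by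
        intro y
        unfold tp
        rw [hG, cp_update X hdep, Function.update_self]
        ring
      simp only [h2]
      rw [← Finset.mul_sum, ← Complex.re_sum, ← Finset.sum_mul, sum_zc hM]
      simp
    rw [h1, zero_div]
  simp only [h0]
  exact EE_const 0

/-- Tangent line inequality. -/
private lemma tangent (n : ℕ) {a b : ℝ} (ha : 0 ≤ a) (hb : 0 ≤ b) :
    a ^ (n + 1) + ((n : ℝ) + 1) * a ^ n * (b - a) ≤ b ^ (n + 1) := by
  induction n with
  | zero => simp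
  | succ n ih =>
    have h1 : b * (a ^ (n + 1) + ((n : ℝ) + 1) * a ^ n * (b - a)) ≤ b * b ^ (n + 1) :=
      mul_le_mul_of_nonneg_left ih hb
    have h2 : 0 ≤ ((n : ℝ) + 1) * a ^ n * (b - a) ^ 2 := by positivity
    have h3 : b ^ (n + 1 + 1) = b * b ^ (n + 1) := by ring
    rw [h3]
    push_cast
    have h4 : a ^ (n + 1 + 1) + ((n : ℝ) + 1 + 1) * a ^ (n + 1) * (b - a) +
        ((n : ℝ) + 1) * a ^ n * (b - a) ^ 2 = b * (a ^ (n + 1) + ((n : ℝ) + 1) * a ^ n * (b - a)) := by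
      ring
    linarith

/-- One submartingale step. -/
private lemma sub_step (hM : 2 ≤ M) (X : Fin B → Om B M → ι → ℂ)
    (hdep : ∀ (i : Fin B) (a : ι), DepBelow (i : ℕ) (fun ω => X i ω a))
    (j : Fin B) (G : Om B M → ℝ) (hG0 : ∀ ω, 0 ≤ G ω)
    (hG : ∀ ω y, G (Function.update ω j y) = G ω) (n : ℕ) :
    EE (fun ω => xp X (j : ℕ) ω ^ n * G ω) ≤ EE (fun ω => xp X ((j : ℕ) + 1) ω ^ n * G ω) := by
  rcases n with _ | n
  · simp
  · have hpt : ∀ ω, xp X (j : ℕ) ω ^ (n + 1) * G ω +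
        ((n : ℝ) + 1) * (xp X (j : ℕ) ω ^ n * G ω * tp X j ω) ≤
          xp X ((j : ℕ) + 1) ω ^ (n + 1) * G ω := by
      intro ω
      have h1 := tangent n (xp_nonneg X (j : ℕ) ω) (xp_nonneg X ((j : ℕ) + 1) ω)
      rw [xp_succ] at h1 ⊢
      have h2 : 0 ≤ ((n : ℝ) + 1) * xp X (j : ℕ) ω ^ n * bp X j ω := by
        have := xp_nonneg X (j : ℕ) ω
        have := bp_nonneg X j ω
        positivity
      have h3 : xp X (j : ℕ) ω ^ (n + 1) + ((n : ℝ) + 1) * xp X (j : ℕ) ω ^ n * tp X j ω ≤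
          (xp X (j : ℕ) ω + bp X j ω + tp X j ω) ^ (n + 1) := by
        nlinarith
      have h4 := mul_le_mul_of_nonneg_right h3 (hG0 ω)
      nlinarith
    have hzero : EE (fun ω => (xp X (j : ℕ) ω ^ n * G ω) * tp X j ω) = 0 := by
      refine mean_zero hM X hdep j _ ?_
      intro ω y
      rw [xp_update X hdep (j : ℕ) j le_rfl, hG]
    have h5 := EE_mono hpt
    rw [EE_add, EE_mul_left, hzero, mul_zero, add_zero] at h5
    exact h5

/-- The submartingale property along the chain. -/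
private lemma sub_chain (hM : 2 ≤ M) (X : Fin B → Om B M → ι → ℂ)
    (hdep : ∀ (i : Fin B) (a : ι), DepBelow (i : ℕ) (fun ω => X i ω a))
    (i : Fin B) (n m : ℕ) (him : (i : ℕ) ≤ m) (hm : m ≤ B) :
    EE (fun ω => xp X (i : ℕ) ω ^ n * bp X i ω) ≤ EE (fun ω => xp X m ω ^ n * bp X i ω) := by
  induction m, him using Nat.le_induction with
  | base => exact le_rfl
  | succ m hm' ih =>
    have h1 := ih (by omega)
    have h2 := sub_step hM X hdep ⟨m, by omega⟩ (bp X i) (bp_nonneg X i)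
      (fun ω y => bp_update X hdep i ⟨m, by omega⟩ hm' ω y) n
    exact h1.trans h2

/-- One step of the moment recursion. -/
private lemma moment_step (k : ℕ) (hk : 1 ≤ k) (hM : 2 ≤ M) (X : Fin B → Om B M → ι → ℂ)
    (hdep : ∀ (i : Fin B) (a : ι), DepBelow (i : ℕ) (fun ω => X i ω a)) (i : Fin B) :
    EE (fun ω => xp X ((i : ℕ) + 1) ω ^ k) ≤ EE (fun ω => xp X (i : ℕ) ω ^ k) +
      10 * (k : ℝ) ^ 2 * EE (fun ω => xp X (i : ℕ) ω ^ (k - 1) * bp X i ω) +
      (25 * (k : ℝ) ^ 2) ^ k * EE (fun ω => bp X i ω ^ k) := by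
  have hpt : ∀ ω, xp X ((i : ℕ) + 1) ω ^ k ≤
      ((xp X (i : ℕ) ω ^ k + (k : ℝ) * (xp X (i : ℕ) ω ^ (k - 1) * tp X i ω)) +
        10 * (k : ℝ) ^ 2 * (xp X (i : ℕ) ω ^ (k - 1) * bp X i ω)) +
        (25 * (k : ℝ) ^ 2) ^ k * bp X i ω ^ k := by
    intro ω
    rw [xp_succ]
    have h := one_step_real k hk (xp_nonneg X (i : ℕ) ω) (bp_nonneg X i ω) (tp_sq X i ω)
    rw [mul_pow (25 * (k : ℝ) ^ 2)] at h
    nlinarith
  have hzero : EE (fun ω => xp X (i : ℕ) ω ^ (k - 1) * tp X i ω) = 0 := by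
    refine mean_zero hM X hdep i _ ?_
    intro ω y
    rw [xp_update X hdep (i : ℕ) i le_rfl]
  have h5 := EE_mono hpt
  rw [EE_add, EE_add, EE_add, EE_mul_left, EE_mul_left, EE_mul_left, hzero, mul_zero,
    add_zero] at h5
  exact h5

/-- The telescoped form. -/
private lemma moment_tele (k : ℕ) (hk : 1 ≤ k) (hM : 2 ≤ M) (X : Fin B → Om B M → ι → ℂ)
    (hdep : ∀ (i : Fin B) (a : ι), DepBelow (i : ℕ) (fun ω => X i ω a)) (m : ℕ) (hm : m ≤ B) :
    EE (fun ω => xp X m ω ^ k) ≤ ∑ i ∈ univ.filter (fun i : Fin B => (i : ℕ) < m),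
      (10 * (k : ℝ) ^ 2 * EE (fun ω => xp X (i : ℕ) ω ^ (k - 1) * bp X i ω) +
      (25 * (k : ℝ) ^ 2) ^ k * EE (fun ω => bp X i ω ^ k)) := by
  induction m with
  | zero =>
    have h0 : (fun ω : Om B M => xp X 0 ω ^ k) = fun _ => (0 : ℝ) := by
      funext ω
      rw [xp_zero, zero_pow (by omega)]
    rw [h0, EE_const]
    simp
  | succ m ih =>
    have h1 := ih (by omega)
    have h2 := moment_step k hk hM X hdep (⟨m, by omega⟩ : Fin B)
    have h3 : univ.filter (fun i : Fin B => (i : ℕ) < m + 1) =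
        insert (⟨m, by omega⟩ : Fin B) (univ.filter (fun i : Fin B => (i : ℕ) < m)) :=
      filter_succ (⟨m, by omega⟩ : Fin B)
    rw [h3, Finset.sum_insert (by simp)]
    simp only at h2
    linarith

end Running

/-- The numeric end of the argument. -/
private lemma final_num (k : ℕ) (hk : 1 ≤ k) {A W : ℝ} (hA : 0 ≤ A) (hW : 0 ≤ W)
    (h : A ≤ 10 * (k : ℝ) ^ 2 * (A ^ (((k : ℝ) - 1) / k) * W ^ ((1 : ℝ) / k)) +
      (25 * (k : ℝ) ^ 2) ^ k * W) :
    A ≤ (50 * (k : ℝ) ^ 2) ^ k * W := by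
  have hk0 : (k : ℝ) ≠ 0 := by
    have : 0 < k := by omega
    positivity
  set y : ℝ := A ^ ((1 : ℝ) / k) with hy
  set w : ℝ := W ^ ((1 : ℝ) / k) with hw
  have hy0 : 0 ≤ y := Real.rpow_nonneg hA _
  have hw0 : 0 ≤ w := Real.rpow_nonneg hW _
  have hyk : y ^ k = A := by
    rw [hy, ← Real.rpow_natCast, ← Real.rpow_mul hA, one_div, inv_mul_cancel₀ hk0, Real.rpow_one]
  have hwk : w ^ k = W := by
    rw [hw, ← Real.rpow_natCast, ← Real.rpow_mul hW, one_div, inv_mul_cancel₀ hk0, Real.rpow_one]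
  have hym : A ^ (((k : ℝ) - 1) / k) = y ^ (k - 1) := by
    rw [hy, ← Real.rpow_natCast, ← Real.rpow_mul hA, Nat.cast_sub hk]
    congr 1
    push_cast
    field_simp
  rw [hym, ← hyk, ← hwk] at h
  rw [← hyk, ← hwk, ← mul_pow]
  by_contra hcon
  push Not at hcon
  have hlt : 50 * (k : ℝ) ^ 2 * w < y := lt_of_pow_lt_pow_left₀ k hy0 hcon
  have hk2 : 0 ≤ (k : ℝ) ^ 2 := by positivity
  have hy1 : 0 < y := lt_of_le_of_lt (by positivity) hlt
  have hyk1 : 0 < y ^ k := by positivity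
  have h1 : 10 * (k : ℝ) ^ 2 * (y ^ (k - 1) * w) ≤ y ^ k / 5 := by
    have h2 : y ^ k = y ^ (k - 1) * y := by
      rw [← pow_succ]
      congr 1
      omega
    have h3 : 0 ≤ y ^ (k - 1) := by positivity
    have h4 : 10 * (k : ℝ) ^ 2 * w ≤ y / 5 := by linarith
    have h5 := mul_le_mul_of_nonneg_left h4 h3
    rw [h2]
    nlinarith
  have h6 : (25 * (k : ℝ) ^ 2) ^ k * w ^ k ≤ y ^ k / 2 := by
    rw [← mul_pow]
    have h7 : 25 * (k : ℝ) ^ 2 * w ≤ y / 2 := by linarith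
    have h8 : 0 ≤ 25 * (k : ℝ) ^ 2 * w := by positivity
    have h9 := pow_le_pow_left₀ h8 h7 k
    rw [div_pow] at h9
    have h10 : (2 : ℝ) ≤ 2 ^ k := by
      calc (2 : ℝ) = 2 ^ 1 := by norm_num
        _ ≤ 2 ^ k := pow_le_pow_right₀ (by norm_num) hk
    have h11 : y ^ k / 2 ^ k ≤ y ^ k / 2 := div_le_div_of_nonneg_left hyk1.le (by norm_num) h10
    linarith
  linarith

/-- The square function inequality, vector valued. `X i` depends on the coordinates below `i`. -/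
theorem chain_step (k : ℕ) (hk : 1 ≤ k) (hM : 2 ≤ M) {ι : Type*} [Fintype ι]
    (X : Fin B → Om B M → ι → ℂ) (hdep : ∀ (i : Fin B) (a : ι), DepBelow (i:ℕ) (fun ω => X i ω a)) :
    EE (fun ω => (∑ a, ‖∑ i, zc (ω i) * X i ω a‖ ^ 2) ^ k)
      ≤ (50 * (k:ℝ) ^ 2) ^ k * EE (fun ω => (∑ i, ∑ a, ‖X i ω a‖ ^ 2) ^ k) := by
  have hLHS : (fun ω : Om B M => (∑ a, ‖∑ i, zc (ω i) * X i ω a‖ ^ 2) ^ k) =
      fun ω => xp X B ω ^ k := by
    funext ω
    unfold xp Sp
    rw [Finset.filter_true_of_mem (fun i _ => i.2)]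
  rw [hLHS]
  set V : Om B M → ℝ := fun ω => ∑ i, bp X i ω with hV
  have hRHS : (fun ω : Om B M => (∑ i, ∑ a, ‖X i ω a‖ ^ 2) ^ k) = fun ω => V ω ^ k := rfl
  rw [hRHS]
  have hV0 : ∀ ω, 0 ≤ V ω := fun ω => Finset.sum_nonneg fun i _ => bp_nonneg X i ω
  have hx0 : ∀ ω, 0 ≤ xp X B ω := xp_nonneg X B
  have htele := moment_tele k hk hM X hdep B le_rfl
  rw [Finset.filter_true_of_mem (fun i _ => i.2)] at htele
  have hk2 : (0 : ℝ) ≤ 10 * (k : ℝ) ^ 2 := by positivity
  have hk3 : (0 : ℝ) ≤ (25 * (k : ℝ) ^ 2) ^ k := by positivity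
  have h1 : ∑ i : Fin B, (10 * (k : ℝ) ^ 2 * EE (fun ω => xp X (i : ℕ) ω ^ (k - 1) * bp X i ω) +
      (25 * (k : ℝ) ^ 2) ^ k * EE (fun ω => bp X i ω ^ k)) ≤
      ∑ i : Fin B, (10 * (k : ℝ) ^ 2 * EE (fun ω => xp X B ω ^ (k - 1) * bp X i ω) +
      (25 * (k : ℝ) ^ 2) ^ k * EE (fun ω => bp X i ω ^ k)) := by
    refine Finset.sum_le_sum ?_
    intro i _
    have h2 := sub_chain hM X hdep i (k - 1) B i.2.le le_rfl
    have h3 := mul_le_mul_of_nonneg_left h2 hk2
    linarith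
  have hA0 : 0 ≤ EE (fun ω => xp X B ω ^ k) := EE_nonneg fun ω => pow_nonneg (hx0 ω) _
  have hW0 : 0 ≤ EE (fun ω => V ω ^ k) := EE_nonneg fun ω => pow_nonneg (hV0 ω) _
  have h2 : ∑ i : Fin B, (10 * (k : ℝ) ^ 2 * EE (fun ω => xp X B ω ^ (k - 1) * bp X i ω) +
      (25 * (k : ℝ) ^ 2) ^ k * EE (fun ω => bp X i ω ^ k)) ≤
      10 * (k : ℝ) ^ 2 * EE (fun ω => xp X B ω ^ (k - 1) * V ω) +
      (25 * (k : ℝ) ^ 2) ^ k * EE (fun ω => V ω ^ k) := by
    rw [Finset.sum_add_distrib, ← Finset.mul_sum, ← Finset.mul_sum]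
    have h3 : ∑ i : Fin B, EE (fun ω => xp X B ω ^ (k - 1) * bp X i ω) =
        EE (fun ω => xp X B ω ^ (k - 1) * V ω) := by
      rw [← EE_sum]
      congr 1
      funext ω
      rw [hV, Finset.mul_sum]
    have h4 : ∑ i : Fin B, EE (fun ω => bp X i ω ^ k) ≤ EE (fun ω => V ω ^ k) := by
      rw [← EE_sum]
      refine EE_mono ?_
      intro ω
      have h5 : ∀ i ∈ (univ : Finset (Fin B)), bp X i ω ^ k ≤ bp X i ω * V ω ^ (k - 1) := by
        intro i hi
        have h6 : bp X i ω ≤ V ω :=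
          Finset.single_le_sum (f := fun i => bp X i ω) (fun j _ => bp_nonneg X j ω) hi
        have h7 : bp X i ω ^ (k - 1) ≤ V ω ^ (k - 1) :=
          pow_le_pow_left₀ (bp_nonneg X i ω) h6 _
        have h8 : bp X i ω ^ k = bp X i ω * bp X i ω ^ (k - 1) := by
          rw [← pow_succ']
          congr 1
          omega
        rw [h8]
        exact mul_le_mul_of_nonneg_left h7 (bp_nonneg X i ω)
      refine (Finset.sum_le_sum h5).trans (le_of_eq ?_)
      rw [← Finset.sum_mul]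
      have h9 : V ω ^ k = V ω * V ω ^ (k - 1) := by
        rw [← pow_succ']
        congr 1
        omega
      rw [h9]
    rw [h3]
    have := mul_le_mul_of_nonneg_left h4 hk3
    linarith
  have hH := EE_holder k hk hx0 hV0
  refine final_num k hk hA0 hW0 ?_
  have h3 := mul_le_mul_of_nonneg_left hH hk2
  linarith [htele.trans (h1.trans h2)]

end

end Vale.Agent.Lib.P028K
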