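import Vale.Agent.Lib.P028K.Chain

/-! Part ChainIter: extraction of `r` top primes. -/

open Finset

namespace Vale.Agent.Lib.P028K

open Vale.Agent.Lib.P028
open Vale.Agent.Lib.P028T

noncomputable section

variable {B M : ℕ} [NeZero M]

private lemma bigP_mem_aux {u : ℕ} (h : u.primeFactors.Nonempty) : bigP u ∈ u.primeFactors := by
  obtain ⟨i, hi, hs⟩ := Finset.exists_mem_eq_sup u.primeFactors h id
  unfold bigP
  rw [hs]
  exact hi

private lemma le_bigP_aux {u p : ℕ} (h : p ∈ u.primeFactors) : p ≤ bigP u := by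
  unfold bigP
  exact Finset.le_sup (f := id) h

private lemma DepBelow_mono {i j : ℕ} {F : Om B M → ℂ} (hij : i ≤ j) (h : DepBelow i F) : DepBelow j F := by
  intro ω ω' hω
  exact h ω ω' (fun l hl => hω l (lt_of_lt_of_le hl hij))

/-- Structure of a squarefree number by its largest prime. -/
private lemma top_facts {u r : ℕ} (hs : Squarefree u) (hc : u.primeFactors.card = r + 1) :
    (bigP u).Prime ∧ u = bigP u * (u / bigP u) ∧ Squarefree (u / bigP u)
      ∧ (u / bigP u).primeFactors.card = r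
      ∧ (∀ q ∈ (u / bigP u).primeFactors, q < bigP u ∧ q ∈ u.primeFactors)
      ∧ bigP u ∈ u.primeFactors := by
  have hne : u.primeFactors.Nonempty := by
    rw [← Finset.card_pos]; omega
  have hmem := bigP_mem_aux hne
  have hp : (bigP u).Prime := Nat.prime_of_mem_primeFactors hmem
  have hd : bigP u ∣ u := Nat.dvd_of_mem_primeFactors hmem
  have hu : u = bigP u * (u / bigP u) := (Nat.mul_div_cancel' hd).symm
  have hs' := hs
  rw [hu] at hs'
  obtain ⟨hcop, -, hsv⟩ := Nat.squarefree_mul_iff.mp hs'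
  have hu0 : u ≠ 0 := hs.ne_zero
  have hv0 : u / bigP u ≠ 0 := hsv.ne_zero
  have hnotin : bigP u ∉ (u / bigP u).primeFactors := by
    intro h
    have hd' := Nat.dvd_of_mem_primeFactors h
    have := Nat.Coprime.eq_one_of_dvd hcop hd'
    exact hp.one_lt.ne' this
  have hunion : u.primeFactors = insert (bigP u) (u / bigP u).primeFactors := by
    conv_lhs => rw [hu]
    rw [Nat.Coprime.primeFactors_mul hcop, hp.primeFactors]
    rfl
  have hcard : (u / bigP u).primeFactors.card = r := by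
    have := hc
    rw [hunion, Finset.card_insert_of_notMem hnotin] at this
    omega
  refine ⟨hp, hu, hsv, hcard, ?_, hmem⟩
  intro q hq
  have hqu : q ∈ u.primeFactors := by
    rw [hunion]; exact Finset.mem_insert_of_mem hq
  refine ⟨lt_of_le_of_ne (le_bigP_aux hqu) ?_, hqu⟩
  rintro rfl
  exact hnotin hq

private lemma minFac_top {p v : ℕ} (hv : v ≠ 1) (hv0 : v ≠ 0) (hp : p.Prime)
    (h : ∀ q ∈ v.primeFactors, q < p) : (p * v).minFac = v.minFac := by
  have hmv : v.minFac.Prime := Nat.minFac_prime hv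
  have hmv_mem : v.minFac ∈ v.primeFactors :=
    Nat.mem_primeFactors.mpr ⟨hmv, Nat.minFac_dvd v, hv0⟩
  have hlt : v.minFac < p := h _ hmv_mem
  have hle : (p * v).minFac ≤ v.minFac :=
    Nat.minFac_le_of_dvd hmv.two_le ((Nat.minFac_dvd v).trans (Nat.dvd_mul_left v p))
  have hpv1 : p * v ≠ 1 := by
    intro h1
    exact hp.one_lt.ne' (Nat.eq_one_of_mul_eq_one_right h1)
  have hmp : (p * v).minFac.Prime := Nat.minFac_prime hpv1
  have hdv : (p * v).minFac ∣ p * v := Nat.minFac_dvd _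
  rcases (Nat.Prime.dvd_mul hmp).mp hdv with h1 | h1
  · have := (Nat.prime_dvd_prime_iff_eq hmp hp).mp h1
    omega
  · have : v.minFac ≤ (p * v).minFac := Nat.minFac_le_of_dvd hmp.two_le h1
    omega

private lemma ff_prime (ω : Om B M) {p : ℕ} (hp : p.Prime) : ff ω p = zp ω p := by
  unfold ff
  rw [hp.primeFactors, Finset.prod_singleton, hp.factorization_self, pow_one]

private lemma zp_fin (ω : Om B M) (i : Fin B) : zp ω (i:ℕ) = zc (ω i) := by
  unfold zp
  rw [dif_pos i.2]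

/-- Splitting a sum over the value of the largest prime. -/
private lemma sum_top_split {β : Type*} [AddCommMonoid β] {U : Finset ℕ} {r : ℕ}
    (hU : ∀ u ∈ U, Squarefree u ∧ u.primeFactors.card = r + 1 ∧ ∀ p ∈ u.primeFactors, p < B)
    (F : ℕ → β) :
    ∑ u ∈ U, F u = ∑ i : Fin B, ∑ u ∈ U.filter (fun u => bigP u = (i:ℕ)), F u := by
  have hmaps : ∀ u ∈ U, bigP u ∈ Finset.range B := by
    intro u hu
    obtain ⟨hs, hc, hB⟩ := hU u hu
    obtain ⟨-, -, -, -, -, hmem⟩ := top_facts hs hc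
    exact Finset.mem_range.mpr (hB _ hmem)
  rw [← Finset.sum_fiberwise_of_maps_to hmaps F]
  rw [Finset.sum_range (fun i => ∑ u ∈ U.filter (fun u => bigP u = i), F u)]

/-- Inner form of the induction: the dependence is only needed for `u ≠ 1`. -/
private theorem chain_iter_aux (k : ℕ) (hk : 1 ≤ k) (hM : 2 ≤ M) (r : ℕ) :
    ∀ {ι : Type} [Fintype ι] (U : ι → Finset ℕ)
      (_ : ∀ a, ∀ u ∈ U a, Squarefree u ∧ u.primeFactors.card = r ∧ ∀ p ∈ u.primeFactors, p < B)
      (R : ι → ℕ → Om B M → ℂ) (_ : ∀ a, ∀ u ∈ U a, u ≠ 1 → DepBelow u.minFac (R a u)),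
      EE (fun ω => (∑ a, ‖∑ u ∈ U a, ff ω u * R a u ω‖ ^ 2) ^ k)
        ≤ ((50 * (k:ℝ) ^ 2) ^ r) ^ k * EE (fun ω => (∑ a, ∑ u ∈ U a, ‖R a u ω‖ ^ 2) ^ k) := by
  induction r with
  | zero =>
    intro ι _ U hU R _
    simp only [pow_zero, one_pow, one_mul]
    apply EE_mono
    intro ω
    have key : ∀ a, ‖∑ u ∈ U a, ff ω u * R a u ω‖ ^ 2 = ∑ u ∈ U a, ‖R a u ω‖ ^ 2 := by
      intro a
      have hone : ∀ u ∈ U a, u = 1 := by
        intro u hu
        obtain ⟨hs, hc, -⟩ := hU a u hu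
        have h0 : u.primeFactors = ∅ := Finset.card_eq_zero.mp hc
        rcases Nat.primeFactors_eq_empty.mp h0 with h | h
        · exact absurd h hs.ne_zero
        · exact h
      by_cases hmem : 1 ∈ U a
      · have hUa : U a = {1} := by
          ext x
          simp only [Finset.mem_singleton]
          constructor
          · exact hone x
          · rintro rfl; exact hmem
        rw [hUa, Finset.sum_singleton, Finset.sum_singleton, ff_one, one_mul]
      · have hUa : U a = ∅ := by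
          apply Finset.eq_empty_of_forall_notMem
          intro x hx
          exact hmem (hone x hx ▸ hx)
        rw [hUa]
        simp
    simp only [key]
    exact le_refl _
  | succ r ih =>
    intro ι _ U hU R hdep
    classical
    -- the top coordinate vector
    let X : Fin B → Om B M → ι → ℂ := fun i ω a =>
      ∑ u ∈ (U a).filter (fun u => bigP u = (i:ℕ)), ff ω (u / (i:ℕ)) * R a u ω
    have hfacts : ∀ a, ∀ u ∈ U a, _ := fun a u hu => top_facts (hU a u hu).1 (hU a u hu).2.1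
    have hX : ∀ (i : Fin B) (a : ι), DepBelow (i:ℕ) (fun ω => X i ω a) := by
      intro i a ω ω' hω
      refine Finset.sum_congr rfl ?_
      intro u hu
      obtain ⟨huU, hi⟩ := Finset.mem_filter.mp hu
      obtain ⟨hp, hudec, -, -, hlt, hmem⟩ := hfacts a u huU
      have h1 : ff ω (u / (i:ℕ)) = ff ω' (u / (i:ℕ)) := by
        apply ff_dep (i := (i:ℕ)) (n := u / (i:ℕ)) (B := B) (M := M) _ ω ω' hω
        intro q hq
        rw [← hi] at hq ⊢
        exact (hlt q hq).1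
      have hune : u ≠ 1 := by
        rintro rfl
        simp at hmem
      have hmin : u.minFac ≤ (i:ℕ) := by
        rw [← hi]
        exact Nat.minFac_le_of_dvd hp.two_le (Nat.dvd_of_mem_primeFactors hmem)
      have h2 : R a u ω = R a u ω' := DepBelow_mono hmin (hdep a u huU hune) ω ω' hω
      rw [h1, h2]
    have hstep := chain_step (B := B) (M := M) k hk hM X hX
    -- the identification of the left sides
    have hleft : ∀ ω a, ∑ u ∈ U a, ff ω u * R a u ω = ∑ i : Fin B, zc (ω i) * X i ω a := by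
      intro ω a
      rw [sum_top_split (hU a)]
      refine Finset.sum_congr rfl ?_
      intro i _
      show _ = zc (ω i) * ∑ u ∈ (U a).filter (fun u => bigP u = (i:ℕ)), ff ω (u / (i:ℕ)) * R a u ω
      rw [Finset.mul_sum]
      refine Finset.sum_congr rfl ?_
      intro u hu
      obtain ⟨huU, hi⟩ := Finset.mem_filter.mp hu
      obtain ⟨hp, hudec, hsv, -, -, -⟩ := hfacts a u huU
      have h0 : u ≠ 0 := (hU a u huU).1.ne_zero
      have hv0 : u / bigP u ≠ 0 := hsv.ne_zero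
      have hff : ff ω u = zc (ω i) * ff ω (u / (i:ℕ)) := by
        rw [← hi]
        conv_lhs => rw [hudec]
        rw [ff_mul ω hp.ne_zero hv0, ff_prime ω hp, hi, zp_fin]
      rw [hff, mul_assoc]
    -- the new family
    let U' : Fin B × ι → Finset ℕ := fun b =>
      ((U b.2).filter (fun u => bigP u = (b.1:ℕ))).image (fun u => u / (b.1:ℕ))
    let R' : Fin B × ι → ℕ → Om B M → ℂ := fun b v ω => R b.2 ((b.1:ℕ) * v) ω
    have hinj : ∀ (b : Fin B × ι),
        Set.InjOn (fun u => u / (b.1:ℕ)) (((U b.2).filter (fun u => bigP u = (b.1:ℕ))) : Set ℕ) := by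
      intro b u hu v hv huv
      have hu' := Finset.mem_coe.mp hu
      have hv' := Finset.mem_coe.mp hv
      obtain ⟨huU, hi⟩ := Finset.mem_filter.mp hu'
      obtain ⟨hvU, hj⟩ := Finset.mem_filter.mp hv'
      obtain ⟨-, hudec, -⟩ := hfacts b.2 u huU
      obtain ⟨-, hvdec, -⟩ := hfacts b.2 v hvU
      rw [hi] at hudec
      rw [hj] at hvdec
      have huv' : u / (b.1:ℕ) = v / (b.1:ℕ) := huv
      rw [hudec, hvdec, huv']
    have hU' : ∀ b, ∀ v ∈ U' b, Squarefree v ∧ v.primeFactors.card = r ∧ ∀ p ∈ v.primeFactors, p < B := by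
      intro b v hv
      obtain ⟨u, hu, rfl⟩ := Finset.mem_image.mp hv
      obtain ⟨huU, hi⟩ := Finset.mem_filter.mp hu
      obtain ⟨-, -, hsv, hcv, hlt, -⟩ := hfacts b.2 u huU
      rw [hi] at hsv hcv hlt
      refine ⟨hsv, hcv, ?_⟩
      intro p hp
      exact (hU b.2 u huU).2.2 p (hlt p hp).2
    have hR'val : ∀ b, ∀ u ∈ (U b.2).filter (fun u => bigP u = (b.1:ℕ)),
        R' b (u / (b.1:ℕ)) = R b.2 u := by
      intro b u hu
      obtain ⟨huU, hi⟩ := Finset.mem_filter.mp hu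
      obtain ⟨-, hudec, -⟩ := hfacts b.2 u huU
      rw [hi] at hudec
      show R b.2 ((b.1:ℕ) * (u / (b.1:ℕ))) = R b.2 u
      rw [← hudec]
    have hdep' : ∀ b, ∀ v ∈ U' b, v ≠ 1 → DepBelow v.minFac (R' b v) := by
      intro b v hv hv1
      obtain ⟨u, hu, rfl⟩ := Finset.mem_image.mp hv
      obtain ⟨huU, hi⟩ := Finset.mem_filter.mp hu
      obtain ⟨hp, hudec, hsv, -, hlt, -⟩ := hfacts b.2 u huU
      rw [hi] at hudec hsv hlt hp
      have hune : u ≠ 1 := by
        rintro rfl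
        have := (hU b.2 1 huU).2.1
        simp at this
      have hmf : u.minFac = (u / (b.1:ℕ)).minFac := by
        conv_lhs => rw [hudec]
        exact minFac_top hv1 hsv.ne_zero hp (fun q hq => (hlt q hq).1)
      rw [hR'val b u hu, ← hmf]
      exact hdep b.2 u huU hune
    have hih := ih U' hU' R' hdep'
    -- compare the left side of the induction with `X`
    have hL : ∀ ω, ∑ b : Fin B × ι, ‖∑ v ∈ U' b, ff ω v * R' b v ω‖ ^ 2 = ∑ i, ∑ a, ‖X i ω a‖ ^ 2 := by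
      intro ω
      rw [Fintype.sum_prod_type]
      refine Finset.sum_congr rfl (fun i _ => Finset.sum_congr rfl (fun a _ => ?_))
      congr 2
      show ∑ v ∈ ((U a).filter (fun u => bigP u = (i:ℕ))).image (fun u => u / (i:ℕ)), ff ω v * R' (i, a) v ω = _
      rw [Finset.sum_image (hinj (i, a))]
      refine Finset.sum_congr rfl (fun u hu => ?_)
      have := hR'val (i, a) u hu
      show ff ω (u / (i:ℕ)) * R' (i, a) (u / (i:ℕ)) ω = _
      rw [this]
    -- compare the right side of the induction with the square function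
    have hRt : ∀ ω, ∑ b : Fin B × ι, ∑ v ∈ U' b, ‖R' b v ω‖ ^ 2 = ∑ a, ∑ u ∈ U a, ‖R a u ω‖ ^ 2 := by
      intro ω
      rw [Fintype.sum_prod_type_right]
      refine Finset.sum_congr rfl (fun a _ => ?_)
      rw [sum_top_split (hU a) (fun u => ‖R a u ω‖ ^ 2)]
      refine Finset.sum_congr rfl (fun i _ => ?_)
      show ∑ v ∈ ((U a).filter (fun u => bigP u = (i:ℕ))).image (fun u => u / (i:ℕ)), ‖R' (i, a) v ω‖ ^ 2 = _
      rw [Finset.sum_image (hinj (i, a))]
      refine Finset.sum_congr rfl (fun u hu => ?_)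
      have := hR'val (i, a) u hu
      simp only [this]
    have hc0 : (0:ℝ) ≤ (50 * (k:ℝ) ^ 2) ^ k := by positivity
    calc EE (fun ω => (∑ a, ‖∑ u ∈ U a, ff ω u * R a u ω‖ ^ 2) ^ k)
        = EE (fun ω => (∑ a, ‖∑ i, zc (ω i) * X i ω a‖ ^ 2) ^ k) := by
          congr 1; funext ω; simp only [hleft]
      _ ≤ (50 * (k:ℝ) ^ 2) ^ k * EE (fun ω => (∑ i, ∑ a, ‖X i ω a‖ ^ 2) ^ k) := hstep
      _ = (50 * (k:ℝ) ^ 2) ^ k * EE (fun ω => (∑ b : Fin B × ι, ‖∑ v ∈ U' b, ff ω v * R' b v ω‖ ^ 2) ^ k) := by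
          congr 2; funext ω; rw [hL]
      _ ≤ (50 * (k:ℝ) ^ 2) ^ k * (((50 * (k:ℝ) ^ 2) ^ r) ^ k * EE (fun ω => (∑ b : Fin B × ι, ∑ v ∈ U' b, ‖R' b v ω‖ ^ 2) ^ k)) :=
          mul_le_mul_of_nonneg_left hih hc0
      _ = ((50 * (k:ℝ) ^ 2) ^ (r + 1)) ^ k * EE (fun ω => (∑ a, ∑ u ∈ U a, ‖R a u ω‖ ^ 2) ^ k) := by
          simp only [hRt]
          rw [← mul_assoc, pow_succ (50 * (k:ℝ) ^ 2) r, mul_pow]
          ring

/-- Vector valued form, by induction on `r`, grouping `u` by its largest prime `p`,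
`u = p u'`, new index `(p, a)`. -/
theorem chain_iter_vec (k : ℕ) (hk : 1 ≤ k) (hM : 2 ≤ M) (r : ℕ) {ι : Type} [Fintype ι]
    (U : ι → Finset ℕ) (hU : ∀ a, ∀ u ∈ U a, Squarefree u ∧ u.primeFactors.card = r ∧ ∀ p ∈ u.primeFactors, p < B)
    (R : ι → ℕ → Om B M → ℂ) (hdep : ∀ a, ∀ u ∈ U a, DepBelow u.minFac (R a u)) :
    EE (fun ω => (∑ a, ‖∑ u ∈ U a, ff ω u * R a u ω‖ ^ 2) ^ k)
      ≤ ((50 * (k:ℝ) ^ 2) ^ r) ^ k * EE (fun ω => (∑ a, ∑ u ∈ U a, ‖R a u ω‖ ^ 2) ^ k) :=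
  chain_iter_aux k hk hM r U hU R (fun a u hu _ => hdep a u hu)

/-- Scalar form. -/
theorem chain_iter (k : ℕ) (hk : 1 ≤ k) (hM : 2 ≤ M) (r : ℕ) (U : Finset ℕ)
    (hU : ∀ u ∈ U, Squarefree u ∧ u.primeFactors.card = r ∧ ∀ p ∈ u.primeFactors, p < B)
    (R : ℕ → Om B M → ℂ) (hdep : ∀ u ∈ U, DepBelow u.minFac (R u)) :
    mm k (fun ω => ∑ u ∈ U, ff ω u * R u ω) ^ 2
      ≤ (50 * (k:ℝ) ^ 2) ^ r * nr k (fun ω => ∑ u ∈ U, ‖R u ω‖ ^ 2) := by
  have h := chain_iter_vec (B := B) (M := M) k hk hM r (ι := Unit) (fun _ => U) (fun _ => hU)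
    (fun _ => R) (fun _ => hdep)
  simp only [Fintype.sum_unique] at h
  rw [mm_sq k hk]
  have hk0 : k ≠ 0 := by omega
  have hc0 : (0:ℝ) ≤ (50 * (k:ℝ) ^ 2) ^ r := by positivity
  have hW : (0:ℝ) ≤ EE (fun ω : Om B M => (∑ u ∈ U, ‖R u ω‖ ^ 2) ^ k) :=
    EE_nonneg (fun ω => pow_nonneg (Finset.sum_nonneg (fun _ _ => by positivity)) _)
  have hA : (0:ℝ) ≤ EE (fun ω : Om B M => (‖∑ u ∈ U, ff ω u * R u ω‖ ^ 2) ^ k) :=
    EE_nonneg (fun ω => by positivity)
  unfold nr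
  have e1 : (fun ω : Om B M => |‖∑ u ∈ U, ff ω u * R u ω‖ ^ 2| ^ k)
      = fun ω => (‖∑ u ∈ U, ff ω u * R u ω‖ ^ 2) ^ k := by
    funext ω
    rw [abs_of_nonneg (by positivity)]
  have e2 : (fun ω : Om B M => |∑ u ∈ U, ‖R u ω‖ ^ 2| ^ k)
      = fun ω => (∑ u ∈ U, ‖R u ω‖ ^ 2) ^ k := by
    funext ω
    rw [abs_of_nonneg (Finset.sum_nonneg (fun _ _ => by positivity))]
  rw [e1, e2]
  have hexp : (0:ℝ) ≤ (1:ℝ) / (k:ℝ) := by positivity
  calc (EE fun ω : Om B M => (‖∑ u ∈ U, ff ω u * R u ω‖ ^ 2) ^ k) ^ ((1:ℝ) / (k:ℝ))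
      ≤ (((50 * (k:ℝ) ^ 2) ^ r) ^ k * EE (fun ω : Om B M => (∑ u ∈ U, ‖R u ω‖ ^ 2) ^ k)) ^ ((1:ℝ) / (k:ℝ)) :=
        Real.rpow_le_rpow hA h hexp
    _ = (50 * (k:ℝ) ^ 2) ^ r * (EE fun ω : Om B M => (∑ u ∈ U, ‖R u ω‖ ^ 2) ^ k) ^ ((1:ℝ) / (k:ℝ)) := by
        rw [Real.mul_rpow (pow_nonneg hc0 _) hW, one_div, Real.pow_rpow_inv_natCast hc0 hk0]

end

end Vale.Agent.Lib.P028K
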