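import Vale.Agent.Lib.P028K.Defs

/-! Part Decomp: the main set and its parametrisation. Blueprint section 8. -/

open Finset

namespace Vale.Agent.Lib.P028K

open Vale.Agent.Lib.P028
open Vale.Agent.Lib.P028T

noncomputable section

/-- Squarefull parts. -/
def Qset (Q0 W : ℕ) : Finset ℕ := (Icc 1 W).filter (fun q => qP Q0 q = q)

/-- Top parts. -/
def Uset (Q0 T Yx q r : ℕ) : Finset ℕ :=
  (Icc 1 Yx).filter (fun u => Squarefree u ∧ u.primeFactors.card = r ∧ (∀ p ∈ u.primeFactors, Q0 ≤ p) ∧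
    Nat.Coprime u q ∧ T ≤ u ∧ u / u.minFac < T)

/-- Cofactors. -/
def Bset (P Q0 S2 j2 Yx q r : ℕ) : Finset ℕ :=
  (Icc 1 Yx).filter (fun b => Nat.Coprime b q ∧ (∀ p ∈ b.primeFactors, Q0 ≤ p → b.factorization p = 1) ∧
    smP P b ≤ S2 ∧ OO (rgP P b) + r + OO q ≤ j2)

/-- The main set. -/
def Mset (P Q0 W T S2 j2 Y Y' : ℕ) : Finset ℕ :=
  (Ico Y Y').filter (fun a => qP Q0 a ≤ W ∧ smP P a ≤ S2 ∧ OO (rgP P a) ≤ j2 ∧ T ≤ hc Q0 a)

namespace DecompAux

/-- The piece of `a` on the primes selected by `S`. -/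
def pt (S : ℕ → ℕ → Prop) [∀ p e, Decidable (S p e)] (a : ℕ) : ℕ :=
  ∏ p ∈ a.primeFactors.filter (fun p => S p (a.factorization p)), p ^ a.factorization p

lemma mem_pf_iff (n p : ℕ) : p ∈ n.primeFactors ↔ n.factorization p ≠ 0 := by
  rw [← Nat.support_factorization, Finsupp.mem_support_iff]

lemma fact_prod_pow (s : Finset ℕ) (hs : ∀ p ∈ s, p.Prime) (e : ℕ → ℕ) (r : ℕ) :
    (∏ p ∈ s, p ^ e p).factorization r = if r ∈ s then e r else 0 := by
  classical
  induction s using Finset.induction_on with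
  | empty => simp
  | insert p s hp ih =>
    rw [Finset.prod_insert hp, Nat.factorization_mul (pow_ne_zero _ (hs p (by simp)).ne_zero)
      (Finset.prod_ne_zero_iff.2 (fun x hx => pow_ne_zero _ (hs x (by simp [hx])).ne_zero))]
    simp only [Finsupp.add_apply, Nat.Prime.factorization_pow (hs p (mem_insert_self _ _)),
      Finsupp.single_apply]
    rw [ih (fun x hx => hs x (mem_insert_of_mem hx))]
    by_cases h : r = p
    · subst h; simp [hp]
    · have : p ≠ r := Ne.symm h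
      simp [this, h]

variable {S : ℕ → ℕ → Prop} [∀ p e, Decidable (S p e)]

lemma pt_ne_zero (a : ℕ) : pt S a ≠ 0 := by
  unfold pt
  refine Finset.prod_ne_zero_iff.2 (fun p hp => pow_ne_zero _ ?_)
  exact (Nat.prime_of_mem_primeFactors (mem_filter.1 hp).1).ne_zero

lemma pt_fact (a r : ℕ) : (pt S a).factorization r =
    if r ∈ a.primeFactors ∧ S r (a.factorization r) then a.factorization r else 0 := by
  unfold pt
  rw [fact_prod_pow _ (fun p hp => Nat.prime_of_mem_primeFactors (mem_filter.1 hp).1)]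
  simp only [mem_filter]

lemma pf_pt (a : ℕ) : (pt S a).primeFactors = a.primeFactors.filter (fun p => S p (a.factorization p)) := by
  ext r
  rw [mem_pf_iff, pt_fact, mem_filter]
  constructor
  · intro h
    by_cases hc : r ∈ a.primeFactors ∧ S r (a.factorization r)
    · exact hc
    · rw [if_neg hc] at h; exact absurd rfl h
  · intro h
    rw [if_pos h]
    exact (mem_pf_iff a r).1 h.1

lemma pt_mul {m n : ℕ} (hc : Nat.Coprime m n) (hm : m ≠ 0) (hn : n ≠ 0) :
    pt S (m * n) = pt S m * pt S n := by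
  have hd : Disjoint m.primeFactors n.primeFactors := hc.disjoint_primeFactors
  refine Nat.eq_of_factorization_eq (pt_ne_zero _) (mul_ne_zero (pt_ne_zero _) (pt_ne_zero _)) ?_
  intro r
  rw [Nat.factorization_mul (pt_ne_zero _) (pt_ne_zero _), Finsupp.add_apply, pt_fact, pt_fact, pt_fact]
  have hfr : (m * n).factorization r = m.factorization r + n.factorization r := by
    rw [Nat.factorization_mul hm hn]; rfl
  have hpf : r ∈ (m * n).primeFactors ↔ r ∈ m.primeFactors ∨ r ∈ n.primeFactors := by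
    rw [Nat.primeFactors_mul hm hn, mem_union]
  by_cases h1 : r ∈ m.primeFactors
  · have h2 : r ∉ n.primeFactors := Finset.disjoint_left.1 hd h1
    have h20 : n.factorization r = 0 := by
      by_contra h; exact h2 ((mem_pf_iff n r).2 h)
    simp [hfr, hpf, h1, h2, h20]
  · by_cases h2 : r ∈ n.primeFactors
    · have h10 : m.factorization r = 0 := by
        by_contra h; exact h1 ((mem_pf_iff m r).2 h)
      simp [hfr, hpf, h1, h2, h10]
    · simp [hpf, h1, h2]

lemma pt_all {a : ℕ} (ha : a ≠ 0) (h : ∀ p ∈ a.primeFactors, S p (a.factorization p)) : pt S a = a := by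
  refine Nat.eq_of_factorization_eq (pt_ne_zero _) ha ?_
  intro r
  rw [pt_fact]
  by_cases hr : r ∈ a.primeFactors
  · rw [if_pos ⟨hr, h r hr⟩]
  · have h0 : a.factorization r = 0 := by
      by_contra h'; exact hr ((mem_pf_iff a r).2 h')
    simp [hr, h0]

lemma pt_none {a : ℕ} (h : ∀ p ∈ a.primeFactors, ¬ S p (a.factorization p)) : pt S a = 1 := by
  unfold pt
  rw [Finset.filter_false_of_mem h, Finset.prod_empty]

lemma of_pt_self {a : ℕ} (h : pt S a = a) : ∀ p ∈ a.primeFactors, S p (a.factorization p) := by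
  intro p hp
  have := pf_pt (S := S) a
  rw [h] at this
  have hp' := hp
  rw [this] at hp'
  exact (mem_filter.1 hp').2

lemma smP_eq (P a : ℕ) : smP P a = pt (fun p _ => p < P) a := rfl
lemma rgP_eq (P a : ℕ) : rgP P a = pt (fun p _ => P ≤ p) a := rfl
lemma qP_eq (Q a : ℕ) : qP Q a = pt (fun p e => Q ≤ p ∧ 2 ≤ e) a := rfl
lemma hc_eq (Q a : ℕ) : hc Q a = pt (fun p e => Q ≤ p ∧ e = 1) a := by
  unfold hc pt
  refine Finset.prod_congr rfl (fun p hp => ?_)
  rw [(mem_filter.1 hp).2.2, pow_one]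

lemma OO_mul {m n : ℕ} (hm : m ≠ 0) (hn : n ≠ 0) : OO (m * n) = OO m + OO n := by
  unfold OO
  rw [(Nat.perm_primeFactorsList_mul hm hn).length_eq, List.length_append]

lemma OO_squarefree {u : ℕ} (hu : Squarefree u) : OO u = u.primeFactors.card := by
  unfold OO
  have hu0 : u ≠ 0 := hu.ne_zero
  have h := (Nat.squarefree_iff_nodup_primeFactorsList hu0).1 hu
  rw [Nat.primeFactors, List.toFinset_card_of_nodup h]


lemma pt_coprime {S S' : ℕ → ℕ → Prop} [∀ p e, Decidable (S p e)] [∀ p e, Decidable (S' p e)] (a : ℕ)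
    (h : ∀ p e, S p e → ¬ S' p e) : Nat.Coprime (pt S a) (pt S' a) := by
  rw [← Nat.disjoint_primeFactors (pt_ne_zero _) (pt_ne_zero _), pf_pt, pf_pt, Finset.disjoint_left]
  intro p hp hp'
  exact h _ _ (mem_filter.1 hp).2 (mem_filter.1 hp').2

lemma pt_pt (a : ℕ) : pt S (pt S a) = pt S a := by
  refine pt_all (pt_ne_zero _) (fun p hp => ?_)
  rw [pf_pt] at hp
  obtain ⟨h1, h2⟩ := mem_filter.1 hp
  rw [pt_fact, if_pos ⟨h1, h2⟩]
  exact h2

lemma pt_mul3 {q u b : ℕ} (hqu : Nat.Coprime q u) (hqb : Nat.Coprime q b) (hub : Nat.Coprime u b)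
    (hq : q ≠ 0) (hu : u ≠ 0) (hb : b ≠ 0) : pt S (q * u * b) = pt S q * pt S u * pt S b := by
  rw [pt_mul (Nat.Coprime.mul_left hqb hub) (mul_ne_zero hq hu) hb, pt_mul hqu hq hu]

lemma split_three {Q0 a : ℕ} (ha : a ≠ 0) :
    a = pt (fun p _ => p < Q0) a * qP Q0 a * hc Q0 a := by
  rw [qP_eq, hc_eq]
  refine Nat.eq_of_factorization_eq ha
    (mul_ne_zero (mul_ne_zero (pt_ne_zero _) (pt_ne_zero _)) (pt_ne_zero _)) ?_
  intro r
  rw [Nat.factorization_mul (mul_ne_zero (pt_ne_zero _) (pt_ne_zero _)) (pt_ne_zero _),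
    Nat.factorization_mul (pt_ne_zero _) (pt_ne_zero _)]
  simp only [Finsupp.add_apply, pt_fact]
  by_cases hr : r ∈ a.primeFactors
  · by_cases h1 : r < Q0
    · simp [hr, h1, not_le.2 h1]
    · have h1' : Q0 ≤ r := not_lt.1 h1
      have h0 : a.factorization r ≠ 0 := (mem_pf_iff a r).1 hr
      by_cases h2 : a.factorization r = 1
      · simp [hr, h1, h1', h2]
      · have h3 : 2 ≤ a.factorization r := by omega
        have h4 : ¬ a.factorization r < 2 := by omega
        simp [hr, h1, h1', h2, h3]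
  · have h0 : a.factorization r = 0 := by
      by_contra h; exact hr ((mem_pf_iff a r).2 h)
    simp [hr, h0]

lemma hc_squarefree (Q a : ℕ) : Squarefree (hc Q a) := by
  have h0 : hc Q a ≠ 0 := by rw [hc_eq]; exact pt_ne_zero _
  rw [Nat.squarefree_iff_factorization_le_one h0, hc_eq]
  intro p
  rw [pt_fact]
  split_ifs with h
  · exact le_of_eq h.2.2
  · exact Nat.zero_le _

lemma sqf_fact {u p : ℕ} (hu : Squarefree u) (hp : p ∈ u.primeFactors) : u.factorization p = 1 := by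
  have h1 := (Nat.squarefree_iff_factorization_le_one hu.ne_zero).1 hu p
  have h2 := (mem_pf_iff u p).1 hp
  omega

/-- Relations for a factorisation `q u b`. -/
lemma core {P Q0 q u b : ℕ} (hPQ : P ≤ Q0) (Hq : qP Q0 q = q) (hq : q ≠ 0) (hus : Squarefree u)
    (huQ : ∀ p ∈ u.primeFactors, Q0 ≤ p) (hb : b ≠ 0)
    (hbQ : ∀ p ∈ b.primeFactors, Q0 ≤ p → b.factorization p = 1)
    (hqu : Nat.Coprime q u) (hqb : Nat.Coprime q b) (hub : Nat.Coprime u b) :
    qP Q0 (q * u * b) = q ∧ smP P (q * u * b) = smP P b ∧ rgP P (q * u * b) = q * u * rgP P b ∧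
      hc Q0 (q * u * b) = u * hc Q0 b ∧
      OO (rgP P (q * u * b)) = OO q + u.primeFactors.card + OO (rgP P b) := by
  have hu : u ≠ 0 := hus.ne_zero
  have hqs : ∀ p ∈ q.primeFactors, Q0 ≤ p ∧ 2 ≤ q.factorization p :=
    of_pt_self (S := fun p e => Q0 ≤ p ∧ 2 ≤ e) Hq
  have h1 : qP Q0 (q * u * b) = q := by
    have hu1 : pt (fun p e => Q0 ≤ p ∧ 2 ≤ e) u = 1 := pt_none (fun p hp h => by
      have := sqf_fact hus hp
      omega)
    have hb1 : pt (fun p e => Q0 ≤ p ∧ 2 ≤ e) b = 1 := pt_none (fun p hp h => by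
      have := hbQ p hp h.1
      omega)
    rw [qP_eq, pt_mul3 hqu hqb hub hq hu hb, ← qP_eq, Hq, hu1, hb1, mul_one, mul_one]
  have h2 : smP P (q * u * b) = smP P b := by
    have hq1 : pt (fun p _ => p < P) q = 1 := pt_none (fun p hp h => by
      have := (hqs p hp).1
      omega)
    have hu1 : pt (fun p _ => p < P) u = 1 := pt_none (fun p hp h => by
      have := huQ p hp
      omega)
    rw [smP_eq, pt_mul3 hqu hqb hub hq hu hb, hq1, hu1, one_mul, one_mul]
    rfl
  have h3 : rgP P (q * u * b) = q * u * rgP P b := by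
    have hq1 : pt (fun p _ => P ≤ p) q = q := pt_all hq (fun p hp => hPQ.trans (hqs p hp).1)
    have hu1 : pt (fun p _ => P ≤ p) u = u := pt_all hu (fun p hp => hPQ.trans (huQ p hp))
    rw [rgP_eq, pt_mul3 hqu hqb hub hq hu hb, hq1, hu1]
    rfl
  have h4 : hc Q0 (q * u * b) = u * hc Q0 b := by
    have hq1 : pt (fun p e => Q0 ≤ p ∧ e = 1) q = 1 := pt_none (fun p hp h => by
      have := (hqs p hp).2
      omega)
    have hu1 : pt (fun p e => Q0 ≤ p ∧ e = 1) u = u :=
      pt_all hu (fun p hp => ⟨huQ p hp, sqf_fact hus hp⟩)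
    rw [hc_eq, pt_mul3 hqu hqb hub hq hu hb, hq1, hu1, one_mul, ← hc_eq]
  refine ⟨h1, h2, h3, h4, ?_⟩
  have hrb : rgP P b ≠ 0 := by rw [rgP_eq]; exact pt_ne_zero _
  rw [h3, OO_mul (mul_ne_zero hq hu) hrb, OO_mul hq hu, OO_squarefree hus]

/-! The top part of a squarefree number. -/

/-- Product of the primes of `x` at least `p`. -/
def tp (x p : ℕ) : ℕ := ∏ t ∈ x.primeFactors.filter (p ≤ ·), t

/-- The cut point. -/
def cutv (T x : ℕ) : ℕ := (x.primeFactors.filter (fun p => T ≤ tp x p)).sup id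

/-- The top part. -/
def topU (T x : ℕ) : ℕ := tp x (cutv T x)

lemma pf_prod_filter (x : ℕ) (f : ℕ → Prop) [DecidablePred f] :
    (∏ t ∈ x.primeFactors.filter f, t).primeFactors = x.primeFactors.filter f :=
  Nat.primeFactors_prod (fun _ hp => Nat.prime_of_mem_primeFactors (mem_filter.1 hp).1)

lemma top_spec {T x : ℕ} (hx : Squarefree x) (hT : 2 ≤ T) (hTx : T ≤ x) :
    ∃ w, w ≠ 0 ∧ x = topU T x * w ∧ (∀ p ∈ w.primeFactors, p < (topU T x).minFac) ∧
      Squarefree (topU T x) ∧ T ≤ topU T x ∧ topU T x / (topU T x).minFac < T ∧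
      (topU T x).primeFactors ⊆ x.primeFactors ∧ (topU T x).minFac.Prime := by
  have hx0 : x ≠ 0 := hx.ne_zero
  have hx1 : x ≠ 1 := by omega
  set C := x.primeFactors.filter (fun p => T ≤ tp x p) with hC
  have hmin : x.minFac ∈ C := by
    refine mem_filter.2 ⟨?_, ?_⟩
    · exact Nat.mem_primeFactors.2 ⟨Nat.minFac_prime hx1, Nat.minFac_dvd x, hx0⟩
    · have : tp x x.minFac = x := by
        unfold tp
        rw [Finset.filter_true_of_mem, Nat.prod_primeFactors_of_squarefree hx]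
        intro t ht
        exact Nat.minFac_le_of_dvd (Nat.prime_of_mem_primeFactors ht).two_le
          (Nat.dvd_of_mem_primeFactors ht)
      rw [this]; exact hTx
  obtain ⟨c, hcC, hcs⟩ := Finset.exists_mem_eq_sup C ⟨_, hmin⟩ id
  have hcut : cutv T x = c := by
    unfold cutv; rw [← hC, hcs]; rfl
  have hmax : ∀ p ∈ C, p ≤ c := by
    intro p hp
    have : id p ≤ C.sup id := Finset.le_sup hp
    rw [hcs] at this
    exact this
  obtain ⟨hcpf, hcT⟩ := mem_filter.1 hcC
  have hcprime : c.Prime := Nat.prime_of_mem_primeFactors hcpf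
  have htop : topU T x = ∏ t ∈ x.primeFactors.filter (c ≤ ·), t := by
    unfold topU; rw [hcut]; rfl
  set u := topU T x with hu
  have hup : u.primeFactors = x.primeFactors.filter (c ≤ ·) := by
    rw [htop, pf_prod_filter]
  set w := ∏ t ∈ x.primeFactors.filter (fun t => ¬ c ≤ t), t with hw
  have hxuw : x = u * w := by
    conv_lhs => rw [← Nat.prod_primeFactors_of_squarefree hx]
    rw [htop, hw, Finset.prod_filter_mul_prod_filter_not]
  have hw0 : w ≠ 0 := by
    intro h; rw [h, mul_zero] at hxuw; exact hx0 hxuw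
  have hu0 : u ≠ 0 := by
    intro h; rw [h, zero_mul] at hxuw; exact hx0 hxuw
  have hcu : c ∈ u.primeFactors := by
    rw [hup]; exact mem_filter.2 ⟨hcpf, le_refl _⟩
  have hminfac : u.minFac = c := by
    apply le_antisymm
    · exact Nat.minFac_le_of_dvd hcprime.two_le (Nat.dvd_of_mem_primeFactors hcu)
    · have hu1 : u ≠ 1 := by
        intro h
        rw [h] at hcu
        simp at hcu
      have : u.minFac ∈ u.primeFactors :=
        Nat.mem_primeFactors.2 ⟨Nat.minFac_prime hu1, Nat.minFac_dvd u, hu0⟩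
      rw [hup] at this
      exact (mem_filter.1 this).2
  have hTu : T ≤ u := by
    have : tp x c = u := htop.symm
    rw [this] at hcT
    exact hcT
  have husq : Squarefree u := hx.squarefree_of_dvd ⟨w, hxuw⟩
  refine ⟨w, hw0, hxuw, ?_, husq, hTu, ?_, ?_, ?_⟩
  · intro p hp
    rw [hminfac]
    rw [hw, pf_prod_filter] at hp
    exact not_le.1 (mem_filter.1 hp).2
  · rw [hminfac]
    set y := ∏ t ∈ x.primeFactors.filter (c < ·), t with hy
    have huy : u = c * y := by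
      have : x.primeFactors.filter (c ≤ ·) = insert c (x.primeFactors.filter (c < ·)) := by
        ext t
        simp only [mem_filter, mem_insert]
        constructor
        · rintro ⟨h1, h2⟩
          by_cases h : t = c
          · exact Or.inl h
          · exact Or.inr ⟨h1, lt_of_le_of_ne h2 (Ne.symm h)⟩
        · rintro (h | ⟨h1, h2⟩)
          · subst h; exact ⟨hcpf, le_refl _⟩
          · exact ⟨h1, h2.le⟩
      rw [htop, this, Finset.prod_insert (by simp)]
    rw [huy, Nat.mul_div_cancel_left _ hcprime.pos]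
    by_contra hge
    have hTy : T ≤ y := not_lt.1 hge
    by_cases hD : (x.primeFactors.filter (c < ·)).Nonempty
    · set pp := (x.primeFactors.filter (c < ·)).min' hD with hpp
      have hppm : pp ∈ x.primeFactors.filter (c < ·) := Finset.min'_mem _ hD
      obtain ⟨hpp1, hpp2⟩ := mem_filter.1 hppm
      have hfil : x.primeFactors.filter (pp ≤ ·) = x.primeFactors.filter (c < ·) := by
        ext t
        simp only [mem_filter]
        constructor
        · rintro ⟨h1, h2⟩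
          exact ⟨h1, lt_of_lt_of_le hpp2 h2⟩
        · rintro ⟨h1, h2⟩
          exact ⟨h1, Finset.min'_le _ _ (mem_filter.2 ⟨h1, h2⟩)⟩
      have : pp ∈ C := by
        refine mem_filter.2 ⟨hpp1, ?_⟩
        unfold tp
        rw [hfil]
        exact hTy
      have := hmax pp this
      omega
    · rw [Finset.not_nonempty_iff_eq_empty] at hD
      rw [hy, hD, Finset.prod_empty] at hTy
      omega
  · rw [hup]; exact Finset.filter_subset _ _
  · rw [hminfac]; exact hcprime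

lemma top_unique {T u w : ℕ} (hus : Squarefree u) (hTu : T ≤ u) (huT : u / u.minFac < T) (hT : 2 ≤ T)
    (hw : w ≠ 0) (hwp : ∀ p ∈ w.primeFactors, p < u.minFac) : topU T (u * w) = u := by
  have hu0 : u ≠ 0 := hus.ne_zero
  have hu1 : u ≠ 1 := by omega
  set m := u.minFac with hm
  have hmp : m.Prime := Nat.minFac_prime hu1
  have hmu : m ∈ u.primeFactors := Nat.mem_primeFactors.2 ⟨hmp, Nat.minFac_dvd u, hu0⟩
  have hpfx : (u * w).primeFactors = u.primeFactors ∪ w.primeFactors :=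
    Nat.primeFactors_mul hu0 hw
  have hul : ∀ t ∈ u.primeFactors, m ≤ t := fun t ht =>
    Nat.minFac_le_of_dvd (Nat.prime_of_mem_primeFactors ht).two_le (Nat.dvd_of_mem_primeFactors ht)
  have hfilm : (u * w).primeFactors.filter (m ≤ ·) = u.primeFactors := by
    ext t
    rw [mem_filter, hpfx, mem_union]
    constructor
    · rintro ⟨h | h, h2⟩
      · exact h
      · have := hwp t h; omega
    · intro h
      exact ⟨Or.inl h, hul t h⟩
  have htm : tp (u * w) m = u := by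
    unfold tp
    rw [hfilm, Nat.prod_primeFactors_of_squarefree hus]
  have hcut : cutv T (u * w) = m := by
    unfold cutv
    apply le_antisymm
    · refine Finset.sup_le (fun p hp => ?_)
      obtain ⟨hp1, hp2⟩ := mem_filter.1 hp
      by_contra hlt
      have hmp' : m < p := not_le.1 hlt
      have hpu : p ∈ u.primeFactors := by
        rw [hpfx, mem_union] at hp1
        rcases hp1 with h | h
        · exact h
        · have := hwp p h; simp only [id] at hlt; omega
      have hsub : (u * w).primeFactors.filter (p ≤ ·) ⊆ u.primeFactors.erase m := by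
        intro t ht
        obtain ⟨ht1, ht2⟩ := mem_filter.1 ht
        refine Finset.mem_erase.2 ⟨by omega, ?_⟩
        rw [hpfx, mem_union] at ht1
        rcases ht1 with h | h
        · exact h
        · have := hwp t h; omega
      have hdvd : tp (u * w) p ∣ ∏ t ∈ u.primeFactors.erase m, t :=
        Finset.prod_dvd_prod_of_subset _ _ _ hsub
      have hum : u = m * ∏ t ∈ u.primeFactors.erase m, t := by
        conv_lhs => rw [← Nat.prod_primeFactors_of_squarefree hus]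
        exact (Finset.mul_prod_erase _ (fun t => t) hmu).symm
      have hq : u / m = ∏ t ∈ u.primeFactors.erase m, t := by
        conv_lhs => rw [hum]
        rw [Nat.mul_div_cancel_left _ hmp.pos]
      have hpos : 0 < ∏ t ∈ u.primeFactors.erase m, t :=
        Finset.prod_pos (fun t ht =>
          (Nat.prime_of_mem_primeFactors (Finset.mem_of_mem_erase ht)).pos)
      have hle := Nat.le_of_dvd hpos hdvd
      rw [← hq] at hle
      omega
    · have : m ∈ (u * w).primeFactors.filter (fun p => T ≤ tp (u * w) p) := by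
        refine mem_filter.2 ⟨?_, ?_⟩
        · rw [hpfx]; exact mem_union_left _ hmu
        · rw [htm]; exact hTu
      exact Finset.le_sup (f := id) this
  unfold topU
  rw [hcut, htm]


lemma forward {P Q0 W T S2 j2 Y Y' a : ℕ} (hPQ : P ≤ Q0) (hT : 2 ≤ T) (hY : 1 ≤ Y)
    (ha : a ∈ Mset P Q0 W T S2 j2 Y Y') :
    ∃ b, a = qP Q0 a * topU T (hc Q0 a) * b ∧
      qP Q0 a ∈ Qset Q0 W ∧
      (topU T (hc Q0 a)).primeFactors.card ∈ range (Nat.log 2 Y' + 1) ∧
      topU T (hc Q0 a) ∈ Uset Q0 T Y' (qP Q0 a) (topU T (hc Q0 a)).primeFactors.card ∧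
      b ∈ (Bset P Q0 S2 j2 Y' (qP Q0 a) (topU T (hc Q0 a)).primeFactors.card).filter
        (fun b => bigP b < (topU T (hc Q0 a)).minFac ∧
          qP Q0 a * topU T (hc Q0 a) * b ∈ Ico Y Y') := by
  obtain ⟨hI, hW, hS, hJ, hTx⟩ := mem_filter.1 ha
  obtain ⟨hY1, hY2⟩ := mem_Ico.1 hI
  have ha0 : a ≠ 0 := by omega
  have hspl : a = pt (fun p _ => p < Q0) a * qP Q0 a * hc Q0 a := split_three ha0
  have hxs : Squarefree (hc Q0 a) := hc_squarefree _ _
  obtain ⟨w, hw0, hxw, hwp, hus, hTu, huT, hpfu, hmp⟩ := top_spec hxs hT hTx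
  have hq0 : qP Q0 a ≠ 0 := by rw [qP_eq]; exact pt_ne_zero _
  have hv0 : pt (fun p _ => p < Q0) a ≠ 0 := pt_ne_zero _
  have hu0 : topU T (hc Q0 a) ≠ 0 := hus.ne_zero
  have hxQ : ∀ p ∈ (hc Q0 a).primeFactors, Q0 ≤ p := by
    intro p hp
    rw [hc_eq, pf_pt] at hp
    exact (mem_filter.1 hp).2.1
  have huQ : ∀ p ∈ (topU T (hc Q0 a)).primeFactors, Q0 ≤ p := fun p hp => hxQ p (hpfu hp)
  have hvq : Nat.Coprime (pt (fun p _ => p < Q0) a) (qP Q0 a) := by
    rw [qP_eq]
    exact pt_coprime a (fun p e h h' => by have := h'.1; omega)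
  have hvx : Nat.Coprime (pt (fun p _ => p < Q0) a) (hc Q0 a) := by
    rw [hc_eq]
    exact pt_coprime a (fun p e h h' => by have := h'.1; omega)
  have hqx : Nat.Coprime (qP Q0 a) (hc Q0 a) := by
    rw [qP_eq, hc_eq]
    exact pt_coprime a (fun p e h h' => by have := h.2; have := h'.2; omega)
  have hdu : topU T (hc Q0 a) ∣ hc Q0 a := Dvd.intro _ hxw.symm
  have hdw : w ∣ hc Q0 a := Dvd.intro_left _ hxw.symm
  have huw : Nat.Coprime (topU T (hc Q0 a)) w :=
    (Nat.disjoint_primeFactors hu0 hw0).1 (Finset.disjoint_left.2 (fun p hp hp' => by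
      have h1 := hwp p hp'
      have h2 := Nat.minFac_le_of_dvd (Nat.prime_of_mem_primeFactors hp).two_le
        (Nat.dvd_of_mem_primeFactors hp)
      omega))
  have hqu : Nat.Coprime (qP Q0 a) (topU T (hc Q0 a)) := hqx.coprime_dvd_right hdu
  have hqw : Nat.Coprime (qP Q0 a) w := hqx.coprime_dvd_right hdw
  have hvu : Nat.Coprime (pt (fun p _ => p < Q0) a) (topU T (hc Q0 a)) := hvx.coprime_dvd_right hdu
  have hvw : Nat.Coprime (pt (fun p _ => p < Q0) a) w := hvx.coprime_dvd_right hdw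
  have hqb : Nat.Coprime (qP Q0 a) (pt (fun p _ => p < Q0) a * w) :=
    Nat.Coprime.mul_right hvq.symm hqw
  have hub : Nat.Coprime (topU T (hc Q0 a)) (pt (fun p _ => p < Q0) a * w) :=
    Nat.Coprime.mul_right hvu.symm huw
  have hbdef : a = qP Q0 a * topU T (hc Q0 a) * (pt (fun p _ => p < Q0) a * w) := by
    calc a = pt (fun p _ => p < Q0) a * qP Q0 a * hc Q0 a := hspl
      _ = pt (fun p _ => p < Q0) a * qP Q0 a * (topU T (hc Q0 a) * w) :=
          congrArg (fun z => pt (fun p _ => p < Q0) a * qP Q0 a * z) hxw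
      _ = _ := by ring
  have hvp : ∀ p ∈ (pt (fun p _ => p < Q0) a).primeFactors, p < Q0 := by
    intro p hp
    rw [pf_pt] at hp
    exact (mem_filter.1 hp).2
  have hwfact : ∀ p ∈ w.primeFactors, w.factorization p = 1 := fun p hp =>
    sqf_fact (hxs.squarefree_of_dvd hdw) hp
  have hbQ : ∀ p ∈ (pt (fun p _ => p < Q0) a * w).primeFactors, Q0 ≤ p →
      (pt (fun p _ => p < Q0) a * w).factorization p = 1 := by
    intro p hp hQp
    have hpv : (pt (fun p _ => p < Q0) a).factorization p = 0 := by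
      by_contra h
      have := hvp p ((mem_pf_iff _ p).2 h)
      omega
    rw [Nat.primeFactors_mul hv0 hw0, mem_union] at hp
    rcases hp with h | h
    · have := hvp p h; omega
    · rw [Nat.factorization_mul hv0 hw0, Finsupp.add_apply, hpv, zero_add]; exact hwfact p h
  have hqSelf : qP Q0 (qP Q0 a) = qP Q0 a := by
    rw [qP_eq, qP_eq]; exact pt_pt a
  obtain ⟨c1, c2, c3, c4, c5⟩ := core hPQ hqSelf hq0 hus huQ (mul_ne_zero hv0 hw0) hbQ hqu hqb hub
  rw [← hbdef] at c2 c5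
  have hdxa : hc Q0 a ∣ a := Dvd.intro_left _ hspl.symm
  have hule : topU T (hc Q0 a) ≤ a := Nat.le_of_dvd (by omega) (hdu.trans hdxa)
  have h2r : 2 ^ (topU T (hc Q0 a)).primeFactors.card ≤ topU T (hc Q0 a) := by
    conv_rhs => rw [← Nat.prod_primeFactors_of_squarefree hus]
    exact Finset.pow_card_le_prod _ _ _ (fun p hp => (Nat.prime_of_mem_primeFactors hp).two_le)
  have hble : pt (fun p _ => p < Q0) a * w ≤ a :=
    Nat.le_of_dvd (by omega) (Dvd.intro_left _ hbdef.symm)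
  have hbpos : 1 ≤ pt (fun p _ => p < Q0) a * w :=
    Nat.one_le_iff_ne_zero.2 (mul_ne_zero hv0 hw0)
  refine ⟨pt (fun p _ => p < Q0) a * w, hbdef, ?_, ?_, ?_, ?_⟩
  · exact mem_filter.2 ⟨mem_Icc.2 ⟨Nat.one_le_iff_ne_zero.2 hq0, hW⟩, hqSelf⟩
  · rw [mem_range, Nat.lt_succ_iff]
    exact Nat.le_log_of_pow_le (by norm_num) (by omega)
  · exact mem_filter.2 ⟨mem_Icc.2 ⟨Nat.one_le_iff_ne_zero.2 hu0, by omega⟩, hus, rfl, huQ,
      hqu.symm, hTu, huT⟩
  · refine mem_filter.2 ⟨mem_filter.2 ⟨mem_Icc.2 ⟨hbpos, by omega⟩, hqb.symm, hbQ, ?_, ?_⟩, ?_, ?_⟩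
    · rw [← c2]; exact hS
    · omega
    · have hmQ : Q0 ≤ (topU T (hc Q0 a)).minFac :=
        huQ _ (Nat.mem_primeFactors.2 ⟨hmp, Nat.minFac_dvd _, hu0⟩)
      refine (Finset.sup_lt_iff (by simpa using hmp.pos)).2 (fun p hp => ?_)
      rw [Nat.primeFactors_mul hv0 hw0, mem_union] at hp
      rcases hp with h | h
      · have := hvp p h
        simp only [id]
        omega
      · exact hwp p h
    · rw [← hbdef]; exact hI

lemma converse {P Q0 W T S2 j2 Y Y' q r u b : ℕ} (hPQ : P ≤ Q0) (hT : 2 ≤ T)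
    (hq : q ∈ Qset Q0 W) (hu : u ∈ Uset Q0 T Y' q r)
    (hb : b ∈ (Bset P Q0 S2 j2 Y' q r).filter
      (fun b => bigP b < u.minFac ∧ q * u * b ∈ Ico Y Y')) :
    q * u * b ∈ Mset P Q0 W T S2 j2 Y Y' ∧ qP Q0 (q * u * b) = q ∧
      topU T (hc Q0 (q * u * b)) = u ∧ (q * u * b) / (q * u) = b ∧
      u.primeFactors.card = r := by
  obtain ⟨hq1, hqSelf⟩ := mem_filter.1 hq
  obtain ⟨hq2, hqW⟩ := mem_Icc.1 hq1
  obtain ⟨hu1, hus, hur, huQ, huq, hTu, huT⟩ := mem_filter.1 hu
  obtain ⟨hb1, hbig, hI⟩ := mem_filter.1 hb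
  obtain ⟨hb2, hbq, hbQ, hbS, hbJ⟩ := mem_filter.1 hb1
  obtain ⟨hb3, _⟩ := mem_Icc.1 hb2
  have hq0 : q ≠ 0 := by omega
  have hb0 : b ≠ 0 := by omega
  have hu0 : u ≠ 0 := hus.ne_zero
  have hbp : ∀ p ∈ b.primeFactors, p < u.minFac := fun p hp =>
    lt_of_le_of_lt (Finset.le_sup (f := id) hp) hbig
  have hub : Nat.Coprime u b :=
    (Nat.disjoint_primeFactors hu0 hb0).1 (Finset.disjoint_left.2 (fun p hp hp' => by
      have h1 := hbp p hp'
      have h2 := Nat.minFac_le_of_dvd (Nat.prime_of_mem_primeFactors hp).two_le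
        (Nat.dvd_of_mem_primeFactors hp)
      omega))
  obtain ⟨c1, c2, c3, c4, c5⟩ := core hPQ hqSelf hq0 hus huQ hb0 hbQ huq.symm hbq.symm hub
  have hhc0 : hc Q0 b ≠ 0 := by rw [hc_eq]; exact pt_ne_zero _
  refine ⟨mem_filter.2 ⟨hI, ?_, ?_, ?_, ?_⟩, c1, ?_, ?_, hur⟩
  · rw [c1]; exact hqW
  · rw [c2]; exact hbS
  · rw [c5, hur]; omega
  · rw [c4]; exact hTu.trans (Nat.le_mul_of_pos_right _ (Nat.pos_of_ne_zero hhc0))
  · rw [c4]
    refine top_unique hus hTu huT hT hhc0 (fun p hp => hbp p ?_)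
    rw [hc_eq, pf_pt] at hp
    exact (mem_filter.1 hp).1
  · exact Nat.mul_div_cancel_left _ (Nat.pos_of_ne_zero (mul_ne_zero hq0 hu0))

/-- The index type of the parametrisation. -/
abbrev Tup := Σ _ : ℕ, Σ _ : ℕ, Σ _ : ℕ, ℕ

/-- The index set of the parametrisation. -/
def KK (P Q0 W T S2 j2 Y Y' : ℕ) : Finset Tup :=
  (Qset Q0 W).sigma (fun q => (range (Nat.log 2 Y' + 1)).sigma (fun r =>
    (Uset Q0 T Y' q r).sigma (fun u =>
      (Bset P Q0 S2 j2 Y' q r).filter (fun b => bigP b < u.minFac ∧ q * u * b ∈ Ico Y Y'))))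

lemma sum_KK (P Q0 W T S2 j2 Y Y' : ℕ) (φ : ℕ → ℂ) :
    ∑ x ∈ KK P Q0 W T S2 j2 Y Y', φ (x.1 * x.2.2.1 * x.2.2.2)
      = ∑ q ∈ Qset Q0 W, ∑ r ∈ range (Nat.log 2 Y' + 1), ∑ u ∈ Uset Q0 T Y' q r,
          ∑ b ∈ (Bset P Q0 S2 j2 Y' q r).filter (fun b => bigP b < u.minFac ∧ q * u * b ∈ Ico Y Y'),
            φ (q * u * b) := by
  simp only [KK, Finset.sum_sigma]

lemma mul_div_fwd {P Q0 W T S2 j2 Y Y' a : ℕ} (hPQ : P ≤ Q0) (hT : 2 ≤ T) (hY : 1 ≤ Y)
    (ha : a ∈ Mset P Q0 W T S2 j2 Y Y') :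
    qP Q0 a * topU T (hc Q0 a) * (a / (qP Q0 a * topU T (hc Q0 a))) = a := by
  obtain ⟨b, hab, _⟩ := forward hPQ hT hY ha
  exact Nat.mul_div_cancel' (Dvd.intro _ hab.symm)

end DecompAux

/-- The parametrisation `a = q u b`. -/
theorem decomp_M (P Q0 W T S2 j2 Y Y' : ℕ) (hPQ : P ≤ Q0) (hQ : 2 ≤ Q0) (hT : 2 ≤ T) (hY : 1 ≤ Y)
    (φ : ℕ → ℂ) :
    ∑ a ∈ Mset P Q0 W T S2 j2 Y Y', φ a
      = ∑ q ∈ Qset Q0 W, ∑ r ∈ range (Nat.log 2 Y' + 1), ∑ u ∈ Uset Q0 T Y' q r,
          ∑ b ∈ (Bset P Q0 S2 j2 Y' q r).filter (fun b => bigP b < u.minFac ∧ q * u * b ∈ Ico Y Y'),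
            φ (q * u * b) := by
  open DecompAux in
  rw [← sum_KK]
  refine Finset.sum_nbij'
    (fun a => (⟨qP Q0 a, ⟨(topU T (hc Q0 a)).primeFactors.card,
      ⟨topU T (hc Q0 a), a / (qP Q0 a * topU T (hc Q0 a))⟩⟩⟩ : Tup))
    (fun x => x.1 * x.2.2.1 * x.2.2.2) ?_ ?_ ?_ ?_ ?_
  · intro a ha
    obtain ⟨b, hab, h1, h2, h3, h4⟩ := forward hPQ hT hY ha
    have ha0 : a ≠ 0 := by
      have := (mem_Ico.1 (mem_filter.1 ha).1).1
      omega
    have hne : qP Q0 a * topU T (hc Q0 a) ≠ 0 := by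
      intro h
      rw [h, zero_mul] at hab
      exact ha0 hab
    have hdiv : a / (qP Q0 a * topU T (hc Q0 a)) = b :=
      Nat.div_eq_of_eq_mul_right (Nat.pos_of_ne_zero hne) hab
    refine mem_sigma.2 ⟨h1, mem_sigma.2 ⟨h2, mem_sigma.2 ⟨h3, ?_⟩⟩⟩
    show a / (qP Q0 a * topU T (hc Q0 a)) ∈ _
    rw [hdiv]
    exact h4
  · rintro ⟨q, r, u, b⟩ hx
    obtain ⟨h1, hx⟩ := mem_sigma.1 hx
    obtain ⟨_, hx⟩ := mem_sigma.1 hx
    obtain ⟨h3, h4⟩ := mem_sigma.1 hx
    exact (converse hPQ hT h1 h3 h4).1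
  · intro a ha
    exact mul_div_fwd hPQ hT hY ha
  · rintro ⟨q, r, u, b⟩ hx
    obtain ⟨h1, hx⟩ := mem_sigma.1 hx
    obtain ⟨_, hx⟩ := mem_sigma.1 hx
    obtain ⟨h3, h4⟩ := mem_sigma.1 hx
    obtain ⟨_, c1, c2, c3, c4⟩ := converse hPQ hT h1 h3 h4
    show (⟨qP Q0 (q * u * b), ⟨(topU T (hc Q0 (q * u * b))).primeFactors.card,
      ⟨topU T (hc Q0 (q * u * b)),
        (q * u * b) / (qP Q0 (q * u * b) * topU T (hc Q0 (q * u * b)))⟩⟩⟩ : Tup) = ⟨q, ⟨r, ⟨u, b⟩⟩⟩
    rw [c1, c2, c3, c4]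
  · intro a ha
    exact congrArg φ (mul_div_fwd hPQ hT hY ha).symm

end

end Vale.Agent.Lib.P028K
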