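import Vale.Agent.Lib.P028T.Geom
import Vale.Agent.Lib.P028T.EllA
import Vale.Agent.Lib.P028G.Num

/-! P028K, definitions only. See notes/P028K_blueprint.md. -/

open Finset

namespace Vale.Agent.Lib.P028K

open Vale.Agent.Lib.P028
open Vale.Agent.Lib.P028T

noncomputable section

/-- The torus: one coordinate in `ZMod M` per natural number below `B`. -/
abbrev Om (B M : ℕ) := Fin B → ZMod M

/-- The character of a coordinate value. -/
def zc {M : ℕ} [NeZero M] (x : ZMod M) : ℂ := ZMod.stdAddChar x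

/-- The value of the coordinate `p` (equal to `1` when `p` is not a coordinate). -/
def zp {B M : ℕ} [NeZero M] (ω : Om B M) (p : ℕ) : ℂ := if h : p < B then zc (ω ⟨p, h⟩) else 1

/-- The Steinhaus completely multiplicative function of `ω`. -/
def ff {B M : ℕ} [NeZero M] (ω : Om B M) (n : ℕ) : ℂ :=
  ∏ p ∈ n.primeFactors, zp ω p ^ n.factorization p

/-- Expectation on the torus. -/
def EE {B M : ℕ} [NeZero M] (F : Om B M → ℝ) : ℝ := (∑ ω, F ω) / (Fintype.card (Om B M) : ℝ)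

/-- `L^k` norm of a real function. -/
def nr {B M : ℕ} [NeZero M] (k : ℕ) (V : Om B M → ℝ) : ℝ :=
  (EE fun ω => |V ω| ^ k) ^ ((1:ℝ) / (k:ℝ))

/-- `L^(2k)` norm of a complex function. -/
def mm {B M : ℕ} [NeZero M] (k : ℕ) (F : Om B M → ℂ) : ℝ :=
  (EE fun ω => ‖F ω‖ ^ (2 * k)) ^ ((1:ℝ) / (2 * (k:ℝ)))

/-- The twisted sum over `A`. -/
def SS {B M : ℕ} [NeZero M] (β : ℝ) (A : Finset ℕ) (ω : Om B M) : ℂ :=
  ∑ a ∈ A, ff ω a * ee (β * a)

/-- `F` depends only on the coordinates below `i`. -/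
def DepBelow {B M : ℕ} [NeZero M] (i : ℕ) (F : Om B M → ℂ) : Prop :=
  ∀ ω ω' : Om B M, (∀ j : Fin B, (j:ℕ) < i → ω j = ω' j) → F ω = F ω'

/-- The torus is large enough for `n`: its primes are coordinates, its exponents are below `M / 2`. -/
def Fits (B M n : ℕ) : Prop :=
  n ≠ 0 ∧ (∀ p ∈ n.primeFactors, p < B) ∧ ∀ p, 2 * n.factorization p < M

/-- Number of prime factors with multiplicity. -/
def OO (n : ℕ) : ℕ := n.primeFactorsList.length

/-- Largest prime factor (`0` for `n = 1`). -/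
def bigP (n : ℕ) : ℕ := n.primeFactors.sup id

/-- Part of `a` on primes below `P`. -/
def smP (P a : ℕ) : ℕ := ∏ p ∈ a.primeFactors.filter (· < P), p ^ a.factorization p

/-- Part of `a` on primes at least `P`. -/
def rgP (P a : ℕ) : ℕ := ∏ p ∈ a.primeFactors.filter (P ≤ ·), p ^ a.factorization p

/-- Part of `a` on primes at least `Q` of multiplicity at least two. -/
def qP (Q a : ℕ) : ℕ :=
  ∏ p ∈ a.primeFactors.filter (fun p => Q ≤ p ∧ 2 ≤ a.factorization p), p ^ a.factorization p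

/-- Part of `a` on primes at least `Q` of multiplicity one. -/
def hc (Q a : ℕ) : ℕ := ∏ p ∈ a.primeFactors.filter (fun p => Q ≤ p ∧ a.factorization p = 1), p

/-- Sum of reciprocals of primes up to `x`. -/
def Mer (x : ℕ) : ℝ := ∑ p ∈ (range (x + 1)).filter Nat.Prime, (1:ℝ) / p

/-- The Bohr-type size function. `dn` is the distance to the nearest integer. -/
def hh (θ : ℝ) (U m : ℕ) : ℝ :=
  if dn (θ * m) = 0 then 4 * (U:ℝ) ^ 2 else min (4 * (U:ℝ) ^ 2) (1 / (4 * dn (θ * m) ^ 2))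

/-- The kernel of a pair of sets of multipliers. -/
def BBc (F A A' : Finset ℕ) (θ : ℝ) : ℂ :=
  ∑ q ∈ F, ∑ r ∈ F, ∑ n ∈ A, ∑ m ∈ A', if q * n = r * m then ee (θ * ((n:ℝ) - m)) else 0

/-- Multipliers `n` with `M ≤ d n < 2 M`. -/
def Nn (Mm d : ℕ) : Finset ℕ := (Finset.range (2 * Mm + 1)).filter (fun n => Mm ≤ d * n ∧ d * n < 2 * Mm)

/-- Excess at level `n`. -/
def GE (ε : ℝ) (n : ℕ) : ℝ := Real.exp (((n:ℝ) + 1) ^ ε)

end

end Vale.Agent.Lib.P028K
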