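import Vale.Agent.Lib.P028K.Basics

/-! Part EP: Euler products, Mertens, smooth numbers. Blueprint section 7. -/

open Finset

namespace Vale.Agent.Lib.P028K

open Vale.Agent.Lib.P028
open Vale.Agent.Lib.P028T

noncomputable section

/-- Euler product bound for a nonnegative multiplicative function (use Mathlib
`EulerProduct.summable_and_hasSum_smoothNumbers_prod_primesBelow_tsum`). -/
theorem EP_gen (g : ℕ → ℝ) (h1 : g 1 = 1) (hmul : ∀ {m n : ℕ}, Nat.Coprime m n → g (m * n) = g m * g n)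
    (h0 : ∀ n, 0 ≤ g n) (hs : ∀ p : ℕ, p.Prime → Summable fun e : ℕ => g (p ^ e)) (z : ℕ)
    (A : Finset ℕ) (hA : ∀ a ∈ A, a ≠ 0 ∧ ∀ p ∈ a.primeFactors, p < z) :
    ∑ a ∈ A, g a ≤ ∏ p ∈ z.primesBelow, ∑' e : ℕ, g (p ^ e) := by
  classical
  have hsum : ∀ {p : ℕ}, p.Prime → Summable (fun n : ℕ ↦ ‖g (p ^ n)‖) := by
    intro p hp
    have := hs p hp
    simpa [Real.norm_of_nonneg (h0 _)] using this
  have key := EulerProduct.summable_and_hasSum_smoothNumbers_prod_primesBelow_tsum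
    (f := g) h1 hmul hsum z
  have hmem : ∀ a ∈ A, a ∈ z.smoothNumbers := by
    intro a ha
    obtain ⟨h, h'⟩ := hA a ha
    refine ⟨h, fun p hp => h' p ?_⟩
    exact List.mem_toFinset.mpr hp
  have h2 := sum_le_hasSum (A.subtype (· ∈ z.smoothNumbers)) (fun i _ => h0 _) key.2
  have h3 : ∑ a ∈ A.subtype (· ∈ z.smoothNumbers), g (a : ℕ) = ∑ a ∈ A, g a :=
    Finset.sum_subtype_of_mem (fun a => g a) hmem
  rw [← h3]
  exact h2

/-- Completely multiplicative weight. -/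
def wprod (w : ℕ → ℝ) (a : ℕ) : ℝ := ∏ p ∈ a.primeFactors, w p ^ a.factorization p

lemma ep_wprod_one (w : ℕ → ℝ) : wprod w 1 = 1 := by simp [wprod]

lemma ep_wprod_mul (w : ℕ → ℝ) {m n : ℕ} (h : Nat.Coprime m n) :
    wprod w (m * n) = wprod w m * wprod w n := by
  classical
  unfold wprod
  rw [h.primeFactors_mul, Finset.prod_union h.disjoint_primeFactors]
  congr 1
  · apply Finset.prod_congr rfl
    intro p hp
    rw [Nat.factorization_eq_of_coprime_left h (List.mem_toFinset.mp hp)]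
  · apply Finset.prod_congr rfl
    intro p hp
    rw [Nat.factorization_eq_of_coprime_right h (List.mem_toFinset.mp hp)]

lemma ep_wprod_prime_pow (w : ℕ → ℝ) {p : ℕ} (hp : p.Prime) (e : ℕ) : wprod w (p ^ e) = w p ^ e := by
  rcases Nat.eq_zero_or_pos e with h | h
  · subst h; simp [wprod]
  · unfold wprod
    rw [Nat.primeFactors_prime_pow h.ne' hp, Finset.prod_singleton, hp.factorization_pow]
    simp

lemma ep_wprod_nonneg (w : ℕ → ℝ) (hw : ∀ p : ℕ, p.Prime → 0 ≤ w p) (a : ℕ) : 0 ≤ wprod w a := by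
  unfold wprod
  apply Finset.prod_nonneg
  intro p hp
  exact pow_nonneg (hw p (Nat.prime_of_mem_primeFactors hp)) _

lemma ep_inv_one_sub_le_exp (w : ℝ) (h0 : 0 ≤ w) (h1 : w ≤ 7 / 8) :
    (1 - w)⁻¹ ≤ Real.exp (3 * w) := by
  have hx : 0 ≤ 3 * w := by positivity
  have h := Real.sum_le_exp_of_nonneg hx 4
  simp only [Finset.sum_range_succ, Finset.sum_range_zero, Nat.factorial] at h
  norm_num at h
  have hpos : 0 < 1 - w := by linarith
  rw [inv_le_iff_one_le_mul₀ hpos, mul_comm]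
  have h3 : 1 + 3 * w + (3 * w) ^ 2 / 2 + (3 * w) ^ 3 / 6 ≤ Real.exp (3 * w) := by
    linarith
  have h4 : 1 ≤ (1 - w) * (1 + 3 * w + (3 * w) ^ 2 / 2 + (3 * w) ^ 3 / 6) := by
    have : (1 - w) * (1 + 3 * w + (3 * w) ^ 2 / 2 + (3 * w) ^ 3 / 6) - 1
        = w * (2 + 3 / 2 * w - 9 / 2 * w ^ 3) := by ring
    have h5 : 0 ≤ 2 + 3 / 2 * w - 9 / 2 * w ^ 3 := by
      have h6 : w ^ 2 ≤ (7 / 8) * w := by nlinarith
      have h7 : w ^ 3 ≤ (7 / 8) ^ 2 * w := by nlinarith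
      nlinarith
    nlinarith [mul_nonneg h0 h5]
  calc (1:ℝ) ≤ (1 - w) * (1 + 3 * w + (3 * w) ^ 2 / 2 + (3 * w) ^ 3 / 6) := h4
    _ ≤ (1 - w) * Real.exp (3 * w) := mul_le_mul_of_nonneg_left h3 hpos.le

/-- Completely multiplicative case. -/
theorem EP_cm (w : ℕ → ℝ) (hw : ∀ p : ℕ, p.Prime → 0 ≤ w p ∧ w p ≤ 7 / 8) (z : ℕ)
    (A : Finset ℕ) (hA : ∀ a ∈ A, a ≠ 0 ∧ ∀ p ∈ a.primeFactors, p < z) :
    ∑ a ∈ A, wprod w a ≤ Real.exp (3 * ∑ p ∈ z.primesBelow, w p) := by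
  have hgeo : ∀ p : ℕ, p.Prime → HasSum (fun e : ℕ => wprod w (p ^ e)) (1 - w p)⁻¹ := by
    intro p hp
    have h := hasSum_geometric_of_lt_one (hw p hp).1 (by linarith [(hw p hp).2])
    convert h using 2 with e
    exact ep_wprod_prime_pow w hp e
  have h := EP_gen (wprod w) (ep_wprod_one w) (fun h => ep_wprod_mul w h)
    (ep_wprod_nonneg w (fun p hp => (hw p hp).1)) (fun p hp => (hgeo p hp).summable) z A hA
  refine h.trans ?_
  rw [Finset.mul_sum, Real.exp_sum]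
  apply Finset.prod_le_prod
  · intro p hp
    have hp' := Nat.prime_of_mem_primesBelow hp
    exact tsum_nonneg (fun e => ep_wprod_nonneg w (fun p hp => (hw p hp).1) _)
  · intro p hp
    have hp' := Nat.prime_of_mem_primesBelow hp
    rw [(hgeo p hp').tsum_eq]
    exact ep_inv_one_sub_le_exp _ (hw p hp').1 (hw p hp').2

lemma ep_Mer_eq_S (x : ℕ) : Mer x = EllInt.S x := by
  unfold Mer EllInt.S EllInt.primesUpTo
  rfl

lemma ep_Mer_mono {x y : ℕ} (h : x ≤ y) : Mer x ≤ Mer y := by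
  unfold Mer
  apply Finset.sum_le_sum_of_subset_of_nonneg
  · apply Finset.filter_subset_filter
    intro p hp
    rw [Finset.mem_range] at hp ⊢
    omega
  · intro p _ _
    positivity

lemma ep_Mer_nonneg (x : ℕ) : 0 ≤ Mer x := by
  unfold Mer
  apply Finset.sum_nonneg
  intro p _
  positivity

/-- Mertens upper bound, from `Vale.Agent.Lib.P028T.EllInt.S_le`. -/
theorem Mer_le (x : ℕ) (hx : 2 ≤ x) : Mer x ≤ 5 + 4 * Real.log (2 * Real.log x + 2) := by
  set J := Nat.log 2 x with hJ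
  have hlt : x < 2 ^ (J + 1) := Nat.lt_pow_succ_log_self (by norm_num) x
  have h1 : Mer x ≤ Mer (2 ^ (J + 1)) := ep_Mer_mono hlt.le
  have h2 : Mer (2 ^ (J + 1)) ≤ 1 + 4 * (harmonic J : ℝ) := by
    rw [ep_Mer_eq_S]
    exact EllInt.S_le J
  have h3 : (harmonic J : ℝ) ≤ 1 + Real.log (J:ℝ) := harmonic_le_one_add_log J
  have hxpos : (1:ℝ) ≤ x := by exact_mod_cast (by omega : 1 ≤ x)
  have hlogx : 0 ≤ Real.log x := Real.log_nonneg hxpos
  have hJle : (J:ℝ) ≤ 2 * Real.log x + 2 := by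
    have hpow : 2 ^ J ≤ x := Nat.pow_log_le_self 2 (by omega)
    have h4 : ((2:ℝ) ^ J) ≤ x := by exact_mod_cast hpow
    have h5 : (J:ℝ) * Real.log 2 ≤ Real.log x := by
      rw [← Real.log_pow]
      exact Real.log_le_log (by positivity) h4
    have h6 : (0.5:ℝ) < Real.log 2 := by linarith [Real.log_two_gt_d9]
    have h7 : (0:ℝ) ≤ J := by positivity
    nlinarith
  have h8 : Real.log (J:ℝ) ≤ Real.log (2 * Real.log x + 2) := by
    rcases Nat.eq_zero_or_pos J with h | h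
    · rw [h]
      simp only [Nat.cast_zero, Real.log_zero]
      apply Real.log_nonneg
      linarith
    · apply Real.log_le_log
      · exact_mod_cast h
      · exact hJle
  linarith

lemma ep_wprod_rpow (s : ℝ) {n : ℕ} (hn : n ≠ 0) : wprod (fun p => (p:ℝ) ^ s) n = (n:ℝ) ^ s := by
  classical
  have h : (n:ℝ) = ∏ p ∈ n.primeFactors, ((p:ℝ) ^ n.factorization p) := by
    conv_lhs => rw [← Nat.prod_factorization_pow_eq_self hn]
    rw [Finsupp.prod, Nat.support_factorization]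
    push_cast
    rfl
  unfold wprod
  conv_rhs => rw [h]
  rw [← Real.finsetProd_rpow _ _ (fun p _ => by positivity)]
  apply Finset.prod_congr rfl
  intro p _
  rw [← Real.rpow_natCast, ← Real.rpow_natCast, ← Real.rpow_mul (by positivity),
    ← Real.rpow_mul (by positivity), mul_comm]

lemma ep_rpow_le_seven_eighths {p : ℕ} (hp : p.Prime) {s : ℝ} (hs : s ≤ -(1 / 4)) :
    (p:ℝ) ^ s ≤ 7 / 8 := by
  have h2 : (2:ℝ) ≤ p := by exact_mod_cast hp.two_le
  have hspos : s ≤ 0 := by linarith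
  have h3 : (p:ℝ) ^ s ≤ (2:ℝ) ^ s := Real.rpow_le_rpow_of_nonpos (by norm_num) h2 hspos
  have h4 : (2:ℝ) ^ s ≤ (2:ℝ) ^ (-(1 / 4 : ℝ)) := Real.rpow_le_rpow_of_exponent_le (by norm_num) hs
  have h5 : (2:ℝ) ^ (-(1 / 4 : ℝ)) ≤ 7 / 8 := by
    have h6 : ((2:ℝ) ^ (-(1 / 4 : ℝ))) ^ 4 = 1 / 2 := by
      rw [← Real.rpow_natCast, ← Real.rpow_mul (by norm_num)]
      norm_num
    have h7 : (0:ℝ) ≤ (2:ℝ) ^ (-(1 / 4 : ℝ)) := by positivity
    by_contra hcon
    push Not at hcon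
    have h8 : ((7:ℝ) / 8) ^ 4 < ((2:ℝ) ^ (-(1 / 4 : ℝ))) ^ 4 :=
      pow_lt_pow_left₀ hcon (by norm_num) (by norm_num)
    rw [h6] at h8
    norm_num at h8
  linarith

/-- Rankin for smooth numbers. -/
theorem smooth_count (x z : ℕ) (hx : 1 ≤ x) (hz : 2 ≤ z) (η : ℝ) (hη : 0 < η) (hη1 : η ≤ 1 / 4) :
    (((Icc 1 x).filter (fun n => bigP n < z)).card : ℝ)
      ≤ (x:ℝ) ^ (1 - η) * Real.exp (3 * (z:ℝ) ^ η * Mer z) := by
  classical
  set A := (Icc 1 x).filter (fun n => bigP n < z) with hAdef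
  set w : ℕ → ℝ := fun p => (p:ℝ) ^ (η - 1) with hw
  have hA : ∀ a ∈ A, a ≠ 0 ∧ ∀ p ∈ a.primeFactors, p < z := by
    intro a ha
    rw [hAdef, Finset.mem_filter, Finset.mem_Icc] at ha
    refine ⟨by omega, fun p hp => ?_⟩
    have : p ≤ bigP a := Finset.le_sup (f := id) hp
    omega
  have hwb : ∀ p : ℕ, p.Prime → 0 ≤ w p ∧ w p ≤ 7 / 8 := by
    intro p hp
    refine ⟨by positivity, ep_rpow_le_seven_eighths hp (by linarith)⟩
  have hEP := EP_cm w hwb z A hA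
  have hsum : ∑ p ∈ z.primesBelow, w p ≤ (z:ℝ) ^ η * Mer z := by
    unfold Mer
    rw [Finset.mul_sum]
    have hsub : z.primesBelow ⊆ (range (z + 1)).filter Nat.Prime := by
      intro p hp
      rw [Nat.mem_primesBelow] at hp
      rw [Finset.mem_filter, Finset.mem_range]
      exact ⟨by omega, hp.2⟩
    refine le_trans ?_ (Finset.sum_le_sum_of_subset_of_nonneg hsub (fun p _ _ => by positivity))
    apply Finset.sum_le_sum
    intro p hp
    rw [Nat.mem_primesBelow] at hp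
    have hpp : (0:ℝ) < p := by exact_mod_cast hp.2.pos
    have : w p = (p:ℝ) ^ η * (1 / p) := by
      simp only [hw]
      rw [Real.rpow_sub hpp, Real.rpow_one]
      ring
    rw [this]
    have h1 : (p:ℝ) ^ η ≤ (z:ℝ) ^ η :=
      Real.rpow_le_rpow hpp.le (by exact_mod_cast hp.1.le) hη.le
    exact mul_le_mul_of_nonneg_right h1 (by positivity)
  have hcard : (A.card : ℝ) ≤ (x:ℝ) ^ (1 - η) * ∑ a ∈ A, wprod w a := by
    rw [Finset.mul_sum, Finset.card_eq_sum_ones]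
    push_cast
    apply Finset.sum_le_sum
    intro a ha
    have ha' := ha
    rw [hAdef, Finset.mem_filter, Finset.mem_Icc] at ha'
    have ha0 : a ≠ 0 := by omega
    rw [hw, ep_wprod_rpow _ ha0]
    have hapos : (0:ℝ) < a := by exact_mod_cast Nat.pos_of_ne_zero ha0
    have hax : (a:ℝ) ≤ x := by exact_mod_cast ha'.1.2
    have h1 : (a:ℝ) ^ (1 - η) ≤ (x:ℝ) ^ (1 - η) :=
      Real.rpow_le_rpow hapos.le hax (by linarith)
    have h2 : (a:ℝ) ^ (1 - η) * (a:ℝ) ^ (η - 1) = 1 := by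
      rw [← Real.rpow_add hapos]
      norm_num
    calc (1:ℝ) = (a:ℝ) ^ (1 - η) * (a:ℝ) ^ (η - 1) := h2.symm
      _ ≤ (x:ℝ) ^ (1 - η) * (a:ℝ) ^ (η - 1) :=
        mul_le_mul_of_nonneg_right h1 (by positivity)
  calc (A.card : ℝ) ≤ (x:ℝ) ^ (1 - η) * ∑ a ∈ A, wprod w a := hcard
    _ ≤ (x:ℝ) ^ (1 - η) * Real.exp (3 * (z:ℝ) ^ η * Mer z) := by
      apply mul_le_mul_of_nonneg_left _ (by positivity)
      apply hEP.trans
      apply Real.exp_le_exp.mpr
      linarith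

lemma ep_sum_sqrt_inv_le (N : ℕ) : ∑ i ∈ range N, (Real.sqrt ((i:ℝ) + 1))⁻¹ ≤ 2 * Real.sqrt N := by
  induction N with
  | zero => simp
  | succ n ih =>
    rw [Finset.sum_range_succ]
    have hs : (0:ℝ) ≤ Real.sqrt n := Real.sqrt_nonneg _
    have hs1 : (0:ℝ) < Real.sqrt ((n:ℝ) + 1) := Real.sqrt_pos.mpr (by positivity)
    have h1 : Real.sqrt n ^ 2 = n := Real.sq_sqrt (by positivity)
    have h2 : Real.sqrt ((n:ℝ) + 1) ^ 2 = (n:ℝ) + 1 := Real.sq_sqrt (by positivity)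
    have h3 : Real.sqrt n ≤ Real.sqrt ((n:ℝ) + 1) := Real.sqrt_le_sqrt (by linarith)
    have h4 : (Real.sqrt ((n:ℝ) + 1))⁻¹ ≤ 2 * Real.sqrt ((n:ℝ) + 1) - 2 * Real.sqrt n := by
      rw [inv_le_iff_one_le_mul₀ hs1]
      nlinarith
    push_cast
    linarith

lemma ep_sum_primes_sqrt_inv_le (P : ℕ) :
    ∑ p ∈ P.primesBelow, (Real.sqrt p)⁻¹ ≤ 2 * Real.sqrt P := by
  have hsub : P.primesBelow ⊆ Finset.Ico 1 P := by
    intro p hp
    rw [Nat.mem_primesBelow] at hp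
    rw [Finset.mem_Ico]
    exact ⟨hp.2.pos, hp.1⟩
  refine (Finset.sum_le_sum_of_subset_of_nonneg hsub (fun _ _ _ => by positivity)).trans ?_
  rw [Finset.sum_Ico_eq_sum_range]
  have h := ep_sum_sqrt_inv_le (P - 1)
  have h2 : ∑ i ∈ range (P - 1), (Real.sqrt ((1 + i : ℕ):ℝ))⁻¹
      = ∑ i ∈ range (P - 1), (Real.sqrt ((i:ℝ) + 1))⁻¹ := by
    apply Finset.sum_congr rfl
    intro i _
    push_cast
    rw [add_comm]
  rw [h2]
  refine h.trans ?_
  have h3 : Real.sqrt ((P - 1 : ℕ):ℝ) ≤ Real.sqrt P := by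
    apply Real.sqrt_le_sqrt
    exact_mod_cast Nat.sub_le _ _
  linarith

lemma ep_four_le_log_of_55 {P : ℕ} (hP : 55 ≤ P) : 4 ≤ Real.log P := by
  have h : (55:ℝ) ≤ P := by exact_mod_cast hP
  have h1 : Real.exp 4 ≤ 55 := by
    have h2 : Real.exp 4 = Real.exp 1 ^ 4 := by
      rw [← Real.exp_nat_mul]; norm_num
    rw [h2]
    have h3 := Real.exp_one_lt_d9
    have h4 := Real.exp_pos 1
    calc Real.exp 1 ^ 4 ≤ (2.7182818286:ℝ) ^ 4 := pow_le_pow_left₀ h4.le h3.le 4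
      _ ≤ 55 := by norm_num
  rw [Real.le_log_iff_exp_le (by linarith)]
  linarith

/-- Sum of `s^(-1/2)` over `P`-smooth numbers at least `S`. -/
theorem sum_smooth_large (P : ℕ) (hP : 55 ≤ P) (S : ℝ) (hS : 1 ≤ S) (A : Finset ℕ)
    (hA : ∀ a ∈ A, a ≠ 0 ∧ (∀ p ∈ a.primeFactors, p < P) ∧ S ≤ a) :
    ∑ a ∈ A, (Real.sqrt a)⁻¹ ≤ S ^ (-(1 / Real.log P)) * Real.exp (18 * Real.sqrt P) := by
  classical
  have hlog := ep_four_le_log_of_55 hP
  set η : ℝ := 1 / Real.log P with hη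
  have hηpos : 0 < η := by rw [hη]; positivity
  have hη4 : η ≤ 1 / 4 := by
    rw [hη]
    exact one_div_le_one_div_of_le (by norm_num) hlog
  have hPpos : (0:ℝ) < P := by exact_mod_cast (by omega : 0 < P)
  have hPe : (P:ℝ) ^ η = Real.exp 1 := by
    rw [Real.rpow_def_of_pos hPpos, hη]
    congr 1
    field_simp
  set w : ℕ → ℝ := fun p => (p:ℝ) ^ (η - 1 / 2) with hw
  have hwb : ∀ p : ℕ, p.Prime → 0 ≤ w p ∧ w p ≤ 7 / 8 := by
    intro p hp
    refine ⟨by positivity, ep_rpow_le_seven_eighths hp (by linarith)⟩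
  have hEP := EP_cm w hwb P A (fun a ha => ⟨(hA a ha).1, (hA a ha).2.1⟩)
  have hS0 : (0:ℝ) < S := by linarith
  have hterm : ∀ a ∈ A, (Real.sqrt a)⁻¹ ≤ S ^ (-η) * wprod w a := by
    intro a ha
    obtain ⟨ha0, _, hSa⟩ := hA a ha
    have hapos : (0:ℝ) < a := by exact_mod_cast Nat.pos_of_ne_zero ha0
    rw [hw, ep_wprod_rpow _ ha0, Real.rpow_sub hapos]
    have h1 : S ^ η ≤ (a:ℝ) ^ η := Real.rpow_le_rpow hS0.le hSa hηpos.le
    have h2 : (a:ℝ) ^ ((1:ℝ) / 2) = Real.sqrt a := (Real.sqrt_eq_rpow _).symm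
    rw [h2, Real.rpow_neg hS0.le]
    have hSη : 0 < S ^ η := by positivity
    have hsq : 0 < Real.sqrt a := Real.sqrt_pos.mpr hapos
    rw [inv_eq_one_div, inv_eq_one_div, div_mul_div_comm, one_mul, div_le_div_iff₀ hsq (by positivity)]
    nlinarith
  have hsum : ∑ p ∈ P.primesBelow, w p ≤ 6 * Real.sqrt P := by
    have h1 : ∑ p ∈ P.primesBelow, w p ≤ ∑ p ∈ P.primesBelow, 3 * (Real.sqrt p)⁻¹ := by
      apply Finset.sum_le_sum
      intro p hp
      rw [Nat.mem_primesBelow] at hp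
      have hpp : (0:ℝ) < p := by exact_mod_cast hp.2.pos
      simp only [hw]
      rw [Real.rpow_sub hpp, ← Real.sqrt_eq_rpow, div_eq_mul_inv]
      have h2 : (p:ℝ) ^ η ≤ (P:ℝ) ^ η := Real.rpow_le_rpow hpp.le (by exact_mod_cast hp.1.le) hηpos.le
      rw [hPe] at h2
      have h3 : (p:ℝ) ^ η ≤ 3 := by
        have := Real.exp_one_lt_d9
        linarith
      exact mul_le_mul_of_nonneg_right h3 (by positivity)
    refine h1.trans ?_
    rw [← Finset.mul_sum]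
    have := ep_sum_primes_sqrt_inv_le P
    linarith
  calc ∑ a ∈ A, (Real.sqrt a)⁻¹ ≤ ∑ a ∈ A, S ^ (-η) * wprod w a := Finset.sum_le_sum hterm
    _ = S ^ (-η) * ∑ a ∈ A, wprod w a := by rw [Finset.mul_sum]
    _ ≤ S ^ (-η) * Real.exp (18 * Real.sqrt P) := by
      apply mul_le_mul_of_nonneg_left _ (by positivity)
      apply hEP.trans
      apply Real.exp_le_exp.mpr
      linarith

/-- The squarefull indicator. -/
def sqfPred (Q0 n : ℕ) : Prop := n ≠ 0 ∧ ∀ p ∈ n.primeFactors, Q0 ≤ p ∧ 2 ≤ n.factorization p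

open Classical in
/-- The multiplicative function of `sum_squarefull`. -/
def sqfG (Q0 n : ℕ) : ℝ := if sqfPred Q0 n then (Real.sqrt n)⁻¹ else 0

lemma ep_sqfPred_mul {Q0 m n : ℕ} (h : Nat.Coprime m n) (hm : m ≠ 0) (hn : n ≠ 0) :
    sqfPred Q0 (m * n) ↔ sqfPred Q0 m ∧ sqfPred Q0 n := by
  classical
  unfold sqfPred
  constructor
  · rintro ⟨_, h2⟩
    refine ⟨⟨hm, fun p hp => ?_⟩, ⟨hn, fun p hp => ?_⟩⟩
    · have hp' : p ∈ (m * n).primeFactors := by
        rw [h.primeFactors_mul]; exact Finset.mem_union_left _ hp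
      have := h2 p hp'
      rwa [Nat.factorization_eq_of_coprime_left h (List.mem_toFinset.mp hp)] at this
    · have hp' : p ∈ (m * n).primeFactors := by
        rw [h.primeFactors_mul]; exact Finset.mem_union_right _ hp
      have := h2 p hp'
      rwa [Nat.factorization_eq_of_coprime_right h (List.mem_toFinset.mp hp)] at this
  · rintro ⟨⟨_, h1⟩, ⟨_, h2⟩⟩
    refine ⟨mul_ne_zero hm hn, fun p hp => ?_⟩
    rw [h.primeFactors_mul, Finset.mem_union] at hp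
    rcases hp with hp | hp
    · rw [Nat.factorization_eq_of_coprime_left h (List.mem_toFinset.mp hp)]; exact h1 p hp
    · rw [Nat.factorization_eq_of_coprime_right h (List.mem_toFinset.mp hp)]; exact h2 p hp

lemma ep_sqfG_mul {Q0 m n : ℕ} (h : Nat.Coprime m n) : sqfG Q0 (m * n) = sqfG Q0 m * sqfG Q0 n := by
  classical
  rcases eq_or_ne m 0 with hm | hm
  · subst hm
    have hn : n = 1 := (Nat.coprime_zero_left n).mp h
    subst hn
    simp [sqfG, sqfPred]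
  rcases eq_or_ne n 0 with hn | hn
  · subst hn
    have hm1 : m = 1 := (Nat.coprime_zero_right m).mp h
    subst hm1
    simp [sqfG, sqfPred]
  unfold sqfG
  by_cases h1 : sqfPred Q0 m
  · by_cases h2 : sqfPred Q0 n
    · rw [if_pos ((ep_sqfPred_mul h hm hn).mpr ⟨h1, h2⟩), if_pos h1, if_pos h2]
      push_cast
      rw [Real.sqrt_mul (by positivity), mul_inv]
    · rw [if_neg (fun hh => h2 ((ep_sqfPred_mul h hm hn).mp hh).2), if_neg h2]
      simp
  · rw [if_neg (fun hh => h1 ((ep_sqfPred_mul h hm hn).mp hh).1), if_neg h1]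
    simp

lemma ep_sqfG_nonneg (Q0 n : ℕ) : 0 ≤ sqfG Q0 n := by
  unfold sqfG
  split_ifs
  · positivity
  · exact le_rfl

lemma ep_sqfG_one (Q0 : ℕ) : sqfG Q0 1 = 1 := by
  simp [sqfG, sqfPred]

lemma ep_sqfPred_prime_pow {Q0 p : ℕ} (hp : p.Prime) (e : ℕ) :
    sqfPred Q0 (p ^ (e + 2)) ↔ Q0 ≤ p := by
  unfold sqfPred
  rw [Nat.primeFactors_prime_pow (by omega) hp]
  constructor
  · rintro ⟨_, h⟩
    exact (h p (Finset.mem_singleton_self p)).1
  · intro h
    refine ⟨pow_ne_zero _ hp.ne_zero, fun q hq => ?_⟩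
    rw [Finset.mem_singleton] at hq
    subst hq
    refine ⟨h, ?_⟩
    rw [hp.factorization_pow]
    simp

lemma ep_sqrt_pow_nat (p e : ℕ) : Real.sqrt ((p ^ e : ℕ):ℝ) = Real.sqrt p ^ e := by
  push_cast
  rw [Real.sqrt_eq_rpow, Real.sqrt_eq_rpow, ← Real.rpow_natCast, ← Real.rpow_natCast,
    ← Real.rpow_mul (by positivity), ← Real.rpow_mul (by positivity), mul_comm]

lemma ep_sqfG_hasSum {Q0 p : ℕ} (hQ : 4 ≤ Q0) (hp : p.Prime) :
    ∃ S : ℝ, HasSum (fun e : ℕ => sqfG Q0 (p ^ e)) S ∧ S ≤ 1 + 2 / p := by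
  classical
  have hf0 : sqfG Q0 (p ^ 0) = 1 := by simpa using ep_sqfG_one Q0
  have hf1 : sqfG Q0 (p ^ 1) = 0 := by
    unfold sqfG
    rw [if_neg]
    rintro ⟨_, h⟩
    have h2 := h p (by
      rw [pow_one]
      exact Nat.mem_primeFactors.mpr ⟨hp, dvd_rfl, hp.ne_zero⟩)
    have h3 := h2.2
    rw [pow_one, hp.factorization_self] at h3
    omega
  have hppos : (0:ℝ) < p := by exact_mod_cast hp.pos
  by_cases hpQ : Q0 ≤ p
  · set r : ℝ := (Real.sqrt p)⁻¹ with hr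
    have hsq : (2:ℝ) ≤ Real.sqrt p := by
      apply Real.le_sqrt_of_sq_le
      have : (4:ℝ) ≤ p := by exact_mod_cast (by omega : 4 ≤ p)
      linarith
    have hr0 : 0 ≤ r := by rw [hr]; positivity
    have hr1 : r ≤ 1 / 2 := by
      rw [hr, inv_eq_one_div]
      exact one_div_le_one_div_of_le (by norm_num) hsq
    have hr2 : r ^ 2 = 1 / p := by
      rw [hr, inv_pow, Real.sq_sqrt hppos.le, one_div]
    have hgeo : HasSum (fun e : ℕ => r ^ 2 * r ^ e) (r ^ 2 * (1 - r)⁻¹) :=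
      (hasSum_geometric_of_lt_one hr0 (by linarith)).mul_left _
    have hf : (fun e : ℕ => r ^ 2 * r ^ e) = fun e : ℕ => sqfG Q0 (p ^ (e + 2)) := by
      funext e
      unfold sqfG
      rw [if_pos ((ep_sqfPred_prime_pow hp e).mpr hpQ), ep_sqrt_pow_nat, hr, ← inv_pow, pow_add]
      ring
    rw [hf] at hgeo
    have h := (hasSum_nat_add_iff (f := fun e : ℕ => sqfG Q0 (p ^ e)) 2).mp hgeo
    refine ⟨_, h, ?_⟩
    simp only [Finset.sum_range_succ, Finset.sum_range_zero, zero_add, hf0, hf1]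
    have h1 : (1 - r)⁻¹ ≤ 2 := by
      rw [inv_le_comm₀ (by linarith) (by norm_num)]
      linarith
    have h2 : r ^ 2 * (1 - r)⁻¹ ≤ r ^ 2 * 2 := mul_le_mul_of_nonneg_left h1 (by positivity)
    rw [hr2] at h2
    have h3 : 1 / (p:ℝ) * 2 = 2 / p := by ring
    rw [hr2]
    linarith
  · have hz : (fun e : ℕ => sqfG Q0 (p ^ (e + 2))) = fun _ => (0:ℝ) := by
      funext e
      unfold sqfG
      rw [if_neg (fun hh => hpQ ((ep_sqfPred_prime_pow hp e).mp hh))]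
    have hgeo : HasSum (fun e : ℕ => sqfG Q0 (p ^ (e + 2))) 0 := by
      rw [hz]; exact hasSum_zero
    have h := (hasSum_nat_add_iff (f := fun e : ℕ => sqfG Q0 (p ^ e)) 2).mp hgeo
    refine ⟨_, h, ?_⟩
    simp only [Finset.sum_range_succ, Finset.sum_range_zero, zero_add, hf0, hf1]
    have : (0:ℝ) ≤ 2 / p := by positivity
    linarith

lemma ep_sqfPred_of_qP {Q0 a : ℕ} (ha0 : a ≠ 0) (h : qP Q0 a = a) : sqfPred Q0 a := by
  classical
  refine ⟨ha0, fun p hp => ?_⟩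
  have hpp := Nat.prime_of_mem_primeFactors hp
  have hd : p ∣ qP Q0 a := by rw [h]; exact Nat.dvd_of_mem_primeFactors hp
  unfold qP at hd
  obtain ⟨q, hq, hdq⟩ := (Nat.Prime.prime hpp).exists_mem_finset_dvd hd
  rw [Finset.mem_filter] at hq
  have hqp := Nat.prime_of_mem_primeFactors hq.1
  have h1 : p ∣ q := hpp.dvd_of_dvd_pow hdq
  have h2 : p = q := (Nat.prime_dvd_prime_iff_eq hpp hqp).mp h1
  subst h2
  exact hq.2

/-- Sum of `q^(-1/2)` over squarefull `q`, primes at least `4`. -/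
theorem sum_squarefull (Q0 z : ℕ) (hQ : 4 ≤ Q0) (A : Finset ℕ)
    (hA : ∀ a ∈ A, a ≠ 0 ∧ qP Q0 a = a ∧ ∀ p ∈ a.primeFactors, p < z) :
    ∑ a ∈ A, (Real.sqrt a)⁻¹ ≤ Real.exp (3 * Mer z) := by
  classical
  have h1 : ∑ a ∈ A, (Real.sqrt a)⁻¹ = ∑ a ∈ A, sqfG Q0 a := by
    apply Finset.sum_congr rfl
    intro a ha
    unfold sqfG
    rw [if_pos (ep_sqfPred_of_qP (hA a ha).1 (hA a ha).2.1)]
  rw [h1]
  have h2 := EP_gen (sqfG Q0) (ep_sqfG_one Q0) (fun h => ep_sqfG_mul h) (ep_sqfG_nonneg Q0)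
    (fun p hp => by
      obtain ⟨S, hS, _⟩ := ep_sqfG_hasSum (p := p) hQ hp
      exact hS.summable) z A (fun a ha => ⟨(hA a ha).1, (hA a ha).2.2⟩)
  refine h2.trans ?_
  have h3 : ∏ p ∈ z.primesBelow, ∑' e : ℕ, sqfG Q0 (p ^ e)
      ≤ ∏ p ∈ z.primesBelow, Real.exp (2 / p) := by
    apply Finset.prod_le_prod
    · intro p _
      exact tsum_nonneg (fun e => ep_sqfG_nonneg Q0 _)
    · intro p hp
      have hp' := Nat.prime_of_mem_primesBelow hp
      obtain ⟨S, hS, hS2⟩ := ep_sqfG_hasSum (p := p) hQ hp'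
      rw [hS.tsum_eq]
      have := Real.add_one_le_exp (2 / (p:ℝ))
      linarith
  refine h3.trans ?_
  rw [← Real.exp_sum]
  apply Real.exp_le_exp.mpr
  have hsub : z.primesBelow ⊆ (range (z + 1)).filter Nat.Prime := by
    intro p hp
    rw [Nat.mem_primesBelow] at hp
    rw [Finset.mem_filter, Finset.mem_range]
    exact ⟨by omega, hp.2⟩
  have h4 : ∑ p ∈ z.primesBelow, (2:ℝ) / p ≤ 2 * Mer z := by
    unfold Mer
    rw [Finset.mul_sum]
    refine le_trans ?_ (Finset.sum_le_sum_of_subset_of_nonneg hsub (fun p _ _ => by positivity))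
    apply Finset.sum_le_sum
    intro p _
    apply le_of_eq
    ring
  have h5 := ep_Mer_nonneg z
  linarith

end

end Vale.Agent.Lib.P028K
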