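import Vale.Agent.Lib.P028K.CI
import Vale.Agent.Lib.P028T.PhiOver
import Vale.Agent.Lib.P028V.Abstract
import Vale.Agent.Lib.P028G.Main

/-! Part Final: copy of `Lib/P028G/Main.lean` with `GG` replaced by `GE ε`. Blueprint section 14. -/

open MeasureTheory Filter Finset

namespace Vale.Agent.Lib.P028K

open Vale.Agent.Lib.P028
open Vale.Agent.Lib.P028T
open Vale.Agent.Lib.P028T.GcdAux
open Vale.Agent.Lib.P028G
open Vale.Agent.Lib.P028V (abstract_main)

lemma one_le_GE {e : ℝ} (n : ℕ) (_he : 0 < e) : 1 ≤ GE e n := by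
  unfold GE
  exact Real.one_le_exp (by positivity)

/-- The choice of a dyadic level with many elements. -/
lemma level_selectE {e : ℝ} (he : 0 < e) {φ : ℕ → ℝ} (lev : ℕ → ℕ)
    (hlev : ∀ q, φ q ≠ 0 → φ q = ((1:ℝ) / 2) ^ lev q)
    (hdiv : ¬ Summable fun q => if φ q = 0 then (0:ℝ) else
      ((1:ℝ) / 2) ^ lev q * ((GE e (lev q))⁻¹ * (((lev q : ℝ) + 1) ^ 2)⁻¹)) (Y : ℕ) :
    ∃ (n : ℕ) (F : Finset ℕ), (∀ q ∈ F, Y ≤ q ∧ φ q = ((1:ℝ) / 2) ^ n) ∧
      (2:ℝ) ^ n * GE e n ≤ (F.card : ℝ) := by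
  classical
  by_contra hcon
  push Not at hcon
  apply hdiv
  obtain ⟨term, hterm⟩ : ∃ term : ℕ → ℝ, term = fun q => if φ q = 0 then (0:ℝ) else
      ((1:ℝ) / 2) ^ lev q * ((GE e (lev q))⁻¹ * (((lev q : ℝ) + 1) ^ 2)⁻¹) := ⟨_, rfl⟩
  rw [← hterm]
  have hgeo : Summable fun n : ℕ => (((n:ℝ) + 1) ^ 2)⁻¹ := by
    have h := (summable_nat_add_iff 1).2 (Real.summable_one_div_nat_pow.2 (by norm_num : 1 < 2))
    refine h.congr fun n => ?_
    push_cast
    simp [one_div]
  have hpow0 : ∀ q, 0 ≤ term q := by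
    intro q
    rw [hterm]
    simp only
    split_ifs
    · exact le_rfl
    · have := one_le_GE (lev q) he
      positivity
  have hpow1 : ∀ q, term q ≤ 1 := by
    intro q
    rw [hterm]
    simp only
    split_ifs
    · norm_num
    · have h1 := one_le_GE (lev q) he
      have h2 : (GE e (lev q))⁻¹ ≤ 1 := inv_le_one_of_one_le₀ h1
      have h3 : (((lev q : ℝ) + 1) ^ 2)⁻¹ ≤ 1 := by
        apply inv_le_one_of_one_le₀
        have : (0:ℝ) ≤ lev q := Nat.cast_nonneg _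
        nlinarith
      have h4 : ((1:ℝ) / 2) ^ lev q ≤ 1 := pow_le_one₀ (by norm_num) (by norm_num)
      have h5 : (GE e (lev q))⁻¹ * (((lev q : ℝ) + 1) ^ 2)⁻¹ ≤ 1 :=
        mul_le_one₀ h2 (by positivity) h3
      exact mul_le_one₀ h4 (by have : 0 < GE e (lev q) := by linarith
                               positivity) h5
  refine summable_of_sum_le (c := (Y:ℝ) + ∑' n : ℕ, (((n:ℝ) + 1) ^ 2)⁻¹) hpow0 fun T => ?_
  -- the low part
  have hlow : ∑ q ∈ T.filter (· < Y), term q ≤ Y := by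
    calc ∑ q ∈ T.filter (· < Y), term q ≤ ∑ _q ∈ T.filter (· < Y), (1:ℝ) :=
          Finset.sum_le_sum fun q _ => hpow1 q
      _ = ((T.filter (· < Y)).card : ℝ) := by simp
      _ ≤ Y := by
          have : (T.filter (· < Y)) ⊆ Finset.range Y := by
            intro q hq
            exact Finset.mem_range.2 (Finset.mem_filter.1 hq).2
          have h2 := Finset.card_le_card this
          rw [Finset.card_range] at h2
          exact_mod_cast h2
  -- the high part
  set T₂ := T.filter (fun q => ¬ q < Y ∧ φ q ≠ 0) with hT₂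
  have hfib : ∀ n ∈ T₂.image lev, ∑ q ∈ T₂.filter (fun q => lev q = n), term q ≤ (((n:ℝ) + 1) ^ 2)⁻¹ := by
    intro n _
    have hmem : ∀ q ∈ T₂.filter (fun q => lev q = n), Y ≤ q ∧ φ q = ((1:ℝ) / 2) ^ n := by
      intro q hq
      obtain ⟨hq1, hq2⟩ := Finset.mem_filter.1 hq
      obtain ⟨-, hq3, hq4⟩ := Finset.mem_filter.1 hq1
      refine ⟨not_lt.1 hq3, ?_⟩
      rw [hlev q hq4, hq2]
    have hcard := hcon n _ hmem
    have hval : ∀ q ∈ T₂.filter (fun q => lev q = n),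
        term q = ((1:ℝ) / 2) ^ n * ((GE e n)⁻¹ * (((n:ℝ) + 1) ^ 2)⁻¹) := by
      intro q hq
      obtain ⟨hq1, hq2⟩ := Finset.mem_filter.1 hq
      obtain ⟨-, -, hq4⟩ := Finset.mem_filter.1 hq1
      rw [hterm]
      simp only [if_neg hq4, hq2]
    rw [Finset.sum_congr rfl hval, Finset.sum_const, nsmul_eq_mul]
    have hGpos : 0 < GE e n := Real.exp_pos _
    have hnn : (0:ℝ) ≤ ((1:ℝ) / 2) ^ n * ((GE e n)⁻¹ * (((n:ℝ) + 1) ^ 2)⁻¹) := by positivity
    calc ((T₂.filter (fun q => lev q = n)).card : ℝ) * (((1:ℝ) / 2) ^ n * ((GE e n)⁻¹ * (((n:ℝ) + 1) ^ 2)⁻¹))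
        ≤ ((2:ℝ) ^ n * GE e n) * (((1:ℝ) / 2) ^ n * ((GE e n)⁻¹ * (((n:ℝ) + 1) ^ 2)⁻¹)) :=
          mul_le_mul_of_nonneg_right hcard.le hnn
      _ = (((n:ℝ) + 1) ^ 2)⁻¹ := by
          have h2 : (2:ℝ) ^ n * ((1:ℝ) / 2) ^ n = 1 := by
            rw [← mul_pow]
            norm_num
          have h3 : GE e n * (GE e n)⁻¹ = 1 := mul_inv_cancel₀ hGpos.ne'
          calc ((2:ℝ) ^ n * GE e n) * (((1:ℝ) / 2) ^ n * ((GE e n)⁻¹ * (((n:ℝ) + 1) ^ 2)⁻¹))
              = ((2:ℝ) ^ n * ((1:ℝ) / 2) ^ n) * (GE e n * (GE e n)⁻¹) * (((n:ℝ) + 1) ^ 2)⁻¹ := by ring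
            _ = _ := by rw [h2, h3]; ring
  have hhigh : ∑ q ∈ T₂, term q ≤ ∑' n : ℕ, (((n:ℝ) + 1) ^ 2)⁻¹ := by
    have hmaps : ∀ q ∈ T₂, lev q ∈ T₂.image lev := fun q hq => Finset.mem_image_of_mem _ hq
    rw [← Finset.sum_fiberwise_of_maps_to hmaps]
    refine (Finset.sum_le_sum hfib).trans ?_
    exact hgeo.sum_le_tsum _ (fun n _ => by positivity)
  -- assemble
  have hsplit : ∑ q ∈ T, term q ≤ ∑ q ∈ T.filter (· < Y), term q + ∑ q ∈ T₂, term q := by
    rw [← Finset.sum_filter_add_sum_filter_not T (· < Y)]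
    apply add_le_add le_rfl
    apply le_of_eq
    rw [hT₂, Finset.sum_filter, Finset.sum_filter]
    apply Finset.sum_congr rfl
    intro q _
    by_cases h2 : q < Y
    · simp [h2]
    · by_cases h3 : φ q = 0
      · have : term q = 0 := by
          rw [hterm]
          simp [h3]
        simp [h2, h3, this]
      · simp [h2, h3]
  linarith

/-- The pair term at a common value `1 / N` is `1 / N` times the term of `btSum`, for `q ≠ r`. -/
lemma pairTerm_eq_bt {γ : ℝ} {φ : ℕ → ℝ} {N : ℝ} (hN : 0 < N) {q r : ℕ} (hq : 1 ≤ q) (hr : 1 ≤ r)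
    (hne : q ≠ r) (hφq : φ q = 1 / N) (hφr : φ r = 1 / N) :
    pairTerm γ φ q r ≤ (1 / N) * (if q ≠ r ∧ (ht q r : ℝ) / N < 1 / 768 ∧
      dn (((lowA q r : ℝ) - lowB q r) * γ) < 2 * ((ht q r : ℝ) / N) then 1 / (ht q r : ℝ) else 0) := by
  have hX : max ((lowA q r : ℝ) * (1 / N)) ((lowB q r : ℝ) * (1 / N)) = (ht q r : ℝ) / N := by
    unfold ht
    rcases le_total (lowA q r) (lowB q r) with hab | hab
    · have hab' : (lowA q r : ℝ) ≤ lowB q r := by exact_mod_cast hab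
      rw [max_eq_right hab, max_eq_right (mul_le_mul_of_nonneg_right hab' (by positivity))]
      ring
    · have hab' : (lowB q r : ℝ) ≤ lowA q r := by exact_mod_cast hab
      rw [max_eq_left hab, max_eq_left (mul_le_mul_of_nonneg_right hab' (by positivity))]
      ring
  unfold pairTerm
  simp only
  rw [hφq, hφr]
  change (if max ((lowA q r : ℝ) * (1 / N)) ((lowB q r : ℝ) * (1 / N)) < 1 / 768 ∧
      dn (((lowA q r : ℝ) - lowB q r) * γ) < 2 * max ((lowA q r : ℝ) * (1 / N)) ((lowB q r : ℝ) * (1 / N)) then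
        min ((1 / N) / (lowB q r : ℝ)) ((1 / N) / (lowA q r : ℝ)) else 0) ≤ _
  rw [hX]
  by_cases h : (ht q r : ℝ) / N < 1 / 768 ∧
      dn (((lowA q r : ℝ) - lowB q r) * γ) < 2 * ((ht q r : ℝ) / N)
  · rw [if_pos h, if_pos ⟨hne, h⟩]
    have hhtR : (0:ℝ) < ht q r := by
      have : 1 ≤ ht q r := ht_pos hr
      exact_mod_cast this
    rcases le_total (lowA q r) (lowB q r) with hab | hab
    · have hm : ht q r = lowB q r := max_eq_right hab
      rw [hm, mul_one_div]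
      exact min_le_left _ _
    · have hm : ht q r = lowA q r := max_eq_left hab
      rw [hm, mul_one_div]
      exact min_le_right _ _
  · rw [if_neg h, if_neg (fun h' => h h'.2)]
    simp

/-- The theorem for a dyadic function, non-Liouville shift. -/
theorem main_dyadicE {γ c₀ : ℝ} {κ : ℕ} (hγ : Dio γ c₀ κ) (hc₀ : 0 < c₀) (hκ : 1 ≤ κ)
    {e : ℝ} (he : 0 < e) (he1 : e ≤ 1 / 2) (φ : ℕ → ℝ) (h0 : ∀ q, 0 ≤ φ q) (h1 : ∀ q, φ q ≤ 1 / 2)
    (lev : ℕ → ℕ) (hd : ∀ q, φ q ≠ 0 → φ q = ((1:ℝ) / 2) ^ lev q)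
    (hdiv : ¬ Summable fun q => if φ q = 0 then (0:ℝ) else
      ((1:ℝ) / 2) ^ lev q * ((GE e (lev q))⁻¹ * (((lev q : ℝ) + 1) ^ 2)⁻¹)) :
    ∀ᵐ x : ℝ, ∃ᶠ q : ℕ in atTop, dn ((q:ℝ) * x - γ) < φ q := by
  classical
  obtain ⟨n0, C, hC, hCI⟩ := CI_main hγ hc₀ hκ e he he1
  have hblocks : ∃ C₁ : ℝ, 0 < C₁ ∧ ∀ Y : ℕ, ∃ F : Finset ℕ, (∀ r ∈ F, Y ≤ r) ∧
      1 ≤ ∑ r ∈ F, ∫ x in (0:ℝ)..1, Phi γ φ r x ∧
      ∑ r ∈ F, ∑ q ∈ F.filter (· < r), ∫ x in (0:ℝ)..1, Phi γ φ q x * Phi γ φ r x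
        ≤ C₁ * (∑ r ∈ F, ∫ x in (0:ℝ)..1, Phi γ φ r x) ^ 2 := by
    refine ⟨772 + C + 2 ^ n0, by positivity, fun Y => ?_⟩
    obtain ⟨n, F₀, hF₀, hcard₀⟩ := level_selectE he lev hd hdiv (max Y 2)
    have hG1 := one_le_GE (e := e) n he
    have hGpos : 0 < GE e n := by linarith
    obtain ⟨N, hNd⟩ : ∃ N : ℝ, N = (2:ℝ) ^ n := ⟨_, rfl⟩
    have hN1 : 1 ≤ N := by rw [hNd]; exact one_le_pow₀ (by norm_num)
    have hN0 : 0 < N := by linarith
    have hceil : ⌈(2:ℝ) ^ n * GE e n⌉₊ ≤ F₀.card := Nat.ceil_le.2 hcard₀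
    obtain ⟨F, hFsub, hFcard⟩ := Finset.exists_subset_card_eq hceil
    have hF : ∀ q ∈ F, max Y 2 ≤ q ∧ φ q = ((1:ℝ) / 2) ^ n := fun q hq => hF₀ q (hFsub hq)
    have hqY : ∀ q ∈ F, Y ≤ q := fun q hq => (le_max_left _ _).trans (hF q hq).1
    have hq2 : ∀ q ∈ F, 2 ≤ q := fun q hq => (le_max_right _ _).trans (hF q hq).1
    have hv : ((1:ℝ) / 2) ^ n = 1 / N := by
      rw [hNd]
      simp [one_div, inv_pow]
    have hφF : ∀ q ∈ F, φ q = 1 / N := fun q hq => by rw [(hF q hq).2, hv]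
    obtain ⟨K, hKd⟩ : ∃ K : ℝ, K = (F.card : ℝ) := ⟨_, rfl⟩
    have hKlow : N * GE e n ≤ K := by
      rw [hKd, hFcard, hNd]
      exact Nat.le_ceil _
    have hKup : (F.card : ℝ) ≤ 2 * 2 ^ n * GE e n := by
      rw [hFcard]
      have h3 : (⌈(2:ℝ) ^ n * GE e n⌉₊ : ℝ) < (2:ℝ) ^ n * GE e n + 1 :=
        Nat.ceil_lt_add_one (by positivity)
      have h4 : (1:ℝ) ≤ (2:ℝ) ^ n * GE e n := by
        rw [← hNd]
        nlinarith
      linarith
    have hNK : N ≤ K := by nlinarith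
    have hK1 : 1 ≤ K := by linarith
    have hK0 : 0 < K := by linarith
    have hint : ∑ r ∈ F, ∫ x in (0:ℝ)..1, Phi γ φ r x = K / N := by
      rw [Finset.sum_congr rfl fun r hr => integral_phi h0 h1 (hq2 r hr),
        Finset.sum_congr rfl hφF, Finset.sum_const, nsmul_eq_mul, hKd]
      ring
    have hM : 1 ≤ K / N := by
      rw [le_div_iff₀ hN0, one_mul]
      exact hNK
    refine ⟨F, hqY, ?_, ?_⟩
    · rw [hint]
      exact hM
    · rw [hint]
      -- the bound on the sum of pair terms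
      have hpairs : ∑ r ∈ F, ∑ q ∈ F.filter (· < r), pairTerm γ φ q r ≤ (C + 2 ^ n0) * (K / N) ^ 2 := by
        by_cases hn : n0 ≤ n
        · -- the core inequality
          have hbt := hCI n hn F (fun q hq => by have := hq2 q hq; omega)
            (by rw [← hNd, ← hKd]; exact hKlow) hKup
          rw [← hNd, ← hKd] at hbt
          have hterm : ∀ r ∈ F, ∑ q ∈ F.filter (· < r), pairTerm γ φ q r ≤
              (1 / N) * ∑ q ∈ F, (if q ≠ r ∧ (ht q r : ℝ) / N < 1 / 768 ∧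
                dn (((lowA q r : ℝ) - lowB q r) * γ) < 2 * ((ht q r : ℝ) / N) then 1 / (ht q r : ℝ) else 0) := by
            intro r hr
            rw [Finset.mul_sum]
            refine le_trans (Finset.sum_le_sum fun q hq => ?_) (Finset.sum_le_sum_of_subset_of_nonneg
              (Finset.filter_subset _ _) fun q _ _ => ?_)
            · have hqF : q ∈ F := (Finset.mem_filter.1 hq).1
              have hlt : q < r := (Finset.mem_filter.1 hq).2
              exact pairTerm_eq_bt hN0 (by have := hq2 q hqF; omega) (by have := hq2 r hr; omega)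
                (by omega) (hφF q hqF) (hφF r hr)
            · apply mul_nonneg (by positivity)
              split_ifs
              · positivity
              · exact le_rfl
          have hsw : ∑ r ∈ F, ∑ q ∈ F, (if q ≠ r ∧ (ht q r : ℝ) / N < 1 / 768 ∧
                dn (((lowA q r : ℝ) - lowB q r) * γ) < 2 * ((ht q r : ℝ) / N) then 1 / (ht q r : ℝ) else 0)
              = btSum γ N F := by
            unfold btSum
            exact Finset.sum_comm
          calc ∑ r ∈ F, ∑ q ∈ F.filter (· < r), pairTerm γ φ q r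
              ≤ ∑ r ∈ F, (1 / N) * ∑ q ∈ F, (if q ≠ r ∧ (ht q r : ℝ) / N < 1 / 768 ∧
                dn (((lowA q r : ℝ) - lowB q r) * γ) < 2 * ((ht q r : ℝ) / N) then 1 / (ht q r : ℝ) else 0) :=
                Finset.sum_le_sum hterm
            _ = (1 / N) * btSum γ N F := by rw [← Finset.mul_sum, hsw]
            _ ≤ (1 / N) * (C * K ^ 2 / N) := mul_le_mul_of_nonneg_left hbt (by positivity)
            _ = C * (K / N) ^ 2 := by field_simp
            _ ≤ (C + 2 ^ n0) * (K / N) ^ 2 := by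
                have : (0:ℝ) ≤ 2 ^ n0 * (K / N) ^ 2 := by positivity
                nlinarith
        · -- small levels
          push Not at hn
          have hNle : N ≤ 2 ^ n0 := by
            rw [hNd]
            exact pow_le_pow_right₀ (by norm_num) hn.le
          have hterm : ∀ r ∈ F, ∑ q ∈ F.filter (· < r), pairTerm γ φ q r ≤ K * (1 / N) := by
            intro r hr
            calc ∑ q ∈ F.filter (· < r), pairTerm γ φ q r
                ≤ ∑ _q ∈ F.filter (· < r), (1 / N) := by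
                  refine Finset.sum_le_sum fun q hq => ?_
                  have hqF : q ∈ F := (Finset.mem_filter.1 hq).1
                  have h3 := pairTerm_le' (γ := γ) (φ := φ) (v := 1 / N) (by positivity)
                    (q := q) (r := r) (by have := hq2 r hr; omega) (hφF q hqF) (hφF r hr)
                  have h4 : (1:ℝ) / (ht q r : ℝ) ≤ 1 := by
                    have hht : 1 ≤ ht q r := ht_pos (by have := hq2 r hr; omega)
                    have hhtR : (1:ℝ) ≤ ht q r := by exact_mod_cast hht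
                    rw [div_le_one (by linarith)]
                    exact hhtR
                  have h5 : (1 / N) * (1 / (ht q r : ℝ)) ≤ (1 / N) * 1 :=
                    mul_le_mul_of_nonneg_left h4 (by positivity)
                  linarith
              _ = ((F.filter (· < r)).card : ℝ) * (1 / N) := by simp
              _ ≤ K * (1 / N) := by
                  apply mul_le_mul_of_nonneg_right _ (by positivity)
                  rw [hKd]
                  exact_mod_cast Finset.card_filter_le _ _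
          calc ∑ r ∈ F, ∑ q ∈ F.filter (· < r), pairTerm γ φ q r
              ≤ ∑ _r ∈ F, (K * (1 / N)) := Finset.sum_le_sum hterm
            _ = K * (K * (1 / N)) := by rw [Finset.sum_const, nsmul_eq_mul, hKd]
            _ = N * (K / N) ^ 2 := by field_simp
            _ ≤ (C + 2 ^ n0) * (K / N) ^ 2 := by
                apply mul_le_mul_of_nonneg_right _ (by positivity)
                linarith
      have hsum : ∑ r ∈ F, ∑ q ∈ F.filter (· < r), ∫ x in (0:ℝ)..1, Phi γ φ q x * Phi γ φ r x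
          ≤ ∑ r ∈ F, ∑ q ∈ F.filter (· < r), (772 * ((1 / N) * (1 / N)) + pairTerm γ φ q r) := by
        refine Finset.sum_le_sum fun r hr => Finset.sum_le_sum fun q hq => ?_
        have hqF : q ∈ F := (Finset.mem_filter.1 hq).1
        have h2 := overlap_le (γ := γ) h0 h1 (hq2 q hqF) (hq2 r hr)
        rw [hφF q hqF, hφF r hr] at h2
        exact h2
      have hfirst : ∑ r ∈ F, ∑ _q ∈ F.filter (· < r), (772 * ((1 / N) * (1 / N))) ≤ 772 * (K / N) ^ 2 := by
        have hterm : ∀ r ∈ F, ∑ _q ∈ F.filter (· < r), (772 * ((1 / N) * (1 / N))) ≤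
            K * (772 * ((1 / N) * (1 / N))) := by
          intro r _
          rw [Finset.sum_const, nsmul_eq_mul]
          apply mul_le_mul_of_nonneg_right _ (by positivity)
          rw [hKd]
          exact_mod_cast Finset.card_filter_le _ _
        calc ∑ r ∈ F, ∑ _q ∈ F.filter (· < r), (772 * ((1 / N) * (1 / N)))
            ≤ ∑ _r ∈ F, (K * (772 * ((1 / N) * (1 / N)))) := Finset.sum_le_sum hterm
          _ = K * (K * (772 * ((1 / N) * (1 / N)))) := by rw [Finset.sum_const, nsmul_eq_mul, hKd]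
          _ = 772 * (K / N) ^ 2 := by field_simp
      have hsplit : ∑ r ∈ F, ∑ q ∈ F.filter (· < r), (772 * ((1 / N) * (1 / N)) + pairTerm γ φ q r)
          = ∑ r ∈ F, ∑ _q ∈ F.filter (· < r), (772 * ((1 / N) * (1 / N)))
            + ∑ r ∈ F, ∑ q ∈ F.filter (· < r), pairTerm γ φ q r := by
        simp only [Finset.sum_add_distrib]
      rw [hsplit] at hsum
      nlinarith
  have h := abstract_main (Phi γ φ) phi_lip (fun r x => phi_nonneg r x)
    (fun r hr x => phi_le_one h1 hr x) (fun r x => phi_periodic r x)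
    (fun L ε hL hε => phi_mix h0 h1 L ε hL hε) hblocks
  filter_upwards [h] with x hx
  apply (hx.and_eventually (eventually_ge_atTop 1)).mono
  intro q hq
  exact phi_pos_imp hq.2 hq.1

/-- Comparison of the weights: `m exp (-(ℓ + 1)^ε)` against the dyadic term with `GE`. -/
lemma weight_compareE {ε e : ℝ} (hε : 2 * e ≤ ε) (he : 0 < e) (he1 : e ≤ 1 / 4) {j : ℕ} (hj : 2 ≤ j) {ℓ : ℝ}
    (hℓ : ((j:ℝ) - 1) * Real.log 2 ≤ ℓ) :
    Real.exp (-((ℓ + 1) ^ ε)) ≤
      Real.exp ((1 + 2 / e) ^ 2 / 2) * ((GE e j)⁻¹ * (((j:ℝ) + 1) ^ 2)⁻¹) := by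
  have hjR : (2:ℝ) ≤ j := by exact_mod_cast hj
  have hl2 : (0.69:ℝ) < Real.log 2 := by
    have := Real.log_two_gt_d9
    linarith
  have hℓ0 : (0:ℝ) ≤ ℓ := by
    have : 0 ≤ ((j:ℝ) - 1) * Real.log 2 := mul_nonneg (by linarith) (by linarith)
    linarith
  have hhalf : ((j:ℝ) + 1) / 2 ≤ ℓ + 1 := by
    have : (0.69:ℝ) * ((j:ℝ) - 1) ≤ ((j:ℝ) - 1) * Real.log 2 := by nlinarith
    nlinarith
  -- the scale
  obtain ⟨A, hA⟩ : ∃ A : ℝ, A = ((j:ℝ) + 1) ^ e := ⟨_, rfl⟩
  have hj1 : (1:ℝ) ≤ (j:ℝ) + 1 := by linarith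
  have hA1 : 1 ≤ A := by rw [hA]; exact Real.one_le_rpow hj1 he.le
  have hA0 : 0 < A := by linarith
  have hlogA : Real.log A = e * Real.log ((j:ℝ) + 1) := by
    rw [hA, Real.log_rpow (by linarith)]
  have hlogj : Real.log ((j:ℝ) + 1) ≤ A / e := by
    have h1 : Real.log A ≤ A - 1 := Real.log_le_sub_one_of_pos hA0
    rw [le_div_iff₀ he]
    rw [hlogA] at h1
    nlinarith
  -- lower bound for the power
  have hpow1 : (ℓ + 1) ^ (2 * e) ≤ (ℓ + 1) ^ ε :=
    Real.rpow_le_rpow_of_exponent_le (by linarith) hε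
  have hpow2 : (((j:ℝ) + 1) / 2) ^ (2 * e) ≤ (ℓ + 1) ^ (2 * e) :=
    Real.rpow_le_rpow (by linarith) hhalf (by positivity)
  have hpow3 : (((j:ℝ) + 1) / 2) ^ (2 * e) = A ^ 2 / 2 ^ (2 * e) := by
    rw [Real.div_rpow (by linarith) (by norm_num), hA, ← Real.rpow_natCast, ← Real.rpow_mul (by linarith)]
    congr 2
    push_cast
    ring
  have h2e : (2:ℝ) ^ (2 * e) ≤ 2 := by
    calc (2:ℝ) ^ (2 * e) ≤ (2:ℝ) ^ (1:ℝ) := Real.rpow_le_rpow_of_exponent_le (by norm_num) (by linarith)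
      _ = 2 := Real.rpow_one _
  have h2e0 : (0:ℝ) < (2:ℝ) ^ (2 * e) := by positivity
  have hAhalf : A ^ 2 / 2 ≤ (ℓ + 1) ^ ε := by
    have h5 : A ^ 2 / 2 ≤ A ^ 2 / 2 ^ (2 * e) :=
      div_le_div_of_nonneg_left (by positivity) h2e0 h2e
    rw [← hpow3] at h5
    linarith
  -- the right side as an exponential
  have hrhs : Real.exp ((1 + 2 / e) ^ 2 / 2) * ((GE e j)⁻¹ * (((j:ℝ) + 1) ^ 2)⁻¹)
      = Real.exp ((1 + 2 / e) ^ 2 / 2 - (A + 2 * Real.log ((j:ℝ) + 1))) := by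
    rw [sub_eq_add_neg, Real.exp_add, Real.exp_neg, Real.exp_add, mul_inv]
    congr 3
    · unfold GE
      rw [hA]
    · rw [mul_comm, Real.exp_mul, Real.exp_log (by linarith)]
      norm_cast
  rw [hrhs]
  apply Real.exp_le_exp.2
  have h6 : A + 2 * Real.log ((j:ℝ) + 1) ≤ (1 + 2 / e) * A := by
    have : (1 + 2 / e) * A = A + 2 * (A / e) := by ring
    rw [this]
    linarith
  nlinarith [sq_nonneg (A - (1 + 2 / e))]

/-- The theorem for non-Liouville shifts. -/
theorem main_K {γ c₀ : ℝ} {κ : ℕ} (hγ : Dio γ c₀ κ) (hc₀ : 0 < c₀) (hκ : 1 ≤ κ) (ε : ℝ) (hε : 0 < ε)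
    (ψ : ℕ → ℝ) (hψ : ∀ q, 0 ≤ ψ q)
    (hdiv : ¬ Summable fun q : ℕ => min (ψ q) (1 / 2) *
      Real.exp (-((Real.log (1 / min (ψ q) (1 / 2)) + 1) ^ ε))) :
    ∀ᵐ x : ℝ, ∃ᶠ q : ℕ in atTop, dn ((q:ℝ) * x - γ) < ψ q := by
  classical
  obtain ⟨e, he⟩ : ∃ e : ℝ, e = min ε (1 / 2) / 2 := ⟨_, rfl⟩
  have he0 : 0 < e := by
    rw [he]
    have : 0 < min ε (1 / 2) := lt_min hε (by norm_num)
    positivity
  have he1 : e ≤ 1 / 4 := by
    rw [he]
    have : min ε (1 / 2) ≤ 1 / 2 := min_le_right _ _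
    linarith
  have heε : 2 * e ≤ ε := by
    rw [he]
    have : min ε (1 / 2) ≤ ε := min_le_left _ _
    linarith
  set m : ℕ → ℝ := fun q => min (ψ q) (1 / 2) with hm
  have hm0 : ∀ q, 0 ≤ m q := fun q => le_min (hψ q) (by norm_num)
  have hm1 : ∀ q, m q ≤ 1 / 2 := fun q => min_le_right _ _
  have hex : ∀ q, ∃ j : ℕ, 0 < m q → ((1:ℝ) / 2) ^ j < m q ∧ m q ≤ 2 * ((1:ℝ) / 2) ^ j := by
    intro q
    by_cases h : 0 < m q
    · obtain ⟨n, hn1, hn2⟩ := exists_nat_pow_near_of_lt_one h ((hm1 q).trans (by norm_num))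
        (by norm_num : (0:ℝ) < 1 / 2) (by norm_num : (1:ℝ) / 2 < 1)
      refine ⟨n + 1, fun _ => ⟨hn1, ?_⟩⟩
      rw [pow_succ]
      linarith
    · exact ⟨0, fun h' => absurd h' h⟩
  choose lev hlev using hex
  obtain ⟨φ, hφ⟩ : ∃ φ : ℕ → ℝ, φ = fun q => if m q = 0 then 0 else ((1:ℝ) / 2) ^ lev q := ⟨_, rfl⟩
  have hφ0 : ∀ q, m q = 0 → φ q = 0 := fun q h => by rw [hφ]; simp [h]
  have hφ1 : ∀ q, m q ≠ 0 → φ q = ((1:ℝ) / 2) ^ lev q := fun q h => by rw [hφ]; simp [h]
  have hφnn : ∀ q, 0 ≤ φ q := by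
    intro q
    by_cases h : m q = 0
    · rw [hφ0 q h]
    · rw [hφ1 q h]
      positivity
  have hφle : ∀ q, φ q ≤ m q := by
    intro q
    by_cases h : m q = 0
    · rw [hφ0 q h, h]
    · rw [hφ1 q h]
      exact (hlev q (lt_of_le_of_ne (hm0 q) (Ne.symm h))).1.le
  have hφψ : ∀ q, φ q ≤ ψ q := fun q => (hφle q).trans (min_le_left _ _)
  have hφne : ∀ q, φ q = 0 ↔ m q = 0 := by
    intro q
    constructor
    · intro h
      by_contra h2
      rw [hφ1 q h2] at h
      exact absurd h (by positivity)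
    · exact hφ0 q
  have hφd : ∀ q, φ q ≠ 0 → φ q = ((1:ℝ) / 2) ^ lev q := by
    intro q hq
    exact hφ1 q (fun h => hq ((hφne q).2 h))
  have hφdiv : ¬ Summable fun q => if φ q = 0 then (0:ℝ) else
      ((1:ℝ) / 2) ^ lev q * ((GE e (lev q))⁻¹ * (((lev q : ℝ) + 1) ^ 2)⁻¹) := by
    intro hs
    apply hdiv
    refine Summable.of_nonneg_of_le (fun q => mul_nonneg (hm0 q) (Real.exp_pos _).le)
      (fun q => ?_) (hs.mul_left (2 * Real.exp ((1 + 2 / e) ^ 2 / 2)))
    by_cases h : m q = 0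
    · change m q * _ ≤ _
      rw [h, if_pos ((hφne q).2 h)]
      simp
    · have hpos : 0 < m q := lt_of_le_of_ne (hm0 q) (Ne.symm h)
      rw [if_neg (fun h' => h ((hφne q).1 h'))]
      obtain ⟨h1, h2⟩ := hlev q hpos
      have hj : 2 ≤ lev q := by
        by_contra hcon
        push Not at hcon
        have hle : (1:ℝ) / 2 ≤ ((1:ℝ) / 2) ^ lev q := by
          interval_cases (lev q)
          · norm_num
          · norm_num
        have := hm1 q
        linarith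
      have hjR : (1:ℝ) ≤ (lev q : ℝ) - 1 := by
        have : (2:ℝ) ≤ lev q := by exact_mod_cast hj
        linarith
      have hℓ : ((lev q : ℝ) - 1) * Real.log 2 ≤ Real.log (1 / m q) := by
        have h3 : m q ≤ ((1:ℝ) / 2) ^ (lev q - 1) := by
          obtain ⟨i, hi⟩ : ∃ i, lev q = i + 1 := ⟨lev q - 1, by omega⟩
          rw [hi, Nat.add_sub_cancel]
          rw [hi, pow_succ] at h2
          linarith
        have h4 : (2:ℝ) ^ (lev q - 1) ≤ 1 / m q := by
          rw [le_div_iff₀ hpos]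
          have h5 : (2:ℝ) ^ (lev q - 1) * ((1:ℝ) / 2) ^ (lev q - 1) = 1 := by
            rw [← mul_pow]
            norm_num
          have h6 : (0:ℝ) < (2:ℝ) ^ (lev q - 1) := by positivity
          nlinarith
        have h7 := Real.log_le_log (by positivity) h4
        rw [Real.log_pow] at h7
        have h8 : ((lev q - 1 : ℕ) : ℝ) = (lev q : ℝ) - 1 := by
          rw [Nat.cast_sub (by omega)]
          simp
        rwa [h8] at h7
      have hw := weight_compareE heε he0 he1 hj hℓ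
      have hexp0 := Real.exp_pos (-((Real.log (1 / m q) + 1) ^ ε))
      calc m q * Real.exp (-((Real.log (1 / m q) + 1) ^ ε))
          ≤ (2 * ((1:ℝ) / 2) ^ lev q) * (Real.exp ((1 + 2 / e) ^ 2 / 2) * ((GE e (lev q))⁻¹ * (((lev q : ℝ) + 1) ^ 2)⁻¹)) :=
            mul_le_mul h2 hw hexp0.le (by positivity)
        _ = _ := by ring
  have h := main_dyadicE hγ hc₀ hκ he0 (he1.trans (by norm_num)) φ hφnn (fun q => (hφle q).trans (hm1 q)) lev hφd hφdiv
  filter_upwards [h] with x hx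
  exact hx.mono fun q hq => lt_of_lt_of_le hq (hφψ q)

end Vale.Agent.Lib.P028K
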