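import Vale.Agent.Lib.P028K.Basics

/-! Part Hyper: Laurent hypercontractivity. -/

open Finset

namespace Vale.Agent.Lib.P028K

open Vale.Agent.Lib.P028
open Vale.Agent.Lib.P028T

noncomputable section

variable {B M : ℕ} [NeZero M]

/-- The monomial of an exponent vector. -/
def mono (ω : Om B M) (e : Fin B → ℤ) : ℂ := ∏ i, zc (ω i) ^ e i

lemma pow_le_quad (m : ℕ) (X : ℝ) (h0 : 0 ≤ 1 + X) (h1 : |(m:ℝ) * X| ≤ 1) :
    (1 + X) ^ m ≤ 1 + m * X + (m * X) ^ 2 := by
  have h2 : 1 + X ≤ Real.exp X := by linarith [Real.add_one_le_exp X]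
  have h3 : (1 + X) ^ m ≤ Real.exp X ^ m := pow_le_pow_left₀ h0 h2 m
  have h4 : Real.exp X ^ m = Real.exp (m * X) := (Real.exp_nat_mul X m).symm
  have h5 := Real.abs_exp_sub_one_sub_id_le h1
  have h6 := (abs_le.mp h5).2
  rw [h4] at h3
  linarith

lemma norm_one_add_sq (g : ℂ) : ‖1 + g‖ ^ 2 = 1 + (2 * g.re + ‖g‖ ^ 2) := by
  rw [← Complex.normSq_eq_norm_sq, ← Complex.normSq_eq_norm_sq, Complex.normSq_apply,
    Complex.normSq_apply]
  simp only [Complex.add_re, Complex.one_re, Complex.add_im, Complex.one_im]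
  ring

lemma core_one (m : ℕ) (hm : 1 ≤ m) (lam : ℝ) (hlam : 50 * (m:ℝ) ≤ lam) (C : ℝ) (hC : 0 ≤ C)
    (g : ZMod M → ℂ) (h1 : ∀ x, ‖g x‖ ^ 2 ≤ 3 * C / lam)
    (h2 : (∑ x, ‖g x‖ ^ 2) / (M:ℝ) ≤ C / lam) (h3 : ∑ x, g x = 0) :
    (∑ x, ‖1 + g x‖ ^ (2 * m)) / (M:ℝ) ≤ (1 + C) ^ m := by
  have hm' : (1:ℝ) ≤ m := by exact_mod_cast hm
  have hlam50 : (50:ℝ) ≤ lam := by nlinarith
  have hlam0 : 0 < lam := by linarith
  have hM : (0:ℝ) < M := by exact_mod_cast Nat.pos_of_ne_zero (NeZero.ne M)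
  have hcard : ∑ _x : ZMod M, (1:ℝ) = M := by simp [ZMod.card]
  have hpow : ∀ x, ‖1 + g x‖ ^ (2 * m) = (1 + (2 * (g x).re + ‖g x‖ ^ 2)) ^ m := fun x => by
    rw [pow_mul, norm_one_add_sq]
  by_cases hCl : 48 / lam ≤ C
  · have hpt : ∀ x, ‖1 + g x‖ ^ (2 * m) ≤ (1 + C) ^ m := by
      intro x
      rw [pow_mul]
      apply pow_le_pow_left₀ (by positivity)
      rw [norm_one_add_sq]
      have hy := norm_nonneg (g x)
      have h1x := h1 x
      have hre : (g x).re ≤ ‖g x‖ := Complex.re_le_norm _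
      have h48 : 48 ≤ C * lam := by rwa [div_le_iff₀ hlam0] at hCl
      have hy2 : ‖g x‖ ^ 2 * lam ≤ 3 * C := by rwa [le_div_iff₀ hlam0] at h1x
      have hy3 : ‖g x‖ ≤ C / 4 := by
        by_contra hc
        push Not at hc
        have h5 : (C / 4) ^ 2 < ‖g x‖ ^ 2 := by
          apply pow_lt_pow_left₀ hc (by positivity) (by norm_num)
        have h6 : (C / 4) ^ 2 * lam ≤ ‖g x‖ ^ 2 * lam := by
          apply mul_le_mul_of_nonneg_right h5.le hlam0.le
        have hCpos : 0 < C := by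
          by_contra hcc
          have : C = 0 := le_antisymm (not_lt.mp hcc) hC
          rw [this] at h48
          norm_num at h48
        have h7 : (C / 4) ^ 2 * lam ≤ 3 * C := h6.trans hy2
        have h8 : C * (C * lam) ≤ C * 48 := by nlinarith
        have h9 : C * lam ≤ 48 := le_of_mul_le_mul_left h8 hCpos
        have h10 : C * lam = 48 := le_antisymm h9 h48
        have h11 : (C / 4) ^ 2 * lam < ‖g x‖ ^ 2 * lam :=
          mul_lt_mul_of_pos_right h5 hlam0
        nlinarith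
      have hy4 : ‖g x‖ ^ 2 * 50 ≤ 3 * C := by
        have : ‖g x‖ ^ 2 * 50 ≤ ‖g x‖ ^ 2 * lam :=
          mul_le_mul_of_nonneg_left hlam50 (by positivity)
        linarith
      nlinarith
    have hs : (∑ x, ‖1 + g x‖ ^ (2 * m)) ≤ (M:ℝ) * (1 + C) ^ m := by
      calc (∑ x, ‖1 + g x‖ ^ (2 * m)) ≤ ∑ _x : ZMod M, (1 + C) ^ m :=
            Finset.sum_le_sum fun x _ => hpt x
        _ = (M:ℝ) * (1 + C) ^ m := by simp [ZMod.card]
    rw [div_le_iff₀ hM]
    linarith
  · push Not at hCl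
    have h48 : C * lam < 48 := by rwa [lt_div_iff₀ hlam0] at hCl
    have hpt : ∀ x, ‖1 + g x‖ ^ (2 * m) ≤
        1 + m * (2 * (g x).re + ‖g x‖ ^ 2) + 9 * (m:ℝ) ^ 2 * ‖g x‖ ^ 2 := by
      intro x
      rw [hpow x]
      set y := ‖g x‖ with hy
      have hy0 : 0 ≤ y := norm_nonneg _
      have hre1 : |(g x).re| ≤ y := Complex.abs_re_le_norm _
      have hy12 : y * lam ≤ 12 := by
        have h5 : y ^ 2 * lam ≤ 3 * C := by
          have := h1 x
          rwa [le_div_iff₀ hlam0] at this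
        by_contra hc
        push Not at hc
        have h6 : 12 * 12 < (y * lam) * (y * lam) := by nlinarith
        have h7 : (y * lam) * (y * lam) = (y ^ 2 * lam) * lam := by ring
        have h8 : (y ^ 2 * lam) * lam ≤ (3 * C) * lam :=
          mul_le_mul_of_nonneg_right h5 hlam0.le
        nlinarith
      have hy1 : y ≤ 1 := by nlinarith
      have hab := abs_le.mp hre1
      have hXabs : |2 * (g x).re + y ^ 2| ≤ 3 * y := by
        rw [abs_le]
        constructor <;> nlinarith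
      have hmy : (m:ℝ) * (3 * y) ≤ 1 := by nlinarith
      have h0 : 0 ≤ 1 + (2 * (g x).re + y ^ 2) := by
        rw [hy, ← norm_one_add_sq]
        positivity
      have h1' : |(m:ℝ) * (2 * (g x).re + y ^ 2)| ≤ 1 := by
        rw [abs_mul, abs_of_nonneg (by positivity : (0:ℝ) ≤ m)]
        calc (m:ℝ) * |2 * (g x).re + y ^ 2| ≤ (m:ℝ) * (3 * y) :=
              mul_le_mul_of_nonneg_left hXabs (by positivity)
          _ ≤ 1 := hmy
      have h5 := pow_le_quad m _ h0 h1'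
      have hsq : ((m:ℝ) * (2 * (g x).re + y ^ 2)) ^ 2 ≤ 9 * (m:ℝ) ^ 2 * y ^ 2 := by
        rw [mul_pow]
        have h6 : (2 * (g x).re + y ^ 2) ^ 2 ≤ (3 * y) ^ 2 := by
          rw [← sq_abs (2 * (g x).re + y ^ 2)]
          exact pow_le_pow_left₀ (abs_nonneg _) hXabs 2
        have h7 : (m:ℝ) ^ 2 * (2 * (g x).re + y ^ 2) ^ 2 ≤ (m:ℝ) ^ 2 * (3 * y) ^ 2 :=
          mul_le_mul_of_nonneg_left h6 (by positivity)
        nlinarith
      linarith
    have hre0 : ∑ x, (g x).re = 0 := by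
      rw [← Complex.re_sum, h3]
      simp
    set S := ∑ x, ‖g x‖ ^ 2 with hS
    have hsum : (∑ x, ‖1 + g x‖ ^ (2 * m)) ≤ (M:ℝ) + ((m:ℝ) + 9 * (m:ℝ) ^ 2) * S := by
      calc (∑ x, ‖1 + g x‖ ^ (2 * m))
          ≤ ∑ x, (1 + m * (2 * (g x).re + ‖g x‖ ^ 2) + 9 * (m:ℝ) ^ 2 * ‖g x‖ ^ 2) :=
            Finset.sum_le_sum fun x _ => hpt x
        _ = (M:ℝ) + ((m:ℝ) + 9 * (m:ℝ) ^ 2) * S := by
            simp only [Finset.sum_add_distrib, ← Finset.mul_sum, hre0, hS, hcard]
            ring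
    have hS0 : 0 ≤ S := Finset.sum_nonneg fun _ _ => by positivity
    have hmm : ((m:ℝ) + 9 * (m:ℝ) ^ 2) * (S / (M:ℝ)) ≤ m * C := by
      have h5 : ((m:ℝ) + 9 * (m:ℝ) ^ 2) * (S / (M:ℝ)) ≤ ((m:ℝ) + 9 * (m:ℝ) ^ 2) * (C / lam) :=
        mul_le_mul_of_nonneg_left h2 (by positivity)
      have h6 : ((m:ℝ) + 9 * (m:ℝ) ^ 2) * (C / lam) ≤ m * C := by
        rw [← mul_div_assoc, div_le_iff₀ hlam0]
        have h7 : (1 + 9 * (m:ℝ)) ≤ lam := by nlinarith
        have h8 : (0:ℝ) ≤ m * C := by positivity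
        nlinarith [mul_le_mul_of_nonneg_left h7 h8]
      linarith
    have hfin : (∑ x, ‖1 + g x‖ ^ (2 * m)) / (M:ℝ) ≤ 1 + m * C := by
      rw [div_le_iff₀ hM]
      have h5 : ((m:ℝ) + 9 * (m:ℝ) ^ 2) * S = (((m:ℝ) + 9 * (m:ℝ) ^ 2) * (S / (M:ℝ))) * M := by
        field_simp
      have h6 : (((m:ℝ) + 9 * (m:ℝ) ^ 2) * (S / (M:ℝ))) * M ≤ (m * C) * M :=
        mul_le_mul_of_nonneg_right hmm hM.le
      nlinarith
    have hB : 1 + (m:ℝ) * C ≤ (1 + C) ^ m := one_add_mul_le_pow (by linarith) m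
    linarith

lemma sum_rho_side (rho : ℝ) (h0 : 0 ≤ rho) (h1 : rho < 1) (S : Finset ℤ) (hS : ∀ j ∈ S, j ≠ 0)
    (hinj : ∀ j ∈ S, ∀ k ∈ S, j.natAbs = k.natAbs → j = k) :
    ∑ j ∈ S, rho ^ j.natAbs ≤ rho / (1 - rho) := by
  have hinj' : Set.InjOn (fun j : ℤ => j.natAbs - 1) (S : Set ℤ) := by
    intro j hj k hk hjk
    apply hinj j hj k hk
    have h2 := Int.natAbs_pos.mpr (hS j hj)
    have h3 := Int.natAbs_pos.mpr (hS k hk)
    simp only at hjk
    omega
  have h2 : ∑ j ∈ S, rho ^ j.natAbs = rho * ∑ t ∈ S.image (fun j : ℤ => j.natAbs - 1), rho ^ t := by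
    rw [Finset.sum_image hinj', Finset.mul_sum]
    apply Finset.sum_congr rfl
    intro j hj
    have h3 := Int.natAbs_pos.mpr (hS j hj)
    rw [← pow_succ']
    have h4 : j.natAbs - 1 + 1 = j.natAbs := by omega
    rw [h4]
  rw [h2, div_eq_mul_inv]
  apply mul_le_mul_of_nonneg_left _ h0
  exact sum_le_hasSum _ (fun _ _ => pow_nonneg h0 _) (hasSum_geometric_of_lt_one h0 h1)

lemma sum_rho_le (rho : ℝ) (h0 : 0 ≤ rho) (h1 : rho ≤ 1 / 3) (S : Finset ℤ)
    (hS : ∀ j ∈ S, j ≠ 0) : ∑ j ∈ S, rho ^ j.natAbs ≤ 3 * rho := by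
  have hpos := sum_rho_side rho h0 (by linarith) (S.filter (0 < ·))
    (fun j hj => hS j (Finset.mem_filter.mp hj).1)
    (fun j hj k hk hjk => by
      have h2 := (Finset.mem_filter.mp hj).2
      have h3 := (Finset.mem_filter.mp hk).2
      omega)
  have hneg := sum_rho_side rho h0 (by linarith) (S.filter (fun j => ¬ 0 < j))
    (fun j hj => hS j (Finset.mem_filter.mp hj).1)
    (fun j hj k hk hjk => by
      have h2 := (Finset.mem_filter.mp hj).2
      have h3 := (Finset.mem_filter.mp hk).2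
      omega)
  rw [← Finset.sum_filter_add_sum_filter_not S (0 < ·)]
  have h5 : rho / (1 - rho) ≤ 3 / 2 * rho := by
    rw [div_le_iff₀ (by linarith)]
    nlinarith
  linarith

lemma g_sq_le (lam : ℝ) (hlam : 3 ≤ lam) (S : Finset ℤ) (hS : ∀ j ∈ S, j ≠ 0) (h : ℤ → ℂ)
    (x : ZMod M) :
    ‖∑ j ∈ S, h j * zc x ^ j‖ ^ 2 ≤ 3 * (∑ j ∈ S, lam ^ j.natAbs * ‖h j‖ ^ 2) / lam := by
  have hlam0 : 0 < lam := by linarith
  have h1 : ‖∑ j ∈ S, h j * zc x ^ j‖ ≤ ∑ j ∈ S, ‖h j‖ := by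
    refine (norm_sum_le _ _).trans (le_of_eq (Finset.sum_congr rfl fun j _ => ?_))
    rw [norm_mul, norm_zpow, norm_zc, one_zpow, mul_one]
  have h2 : (∑ j ∈ S, ‖h j‖) ^ 2 ≤
      (∑ j ∈ S, (1 / lam) ^ j.natAbs) * ∑ j ∈ S, lam ^ j.natAbs * ‖h j‖ ^ 2 := by
    apply Finset.sum_sq_le_sum_mul_sum_of_sq_le_mul
    · intro j _
      positivity
    · intro j _
      positivity
    · intro j _
      have h3 : lam ^ j.natAbs ≠ 0 := by positivity
      refine le_of_eq ?_
      rw [one_div, inv_pow]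
      field_simp
  have h3 := sum_rho_le (1 / lam) (by positivity)
    (by rw [div_le_div_iff₀ hlam0 (by norm_num)]; linarith) S hS
  have hC0 : 0 ≤ ∑ j ∈ S, lam ^ j.natAbs * ‖h j‖ ^ 2 :=
    Finset.sum_nonneg fun _ _ => by positivity
  calc ‖∑ j ∈ S, h j * zc x ^ j‖ ^ 2 ≤ (∑ j ∈ S, ‖h j‖) ^ 2 :=
        pow_le_pow_left₀ (norm_nonneg _) h1 2
    _ ≤ (∑ j ∈ S, (1 / lam) ^ j.natAbs) * ∑ j ∈ S, lam ^ j.natAbs * ‖h j‖ ^ 2 := h2
    _ ≤ (3 * (1 / lam)) * ∑ j ∈ S, lam ^ j.natAbs * ‖h j‖ ^ 2 :=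
        mul_le_mul_of_nonneg_right h3 hC0
    _ = 3 * (∑ j ∈ S, lam ^ j.natAbs * ‖h j‖ ^ 2) / lam := by ring

lemma zc_ne_zero (x : ZMod M) : zc x ≠ 0 := by
  intro h
  have := norm_zc x
  rw [h, norm_zero] at this
  exact zero_ne_one this

lemma zc_zpow_mul_conj (x : ZMod M) (j k : ℤ) :
    zc x ^ j * (starRingEnd ℂ) (zc x ^ k) = zc x ^ (j - k) := by
  rw [map_zpow₀, ← Complex.inv_eq_conj (norm_zc x), inv_zpow, zpow_sub₀ (zc_ne_zero x)]
  rfl

lemma sum_norm_sq (S : Finset ℤ) (hS : ∀ j ∈ S, 2 * |j| < (M:ℤ)) (h : ℤ → ℂ) :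
    (∑ x : ZMod M, ‖∑ j ∈ S, h j * zc x ^ j‖ ^ 2) = (M:ℝ) * ∑ j ∈ S, ‖h j‖ ^ 2 := by
  have key : ∀ j ∈ S, ∀ k ∈ S,
      (∑ x : ZMod M, h j * (starRingEnd ℂ) (h k) * (zc x ^ j * (starRingEnd ℂ) (zc x ^ k)))
        = if j = k then (M:ℂ) * ((‖h j‖ ^ 2 : ℝ) : ℂ) else 0 := by
    intro j hj k hk
    simp only [zc_zpow_mul_conj]
    rw [← Finset.mul_sum]
    split_ifs with hjk
    · subst hjk
      simp only [sub_self, zpow_zero, Finset.sum_const, Finset.card_univ, ZMod.card, nsmul_eq_mul,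
        mul_one]
      rw [Complex.mul_conj']
      push_cast
      ring
    · have h1 := hS j hj
      have h2 := hS k hk
      rw [sum_zc_zpow (j - k) (sub_ne_zero.mpr hjk), mul_zero]
      have h3 : |j - k| ≤ |j| + |k| := abs_sub _ _
      omega
  apply Complex.ofReal_injective
  push_cast
  have h1 : ∀ x : ZMod M, ((‖∑ j ∈ S, h j * zc x ^ j‖ : ℂ)) ^ 2 =
      ∑ j ∈ S, ∑ k ∈ S, h j * (starRingEnd ℂ) (h k) * (zc x ^ j * (starRingEnd ℂ) (zc x ^ k)) := by
    intro x
    rw [← Complex.mul_conj', map_sum, Finset.sum_mul_sum]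
    apply Finset.sum_congr rfl
    intro j _
    apply Finset.sum_congr rfl
    intro k _
    rw [map_mul]
    ring
  simp only [h1]
  rw [Finset.sum_comm]
  rw [Finset.mul_sum]
  apply Finset.sum_congr rfl
  intro j hj
  rw [Finset.sum_comm]
  rw [Finset.sum_congr rfl (fun k hk => key j hj k hk)]
  rw [Finset.sum_ite_eq S j]
  simp [hj]

lemma sum_g_zero (S : Finset ℤ) (hS : ∀ j ∈ S, j ≠ 0) (hS2 : ∀ j ∈ S, 2 * |j| < (M:ℤ))
    (h : ℤ → ℂ) : ∑ x : ZMod M, ∑ j ∈ S, h j * zc x ^ j = 0 := by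
  rw [Finset.sum_comm]
  apply Finset.sum_eq_zero
  intro j hj
  rw [← Finset.mul_sum, sum_zc_zpow j (hS j hj), mul_zero]
  have h1 := hS2 j hj
  have h2 := abs_nonneg j
  omega

/-- One variable. `J` is a finite set of integer exponents of size below `M / 2`. -/
theorem hyper_one (m : ℕ) (hm : 1 ≤ m) (lam : ℝ) (hlam : 50 * (m:ℝ) ≤ lam) (J : Finset ℤ) (h : ℤ → ℂ)
    (hJ : ∀ j ∈ J, 2 * |j| < (M:ℤ)) :
    (∑ x : ZMod M, ‖∑ j ∈ J, h j * zc x ^ j‖ ^ (2 * m)) / (M:ℝ)
      ≤ (∑ j ∈ J, lam ^ j.natAbs * ‖h j‖ ^ 2) ^ m := by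
  have hm' : (1:ℝ) ≤ m := by exact_mod_cast hm
  have hlam50 : (50:ℝ) ≤ lam := by nlinarith
  have hlam0 : 0 < lam := by linarith
  have hM : (0:ℝ) < M := by exact_mod_cast Nat.pos_of_ne_zero (NeZero.ne M)
  set S := J.erase 0 with hSdef
  have hS : ∀ j ∈ S, j ≠ 0 := fun j hj => (Finset.mem_erase.mp hj).1
  have hS2 : ∀ j ∈ S, 2 * |j| < (M:ℤ) := fun j hj => hJ j (Finset.mem_erase.mp hj).2
  set C := ∑ j ∈ S, lam ^ j.natAbs * ‖h j‖ ^ 2 with hCdef
  have hC0 : 0 ≤ C := Finset.sum_nonneg fun _ _ => by positivity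
  set c0 : ℂ := if 0 ∈ J then h 0 else 0 with hc0
  have hsplit : ∀ x : ZMod M, ∑ j ∈ J, h j * zc x ^ j = c0 + ∑ j ∈ S, h j * zc x ^ j := by
    intro x
    by_cases h0 : (0:ℤ) ∈ J
    · rw [← Finset.add_sum_erase J _ h0, hc0, if_pos h0, zpow_zero, mul_one]
    · rw [hc0, if_neg h0, zero_add, hSdef, Finset.erase_eq_of_notMem h0]
  have hsplit2 : ∑ j ∈ J, lam ^ j.natAbs * ‖h j‖ ^ 2 = ‖c0‖ ^ 2 + C := by
    by_cases h0 : (0:ℤ) ∈ J
    · rw [← Finset.add_sum_erase J _ h0, hc0, if_pos h0]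
      simp only [Int.natAbs_zero, pow_zero, one_mul]
      rfl
    · rw [hc0, if_neg h0, hCdef, hSdef, Finset.erase_eq_of_notMem h0]
      simp
  have hF1 : ∀ x : ZMod M, ‖∑ j ∈ S, h j * zc x ^ j‖ ^ 2 ≤ 3 * C / lam :=
    fun x => g_sq_le (M := M) lam (by linarith) S hS h x
  have hF2 : (∑ x : ZMod M, ‖∑ j ∈ S, h j * zc x ^ j‖ ^ 2) / (M:ℝ) ≤ C / lam := by
    rw [sum_norm_sq S hS2 h, mul_div_cancel_left₀ _ hM.ne', le_div_iff₀ hlam0, Finset.sum_mul]
    apply Finset.sum_le_sum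
    intro j hj
    have h1 : 1 ≤ j.natAbs := Int.natAbs_pos.mpr (hS j hj)
    have h2 : lam ≤ lam ^ j.natAbs := by
      calc lam = lam ^ 1 := (pow_one lam).symm
        _ ≤ lam ^ j.natAbs := pow_le_pow_right₀ (by linarith) h1
    nlinarith [sq_nonneg ‖h j‖]
  have hF3 := sum_g_zero (M := M) S hS hS2 h
  simp only [hsplit]
  rw [hsplit2]
  by_cases hc : c0 = 0
  · have hpt : ∀ x : ZMod M, ‖c0 + ∑ j ∈ S, h j * zc x ^ j‖ ^ (2 * m) ≤ C ^ m := by
      intro x
      rw [hc, zero_add, pow_mul]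
      apply pow_le_pow_left₀ (by positivity)
      refine (hF1 x).trans ?_
      rw [div_le_iff₀ hlam0]
      nlinarith
    have hs : (∑ x : ZMod M, ‖c0 + ∑ j ∈ S, h j * zc x ^ j‖ ^ (2 * m)) ≤ (M:ℝ) * C ^ m := by
      calc _ ≤ ∑ _x : ZMod M, C ^ m := Finset.sum_le_sum fun x _ => hpt x
        _ = (M:ℝ) * C ^ m := by simp [ZMod.card]
    have h0' : (‖c0‖ ^ 2 + C) ^ m = C ^ m := by
      rw [hc, norm_zero]
      simp
    rw [div_le_iff₀ hM, h0']
    linarith
  · have hn : 0 < ‖c0‖ := norm_pos_iff.mpr hc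
    have hn2 : 0 < ‖c0‖ ^ 2 := by positivity
    set g : ZMod M → ℂ := fun x => (∑ j ∈ S, h j * zc x ^ j) / c0 with hg
    have hgn : ∀ x, ‖g x‖ ^ 2 = ‖∑ j ∈ S, h j * zc x ^ j‖ ^ 2 / ‖c0‖ ^ 2 := by
      intro x
      rw [hg]
      simp only [norm_div, div_pow]
    have hcore := core_one (M := M) m hm lam hlam (C / ‖c0‖ ^ 2) (by positivity) g
      (fun x => by
        rw [hgn, div_le_iff₀ hn2]
        refine (hF1 x).trans (le_of_eq ?_)
        field_simp)
      (by
        simp only [hgn]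
        rw [← Finset.sum_div, div_right_comm, div_le_iff₀ hn2]
        refine hF2.trans (le_of_eq ?_)
        field_simp)
      (by
        simp only [hg]
        rw [← Finset.sum_div, hF3, zero_div])
    have hpt : ∀ x : ZMod M, ‖c0 + ∑ j ∈ S, h j * zc x ^ j‖ ^ (2 * m) =
        (‖c0‖ ^ 2) ^ m * ‖1 + g x‖ ^ (2 * m) := by
      intro x
      have h1 : c0 + ∑ j ∈ S, h j * zc x ^ j = c0 * (1 + g x) := by
        rw [hg]
        field_simp
      rw [h1, norm_mul, mul_pow, pow_mul]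
    simp only [hpt]
    rw [← Finset.mul_sum, mul_div_assoc]
    calc (‖c0‖ ^ 2) ^ m * ((∑ x : ZMod M, ‖1 + g x‖ ^ (2 * m)) / (M:ℝ))
        ≤ (‖c0‖ ^ 2) ^ m * (1 + C / ‖c0‖ ^ 2) ^ m :=
          mul_le_mul_of_nonneg_left hcore (by positivity)
      _ = (‖c0‖ ^ 2 + C) ^ m := by
          rw [← mul_pow]
          congr 1
          field_simp

lemma mono_update (ω : Om B M) (e : Fin B → ℤ) (i : Fin B) (x : ZMod M) :
    mono (Function.update ω i x) e = mono ω (Function.update e i 0) * zc x ^ (e i) := by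
  unfold mono
  rw [Fintype.prod_eq_mul_prod_compl i,
    Fintype.prod_eq_mul_prod_compl i (fun k => zc (ω k) ^ (Function.update e i 0) k)]
  simp only [Function.update_self, zpow_zero, one_mul]
  rw [mul_comm]
  have : ∀ k ∈ ({i}ᶜ : Finset (Fin B)), zc ((Function.update ω i x) k) ^ e k =
      zc (ω k) ^ (Function.update e i 0) k := by
    intro k hk
    have hki : k ≠ i := by simpa using hk
    rw [Function.update_of_ne hki, Function.update_of_ne hki]
  rw [Finset.prod_congr rfl this]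

lemma deg_update (e : Fin B → ℤ) (i : Fin B) :
    ∑ k, (e k).natAbs = (e i).natAbs + ∑ k, ((Function.update e i 0) k).natAbs := by
  rw [Fintype.sum_eq_add_sum_compl i,
    Fintype.sum_eq_add_sum_compl i (fun k => ((Function.update e i 0) k).natAbs)]
  simp only [Function.update_self, Int.natAbs_zero, zero_add]
  congr 1
  apply Finset.sum_congr rfl
  intro k hk
  have hki : k ≠ i := by simpa using hk
  rw [Function.update_of_ne hki]

lemma nr_pow_eq (m : ℕ) (hm : 1 ≤ m) (V : Om B M → ℝ) :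
    nr m V ^ m = EE fun ω => |V ω| ^ m := by
  have hm0 : (m:ℝ) ≠ 0 := by
    have : (1:ℝ) ≤ m := by exact_mod_cast hm
    linarith
  unfold nr
  rw [← Real.rpow_natCast, ← Real.rpow_mul (EE_nonneg fun ω => by positivity),
    one_div_mul_cancel hm0, Real.rpow_one]

theorem hyper_aux (m : ℕ) (hm : 1 ≤ m) (lam : ℝ) (hlam : 50 * (m:ℝ) ≤ lam) (A : Finset (Fin B)) :
    ∀ (E : Finset (Fin B → ℤ)) (G : (Fin B → ℤ) → ℂ), (∀ e ∈ E, ∀ i, 2 * |e i| < (M:ℤ)) →
      (∀ e ∈ E, ∀ i, i ∉ A → e i = 0) →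
      EE (fun ω : Om B M => ‖∑ e ∈ E, G e * mono ω e‖ ^ (2 * m))
        ≤ (∑ e ∈ E, lam ^ (∑ i, (e i).natAbs) * ‖G e‖ ^ 2) ^ m := by
  have hm' : (1:ℝ) ≤ m := by exact_mod_cast hm
  have hlam50 : (50:ℝ) ≤ lam := by nlinarith
  have hlam0 : 0 < lam := by linarith
  have hMz : (0:ℤ) < M := by exact_mod_cast Nat.pos_of_ne_zero (NeZero.ne M)
  induction A using Finset.induction_on with
  | empty =>
    intro E G hE hA
    have hz : ∀ e ∈ E, e = 0 := fun e he => funext fun i => hA e he i (Finset.notMem_empty i)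
    have hsub : E ⊆ {0} := fun e he => by simp [hz e he]
    rcases Finset.subset_singleton_iff.mp hsub with rfl | rfl
    · have hm0 : 2 * m ≠ 0 := by omega
      have hm1 : m ≠ 0 := by omega
      simp [EE, hm0, hm1]
    · have h1 : ∀ ω : Om B M, mono ω 0 = 1 := fun ω => by simp [mono]
      simp only [Finset.sum_singleton, h1, mul_one, Pi.zero_apply, Int.natAbs_zero,
        Finset.sum_const_zero, pow_zero, one_mul]
      rw [EE_const, pow_mul]
  | insert i A hi ih =>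
    intro E G hE hA
    set J := E.image (fun e : Fin B → ℤ => e i) with hJdef
    have hmaps : ∀ e ∈ E, (fun e : Fin B → ℤ => e i) e ∈ J := fun e he => Finset.mem_image_of_mem _ he
    have hJ : ∀ j ∈ J, 2 * |j| < (M:ℤ) := by
      intro j hj
      obtain ⟨e, he, rfl⟩ := Finset.mem_image.mp hj
      exact hE e he i
    set Ef : ℤ → Finset (Fin B → ℤ) := fun j => E.filter (fun e => e i = j) with hEf
    set F : ℤ → Om B M → ℂ := fun j ω => ∑ e ∈ Ef j, G e * mono ω (Function.update e i 0) with hF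
    -- the splitting in the coordinate `i`
    have hsp : ∀ (ω : Om B M) (x : ZMod M),
        ∑ e ∈ E, G e * mono (Function.update ω i x) e = ∑ j ∈ J, F j ω * zc x ^ j := by
      intro ω x
      rw [← Finset.sum_fiberwise_of_maps_to hmaps]
      apply Finset.sum_congr rfl
      intro j _
      rw [hF]
      simp only [Finset.sum_mul]
      apply Finset.sum_congr rfl
      intro e he
      have hej : e i = j := (Finset.mem_filter.mp he).2
      rw [mono_update, hej]
      ring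
    set W : ℤ → ℝ := fun j => ∑ e ∈ Ef j,
      lam ^ (∑ k, ((Function.update e i 0) k).natAbs) * ‖G e‖ ^ 2 with hW
    have hW0 : ∀ j, 0 ≤ W j := fun j => Finset.sum_nonneg fun _ _ => by positivity
    -- the induction hypothesis for one fibre
    have hfib : ∀ j, EE (fun ω : Om B M => ‖F j ω‖ ^ (2 * m)) ≤ W j ^ m := by
      intro j
      have hinj : Set.InjOn (fun e : Fin B → ℤ => Function.update e i 0) (Ef j : Set (Fin B → ℤ)) := by
        intro e he e' he' hee
        have h1 : e i = j := (Finset.mem_filter.mp he).2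
        have h2 : e' i = j := (Finset.mem_filter.mp he').2
        funext k
        by_cases hk : k = i
        · rw [hk, h1, h2]
        · have := congrFun hee k
          simpa [Function.update_of_ne hk] using this
      have hup : ∀ e ∈ Ef j, Function.update (Function.update e i 0) i j = e := by
        intro e he
        have h1 : e i = j := (Finset.mem_filter.mp he).2
        rw [Function.update_idem, ← h1, Function.update_eq_self]
      have := ih ((Ef j).image (fun e => Function.update e i 0))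
        (fun e' => G (Function.update e' i j))
        (by
          intro e' he' k
          obtain ⟨e, he, rfl⟩ := Finset.mem_image.mp he'
          by_cases hk : k = i
          · subst hk
            simp only [Function.update_self, abs_zero, mul_zero]
            exact hMz
          · rw [Function.update_of_ne hk]
            exact hE e (Finset.mem_filter.mp he).1 k)
        (by
          intro e' he' k hk
          obtain ⟨e, he, rfl⟩ := Finset.mem_image.mp he'
          by_cases hki : k = i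
          · subst hki
            simp only [Function.update_self]
          · rw [Function.update_of_ne hki]
            apply hA e (Finset.mem_filter.mp he).1 k
            simp [hki, hk])
      rw [Finset.sum_image hinj] at this
      simp only [Finset.sum_image hinj] at this
      have h3 : ∀ ω : Om B M, ∑ e ∈ Ef j, G (Function.update (Function.update e i 0) i j) *
          mono ω (Function.update e i 0) = F j ω := by
        intro ω
        rw [hF]
        apply Finset.sum_congr rfl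
        intro e he
        rw [hup e he]
      have h4 : ∑ e ∈ Ef j, lam ^ (∑ k, ((Function.update e i 0) k).natAbs) *
          ‖G (Function.update (Function.update e i 0) i j)‖ ^ 2 = W j := by
        rw [hW]
        apply Finset.sum_congr rfl
        intro e he
        rw [hup e he]
      simp only [h3, h4] at this
      exact this
    -- the `L^m` norm of one fibre
    have hnr : ∀ j, nr m (fun ω : Om B M => lam ^ j.natAbs * ‖F j ω‖ ^ 2) ≤ lam ^ j.natAbs * W j := by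
      intro j
      rw [nr_const_mul m hm _ (by positivity)]
      apply mul_le_mul_of_nonneg_left _ (by positivity)
      apply le_of_pow_le_pow_left₀ (by omega : m ≠ 0) (hW0 j)
      rw [nr_pow_eq m hm]
      refine le_trans (le_of_eq ?_) (hfib j)
      congr 1
      funext ω
      rw [abs_of_nonneg (by positivity), pow_mul]
    -- assembling
    have hsum : ∑ j ∈ J, lam ^ j.natAbs * W j = ∑ e ∈ E, lam ^ (∑ k, (e k).natAbs) * ‖G e‖ ^ 2 := by
      rw [← Finset.sum_fiberwise_of_maps_to hmaps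
        (fun e => lam ^ (∑ k, (e k).natAbs) * ‖G e‖ ^ 2)]
      apply Finset.sum_congr rfl
      intro j _
      rw [hW, Finset.mul_sum]
      apply Finset.sum_congr rfl
      intro e he
      have hej : e i = j := (Finset.mem_filter.mp he).2
      rw [deg_update e i, pow_add, hej]
      ring
    have hstep : EE (fun ω : Om B M => ‖∑ e ∈ E, G e * mono ω e‖ ^ (2 * m))
        ≤ EE (fun ω : Om B M => (∑ j ∈ J, lam ^ j.natAbs * ‖F j ω‖ ^ 2) ^ m) := by
      rw [EE_update i]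
      apply EE_mono
      intro ω
      simp only [hsp]
      exact hyper_one m hm lam hlam J (fun j => F j ω) hJ
    have hV : EE (fun ω : Om B M => (∑ j ∈ J, lam ^ j.natAbs * ‖F j ω‖ ^ 2) ^ m)
        = nr m (fun ω : Om B M => ∑ j ∈ J, lam ^ j.natAbs * ‖F j ω‖ ^ 2) ^ m := by
      rw [nr_pow_eq m hm]
      congr 1
      funext ω
      rw [abs_of_nonneg (Finset.sum_nonneg fun _ _ => by positivity)]
    refine hstep.trans ?_
    rw [hV, ← hsum]
    apply pow_le_pow_left₀ (nr_nonneg _ _)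
    refine (nr_sum m hm J _).trans ?_
    exact Finset.sum_le_sum fun j _ => hnr j

/-- All variables, by Minkowski in `L^m`. -/
theorem hyper (m : ℕ) (hm : 1 ≤ m) (lam : ℝ) (hlam : 50 * (m:ℝ) ≤ lam) (E : Finset (Fin B → ℤ))
    (G : (Fin B → ℤ) → ℂ) (hE : ∀ e ∈ E, ∀ i, 2 * |e i| < (M:ℤ)) :
    EE (fun ω : Om B M => ‖∑ e ∈ E, G e * mono ω e‖ ^ (2 * m))
      ≤ (∑ e ∈ E, lam ^ (∑ i, (e i).natAbs) * ‖G e‖ ^ 2) ^ m :=
  hyper_aux m hm lam hlam Finset.univ E G hE (fun _ _ i hi => absurd (Finset.mem_univ i) hi)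

end

end Vale.Agent.Lib.P028K
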