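import Vale.Agent.Lib.P028K.Hyper

/-! Part HyperCor: corollaries of hypercontractivity for numbers and pairs. -/

open Finset

namespace Vale.Agent.Lib.P028K

open Vale.Agent.Lib.P028
open Vale.Agent.Lib.P028T

noncomputable section

variable {B M : ℕ} [NeZero M]

/-- The exponent vector of a number. -/
def exV (B a : ℕ) : Fin B → ℤ := fun i => (a.factorization (i:ℕ) : ℤ)

lemma ff_eq_mono {a : ℕ} (ha : Fits B M a) (ω : Om B M) : ff ω a = mono ω (exV B a) := by
  unfold ff mono exV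
  have h1 : ∏ i : Fin B, zc (ω i) ^ ((a.factorization (i:ℕ) : ℕ) : ℤ)
      = ∏ i : Fin B, (fun p : ℕ => zp ω p ^ a.factorization p) (i:ℕ) := by
    refine Finset.prod_congr rfl fun i _ => ?_
    have h2 : zp ω (i:ℕ) = zc (ω i) := by
      simp only [zp, i.isLt, dif_pos]
    simp only [h2, zpow_natCast]
  rw [h1, Fin.prod_univ_eq_prod_range (fun p => zp ω p ^ a.factorization p) B]
  refine Finset.prod_subset ?_ ?_
  · intro p hp
    exact mem_range.2 (ha.2.1 p hp)
  · intro p _ hp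
    have h3 : a.factorization p = 0 := by
      rw [← Nat.support_factorization] at hp
      exact Finsupp.notMem_support_iff.1 hp
    simp [h3]

lemma sum_natAbs_exV {a : ℕ} (ha : Fits B M a) : ∑ i, (exV B a i).natAbs = OO a := by
  have h1 : ∑ i : Fin B, (exV B a i).natAbs = ∑ i : Fin B, (fun p : ℕ => a.factorization p) (i:ℕ) := by
    refine Finset.sum_congr rfl fun i _ => ?_
    simp [exV]
  rw [h1, Fin.sum_univ_eq_sum_range (fun p => a.factorization p) B]
  have h2 : ∑ p ∈ range B, a.factorization p = ∑ p ∈ a.primeFactors, a.factorization p := by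
    symm
    refine Finset.sum_subset ?_ ?_
    · intro p hp
      exact mem_range.2 (ha.2.1 p hp)
    · intro p _ hp
      rw [← Nat.support_factorization] at hp
      exact Finsupp.notMem_support_iff.1 hp
  rw [h2]
  unfold OO
  have h3 := List.sum_toFinset_count_eq_length a.primeFactorsList
  rw [← h3]
  refine Finset.sum_congr rfl fun p _ => ?_
  rw [Nat.primeFactorsList_count_eq]

lemma two_abs_exV {a : ℕ} (ha : Fits B M a) (i : Fin B) : 2 * |exV B a i| < (M:ℤ) := by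
  have h := ha.2.2 (i:ℕ)
  simp only [exV, Nat.abs_cast]
  exact_mod_cast h

lemma fact_eq_zero {a q : ℕ} (ha : Fits B M a) (hq : ¬ q < B) : a.factorization q = 0 := by
  by_contra hne
  have : q ∈ a.primeFactors := by
    rw [← Nat.support_factorization]
    exact Finsupp.mem_support_iff.2 hne
  exact hq (ha.2.1 q this)

lemma exV_injOn {a b : ℕ} (ha : Fits B M a) (hb : Fits B M b) (h : exV B a = exV B b) : a = b := by
  refine Nat.eq_of_factorization_eq ha.1 hb.1 fun p => ?_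
  by_cases hp : p < B
  · have := congrFun h ⟨p, hp⟩
    simpa [exV] using this
  · have h1 : a.factorization p = 0 := by
      by_contra hne
      have : p ∈ a.primeFactors := by
        rw [← Nat.support_factorization]
        exact Finsupp.mem_support_iff.2 hne
      exact hp (ha.2.1 p this)
    have h2 : b.factorization p = 0 := by
      by_contra hne
      have : p ∈ b.primeFactors := by
        rw [← Nat.support_factorization]
        exact Finsupp.mem_support_iff.2 hne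
      exact hp (hb.2.1 p this)
    rw [h1, h2]

open scoped Classical in
/-- `hyper` for a family with repetitions, with the fibres removed by Cauchy-Schwarz. -/
lemma hyper_group {ι : Type} (m : ℕ) (hm : 1 ≤ m) (lam : ℝ) (hlam : 50 * (m:ℝ) ≤ lam) (A : Finset ι)
    (e : ι → (Fin B → ℤ)) (g : ι → ℂ) (hE : ∀ a ∈ A, ∀ i, 2 * |e a i| < (M:ℤ)) :
    EE (fun ω : Om B M => ‖∑ a ∈ A, g a * mono ω (e a)‖ ^ (2 * m))
      ≤ (∑ a ∈ A, lam ^ (∑ i, (e a i).natAbs) * ((A.filter (fun a' => e a' = e a)).card : ℝ) * ‖g a‖ ^ 2) ^ m := by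
  have hlam0 : 0 ≤ lam := by
    have : (0:ℝ) ≤ m := Nat.cast_nonneg m
    linarith
  set E : Finset (Fin B → ℤ) := A.image e with hEdef
  set G : (Fin B → ℤ) → ℂ := fun x => ∑ a ∈ A.filter (fun a => e a = x), g a with hG
  have hmaps : ∀ a ∈ A, e a ∈ E := fun a ha => Finset.mem_image_of_mem _ ha
  have h0 := hyper (B := B) (M := M) m hm lam hlam E G (by
    intro x hx
    obtain ⟨a, ha, rfl⟩ := Finset.mem_image.1 hx
    exact hE a ha)
  have hsum : ∀ ω : Om B M, ∑ x ∈ E, G x * mono ω x = ∑ a ∈ A, g a * mono ω (e a) := by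
    intro ω
    rw [← Finset.sum_fiberwise_of_maps_to hmaps]
    refine Finset.sum_congr rfl fun x _ => ?_
    rw [hG, Finset.sum_mul]
    refine Finset.sum_congr rfl fun a ha => ?_
    rw [(Finset.mem_filter.1 ha).2]
  simp only [hsum] at h0
  refine h0.trans ?_
  have hnn : 0 ≤ ∑ x ∈ E, lam ^ (∑ i, (x i).natAbs) * ‖G x‖ ^ 2 :=
    Finset.sum_nonneg fun x _ => by positivity
  refine pow_le_pow_left₀ hnn ?_ m
  rw [← Finset.sum_fiberwise_of_maps_to (s := A) (t := E) (g := e) hmaps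
    (f := fun a => lam ^ (∑ i, (e a i).natAbs) * ((A.filter (fun a' => e a' = e a)).card : ℝ) * ‖g a‖ ^ 2)]
  refine Finset.sum_le_sum fun x _ => ?_
  have hcs : ‖G x‖ ^ 2 ≤ ((A.filter (fun a => e a = x)).card : ℝ) * ∑ a ∈ A.filter (fun a => e a = x), ‖g a‖ ^ 2 := by
    have h1 : ‖G x‖ ≤ ∑ a ∈ A.filter (fun a => e a = x), ‖g a‖ := norm_sum_le _ _
    have h2 : ‖G x‖ ^ 2 ≤ (∑ a ∈ A.filter (fun a => e a = x), ‖g a‖) ^ 2 :=
      pow_le_pow_left₀ (norm_nonneg _) h1 2
    refine h2.trans ?_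
    exact sq_sum_le_card_mul_sum_sq
  calc lam ^ (∑ i, (x i).natAbs) * ‖G x‖ ^ 2
      ≤ lam ^ (∑ i, (x i).natAbs) *
          (((A.filter (fun a => e a = x)).card : ℝ) * ∑ a ∈ A.filter (fun a => e a = x), ‖g a‖ ^ 2) :=
        mul_le_mul_of_nonneg_left hcs (by positivity)
    _ = ∑ a ∈ A.filter (fun a => e a = x),
          lam ^ (∑ i, (e a i).natAbs) * ((A.filter (fun a' => e a' = e a)).card : ℝ) * ‖g a‖ ^ 2 := by
        rw [Finset.mul_sum, Finset.mul_sum]
        refine Finset.sum_congr rfl fun a ha => ?_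
        rw [(Finset.mem_filter.1 ha).2]
        ring
    _ ≤ _ := le_refl _

/-- From the moment bound to the bound for `mm`. -/
lemma mm_sq_le_of (k : ℕ) (hk : 1 ≤ k) (F : Om B M → ℂ) {X : ℝ} (hX : 0 ≤ X)
    (h : EE (fun ω => ‖F ω‖ ^ (2 * k)) ≤ X ^ k) : mm k F ^ 2 ≤ X := by
  have hA : 0 ≤ EE (fun ω => ‖F ω‖ ^ (2 * k)) := EE_nonneg fun ω => by positivity
  have hk0 : k ≠ 0 := by omega
  have hk1 : (0:ℝ) < k := by exact_mod_cast Nat.pos_of_ne_zero hk0
  unfold mm
  rw [← Real.rpow_natCast, ← Real.rpow_mul hA]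
  have h1 : (1:ℝ) / (2 * (k:ℝ)) * ((2:ℕ):ℝ) = (k:ℝ)⁻¹ := by
    push_cast
    field_simp
  rw [h1]
  calc EE (fun ω => ‖F ω‖ ^ (2 * k)) ^ ((k:ℝ)⁻¹) ≤ (X ^ k) ^ ((k:ℝ)⁻¹) :=
        Real.rpow_le_rpow hA h (by positivity)
    _ = X := Real.pow_rpow_inv_natCast hX hk0

/-- Distinct numbers: the norm squared is at most the weighted sum of squares. -/
theorem hyper_single (k : ℕ) (hk : 1 ≤ k) (lam : ℝ) (hlam : 50 * (k:ℝ) ≤ lam) (A : Finset ℕ) (c : ℕ → ℂ)
    (hA : ∀ a ∈ A, Fits B M a) :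
    mm k (fun ω : Om B M => ∑ a ∈ A, ff ω a * c a) ^ 2 ≤ ∑ a ∈ A, lam ^ OO a * ‖c a‖ ^ 2 := by
  classical
  have hlam0 : 0 ≤ lam := by
    have : (0:ℝ) ≤ k := Nat.cast_nonneg k
    linarith
  refine mm_sq_le_of k hk _ (Finset.sum_nonneg fun a _ => by positivity) ?_
  have h0 := hyper_group (B := B) (M := M) k hk lam hlam A (exV B) c
    (fun a ha i => two_abs_exV (hA a ha) i)
  have h1 : ∀ ω : Om B M, ∑ a ∈ A, ff ω a * c a = ∑ a ∈ A, c a * mono ω (exV B a) := by
    intro ω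
    refine Finset.sum_congr rfl fun a ha => ?_
    rw [ff_eq_mono (hA a ha), mul_comm]
  simp only [h1]
  convert h0 using 2
  refine Finset.sum_congr rfl fun a ha => ?_
  have h2 : A.filter (fun a' => exV B a' = exV B a) = {a} := by
    ext a'
    simp only [Finset.mem_filter, Finset.mem_singleton]
    constructor
    · rintro ⟨h3, h4⟩
      exact exV_injOn (hA a' h3) (hA a ha) h4
    · rintro rfl
      exact ⟨ha, rfl⟩
  rw [h2, sum_natAbs_exV (hA a ha)]
  simp

lemma mono_sub (ω : Om B M) (e e' : Fin B → ℤ) :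
    mono ω (e - e') = mono ω e * (starRingEnd ℂ) (mono ω e') := by
  unfold mono
  rw [map_prod, ← Finset.prod_mul_distrib]
  refine Finset.prod_congr rfl fun i _ => ?_
  have hn : ‖zc (ω i)‖ = 1 := norm_zc _
  have h0 : zc (ω i) ≠ 0 := by
    intro h
    rw [h, norm_zero] at hn
    exact zero_ne_one hn
  have h1 : (starRingEnd ℂ) (zc (ω i)) = (zc (ω i))⁻¹ := by
    rw [Complex.inv_def, Complex.normSq_eq_norm_sq, hn]
    simp
  simp only [Pi.sub_apply]
  rw [zpow_sub₀ h0, map_zpow₀, h1, inv_zpow, div_eq_mul_inv]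

/-- Pairs: `ff p.1 conj (ff p.2)`, grouped by the ratio. The inner count is the number of
representations of the same ratio. -/
theorem hyper_pairs (k : ℕ) (hk : 1 ≤ k) (lam : ℝ) (hlam : 50 * (k:ℝ) ≤ lam) (hlam1 : 1 ≤ lam) (j : ℕ)
    (T : Finset (ℕ × ℕ)) (Γ : ℕ × ℕ → ℂ)
    (hT : ∀ p ∈ T, Fits B M p.1 ∧ Fits B M p.2 ∧ OO p.1 ≤ j ∧ OO p.2 ≤ j) :
    mm k (fun ω : Om B M => ∑ p ∈ T, ff ω p.1 * (starRingEnd ℂ) (ff ω p.2) * Γ p) ^ 2
      ≤ lam ^ (2 * j) * ∑ p ∈ T, ((T.filter (fun p' => p'.1 * p.2 = p'.2 * p.1)).card : ℝ) * ‖Γ p‖ ^ 2 := by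
  classical
  have hlam0 : 0 ≤ lam := by linarith
  refine mm_sq_le_of k hk _ (mul_nonneg (by positivity)
    (Finset.sum_nonneg fun a _ => by positivity)) ?_
  set e : ℕ × ℕ → (Fin B → ℤ) := fun p => exV B p.1 - exV B p.2 with he
  have h0 := hyper_group (B := B) (M := M) k hk lam hlam T e Γ (by
    intro p hp i
    have h1 := two_abs_exV (hT p hp).1 i
    have h2 := two_abs_exV (hT p hp).2.1 i
    have h3 : 0 ≤ exV B p.1 i := by simp [exV]
    have h4 : 0 ≤ exV B p.2 i := by simp [exV]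
    simp only [he, Pi.sub_apply]
    rw [abs_of_nonneg h3] at h1
    rw [abs_of_nonneg h4] at h2
    rcases abs_cases (exV B p.1 i - exV B p.2 i) with ⟨h5, _⟩ | ⟨h5, _⟩ <;> rw [h5] <;> omega)
  have h1 : ∀ ω : Om B M, ∑ p ∈ T, ff ω p.1 * (starRingEnd ℂ) (ff ω p.2) * Γ p
      = ∑ p ∈ T, Γ p * mono ω (e p) := by
    intro ω
    refine Finset.sum_congr rfl fun p hp => ?_
    rw [ff_eq_mono (hT p hp).1, ff_eq_mono (hT p hp).2.1, he]
    simp only
    rw [mono_sub, mul_comm]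
  simp only [h1]
  refine h0.trans (pow_le_pow_left₀ (Finset.sum_nonneg fun a _ => by positivity) ?_ k)
  rw [Finset.mul_sum]
  refine Finset.sum_le_sum fun p hp => ?_
  obtain ⟨h2, h3, h4, h5⟩ := hT p hp
  have h6 : lam ^ (∑ i, (e p i).natAbs) ≤ lam ^ (2 * j) := by
    refine pow_le_pow_right₀ hlam1 ?_
    have h7 : ∑ i, (e p i).natAbs ≤ ∑ i, ((exV B p.1 i).natAbs + (exV B p.2 i).natAbs) := by
      refine Finset.sum_le_sum fun i _ => ?_
      simp only [he, Pi.sub_apply]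
      exact Int.natAbs_sub_le _ _
    rw [Finset.sum_add_distrib, sum_natAbs_exV h2, sum_natAbs_exV h3] at h7
    omega
  have h8 : ((T.filter (fun p' => e p' = e p)).card : ℝ)
      ≤ ((T.filter (fun p' => p'.1 * p.2 = p'.2 * p.1)).card : ℝ) := by
    have h9 : T.filter (fun p' => e p' = e p) ⊆ T.filter (fun p' => p'.1 * p.2 = p'.2 * p.1) := by
      intro p' hp'
      obtain ⟨h10, h11⟩ := Finset.mem_filter.1 hp'
      refine Finset.mem_filter.2 ⟨h10, ?_⟩
      obtain ⟨h12, h13, _, _⟩ := hT p' h10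
      refine Nat.eq_of_factorization_eq (mul_ne_zero h12.1 h3.1) (mul_ne_zero h13.1 h2.1) fun q => ?_
      rw [Nat.factorization_mul h12.1 h3.1, Nat.factorization_mul h13.1 h2.1]
      simp only [Finsupp.add_apply]
      by_cases hq : q < B
      · have h14 := congrFun h11 ⟨q, hq⟩
        simp only [he, Pi.sub_apply, exV] at h14
        omega
      · rw [fact_eq_zero h12 hq, fact_eq_zero h3 hq, fact_eq_zero h13 hq, fact_eq_zero h2 hq]
    exact_mod_cast Finset.card_le_card h9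
  calc lam ^ (∑ i, (e p i).natAbs) * ((T.filter (fun p' => e p' = e p)).card : ℝ) * ‖Γ p‖ ^ 2
      ≤ lam ^ (2 * j) * ((T.filter (fun p' => p'.1 * p.2 = p'.2 * p.1)).card : ℝ) * ‖Γ p‖ ^ 2 := by
        gcongr
    _ = lam ^ (2 * j) * (((T.filter (fun p' => p'.1 * p.2 = p'.2 * p.1)).card : ℝ) * ‖Γ p‖ ^ 2) := by ring

end

end Vale.Agent.Lib.P028K
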