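import Vale.Agent.Lib.P028K.KLpar

/-! Part KLm: the main set. Blueprint section 10.2. -/

open Finset Filter

namespace Vale.Agent.Lib.P028K

open Vale.Agent.Lib.P028
open Vale.Agent.Lib.P028T

noncomputable section

variable {B M : ℕ} [NeZero M]

/-- Top parts with a given dyadic size. -/
def Ubf (Q0 T Y' q r i : ℕ) : Finset ℕ := (Uset Q0 T Y' q r).filter (fun u => Nat.log 2 u = i)

/-- One family of the main set. -/
def famF (P Q0 T S2 j2 Y Y' : ℕ) (β : ℝ) (q r i : ℕ) (ω : Om B M) : ℂ :=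
  ∑ u ∈ Ubf Q0 T Y' q r i, ff ω u *
    ∑ x ∈ (Bset P Q0 S2 j2 Y' q r).filter (fun x => bigP x < u.minFac ∧ q * u * x ∈ Ico Y Y'),
      ff ω x * ee (β * ((q * u * x : ℕ):ℝ))

lemma mem_Uset {Q0 T Yx q r u : ℕ} : u ∈ Uset Q0 T Yx q r ↔ (1 ≤ u ∧ u ≤ Yx) ∧ Squarefree u ∧
    u.primeFactors.card = r ∧ (∀ p ∈ u.primeFactors, Q0 ≤ p) ∧ Nat.Coprime u q ∧ T ≤ u ∧ u / u.minFac < T := by
  simp [Uset, and_assoc]

lemma mem_Qset {Q0 W q : ℕ} : q ∈ Qset Q0 W ↔ (1 ≤ q ∧ q ≤ W) ∧ qP Q0 q = q := by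
  simp [Qset, and_assoc]

lemma mem_Bset {P Q0 S2 j2 Yx q r b : ℕ} : b ∈ Bset P Q0 S2 j2 Yx q r ↔ (1 ≤ b ∧ b ≤ Yx) ∧
    Nat.Coprime b q ∧ (∀ p ∈ b.primeFactors, Q0 ≤ p → b.factorization p = 1) ∧
    smP P b ≤ S2 ∧ OO (rgP P b) + r + OO q ≤ j2 := by
  simp [Bset, and_assoc]

/-- Identity. -/
lemma SS_eq_fam (P Q0 T S2 j2 Y Y' Lm : ℕ) (hPQ : P ≤ Q0) (hQ : 2 ≤ Q0) (hT : 2 ≤ T) (hY : 1 ≤ Y)
    (hLm : Nat.log 2 Y' ≤ Lm) (β : ℝ) (ω : Om B M) :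
    SS β (Mset P Q0 T T S2 j2 Y Y') ω
      = ∑ q ∈ Qset Q0 T, ∑ r ∈ range (Nat.log 2 Y' + 1), ∑ i ∈ range (Lm + 1),
          ff ω q * famF P Q0 T S2 j2 Y Y' β q r i ω := by
  unfold SS
  rw [decomp_M P Q0 T T S2 j2 Y Y' hPQ hQ hT hY (fun a => ff ω a * ee (β * (a:ℝ)))]
  refine Finset.sum_congr rfl fun q hq => Finset.sum_congr rfl fun r _ => ?_
  have hq1 : q ≠ 0 := by
    have := (mem_Qset.1 hq).1.1
    omega
  have hmaps : ∀ u ∈ Uset Q0 T Y' q r, Nat.log 2 u ∈ range (Lm + 1) := by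
    intro u hu
    have h1 := (mem_Uset.1 hu).1.2
    rw [Finset.mem_range]
    have := Nat.log_mono_right (b := 2) h1
    omega
  rw [← Finset.sum_fiberwise_of_maps_to hmaps]
  refine Finset.sum_congr rfl fun i _ => ?_
  unfold famF
  rw [Finset.mul_sum]
  refine Finset.sum_congr rfl fun u hu => ?_
  have hu1 : u ≠ 0 := by
    have := (mem_Uset.1 (Finset.mem_of_mem_filter _ hu)).1.1
    omega
  rw [Finset.mul_sum, Finset.mul_sum]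
  refine Finset.sum_congr rfl fun x hx => ?_
  have hx1 : x ≠ 0 := by
    have := (mem_Bset.1 (Finset.mem_of_mem_filter _ hx)).1.1
    omega
  rw [ff_mul ω (mul_ne_zero hq1 hu1) hx1, ff_mul ω hq1 hu1]
  ring

lemma mm_zero_fun (k : ℕ) (hk : 1 ≤ k) : mm k (fun _ : Om B M => (0:ℂ)) = 0 := by
  unfold mm
  have hk' : 2 * k ≠ 0 := by omega
  have : (fun ω : Om B M => ‖(0:ℂ)‖ ^ (2 * k)) = fun _ => (0:ℝ) := by
    funext ω
    simp [hk']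
  rw [this, EE_const]
  rw [Real.zero_rpow]
  have : (k:ℝ) ≠ 0 := by
    have : 1 ≤ (k:ℝ) := by exact_mod_cast hk
    linarith
  positivity

/-- `u / minFac` dominates `minFac ^ (r - 1)` for squarefree `u`. -/
lemma minFac_pow_le {u r : ℕ} (hu : Squarefree u) (hr : u.primeFactors.card = r) (hu1 : u ≠ 1) :
    u.minFac ^ (r - 1) ≤ u / u.minFac := by
  have hu0 : u ≠ 0 := hu.ne_zero
  have hp : u.minFac.Prime := Nat.minFac_prime hu1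
  have hm : u.minFac ∈ u.primeFactors := Nat.mem_primeFactors.2 ⟨hp, Nat.minFac_dvd u, hu0⟩
  have hprod : ∏ p ∈ u.primeFactors, p = u := Nat.prod_primeFactors_of_squarefree hu
  have herase : u.minFac * ∏ p ∈ u.primeFactors.erase u.minFac, p = u := by
    rw [Finset.mul_prod_erase u.primeFactors (fun p => p) hm, hprod]
  have hdiv : u / u.minFac = ∏ p ∈ u.primeFactors.erase u.minFac, p := by
    exact Nat.div_eq_of_eq_mul_right hp.pos herase.symm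
  rw [hdiv]
  have hc : (u.primeFactors.erase u.minFac).card = r - 1 := by
    rw [Finset.card_erase_of_mem hm, hr]
  rw [← hc]
  refine Finset.pow_card_le_prod _ _ _ fun p hp' => ?_
  have hpm := Finset.mem_of_mem_erase hp'
  have hpp := Nat.mem_primeFactors.1 hpm
  exact Nat.minFac_le_of_dvd hpp.1.two_le hpp.2.1

/-- Structure of the top parts for at least two primes. -/
lemma Uset_ge_two {Q0 T Yx q r u : ℕ} (hu : u ∈ Uset Q0 T Yx q r) (hr : 2 ≤ r) (hT : 2 ≤ T) :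
    u.minFac ^ (r - 1) < T ∧ Q0 ≤ u.minFac ∧ u < T ^ 2 := by
  obtain ⟨⟨h1, _⟩, hsq, hc, hQ, _, hTu, hlt⟩ := mem_Uset.1 hu
  have hu1 : u ≠ 1 := by omega
  have hp : u.minFac.Prime := Nat.minFac_prime hu1
  have hm : u.minFac ∈ u.primeFactors := Nat.mem_primeFactors.2 ⟨hp, Nat.minFac_dvd u, by omega⟩
  have hle := minFac_pow_le hsq hc hu1
  refine ⟨lt_of_le_of_lt hle hlt, hQ _ hm, ?_⟩
  have hmf : u.minFac ≤ u / u.minFac := by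
    calc u.minFac = u.minFac ^ 1 := (pow_one _).symm
      _ ≤ u.minFac ^ (r - 1) := Nat.pow_le_pow_right hp.pos (by omega)
      _ ≤ _ := hle
  have hmul : u.minFac * (u / u.minFac) = u := Nat.mul_div_cancel' (Nat.minFac_dvd u)
  calc u = u.minFac * (u / u.minFac) := hmul.symm
    _ < T * T := Nat.mul_lt_mul'' (lt_of_le_of_lt hmf hlt) hlt
    _ = T ^ 2 := by ring

lemma Uset_r_pos {Q0 T Yx q r u : ℕ} (hu : u ∈ Uset Q0 T Yx q r) (hT : 2 ≤ T) : 1 ≤ r := by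
  obtain ⟨⟨h1, _⟩, hsq, hc, _, _, hTu, _⟩ := mem_Uset.1 hu
  by_contra hr
  have hr0 : r = 0 := by omega
  subst hr0
  have : u.primeFactors = ∅ := Finset.card_eq_zero.1 hc
  have hu1 : u = 1 := by
    have := Nat.prod_primeFactors_of_squarefree hsq
    rw [‹u.primeFactors = ∅›] at this
    simpa using this.symm
  omega

lemma Ubf_bounds {Q0 T Yx q r i u : ℕ} (hu : u ∈ Ubf Q0 T Yx q r i) :
    2 ^ i ≤ u ∧ u < 2 * 2 ^ i := by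
  obtain ⟨h1, h2⟩ := Finset.mem_filter.1 hu
  have h3 := (mem_Uset.1 h1).1.1
  subst h2
  exact ⟨Nat.pow_log_le_self 2 (by omega), by
    have := Nat.lt_pow_succ_log_self (b := 2) (by norm_num) u
    rw [pow_succ] at this
    omega⟩


/-- The level of the cofactor. -/
def X0f (Y q i : ℕ) : ℕ := max 1 (Y / (2 * q * 2 ^ i))

/-- The bound for the largest prime of the cofactor. -/
def zf (T Y' r : ℕ) : ℕ := if r ≤ 1 then Y' + 1 else ⌈(T:ℝ) ^ ((1:ℝ) / ((r - 1 : ℕ):ℝ))⌉₊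

/-- The cofactors of a family. -/
def bfam (P Q0 T S2 j2 Y Y' q r i : ℕ) : Finset ℕ :=
  (Bset P Q0 S2 j2 Y' q r).filter
    (fun x => X0f Y q i ≤ x ∧ x < 8 * X0f Y q i ∧ bigP x < zf T Y' r)

lemma X0f_ge_one (Y q i : ℕ) : 1 ≤ X0f Y q i := le_max_left _ _

lemma X0f_le (Y q i : ℕ) (hY : 1 ≤ Y) (hq : 1 ≤ q) : X0f Y q i ≤ Y := by
  unfold X0f
  refine max_le hY ?_
  exact Nat.div_le_self _ _

/-- If `x` occurs in the family, it is in the cofactor set. -/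
lemma mem_bfam_of {P Q0 T S2 j2 Y Y' q r i u x : ℕ} (hY' : Y' ≤ 2 * Y) (hq : 1 ≤ q)
    (hT : 2 ≤ T) (hu : u ∈ Ubf Q0 T Y' q r i) (hx : x ∈ Bset P Q0 S2 j2 Y' q r)
    (h1 : bigP x < u.minFac) (h2 : q * u * x ∈ Ico Y Y') : x ∈ bfam P Q0 T S2 j2 Y Y' q r i := by
  obtain ⟨hU1, hU2⟩ := Ubf_bounds hu
  have hux := mem_Uset.1 (Finset.mem_filter.1 hu).1
  obtain ⟨⟨hu1, huY⟩, hsq, hc, _, _, _, _⟩ := hux
  obtain ⟨⟨hx1, _⟩, _⟩ := mem_Bset.1 hx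
  obtain ⟨h21, h22⟩ := Finset.mem_Ico.1 h2
  set U := 2 ^ i with hU
  have hUpos : 1 ≤ U := Nat.one_le_two_pow
  refine Finset.mem_filter.2 ⟨hx, ?_, ?_, ?_⟩
  · unfold X0f
    refine max_le hx1 ?_
    refine Nat.div_le_of_le_mul ?_
    calc Y ≤ q * u * x := h21
      _ ≤ q * (2 * U) * x := by gcongr
      _ = 2 * q * U * x := by ring
  · have hd : 0 < 2 * q * U := by positivity
    have hlt : Y < (2 * q * U) * (Y / (2 * q * U) + 1) := Nat.lt_mul_div_succ Y hd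
    have hX : Y / (2 * q * U) + 1 ≤ 2 * X0f Y q i := by
      show Y / (2 * q * U) + 1 ≤ 2 * max 1 (Y / (2 * q * U))
      generalize Y / (2 * q * U) = w
      omega
    have hqU : q * U * x ≤ q * u * x := by gcongr
    have hq0 : 0 < q * U := by positivity
    refine Nat.lt_of_mul_lt_mul_left (a := q * U) ?_
    calc q * U * x ≤ q * u * x := hqU
      _ < Y' := h22
      _ ≤ 2 * Y := hY'
      _ < 2 * ((2 * q * U) * (Y / (2 * q * U) + 1)) := by omega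
      _ ≤ 2 * ((2 * q * U) * (2 * X0f Y q i)) := by gcongr
      _ = q * U * (8 * X0f Y q i) := by ring
  · unfold zf
    split_ifs with hr
    · have hle : u.minFac ≤ u := Nat.minFac_le (by omega)
      omega
    · have hr2 : 2 ≤ r := by omega
      obtain ⟨h3, _, _⟩ := Uset_ge_two (Finset.mem_filter.1 hu).1 hr2 hT
      refine lt_of_lt_of_le h1 ?_
      have hs : r - 1 ≠ 0 := by omega
      have hs' : (0:ℝ) < ((r - 1 : ℕ):ℝ) := by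
        have : 1 ≤ r - 1 := by omega
        have h : (1:ℝ) ≤ ((r - 1 : ℕ):ℝ) := by exact_mod_cast this
        linarith
      have hreal : ((u.minFac ^ (r - 1) : ℕ):ℝ) ≤ (T:ℝ) := by exact_mod_cast h3.le
      have h5 : (u.minFac:ℝ) ≤ (T:ℝ) ^ ((1:ℝ) / ((r - 1 : ℕ):ℝ)) := by
        have h6 : ((((u.minFac:ℝ) ^ (r - 1)) : ℝ)) ^ ((1:ℝ) / ((r - 1 : ℕ):ℝ)) = u.minFac := by
          rw [one_div]
          exact Real.pow_rpow_inv_natCast (by positivity) hs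
        rw [← h6]
        refine Real.rpow_le_rpow (by positivity) ?_ (by positivity)
        exact_mod_cast hreal
      have h7 : (u.minFac:ℝ) ≤ (⌈(T:ℝ) ^ ((1:ℝ) / ((r - 1 : ℕ):ℝ))⌉₊ : ℝ) := h5.trans (Nat.le_ceil _)
      exact_mod_cast h7

/-- The family through `bfam`. -/
lemma famF_eq {P Q0 T S2 j2 Y Y' : ℕ} (β : ℝ) {q r i : ℕ} (hY' : Y' ≤ 2 * Y) (hq : 1 ≤ q) (hT : 2 ≤ T)
    (ω : Om B M) :
    famF P Q0 T S2 j2 Y Y' β q r i ω = ∑ u ∈ Ubf Q0 T Y' q r i, ff ω u *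
      ∑ x ∈ (bfam P Q0 T S2 j2 Y Y' q r i).filter (fun x => bigP x < u.minFac ∧ q * u * x ∈ Ico Y Y'),
        ff ω x * ee (β * ((q * u * x : ℕ):ℝ)) := by
  unfold famF
  refine Finset.sum_congr rfl fun u hu => ?_
  congr 1
  refine Finset.sum_congr ?_ fun _ _ => rfl
  ext x
  simp only [Finset.mem_filter]
  constructor
  · rintro ⟨hx, h1, h2⟩
    exact ⟨mem_bfam_of hY' hq hT hu hx h1 h2, h1, h2⟩
  · rintro ⟨hx, h1, h2⟩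
    exact ⟨(Finset.mem_filter.1 hx).1, h1, h2⟩

/-- `mtype` for a family. -/
lemma fam_mtype (k : ℕ) (hk : 1 ≤ k) (hM : 2 ≤ M) (lam : ℝ) (hlam : 50 * (k:ℝ) ≤ lam) (β : ℝ)
    (P Q0 T S2 j2 Y Y' q r i Lm : ℕ) (Pbar : ℝ) (hq : 1 ≤ q) (hT : 2 ≤ T) (hY' : Y' ≤ 2 * Y)
    (hLm : Y' < 2 ^ (Lm + 1)) (hfits : ∀ a ∈ Ico 1 (Y' + 1), Fits B M a)
    (hPbar : ∑ x ∈ Ico (X0f Y q i) (8 * X0f Y q i), ∑ x' ∈ (Ico (X0f Y q i) (8 * X0f Y q i)).filter (· ≠ x),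
        (Nat.gcd x x' : ℝ) * hh (β * q) (2 ^ i) (max x x' - min x x') ≤ Pbar) :
    mm k (famF (B := B) (M := M) P Q0 T S2 j2 Y Y' β q r i) ^ 2
      ≤ (50 * (k:ℝ) ^ 2) ^ r * (((Lm:ℝ) + 1) ^ 2 *
          (((bfam P Q0 T S2 j2 Y Y' q r i).card : ℝ) * (2 ^ i : ℕ) + 3 * (S2:ℝ) * lam ^ j2 * Real.sqrt Pbar)) := by
  have hUpos : 1 ≤ 2 ^ i := Nat.one_le_two_pow
  have hfun : famF (B := B) (M := M) P Q0 T S2 j2 Y Y' β q r i = fun ω => ∑ u ∈ Ubf Q0 T Y' q r i, ff ω u *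
      ∑ x ∈ (bfam P Q0 T S2 j2 Y Y' q r i).filter (fun x => bigP x < u.minFac ∧ q * u * x ∈ Ico Y Y'),
        ff ω x * ee (β * ((q * u * x : ℕ):ℝ)) := by
    funext ω
    exact famF_eq β hY' hq hT ω
  rw [hfun]
  have key := mtype (B := B) (M := M) k hk hM lam hlam β P S2 j2 Y Y' q r (2 ^ i) Lm (X0f Y q i) Pbar hq
    (X0f_ge_one _ _ _) hUpos hLm (Ubf Q0 T Y' q r i) (bfam P Q0 T S2 j2 Y Y' q r i) ?_ ?_ hPbar
  · refine key.trans ?_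
    refine mul_le_mul_of_nonneg_left ?_ (by positivity)
    refine mul_le_mul_of_nonneg_left ?_ (by positivity)
    have hD : ∑ x ∈ bfam P Q0 T S2 j2 Y Y' q r i,
        (((Ico (2 ^ i) (2 * 2 ^ i)).filter (fun n => q * n * x ∈ Ico Y Y')).card : ℝ)
        ≤ ((bfam P Q0 T S2 j2 Y Y' q r i).card : ℝ) * (2 ^ i : ℕ) := by
      rw [← nsmul_eq_mul]
      refine Finset.sum_le_card_nsmul _ _ _ fun x _ => ?_
      have h1 := Finset.card_filter_le (Ico (2 ^ i) (2 * 2 ^ i)) (fun n => q * n * x ∈ Ico Y Y')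
      rw [Nat.card_Ico] at h1
      have h2 : 2 * 2 ^ i - 2 ^ i = 2 ^ i := by omega
      rw [h2] at h1
      exact_mod_cast h1
    linarith
  · intro u hu
    obtain ⟨hU1, hU2⟩ := Ubf_bounds hu
    obtain ⟨⟨hu1, huY⟩, hsq, hc, _, _, _, _⟩ := mem_Uset.1 (Finset.mem_filter.1 hu).1
    have hF : Fits B M u := hfits u (Finset.mem_Ico.2 ⟨hu1, by omega⟩)
    refine ⟨hU1, hU2, (Nat.minFac_le (by omega)).trans huY, hsq, hc, hF.2.1⟩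
  · intro x hx
    obtain ⟨hx0, h1, h2, h3⟩ := Finset.mem_filter.1 hx
    obtain ⟨⟨hx1, hxY⟩, _, _, hS, hO⟩ := mem_Bset.1 hx0
    have hF : Fits B M x := hfits x (Finset.mem_Ico.2 ⟨hx1, by omega⟩)
    exact ⟨hF, hS, by omega, h1, h2⟩

/-- Vanishing of a family when `U` is too large. -/
lemma famF_zero {P Q0 T S2 j2 Y Y' : ℕ} (β : ℝ) {q r i : ℕ} (hY' : Y' ≤ 2 * Y) (hq : 1 ≤ q)
    (hqU : 2 * Y ≤ q * 2 ^ i) (ω : Om B M) :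
    famF P Q0 T S2 j2 Y Y' β q r i ω = 0 := by
  unfold famF
  refine Finset.sum_eq_zero fun u hu => ?_
  have h0 : (Bset P Q0 S2 j2 Y' q r).filter (fun x => bigP x < u.minFac ∧ q * u * x ∈ Ico Y Y') = ∅ := by
    refine Finset.filter_eq_empty_iff.2 fun x hx => ?_
    rintro ⟨_, h2⟩
    obtain ⟨hU1, _⟩ := Ubf_bounds hu
    obtain ⟨⟨hx1, _⟩, _⟩ := mem_Bset.1 hx
    have h3 := (Finset.mem_Ico.1 h2).2
    have h4 : q * 2 ^ i * 1 ≤ q * u * x := by gcongr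
    omega
  rw [h0]
  simp

lemma famF_zero' {P Q0 T S2 j2 Y Y' : ℕ} (β : ℝ) {q r i : ℕ}
    (h : Ubf Q0 T Y' q r i = ∅) (ω : Om B M) :
    famF P Q0 T S2 j2 Y Y' β q r i ω = 0 := by
  unfold famF
  rw [h]
  simp

/-- Small `r`. -/
lemma ev_N4 (ε : ℝ) (hε : 0 < ε) : ∀ᶠ L : ℝ in atTop, ∀ (lam : ℝ) (r : ℕ), 1 ≤ lam → lam ≤ L →
    (r:ℝ) ≤ 1 + L ^ (ε / 4) → (lam ^ 2) ^ r ≤ Real.exp (L ^ ε / 32) := by
  have h1 : ∀ᶠ L : ℝ in atTop, Real.log L ≤ (1 / 128) * L ^ (3 * ε / 4) := by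
    have := (isLittleO_log_rpow_atTop (r := 3 * ε / 4) (by positivity)).bound (c := 1 / 128) (by norm_num)
    filter_upwards [this, eventually_ge_atTop 1] with L hL hL1
    have h0 : 0 ≤ Real.log L := Real.log_nonneg hL1
    rwa [Real.norm_of_nonneg h0, Real.norm_of_nonneg (by positivity)] at hL
  filter_upwards [h1, eventually_ge_atTop 1] with L hL hL1 lam r hlam1 hlamL hr
  have hLpos : 0 < L := by linarith
  have hlog0 : 0 ≤ Real.log L := Real.log_nonneg hL1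
  have hpw : 1 ≤ L ^ (ε / 4) := Real.one_le_rpow hL1 (by positivity)
  calc (lam ^ 2) ^ r = lam ^ (2 * r) := by rw [pow_mul]
    _ ≤ L ^ (2 * r) := by gcongr
    _ = Real.exp (((2 * r : ℕ):ℝ) * Real.log L) := by
        rw [Real.exp_nat_mul, Real.exp_log hLpos]
    _ ≤ Real.exp (L ^ ε / 32) := by
        apply Real.exp_le_exp.2
        have h3 : L ^ ε = L ^ (ε / 4) * L ^ (3 * ε / 4) := by
          rw [← Real.rpow_add hLpos]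
          congr 1
          ring
        have h4 : ((2 * r : ℕ):ℝ) ≤ 4 * L ^ (ε / 4) := by
          push_cast
          linarith
        calc ((2 * r : ℕ):ℝ) * Real.log L ≤ (4 * L ^ (ε / 4)) * ((1 / 128) * L ^ (3 * ε / 4)) := by
              gcongr
          _ = L ^ ε / 32 := by rw [h3]; ring

/-- The exponent inequality. -/
lemma expo_core (ε ν₀ L s sq ls lz ll logL lT sL η lX mz : ℝ) (hε : 0 < ε) (hν : 0 < ν₀) (hν2 : ν₀ ≤ ε / 100)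
    (hν3 : ν₀ ≤ 1 / 64) (hL1 : 1 ≤ L) (hs : 0 < s) (hsq : sq * sq = s) (hsq20 : 20 ≤ sq)
    (hlogs : (ε / 4) * logL ≤ ls) (hls : 0 < ls) (hlz : 0 < lz) (hlz2 : lz * s ≤ 2 * ν₀ * L)
    (hll : 6 ≤ ll) (hllL : ll ≤ logL) (h16 : 16 * s * ll ≤ lT) (hlT : lT ≤ (5 / 4) * ν₀ * L) (hlog0 : 0 ≤ logL)
    (hLA : logL ≤ (1 / 480) * sL) (hsLL : sL * sL = L) (hsL0 : 0 ≤ sL) (hsqL : sq ≤ sL)
    (hη0 : 0 < η) (hη : η = min (1 / 4) (ls / (2 * lz))) (hXη : η * (L / 2) ≤ η * lX) (hMul : mz ≤ sq * (5 * logL)) :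
    2 * (s + 1) * ll - η * lX + 3 * mz ≤ 0 := by
  have hLpos : 0 < L := by linarith
  by_cases hcase : (1 / 4 : ℝ) ≤ ls / (2 * lz)
  · have hη4 : η = 1 / 4 := by rw [hη]; exact min_eq_left hcase
    rw [hη4] at hXη
    have h2 : sq * (5 * logL) ≤ L / 96 := by
      have h3 : sq * (5 * logL) ≤ sL * (5 * ((1 / 480) * sL)) := by
        have : 0 ≤ sq := by linarith
        gcongr
      have h4 : sL * (5 * ((1 / 480) * sL)) = (sL * sL) / 96 := by ring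
      rw [h4, hsLL] at h3
      exact h3
    have h3 : 2 * ll ≤ L / 32 := by
      have h5 : 1 ≤ sL := by
        by_contra hcon
        push Not at hcon
        nlinarith
      have h6 : sL ≤ L := by nlinarith
      nlinarith
    have h4 : 16 * s * ll ≤ (5 / 4) * (1 / 64) * L := by
      refine h16.trans (hlT.trans ?_)
      gcongr
    have h7 : 2 * (s + 1) * ll = (16 * s * ll) / 8 + 2 * ll := by ring
    rw [h7, hη4]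
    linarith
  · have hη4 : η = ls / (2 * lz) := by rw [hη]; exact min_eq_right (not_le.1 hcase).le
    have hkey : s * ls / (8 * ν₀) ≤ η * (L / 2) := by
      rw [hη4, div_le_iff₀ (by positivity)]
      have h5 : ls / (2 * lz) * (L / 2) * (8 * ν₀) = ls * (2 * ν₀ * L) / lz := by
        field_simp
        ring
      rw [h5, le_div_iff₀ hlz]
      have : s * ls * lz = ls * (lz * s) := by ring
      rw [this]
      gcongr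
    have hbig : (25 / 8) * s * logL ≤ s * ls / (8 * ν₀) := by
      rw [le_div_iff₀ (by positivity)]
      have h6 : (25 / 8) * s * logL * (8 * ν₀) = s * (25 * ν₀ * logL) := by ring
      rw [h6]
      gcongr
      calc 25 * ν₀ * logL ≤ 25 * (ε / 100) * logL := by gcongr
        _ = (ε / 4) * logL := by ring
        _ ≤ _ := hlogs
    have h7 : 2 * (s + 1) * ll ≤ 2 * (s + 1) * logL := by gcongr
    have h8 : 3 * (sq * (5 * logL)) = 15 * sq * logL := by ring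
    have h9 : (2 * (s + 1) + 15 * sq - (25 / 8) * s) * logL ≤ 0 := by
      apply mul_nonpos_of_nonpos_of_nonneg _ hlog0
      rw [← hsq]
      nlinarith
    have h10 : (2 * (s + 1) + 15 * sq - (25 / 8) * s) * logL = 2 * (s + 1) * logL + 15 * sq * logL - (25 / 8) * s * logL := by ring
    linarith

lemma zfacts (τ : ℝ) (hτ96 : 96 ≤ τ) : 2 ≤ ⌈Real.exp τ⌉₊ ∧ τ ≤ Real.log ⌈Real.exp τ⌉₊ ∧
    Real.log ⌈Real.exp τ⌉₊ ≤ (5 / 4) * τ := by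
  set z := ⌈Real.exp τ⌉₊ with hz
  have hzge : Real.exp τ ≤ z := Nat.le_ceil _
  have hexp2 : (2:ℝ) ≤ Real.exp τ := by
    have := Real.add_one_le_exp τ
    linarith
  have hzle : (z:ℝ) ≤ 2 * Real.exp τ := by
    have := Nat.ceil_lt_add_one (a := Real.exp τ) (by positivity)
    linarith
  have hz2 : 2 ≤ z := by
    have : (2:ℝ) ≤ z := hexp2.trans hzge
    exact_mod_cast this
  have hzpos : (0:ℝ) < z := by linarith
  refine ⟨hz2, ?_, ?_⟩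
  · rw [Real.le_log_iff_exp_le hzpos]
    exact hzge
  · rw [Real.log_le_iff_le_exp hzpos]
    refine hzle.trans ?_
    have h3 : (5 / 4) * τ = τ / 4 + τ := by ring
    rw [h3, Real.exp_add]
    have : (2:ℝ) ≤ Real.exp (τ / 4) := by
      have := Real.add_one_le_exp (τ / 4)
      linarith
    nlinarith [Real.exp_pos τ]

lemma final_mul (lam s X η zz mer : ℝ) (n : ℕ) (hn : (n:ℝ) = s) (hlam : 0 < lam) (hX : 0 < X)
    (hexpo : 2 * (s + 1) * Real.log lam - η * Real.log X + 3 * (zz * mer) ≤ 0) :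
    (lam ^ 2) ^ (n + 1) * (X ^ (1 - η) * Real.exp (3 * zz * mer)) ≤ X := by
  have h10 : (lam ^ 2) ^ (n + 1) = Real.exp (2 * (s + 1) * Real.log lam) := by
    have h11 : (2 * (s + 1) * Real.log lam) = ((2 * (n + 1) : ℕ):ℝ) * Real.log lam := by
      push_cast
      rw [hn]
    rw [h11, Real.exp_nat_mul, Real.exp_log hlam, pow_mul]
  have h12 : X ^ (1 - η) = X * Real.exp (-(η * Real.log X)) := by
    rw [Real.rpow_sub hX, Real.rpow_one, Real.rpow_def_of_pos hX, Real.exp_neg, div_eq_mul_inv]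
    rw [mul_comm (Real.log X) η]
  rw [h10, h12]
  have h13 : Real.exp (2 * (s + 1) * Real.log lam) * (X * Real.exp (-(η * Real.log X)) * Real.exp (3 * zz * mer))
      = X * Real.exp (2 * (s + 1) * Real.log lam - η * Real.log X + 3 * (zz * mer)) := by
    rw [Real.exp_add, Real.exp_sub, Real.exp_neg]
    have h14 : 3 * zz * mer = 3 * (zz * mer) := by ring
    rw [h14]
    field_simp
  rw [h13]
  have : Real.exp (2 * (s + 1) * Real.log lam - η * Real.log X + 3 * (zz * mer)) ≤ 1 :=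
    Real.exp_le_one_iff.2 hexpo
  nlinarith

lemma N3_mid (ε ν₀ L lam τ : ℝ) (s T X z : ℕ) (hε : 0 < ε) (hν : 0 < ν₀) (hν2 : ν₀ ≤ ε / 100) (hν3 : ν₀ ≤ 1 / 64)
    (hLA : Real.log L ≤ (1 / 480) * L ^ (1 / 2 : ℝ)) (hLB : (400:ℝ) ≤ L ^ (ε / 4))
    (hLC : 5 + 4 * Real.log (2 * L + 2) ≤ 5 * Real.log L) (hLD : (6:ℝ) ≤ Real.log L) (hL1 : 1 ≤ L)
    (hlam : 1000 ≤ lam) (hlamL : lam ≤ L) (hs : L ^ (ε / 4) < s)
    (hlogT : Real.log T ≤ (5 / 4) * ν₀ * L) (hlogX : L / 2 ≤ Real.log X) (hX1 : 1 ≤ X)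
    (h16 : 16 * (s:ℝ) * Real.log lam ≤ Real.log T) (hτs : τ * s = Real.log T)
    (hz2 : 2 ≤ z) (hlogzge : τ ≤ Real.log z) (hlogzle : Real.log z ≤ (5 / 4) * τ) (hτ96 : 96 ≤ τ)
    (hloglam : 6 ≤ Real.log lam) :
    ∃ η : ℝ, 0 < η ∧ η ≤ 1 / 4 ∧ (lam ^ 2) ^ (s + 1) * ((X:ℝ) ^ (1 - η) *
          Real.exp (3 * ((z : ℕ):ℝ) ^ η * Mer z)) ≤ X := by
  have hLpos : 0 < L := by linarith
  have hs400 : (400:ℝ) < s := lt_of_le_of_lt hLB hs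
  have hspos : (0:ℝ) < s := by linarith
  have hlampos : 0 < lam := by linarith
  have hloglamL : Real.log lam ≤ Real.log L := Real.log_le_log hlampos hlamL
  have hzpos : (0:ℝ) < z := by
    have : (2:ℝ) ≤ z := by exact_mod_cast hz2
    linarith
  have hlogzpos : 0 < Real.log z := by linarith
  have hνL : ν₀ * L ≤ (1 / 64) * L := by gcongr
  have hνL0 : 0 < ν₀ * L := mul_pos hν hLpos
  have hlogz2 : Real.log z * s ≤ 2 * ν₀ * L := by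
    have h1 : Real.log z * s ≤ (5 / 4) * τ * s := by gcongr
    have h2 : (5 / 4) * τ * s = (5 / 4) * Real.log T := by rw [mul_assoc, hτs]
    have h3 : 2 * ν₀ * L = 2 * (ν₀ * L) := by ring
    have h4 : (5 / 4) * ν₀ * L = (5 / 4) * (ν₀ * L) := by ring
    rw [h3]
    rw [h4] at hlogT
    linarith
  have hlogs : (ε / 4) * Real.log L ≤ Real.log s := by
    have h3 : Real.log (L ^ (ε / 4)) ≤ Real.log s := Real.log_le_log (by positivity) hs.le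
    rwa [Real.log_rpow hLpos] at h3
  have hlogspos : 0 < Real.log s := by
    have h1 : (ε / 4) * 6 ≤ (ε / 4) * Real.log L := by gcongr
    have h2 : 0 < (ε / 4) * 6 := by positivity
    linarith
  have hMer : Mer z ≤ 5 * Real.log L := by
    have h3 := Mer_le z hz2
    have h4 : Real.log z ≤ L := by
      have h5 : Real.log z * 1 ≤ Real.log z * s := by
        gcongr
        linarith
      have h6 : 2 * ν₀ * L = 2 * (ν₀ * L) := by ring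
      linarith
    have h5 : Real.log (2 * Real.log z + 2) ≤ Real.log (2 * L + 2) :=
      Real.log_le_log (by linarith) (by linarith)
    linarith
  have hMer0 : 0 ≤ Mer z := by
    unfold Mer
    positivity
  have hsqrt : Real.sqrt s * Real.sqrt s = s := Real.mul_self_sqrt hspos.le
  have hsqrt20 : 20 ≤ Real.sqrt s := by
    rw [show (20:ℝ) = Real.sqrt 400 by
      rw [show (400:ℝ) = 20 ^ 2 by norm_num]
      exact (Real.sqrt_sq (by norm_num)).symm]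
    exact Real.sqrt_le_sqrt hs400.le
  have hlog0 : 0 ≤ Real.log L := by linarith
  obtain ⟨η, hη⟩ : ∃ η, η = min (1 / 4) (Real.log s / (2 * Real.log z)) := ⟨_, rfl⟩
  have hηpos : 0 < η := by
    rw [hη]
    exact lt_min (by norm_num) (by positivity)
  have hη14 : η ≤ 1 / 4 := by rw [hη]; exact min_le_left _ _
  have hηle : η * Real.log z ≤ Real.log s / 2 := by
    have : η ≤ Real.log s / (2 * Real.log z) := by rw [hη]; exact min_le_right _ _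
    calc η * Real.log z ≤ Real.log s / (2 * Real.log z) * Real.log z := by gcongr
      _ = Real.log s / 2 := by field_simp
  have hzη : (z:ℝ) ^ η ≤ Real.sqrt s := by
    rw [Real.rpow_def_of_pos hzpos, Real.sqrt_eq_rpow, Real.rpow_def_of_pos hspos]
    apply Real.exp_le_exp.2
    rw [mul_comm (Real.log (z:ℝ)) η]
    linarith
  have hsL : (s:ℝ) ≤ L := by
    have h3 : 16 * (s:ℝ) * 6 ≤ Real.log T := by
      refine le_trans ?_ h16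
      gcongr
    have h4 : (5 / 4) * ν₀ * L = (5 / 4) * (ν₀ * L) := by ring
    rw [h4] at hlogT
    linarith
  have hexpo : 2 * ((s:ℝ) + 1) * Real.log lam - η * Real.log X + 3 * ((z:ℝ) ^ η * Mer z) ≤ 0 := by
    have hXη : η * (L / 2) ≤ η * Real.log X := by gcongr
    have hMul : (z:ℝ) ^ η * Mer z ≤ Real.sqrt s * (5 * Real.log L) :=
      mul_le_mul hzη hMer hMer0 (by positivity)
    rw [(Real.sqrt_eq_rpow L).symm] at hLA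
    exact expo_core ε ν₀ L s (Real.sqrt s) (Real.log s) (Real.log z) (Real.log lam) (Real.log L) (Real.log T) (Real.sqrt L) η
      (Real.log X) ((z:ℝ) ^ η * Mer z)
      hε hν hν2 hν3 hL1 hspos hsqrt hsqrt20 hlogs hlogspos hlogzpos hlogz2 hloglam hloglamL h16 hlogT hlog0 hLA
      (Real.mul_self_sqrt hLpos.le) (Real.sqrt_nonneg _) (Real.sqrt_le_sqrt hsL) hηpos hη hXη hMul
  refine ⟨η, hηpos, hη14, ?_⟩
  have hXpos : (0:ℝ) < X := by exact_mod_cast hX1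
  exact final_mul lam s X η ((z:ℝ) ^ η) (Mer z) s rfl hlampos hXpos hexpo

/-- Large `r`: smooth numbers are rare. -/
lemma ev_N3 (ε ν₀ : ℝ) (hε : 0 < ε) (hν : 0 < ν₀) (hν2 : ν₀ ≤ ε / 100) (hν3 : ν₀ ≤ 1 / 64) :
    ∀ᶠ L : ℝ in atTop, ∀ (lam : ℝ) (s T X : ℕ), 1000 ≤ lam → lam ≤ L → L ^ (ε / 4) < s →
      lam ^ (16 * s) ≤ T → Real.log T ≤ (5 / 4) * ν₀ * L → L / 2 ≤ Real.log X → 1 ≤ X →
      ∃ η : ℝ, 0 < η ∧ η ≤ 1 / 4 ∧ 2 ≤ ⌈(T:ℝ) ^ ((1:ℝ) / (s:ℝ))⌉₊ ∧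
        (lam ^ 2) ^ (s + 1) * ((X:ℝ) ^ (1 - η) *
          Real.exp (3 * ((⌈(T:ℝ) ^ ((1:ℝ) / (s:ℝ))⌉₊ : ℕ):ℝ) ^ η * Mer ⌈(T:ℝ) ^ ((1:ℝ) / (s:ℝ))⌉₊)) ≤ X := by
  have hA : ∀ᶠ L : ℝ in atTop, Real.log L ≤ (1 / 480) * L ^ (1 / 2 : ℝ) := by
    have := (isLittleO_log_rpow_atTop (r := 1 / 2) (by norm_num)).bound (c := 1 / 480) (by norm_num)
    filter_upwards [this, eventually_ge_atTop 1] with L hL hL1
    have h0 : 0 ≤ Real.log L := Real.log_nonneg hL1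
    rwa [Real.norm_of_nonneg h0, Real.norm_of_nonneg (by positivity)] at hL
  have hB : ∀ᶠ L : ℝ in atTop, (400:ℝ) ≤ L ^ (ε / 4) :=
    (tendsto_rpow_atTop (by positivity)).eventually_ge_atTop _
  have hC : ∀ᶠ L : ℝ in atTop, 5 + 4 * Real.log (2 * L + 2) ≤ 5 * Real.log L := by
    have h1 : Tendsto Real.log atTop atTop := Real.tendsto_log_atTop
    filter_upwards [h1.eventually_ge_atTop (5 + 4 * Real.log 4), eventually_ge_atTop 1] with L hL hL1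
    have hLpos : 0 < L := by linarith
    have h2 : Real.log (2 * L + 2) ≤ Real.log 4 + Real.log L := by
      rw [← Real.log_mul (by norm_num) hLpos.ne']
      exact Real.log_le_log (by positivity) (by linarith)
    linarith
  have hD : ∀ᶠ L : ℝ in atTop, (6:ℝ) ≤ Real.log L := Real.tendsto_log_atTop.eventually_ge_atTop _
  filter_upwards [hA, hB, hC, hD, eventually_ge_atTop 1] with L hLA hLB hLC hLD hL1 lam s T X hlam hlamL hs hT hlogT hlogX hX1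
  have hs400 : (400:ℝ) < s := lt_of_le_of_lt hLB hs
  have hspos : (0:ℝ) < s := by linarith
  have hlampos : 0 < lam := by linarith
  have hlog1000 : (6:ℝ) ≤ Real.log 1000 := by
    have h512 : Real.log 512 ≤ Real.log 1000 := Real.log_le_log (by norm_num) (by norm_num)
    have h2 : Real.log 512 = 9 * Real.log 2 := by
      rw [show (512:ℝ) = 2 ^ 9 by norm_num, Real.log_pow]
      norm_num
    have := Real.log_two_gt_d9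
    linarith
  have hloglam : 6 ≤ Real.log lam := hlog1000.trans (Real.log_le_log (by norm_num) hlam)
  have hTpos : (0:ℝ) < T := lt_of_lt_of_le (by positivity) hT
  have h16 : 16 * (s:ℝ) * Real.log lam ≤ Real.log T := by
    have := Real.log_le_log (by positivity) hT
    rw [Real.log_pow] at this
    push_cast at this
    linarith
  obtain ⟨τ, hτ⟩ : ∃ τ, τ = Real.log T / s := ⟨_, rfl⟩
  have hτs : τ * s = Real.log T := by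
    rw [hτ]
    field_simp
  have hτ16 : 16 * Real.log lam ≤ τ := by
    rw [hτ, le_div_iff₀ hspos]
    linarith
  have hτ96 : 96 ≤ τ := by linarith
  have hTexp : (T:ℝ) ^ ((1:ℝ) / (s:ℝ)) = Real.exp τ := by
    rw [Real.rpow_def_of_pos hTpos, hτ]
    congr 1
    ring
  rw [hTexp]
  obtain ⟨hz2, hlogzge, hlogzle⟩ := zfacts τ hτ96
  obtain ⟨η, h1, h2, h3⟩ := N3_mid ε ν₀ L lam τ s T X _ hε hν hν2 hν3 hLA hLB hLC hLD hL1 hlam hlamL hs hlogT hlogX hX1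
    h16 hτs hz2 hlogzge hlogzle hτ96 hloglam
  exact ⟨η, h1, h2, hz2, h3⟩


lemma X0U_le (Y q i : ℕ) (hq : 1 ≤ q) (hqU : q * 2 ^ i < 2 * Y) :
    ((X0f Y q i : ℕ):ℝ) * ((2 ^ i : ℕ):ℝ) ≤ 2 * (Y:ℝ) / q := by
  have hq0 : (0:ℝ) < q := by exact_mod_cast hq
  rw [le_div_iff₀ hq0]
  have hnat : X0f Y q i * 2 ^ i * q ≤ 2 * Y := by
    unfold X0f
    rcases le_total 1 (Y / (2 * q * 2 ^ i)) with h | h
    · rw [max_eq_right h]
      have h2 := Nat.div_mul_le_self Y (2 * q * 2 ^ i)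
      have h3 : Y / (2 * q * 2 ^ i) * 2 ^ i * q * 2 = Y / (2 * q * 2 ^ i) * (2 * q * 2 ^ i) := by ring
      nlinarith
    · rw [max_eq_left h]
      nlinarith
  exact_mod_cast hnat

lemma pow_lam_le (lam t : ℝ) (T Q0 r u : ℕ) (hlam : 1 ≤ lam) (ht : 1 ≤ t) (htT : t ^ 16 = T) (hQ0 : lam ^ 16 ≤ Q0)
    (hr1 : 1 ≤ r) (hr : 2 ≤ r → u ^ (r - 1) < T ∧ Q0 ≤ u) :
    (lam ^ 2) ^ r ≤ lam ^ 2 * t ^ 2 := by
  rcases Nat.lt_or_ge r 2 with h | h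
  · have hr' : r = 1 := by omega
    subst hr'
    have : 1 ≤ t ^ 2 := one_le_pow₀ ht
    have h0 : 0 ≤ lam ^ 2 := by positivity
    rw [pow_one]
    nlinarith
  · obtain ⟨h1, h2⟩ := hr h
    have hr2 : r = (r - 1) + 1 := by omega
    have h3 : (lam ^ 2) ^ (r - 1) ≤ t ^ 2 := by
      have h4 : ((lam ^ 2) ^ (r - 1)) ^ 8 ≤ (t ^ 2) ^ 8 := by
        calc ((lam ^ 2) ^ (r - 1)) ^ 8 = (lam ^ 16) ^ (r - 1) := by
              rw [← pow_mul, ← pow_mul, ← pow_mul]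
              congr 1
              ring
          _ ≤ (Q0:ℝ) ^ (r - 1) := by gcongr
          _ ≤ (u:ℝ) ^ (r - 1) := by
              have : (Q0:ℝ) ≤ u := by exact_mod_cast h2
              gcongr
          _ ≤ (T:ℝ) := by exact_mod_cast h1.le
          _ = (t ^ 2) ^ 8 := by rw [← htT, ← pow_mul]
      exact (pow_le_pow_iff_left₀ (by positivity) (by positivity) (by norm_num)).1 h4
    calc (lam ^ 2) ^ r = (lam ^ 2) * (lam ^ 2) ^ (r - 1) := by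
          conv_lhs => rw [hr2]
          rw [pow_succ]
          ring
      _ ≤ lam ^ 2 * t ^ 2 := by gcongr

/-- The off-diagonal term, real form. -/
lemma off_real (lam t Cc Lg XU Yq Tt UU X0log P2 S2r lj : ℝ) (hlam : 1 ≤ lam) (ht : 1 ≤ t) (htT : t ^ 16 = Tt)
    (hCc : 0 ≤ Cc) (hLg : 0 ≤ Lg) (hXU0 : 0 ≤ XU) (hXU : XU ≤ 2 * Yq) (hX0log0 : 0 ≤ X0log) (hX0log : X0log ≤ Lg)
    (hUU0 : 0 ≤ UU) (hUU : UU ≤ 3 / Tt)
    (hP2 : P2 = Cc * XU ^ 2 * X0log * UU) (hS2 : S2r ≤ 2 * t) (hS20 : 0 ≤ S2r) (hlj : lj ≤ t) (hlj0 : 0 ≤ lj)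
    (hnum : 12 * lam ^ 2 * Real.sqrt (3 * Cc * Lg) ≤ t ^ 4) (pw : ℝ) (hpw0 : 0 ≤ pw) (hpw : pw ≤ lam ^ 2 * t ^ 2)
    (hYq : 0 ≤ Yq) :
    pw * (3 * S2r * lj * Real.sqrt P2) ≤ Yq := by
  have ht0 : 0 < t := by linarith
  have hTt0 : 0 < Tt := by rw [← htT]; positivity
  set W := Real.sqrt (3 * Cc * Lg) with hW
  have hW0 : 0 ≤ W := Real.sqrt_nonneg _
  have hW2 : W ^ 2 = 3 * Cc * Lg := Real.sq_sqrt (by positivity)
  have hsq : Real.sqrt P2 ≤ 2 * Yq * W / t ^ 8 := by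
    rw [Real.sqrt_le_iff]
    refine ⟨by positivity, ?_⟩
    rw [div_pow, mul_pow, mul_pow, hW2, ← pow_mul]
    norm_num only
    rw [htT, hP2, le_div_iff₀ hTt0]
    have h1 : XU ^ 2 ≤ (2 * Yq) ^ 2 := by gcongr
    have h2 : UU * Tt ≤ 3 := by
      rw [le_div_iff₀ hTt0] at hUU
      exact hUU
    have h3 : Cc * XU ^ 2 * X0log * UU * Tt = Cc * XU ^ 2 * X0log * (UU * Tt) := by ring
    rw [h3]
    calc Cc * XU ^ 2 * X0log * (UU * Tt) ≤ Cc * (2 * Yq) ^ 2 * Lg * 3 := by gcongr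
      _ = 4 * Yq ^ 2 * (3 * Cc * Lg) := by ring
  have hsqrt0 := Real.sqrt_nonneg P2
  calc pw * (3 * S2r * lj * Real.sqrt P2)
      ≤ (lam ^ 2 * t ^ 2) * (3 * (2 * t) * t * (2 * Yq * W / t ^ 8)) := by gcongr
    _ = (12 * lam ^ 2 * W) * (Yq / t ^ 4) := by
        field_simp
        ring
    _ ≤ t ^ 4 * (Yq / t ^ 4) := by gcongr
    _ = Yq := by field_simp


/-- The use of `p1_bound` for a family. -/
lemma p1_use (D C ν : ℝ) (hν : 0 < ν) (hD : D = 2 / ν)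
    (hC : ∀ (θ : ℝ) (N0 X0 U : ℕ) (η R : ℝ),
      1 ≤ X0 → 1 ≤ U → 0 < η → η ≤ 1 → 1 ≤ R → R ^ 3 ≤ N0 → (X0:ℝ) ≤ (N0:ℝ) ^ D →
      (∀ n : ℕ, 1 ≤ n → n ≤ N0 → η ≤ dn ((n:ℝ) * θ)) →
      (16 * R ^ 2 / η ^ 2 ≤ X0 ∨ 2 * Real.sqrt R / η ≤ U) →
      ∑ x ∈ Ico X0 (8 * X0), ∑ x' ∈ (Ico X0 (8 * X0)).filter (· ≠ x),
          (Nat.gcd x x' : ℝ) * hh θ U (max x x' - min x x')
        ≤ C * (X0:ℝ) ^ 2 * (U:ℝ) ^ 2 * (1 + Real.log (X0:ℝ)) * (1 / (U:ℝ) + 1 / R))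
    (Y T q i : ℕ) (β y4 : ℝ) (hY : 1 ≤ Y) (hq : 1 ≤ q) (hqT : q ≤ T) (hT : 2 ≤ T) (hy41 : 1 ≤ y4) (hy4 : y4 ^ 4 = Y)
    (hMA : MA β ⌊(Y:ℝ) ^ ν⌋₊ ((Y:ℝ) ^ (-(1 / 4 : ℝ))))
    (hN1 : (T:ℝ) ^ 4 ≤ (Y:ℝ) ^ ν) (hN2 : (Y:ℝ) ^ (ν / 2) ≤ ((⌊(Y:ℝ) ^ ν⌋₊ / T : ℕ):ℝ))
    (hN3 : 68 * (T:ℝ) ^ 4 ≤ y4) :
    ∑ x ∈ Ico (X0f Y q i) (8 * X0f Y q i), ∑ x' ∈ (Ico (X0f Y q i) (8 * X0f Y q i)).filter (· ≠ x),
        (Nat.gcd x x' : ℝ) * hh (β * q) (2 ^ i) (max x x' - min x x')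
      ≤ C * ((X0f Y q i : ℕ):ℝ) ^ 2 * ((2 ^ i : ℕ):ℝ) ^ 2 * (1 + Real.log ((X0f Y q i : ℕ):ℝ)) *
          (1 / ((2 ^ i : ℕ):ℝ) + 1 / (T:ℝ)) := by
  have hYpos : (0:ℝ) < Y := by exact_mod_cast hY
  have hT1 : (1:ℝ) ≤ T := by
    have : (2:ℝ) ≤ T := by exact_mod_cast hT
    linarith
  have hy4pos : 0 < y4 := by linarith
  have hη : (Y:ℝ) ^ (-(1 / 4 : ℝ)) = y4⁻¹ := by
    rw [← hy4, ← Real.rpow_natCast, ← Real.rpow_mul hy4pos.le]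
    norm_num
    rw [Real.rpow_neg_one]
  refine hC (β * q) (⌊(Y:ℝ) ^ ν⌋₊ / T) (X0f Y q i) (2 ^ i) ((Y:ℝ) ^ (-(1 / 4 : ℝ))) (T:ℝ) (X0f_ge_one _ _ _) Nat.one_le_two_pow
    (by positivity) ?_ hT1 ?_ ?_ ?_ ?_
  · rw [hη]
    exact inv_le_one_of_one_le₀ hy41
  · have hfl : T ^ 3 * T ≤ ⌊(Y:ℝ) ^ ν⌋₊ := by
      apply Nat.le_floor
      push_cast
      calc (T:ℝ) ^ 3 * T = (T:ℝ) ^ 4 := by ring
        _ ≤ _ := hN1
    have h3 : T ^ 3 ≤ ⌊(Y:ℝ) ^ ν⌋₊ / T := (Nat.le_div_iff_mul_le (by omega)).2 hfl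
    exact_mod_cast h3
  · have h4 : (X0f Y q i : ℝ) ≤ Y := by exact_mod_cast X0f_le Y q i hY hq
    refine h4.trans ?_
    have h5 : (Y:ℝ) = ((Y:ℝ) ^ (ν / 2)) ^ D := by
      rw [← Real.rpow_mul hYpos.le, hD]
      have : ν / 2 * (2 / ν) = 1 := by field_simp
      rw [this, Real.rpow_one]
    have hD0 : 0 ≤ D := by
      rw [hD]
      positivity
    calc (Y:ℝ) = ((Y:ℝ) ^ (ν / 2)) ^ D := h5
      _ ≤ _ := Real.rpow_le_rpow (by positivity) hN2 hD0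
  · intro n hn1 hn
    have hnq : n * q ≤ ⌊(Y:ℝ) ^ ν⌋₊ := by
      have h5 : n * T ≤ ⌊(Y:ℝ) ^ ν⌋₊ := (Nat.le_div_iff_mul_le (by omega)).1 hn
      calc n * q ≤ n * T := by gcongr
        _ ≤ _ := h5
    have h6 := hMA (n * q) (Nat.mul_pos hn1 hq) hnq
    have h7 : ((n:ℝ) * (β * q)) = ((n * q : ℕ):ℝ) * β := by
      push_cast
      ring
    rw [h7]
    exact h6
  · rw [hη]
    by_cases hcase : 16 * (T:ℝ) ^ 2 * y4 ^ 2 ≤ (X0f Y q i : ℝ)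
    · left
      have : 16 * (T:ℝ) ^ 2 / y4⁻¹ ^ 2 = 16 * (T:ℝ) ^ 2 * y4 ^ 2 := by
        field_simp
      rw [this]
      exact hcase
    · right
      push Not at hcase
      have hd : 0 < 2 * q * 2 ^ i := by positivity
      have hlt : Y < (2 * q * 2 ^ i) * (Y / (2 * q * 2 ^ i) + 1) := Nat.lt_mul_div_succ Y hd
      have hX : Y / (2 * q * 2 ^ i) ≤ X0f Y q i := le_max_right _ _
      have hlt2 : Y < (2 * q * 2 ^ i) * (X0f Y q i + 1) :=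
        lt_of_lt_of_le hlt (Nat.mul_le_mul_left _ (by omega))
      have hlt3 : (Y:ℝ) < (2 * q * ((2 ^ i : ℕ):ℝ)) * ((X0f Y q i : ℝ) + 1) := by
        exact_mod_cast hlt2
      have hqT' : (q:ℝ) ≤ T := by exact_mod_cast hqT
      have hU0 : (0:ℝ) < ((2 ^ i : ℕ):ℝ) := by positivity
      have hT2y : 1 ≤ (T:ℝ) ^ 2 * y4 ^ 2 := by
        have h1 : 1 ≤ (T:ℝ) ^ 2 := one_le_pow₀ hT1
        have h2 : 1 ≤ y4 ^ 2 := one_le_pow₀ hy41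
        nlinarith
      have hX1 : (X0f Y q i : ℝ) + 1 ≤ 17 * ((T:ℝ) ^ 2 * y4 ^ 2) := by nlinarith
      have h8 : y4 ^ 4 < 34 * (T:ℝ) ^ 3 * ((2 ^ i : ℕ):ℝ) * y4 ^ 2 := by
        rw [hy4]
        calc (Y:ℝ) < (2 * q * ((2 ^ i : ℕ):ℝ)) * ((X0f Y q i : ℝ) + 1) := hlt3
          _ ≤ (2 * T * ((2 ^ i : ℕ):ℝ)) * (17 * ((T:ℝ) ^ 2 * y4 ^ 2)) := by gcongr
          _ = 34 * (T:ℝ) ^ 3 * ((2 ^ i : ℕ):ℝ) * y4 ^ 2 := by ring
      have hy2 : 0 < y4 ^ 2 := by positivity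
      have h9 : y4 ^ 2 < 34 * (T:ℝ) ^ 3 * ((2 ^ i : ℕ):ℝ) := by
        have h10 : y4 ^ 2 * y4 ^ 2 < (34 * (T:ℝ) ^ 3 * ((2 ^ i : ℕ):ℝ)) * y4 ^ 2 := by
          calc y4 ^ 2 * y4 ^ 2 = y4 ^ 4 := by ring
            _ < _ := h8
        exact lt_of_mul_lt_mul_right h10 hy2.le
      have h11 : 68 * (T:ℝ) ^ 4 * y4 ≤ y4 ^ 2 := by
        calc 68 * (T:ℝ) ^ 4 * y4 ≤ y4 * y4 := by gcongr
          _ = y4 ^ 2 := by ring
      have hT3 : (0:ℝ) < (T:ℝ) ^ 3 := by positivity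
      have h12 : 2 * (T:ℝ) * y4 ≤ ((2 ^ i : ℕ):ℝ) := by
        have h13 : 34 * (T:ℝ) ^ 3 * (2 * (T:ℝ) * y4) ≤ 34 * (T:ℝ) ^ 3 * ((2 ^ i : ℕ):ℝ) := by
          calc 34 * (T:ℝ) ^ 3 * (2 * (T:ℝ) * y4) = 68 * (T:ℝ) ^ 4 * y4 := by ring
            _ ≤ _ := h11.trans h9.le
        exact le_of_mul_le_mul_left h13 (by positivity)
      have hsq : Real.sqrt T ≤ T := by
        rw [Real.sqrt_le_left (by linarith)]
        nlinarith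
      have : 2 * Real.sqrt T / y4⁻¹ = 2 * Real.sqrt T * y4 := by
        field_simp
      rw [this]
      refine le_trans ?_ h12
      gcongr


/-- The cofactors have size at most `7 X0`. -/
lemma bfam_card_le (P Q0 T S2 j2 Y Y' q r i : ℕ) :
    ((bfam P Q0 T S2 j2 Y Y' q r i).card : ℝ) ≤ 7 * ((X0f Y q i : ℕ):ℝ) := by
  have hsub : bfam P Q0 T S2 j2 Y Y' q r i ⊆ Ico (X0f Y q i) (8 * X0f Y q i) := by
    intro x hx
    obtain ⟨_, h1, h2, _⟩ := Finset.mem_filter.1 hx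
    exact Finset.mem_Ico.2 ⟨h1, h2⟩
  have h := Finset.card_le_card hsub
  rw [Nat.card_Ico] at h
  have h2 : 8 * X0f Y q i - X0f Y q i = 7 * X0f Y q i := by omega
  rw [h2] at h
  exact_mod_cast h

/-- The cofactors for many primes are smooth. -/
lemma bfam_card_smooth (P Q0 T S2 j2 Y Y' q r i : ℕ) (hr : 2 ≤ r) (hz : 2 ≤ zf T Y' r) (η : ℝ) (hη : 0 < η)
    (hη1 : η ≤ 1 / 4) :
    ((bfam P Q0 T S2 j2 Y Y' q r i).card : ℝ) ≤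
      ((8 * X0f Y q i : ℕ):ℝ) ^ (1 - η) * Real.exp (3 * ((zf T Y' r : ℕ):ℝ) ^ η * Mer (zf T Y' r)) := by
  have hsub : bfam P Q0 T S2 j2 Y Y' q r i ⊆ (Icc 1 (8 * X0f Y q i)).filter (fun n => bigP n < zf T Y' r) := by
    intro x hx
    obtain ⟨h0, h1, h2, h3⟩ := Finset.mem_filter.1 hx
    have h4 := (mem_Bset.1 h0).1.1
    exact Finset.mem_filter.2 ⟨Finset.mem_Icc.2 ⟨h4, h2.le⟩, h3⟩
  have h := Finset.card_le_card hsub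
  have h5 := smooth_count (8 * X0f Y q i) (zf T Y' r) (by have := X0f_ge_one Y q i; omega) hz η hη hη1
  refine le_trans ?_ h5
  exact_mod_cast h

/-- Lower bound for the cofactor level, many primes. -/
lemma X_ge (Y T q i u : ℕ) (y4 : ℝ) (hq : 1 ≤ q) (hqT : q ≤ T) (hT : 2 ≤ T) (hy41 : 1 ≤ y4) (hy4 : y4 ^ 4 = Y)
    (hN3 : 68 * (T:ℝ) ^ 4 ≤ y4) (hU1 : 2 ^ i ≤ u) (hu : u < T ^ 2) :
    y4 ^ 2 ≤ ((8 * X0f Y q i : ℕ):ℝ) := by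
  have hT1 : (1:ℝ) ≤ T := by
    have : (2:ℝ) ≤ T := by exact_mod_cast hT
    linarith
  have hd : 0 < 2 * q * 2 ^ i := by positivity
  have hlt : Y < (2 * q * 2 ^ i) * (Y / (2 * q * 2 ^ i) + 1) := Nat.lt_mul_div_succ Y hd
  have hX : Y / (2 * q * 2 ^ i) ≤ X0f Y q i := le_max_right _ _
  have hlt2 : Y < (2 * q * 2 ^ i) * (X0f Y q i + 1) :=
    lt_of_lt_of_le hlt (Nat.mul_le_mul_left _ (by omega))
  have hdle : 2 * q * 2 ^ i ≤ 2 * T * T ^ 2 := by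
    have : 2 ^ i ≤ T ^ 2 := hU1.trans hu.le
    gcongr
  have hlt3 : (Y:ℝ) < (2 * (T:ℝ) * (T:ℝ) ^ 2) * ((X0f Y q i : ℝ) + 1) := by
    have h1 : Y < (2 * T * T ^ 2) * (X0f Y q i + 1) :=
      lt_of_lt_of_le hlt2 (Nat.mul_le_mul_right _ hdle)
    exact_mod_cast h1
  have hT3 : (T:ℝ) ^ 3 ≤ y4 / 68 := by
    have h1 : (T:ℝ) ^ 3 ≤ (T:ℝ) ^ 4 := pow_le_pow_right₀ hT1 (by norm_num)
    rw [le_div_iff₀ (by norm_num)]
    linarith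
  have hX0 : (1:ℝ) ≤ (X0f Y q i : ℝ) := by exact_mod_cast X0f_ge_one Y q i
  have hy4pos : 0 < y4 := by linarith
  have h5 : y4 ^ 4 < 2 * (y4 / 68) * ((X0f Y q i : ℝ) + 1) := by
    rw [hy4]
    calc (Y:ℝ) < (2 * (T:ℝ) * (T:ℝ) ^ 2) * ((X0f Y q i : ℝ) + 1) := hlt3
      _ = 2 * (T:ℝ) ^ 3 * ((X0f Y q i : ℝ) + 1) := by ring
      _ ≤ 2 * (y4 / 68) * ((X0f Y q i : ℝ) + 1) := by gcongr
  have h6 : 34 * y4 ^ 3 < (X0f Y q i : ℝ) + 1 := by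
    have h7 : y4 * (34 * y4 ^ 3) < y4 * ((X0f Y q i : ℝ) + 1) := by
      calc y4 * (34 * y4 ^ 3) = 34 * y4 ^ 4 := by ring
        _ < 34 * (2 * (y4 / 68) * ((X0f Y q i : ℝ) + 1)) := by gcongr
        _ = y4 * ((X0f Y q i : ℝ) + 1) := by ring
    exact lt_of_mul_lt_mul_left h7 hy4pos.le
  have h8 : y4 ^ 2 ≤ y4 ^ 3 := pow_le_pow_right₀ hy41 (by norm_num)
  have h9 : 0 ≤ y4 ^ 3 := by positivity
  push_cast
  linarith

/-- The diagonal term of a family. -/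
lemma D_part (P Q0 T S2 j2 Y Y' q r i u0 : ℕ) (lam G y4 ε L ν₀ : ℝ) (hlam1 : 1 ≤ lam) (hQ0 : lam ^ 16 ≤ Q0)
    (hq : 1 ≤ q) (hqT : q ≤ T) (hT : 2 ≤ T) (hy41 : 1 ≤ y4) (hy4 : y4 ^ 4 = Y) (hL : L = Real.log Y)
    (hN3 : 68 * (T:ℝ) ^ 4 ≤ y4) (hu0 : u0 ∈ Ubf Q0 T Y' q r i) (hqU : q * 2 ^ i < 2 * Y) (hG1 : 1 ≤ G)
    (hL0 : 0 ≤ L)
    (hN4 : ∀ r : ℕ, (r:ℝ) ≤ 1 + L ^ (ε / 4) → (lam ^ 2) ^ r ≤ G)
    (hN3' : ∀ (s X : ℕ), L ^ (ε / 4) < s → lam ^ (16 * s) ≤ T → L / 2 ≤ Real.log X → 1 ≤ X →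
      ∃ η : ℝ, 0 < η ∧ η ≤ 1 / 4 ∧ 2 ≤ ⌈(T:ℝ) ^ ((1:ℝ) / (s:ℝ))⌉₊ ∧
        (lam ^ 2) ^ (s + 1) * ((X:ℝ) ^ (1 - η) *
          Real.exp (3 * ((⌈(T:ℝ) ^ ((1:ℝ) / (s:ℝ))⌉₊ : ℕ):ℝ) ^ η * Mer ⌈(T:ℝ) ^ ((1:ℝ) / (s:ℝ))⌉₊)) ≤ X) :
    (lam ^ 2) ^ r * (((bfam P Q0 T S2 j2 Y Y' q r i).card : ℝ) * ((2 ^ i : ℕ):ℝ))
      ≤ 16 * ((Y:ℝ) / q) * G := by
  have hq0 : (0:ℝ) < q := by exact_mod_cast hq
  have hXU := X0U_le Y q i hq hqU
  have hXU' : ((X0f Y q i : ℕ):ℝ) * ((2 ^ i : ℕ):ℝ) ≤ 2 * ((Y:ℝ) / q) := by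
    rw [mul_div_assoc] at hXU
    exact hXU
  have hYq : 0 ≤ (Y:ℝ) / q := by positivity
  have hU0 : (0:ℝ) ≤ ((2 ^ i : ℕ):ℝ) := by positivity
  by_cases hcase : (r:ℝ) ≤ 1 + L ^ (ε / 4)
  · have h1 := hN4 r hcase
    have h2 : ((bfam P Q0 T S2 j2 Y Y' q r i).card : ℝ) * ((2 ^ i : ℕ):ℝ) ≤ 14 * ((Y:ℝ) / q) := by
      calc ((bfam P Q0 T S2 j2 Y Y' q r i).card : ℝ) * ((2 ^ i : ℕ):ℝ)
          ≤ (7 * ((X0f Y q i : ℕ):ℝ)) * ((2 ^ i : ℕ):ℝ) := by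
            gcongr
            exact bfam_card_le P Q0 T S2 j2 Y Y' q r i
        _ = 7 * (((X0f Y q i : ℕ):ℝ) * ((2 ^ i : ℕ):ℝ)) := by ring
        _ ≤ 7 * (2 * ((Y:ℝ) / q)) := by gcongr
        _ = 14 * ((Y:ℝ) / q) := by ring
    calc (lam ^ 2) ^ r * (((bfam P Q0 T S2 j2 Y Y' q r i).card : ℝ) * ((2 ^ i : ℕ):ℝ))
        ≤ G * (14 * ((Y:ℝ) / q)) := by
          gcongr
      _ ≤ 16 * ((Y:ℝ) / q) * G := by nlinarith [mul_nonneg hYq (by linarith : (0:ℝ) ≤ G)]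
  · push Not at hcase
    have hLpow : 0 ≤ L ^ (ε / 4) := by positivity
    have hr2 : 2 ≤ r := by
      have : (1:ℝ) < r := by linarith
      have : 1 < r := by exact_mod_cast this
      omega
    obtain ⟨hs', hr1⟩ : ∃ s, r = s + 1 := ⟨r - 1, by omega⟩
    subst hr1
    obtain ⟨h1, h2, h3⟩ := Uset_ge_two (Finset.mem_filter.1 hu0).1 hr2 hT
    simp only [Nat.add_sub_cancel] at h1
    have hs : L ^ (ε / 4) < (hs':ℝ) := by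
      push_cast at hcase
      linarith
    have hpow : lam ^ (16 * hs') ≤ T := by
      calc lam ^ (16 * hs') = (lam ^ 16) ^ hs' := by rw [pow_mul]
        _ ≤ (Q0:ℝ) ^ hs' := by gcongr
        _ ≤ (u0.minFac:ℝ) ^ hs' := by
            have : (Q0:ℝ) ≤ u0.minFac := by exact_mod_cast h2
            gcongr
        _ ≤ (T:ℝ) := by exact_mod_cast h1.le
    obtain ⟨hU1, hU2⟩ := Ubf_bounds hu0
    have hX := X_ge Y T q i u0 y4 hq hqT hT hy41 hy4 hN3 hU1 h3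
    have hy4pos : 0 < y4 := by linarith
    have hlogX : L / 2 ≤ Real.log ((8 * X0f Y q i : ℕ):ℝ) := by
      have h4 : Real.log (y4 ^ 2) ≤ Real.log ((8 * X0f Y q i : ℕ):ℝ) := Real.log_le_log (by positivity) hX
      have h5 : L = 4 * Real.log y4 := by
        rw [hL, ← hy4, Real.log_pow]
        norm_num
      rw [Real.log_pow] at h4
      push_cast at h4 ⊢
      rw [h5]
      linarith
    have hX1 : 1 ≤ 8 * X0f Y q i := by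
      have := X0f_ge_one Y q i
      omega
    obtain ⟨η, hη, hη1, hz, hmain⟩ := hN3' hs' _ hs hpow hlogX hX1
    have hr2' : ¬ (hs' + 1 ≤ 1) := by omega
    have hzf : zf T Y' (hs' + 1) = ⌈(T:ℝ) ^ ((1:ℝ) / (hs':ℝ))⌉₊ := by
      unfold zf
      rw [if_neg hr2']
      simp
    have hcard := bfam_card_smooth P Q0 T S2 j2 Y Y' q (hs' + 1) i hr2 (by rw [hzf]; exact hz) η hη hη1
    rw [hzf] at hcard
    have hpw0 : 0 ≤ (lam ^ 2) ^ (hs' + 1) := by positivity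
    have h6 : (lam ^ 2) ^ (hs' + 1) * ((bfam P Q0 T S2 j2 Y Y' q (hs' + 1) i).card : ℝ) ≤ ((8 * X0f Y q i : ℕ):ℝ) :=
      (mul_le_mul_of_nonneg_left hcard hpw0).trans hmain
    calc (lam ^ 2) ^ (hs' + 1) * (((bfam P Q0 T S2 j2 Y Y' q (hs' + 1) i).card : ℝ) * ((2 ^ i : ℕ):ℝ))
        = ((lam ^ 2) ^ (hs' + 1) * ((bfam P Q0 T S2 j2 Y Y' q (hs' + 1) i).card : ℝ)) * ((2 ^ i : ℕ):ℝ) := by ring
      _ ≤ ((8 * X0f Y q i : ℕ):ℝ) * ((2 ^ i : ℕ):ℝ) := by gcongr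
      _ = 8 * (((X0f Y q i : ℕ):ℝ) * ((2 ^ i : ℕ):ℝ)) := by push_cast; ring
      _ ≤ 8 * (2 * ((Y:ℝ) / q)) := by gcongr
      _ = 16 * ((Y:ℝ) / q) * 1 := by ring
      _ ≤ 16 * ((Y:ℝ) / q) * G := by gcongr

lemma fam_alg (pw pw' Lm2 Dd Of Yq G : ℝ) (hpw : pw ≤ pw') (hpw0 : 0 ≤ pw) (hLm : 0 ≤ Lm2) (hD0 : 0 ≤ Dd)
    (hO0 : 0 ≤ Of) (hD : pw' * Dd ≤ 16 * Yq * G) (hO : pw' * Of ≤ Yq) (hG1 : 1 ≤ G) (hYq : 0 ≤ Yq) :
    pw * (Lm2 * (Dd + Of)) ≤ Lm2 * (Yq * (17 * G)) := by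
  have h1 : pw * (Dd + Of) ≤ pw' * (Dd + Of) := mul_le_mul_of_nonneg_right hpw (by positivity)
  have h2 : pw' * (Dd + Of) ≤ Yq * (17 * G) := by
    have : Yq * 1 ≤ Yq * G := by gcongr
    nlinarith
  calc pw * (Lm2 * (Dd + Of)) = Lm2 * (pw * (Dd + Of)) := by ring
    _ ≤ Lm2 * (Yq * (17 * G)) := mul_le_mul_of_nonneg_left (h1.trans h2) hLm

/-- The bound for a family. -/
theorem fam_bound {D C ν ε ν₀ : ℝ} (hν : 0 < ν) (hD : D = 2 / ν) (hC0 : 0 < C)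
    (hC : ∀ (θ : ℝ) (N0 X0 U : ℕ) (η R : ℝ),
      1 ≤ X0 → 1 ≤ U → 0 < η → η ≤ 1 → 1 ≤ R → R ^ 3 ≤ N0 → (X0:ℝ) ≤ (N0:ℝ) ^ D →
      (∀ n : ℕ, 1 ≤ n → n ≤ N0 → η ≤ dn ((n:ℝ) * θ)) →
      (16 * R ^ 2 / η ^ 2 ≤ X0 ∨ 2 * Real.sqrt R / η ≤ U) →
      ∑ x ∈ Ico X0 (8 * X0), ∑ x' ∈ (Ico X0 (8 * X0)).filter (· ≠ x),
          (Nat.gcd x x' : ℝ) * hh θ U (max x x' - min x x')
        ≤ C * (X0:ℝ) ^ 2 * (U:ℝ) ^ 2 * (1 + Real.log (X0:ℝ)) * (1 / (U:ℝ) + 1 / R))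
    (k : ℕ) (hk : 1 ≤ k) (hM : 2 ≤ M) (lam : ℝ) (hkl : 50 * (k:ℝ) ≤ lam) (hlam1 : 1 ≤ lam)
    (P Q0 T S2 j2 Y Y' q r i Lm : ℕ) (β y4 t L G : ℝ) (hY : 1 ≤ Y) (hY' : Y' ≤ 2 * Y) (hT : 2 ≤ T)
    (hq : q ∈ Qset Q0 T) (hLm : Y' < 2 ^ (Lm + 1)) (hfits : ∀ a ∈ Ico 1 (Y' + 1), Fits B M a)
    (hQ0 : lam ^ 16 ≤ Q0) (ht1 : 1 ≤ t) (htT : t ^ 16 = T) (hS2 : (S2:ℝ) ≤ 2 * t) (hlj : lam ^ j2 ≤ t)
    (hy41 : 1 ≤ y4) (hy4 : y4 ^ 4 = Y) (hL : L = Real.log Y) (hL0 : 0 ≤ L)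
    (hMA : MA β ⌊(Y:ℝ) ^ ν⌋₊ ((Y:ℝ) ^ (-(1 / 4 : ℝ))))
    (hN1 : (T:ℝ) ^ 4 ≤ (Y:ℝ) ^ ν) (hN2 : (Y:ℝ) ^ (ν / 2) ≤ ((⌊(Y:ℝ) ^ ν⌋₊ / T : ℕ):ℝ))
    (hN3 : 68 * (T:ℝ) ^ 4 ≤ y4) (hG1 : 1 ≤ G)
    (hoff : 12 * lam ^ 2 * Real.sqrt (3 * C * (1 + L)) ≤ t ^ 4)
    (hN4 : ∀ r : ℕ, (r:ℝ) ≤ 1 + L ^ (ε / 4) → (lam ^ 2) ^ r ≤ G)
    (hN3' : ∀ (s X : ℕ), L ^ (ε / 4) < s → lam ^ (16 * s) ≤ T → L / 2 ≤ Real.log X → 1 ≤ X →
      ∃ η : ℝ, 0 < η ∧ η ≤ 1 / 4 ∧ 2 ≤ ⌈(T:ℝ) ^ ((1:ℝ) / (s:ℝ))⌉₊ ∧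
        (lam ^ 2) ^ (s + 1) * ((X:ℝ) ^ (1 - η) *
          Real.exp (3 * ((⌈(T:ℝ) ^ ((1:ℝ) / (s:ℝ))⌉₊ : ℕ):ℝ) ^ η * Mer ⌈(T:ℝ) ^ ((1:ℝ) / (s:ℝ))⌉₊)) ≤ X) :
    mm k (famF (B := B) (M := M) P Q0 T S2 j2 Y Y' β q r i) ^ 2
      ≤ ((Lm:ℝ) + 1) ^ 2 * (((Y:ℝ) / q) * (17 * G)) := by
  obtain ⟨⟨hq1, hqT⟩, _⟩ := mem_Qset.1 hq
  have hq0 : (0:ℝ) < q := by exact_mod_cast hq1
  have hYq : 0 ≤ (Y:ℝ) / q := by positivity
  have hnn : 0 ≤ ((Lm:ℝ) + 1) ^ 2 * (((Y:ℝ) / q) * (17 * G)) := by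
    have : 0 ≤ G := by linarith
    positivity
  by_cases hE : Ubf Q0 T Y' q r i = ∅ ∨ 2 * Y ≤ q * 2 ^ i
  · have hzero : famF (B := B) (M := M) P Q0 T S2 j2 Y Y' β q r i = fun _ => 0 := by
      funext ω
      rcases hE with h | h
      · exact famF_zero' β h ω
      · exact famF_zero β hY' hq1 h ω
    rw [hzero, mm_zero_fun k hk]
    simpa using hnn
  · push Not at hE
    obtain ⟨hne, hqU⟩ := hE
    obtain ⟨u0, hu0⟩ := hne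
    have hu0U := mem_Uset.1 (Finset.mem_filter.1 hu0).1
    obtain ⟨hU1, hU2⟩ := Ubf_bounds hu0
    have hTu : T ≤ u0 := hu0U.2.2.2.2.2.1
    have hr1 : 1 ≤ r := Uset_r_pos (Finset.mem_filter.1 hu0).1 hT
    have hXU := X0U_le Y q i hq1 hqU
    have hXU' : ((X0f Y q i : ℕ):ℝ) * ((2 ^ i : ℕ):ℝ) ≤ 2 * ((Y:ℝ) / q) := by
      rw [mul_div_assoc] at hXU
      exact hXU
    have hPb := p1_use D C ν hν hD hC Y T q i β y4 hY hq1 hqT hT hy41 hy4 hMA hN1 hN2 hN3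
    have hmt := fam_mtype (B := B) (M := M) k hk hM lam hkl β P Q0 T S2 j2 Y Y' q r i Lm _ hq1 hT hY' hLm hfits hPb
    refine hmt.trans ?_
    -- power
    have hk1 : (1:ℝ) ≤ k := by exact_mod_cast hk
    have hk2 : 50 * (k:ℝ) ^ 2 ≤ lam ^ 2 := by
      have : (50 * (k:ℝ)) ^ 2 ≤ lam ^ 2 := by gcongr
      nlinarith
    have hpw : (50 * (k:ℝ) ^ 2) ^ r ≤ (lam ^ 2) ^ r := by gcongr
    have hpw0 : 0 ≤ (lam ^ 2) ^ r := by positivity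
    have hdiag := D_part P Q0 T S2 j2 Y Y' q r i u0 lam G y4 ε L ν₀ hlam1 hQ0 hq1 hqT hT hy41 hy4 hL hN3 hu0 hqU hG1 hL0 hN4 hN3'
    -- off diagonal
    have hpwle : (lam ^ 2) ^ r ≤ lam ^ 2 * t ^ 2 := by
      refine pow_lam_le lam t T Q0 r u0.minFac hlam1 ht1 htT hQ0 hr1 ?_
      intro h2
      obtain ⟨h3, h4, _⟩ := Uset_ge_two (Finset.mem_filter.1 hu0).1 h2 hT
      exact ⟨h3, h4⟩
    have hT2U : (T:ℝ) < 2 * ((2 ^ i : ℕ):ℝ) := by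
      have : T < 2 * 2 ^ i := lt_of_le_of_lt hTu hU2
      exact_mod_cast this
    have hTpos : (0:ℝ) < T := by
      have : (2:ℝ) ≤ T := by exact_mod_cast hT
      linarith
    have hU0 : (0:ℝ) < ((2 ^ i : ℕ):ℝ) := by positivity
    have hUU : 1 / ((2 ^ i : ℕ):ℝ) + 1 / (T:ℝ) ≤ 3 / (T:ℝ) := by
      have h5 : 1 / ((2 ^ i : ℕ):ℝ) ≤ 2 / (T:ℝ) := by
        rw [div_le_div_iff₀ hU0 hTpos]
        linarith
      have h6 : 3 / (T:ℝ) = 2 / (T:ℝ) + 1 / (T:ℝ) := by ring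
      rw [h6]
      linarith
    have hX0pos : (1:ℝ) ≤ ((X0f Y q i : ℕ):ℝ) := by exact_mod_cast X0f_ge_one Y q i
    have hlogX : Real.log ((X0f Y q i : ℕ):ℝ) ≤ L := by
      rw [hL]
      exact Real.log_le_log (by linarith) (by exact_mod_cast X0f_le Y q i hY hq1)
    have hlogX0 : 0 ≤ Real.log ((X0f Y q i : ℕ):ℝ) := Real.log_nonneg hX0pos
    have hoffT := off_real lam t C (1 + L) (((X0f Y q i : ℕ):ℝ) * ((2 ^ i : ℕ):ℝ)) ((Y:ℝ) / q) (T:ℝ)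
      (1 / ((2 ^ i : ℕ):ℝ) + 1 / (T:ℝ)) (1 + Real.log ((X0f Y q i : ℕ):ℝ))
      (C * ((X0f Y q i : ℕ):ℝ) ^ 2 * ((2 ^ i : ℕ):ℝ) ^ 2 * (1 + Real.log ((X0f Y q i : ℕ):ℝ)) *
          (1 / ((2 ^ i : ℕ):ℝ) + 1 / (T:ℝ))) (S2:ℝ) (lam ^ j2) hlam1 ht1 htT hC0.le (by linarith) (by positivity) hXU'
      (by linarith) (by linarith) (by positivity) hUU (by ring) hS2 (by positivity) hlj (by positivity) hoff
      ((lam ^ 2) ^ r) hpw0 hpwle hYq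
    have hLm0 : (0:ℝ) ≤ ((Lm:ℝ) + 1) ^ 2 := by positivity
    exact fam_alg _ _ _ _ _ _ _ hpw (by positivity) hLm0 (by positivity) (by positivity) hdiag hoffT hG1 hYq


/-- Final numerics. -/
lemma ev_N1 (ε : ℝ) (hε : 0 < ε) : ∀ᶠ L : ℝ in atTop,
    (4 * L) ^ 6 * (17 * Real.exp (L ^ ε / 32)) * Real.exp (6 * (5 + 4 * Real.log (2 * L + 2))) ≤ Real.exp (L ^ ε / 8) := by
  have h1 : ∀ᶠ L : ℝ in atTop, Real.log L ≤ (1 / 640) * L ^ ε := by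
    have := (isLittleO_log_rpow_atTop (r := ε) hε).bound (c := 1 / 640) (by norm_num)
    filter_upwards [this, eventually_ge_atTop 1] with L hL hL1
    have h0 : 0 ≤ Real.log L := Real.log_nonneg hL1
    rwa [Real.norm_of_nonneg h0, Real.norm_of_nonneg (by positivity)] at hL
  have h2 : ∀ᶠ L : ℝ in atTop, (2000:ℝ) ≤ L ^ ε := (tendsto_rpow_atTop hε).eventually_ge_atTop _
  filter_upwards [h1, h2, eventually_ge_atTop 1] with L hL1 hL2 hL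
  have hLpos : 0 < L := by linarith
  have hlog4 : Real.log 4 ≤ 2 := by
    have := Real.log_le_sub_one_of_pos (show (0:ℝ) < 4 / 2 by norm_num)
    have h3 : Real.log 4 = Real.log (4 / 2) + Real.log 2 := by
      rw [← Real.log_mul (by norm_num) (by norm_num)]
      norm_num
    have h4 := Real.log_two_lt_d9
    linarith
  have h4L : Real.log (4 * L) = Real.log 4 + Real.log L := Real.log_mul (by norm_num) hLpos.ne'
  have h2L : Real.log (2 * L + 2) ≤ Real.log (4 * L) := Real.log_le_log (by positivity) (by linarith)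
  have h17 : (17:ℝ) ≤ Real.exp 3 := by
    have := Real.add_one_le_exp (3:ℝ)
    have h : Real.exp 3 = Real.exp 1 ^ 3 := by
      rw [← Real.exp_nat_mul]
      norm_num
    rw [h]
    have h5 : (2.7:ℝ) ≤ Real.exp 1 := by
      have := Real.exp_one_gt_d9
      linarith
    calc (17:ℝ) ≤ 2.7 ^ 3 := by norm_num
      _ ≤ _ := by gcongr
  have hpw : (4 * L) ^ 6 = Real.exp (6 * Real.log (4 * L)) := by
    have : (6:ℝ) = ((6:ℕ):ℝ) := by norm_num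
    rw [this, Real.exp_nat_mul, Real.exp_log (by positivity)]
  rw [hpw]
  calc Real.exp (6 * Real.log (4 * L)) * (17 * Real.exp (L ^ ε / 32)) * Real.exp (6 * (5 + 4 * Real.log (2 * L + 2)))
      ≤ Real.exp (6 * Real.log (4 * L)) * (Real.exp 3 * Real.exp (L ^ ε / 32)) * Real.exp (6 * (5 + 4 * Real.log (2 * L + 2))) := by
        gcongr
    _ = Real.exp (6 * Real.log (4 * L) + 3 + L ^ ε / 32 + 6 * (5 + 4 * Real.log (2 * L + 2))) := by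
        rw [Real.exp_add, Real.exp_add, Real.exp_add]
        ring
    _ ≤ Real.exp (L ^ ε / 8) := by
        apply Real.exp_le_exp.2
        nlinarith

lemma ev_off (C ν₀ : ℝ) (hC : 0 < C) (hν : 0 < ν₀) : ∀ᶠ L : ℝ in atTop,
    ∀ lam : ℝ, 1 ≤ lam → lam ≤ L → 12 * lam ^ 2 * Real.sqrt (3 * C * (1 + L)) ≤ Real.exp ((ν₀ / 4) * L) := by
  have h1 := (isLittleO_pow_exp_pos_mul_atTop 3 (show 0 < ν₀ / 4 by positivity)).bound
    (c := 1 / (12 * (6 * C + 1))) (by positivity)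
  filter_upwards [h1, eventually_ge_atTop 1] with L hL hL1 lam hlam1 hlam
  have hLpos : 0 < L := by linarith
  rw [Real.norm_of_nonneg (by positivity), Real.norm_of_nonneg (by positivity)] at hL
  have hsq : Real.sqrt (3 * C * (1 + L)) ≤ (6 * C + 1) * L := by
    rw [Real.sqrt_le_left (by positivity)]
    have h2 : 3 * C * (1 + L) ≤ 6 * C * L := by nlinarith
    have h3 : 6 * C * L ≤ ((6 * C + 1) * L) ^ 2 := by
      have h4 : (6 * C + 1) * L ≥ 1 := by nlinarith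
      nlinarith [mul_pos hC hLpos]
    linarith
  calc 12 * lam ^ 2 * Real.sqrt (3 * C * (1 + L)) ≤ 12 * L ^ 2 * ((6 * C + 1) * L) := by gcongr
    _ = (12 * (6 * C + 1)) * L ^ 3 := by ring
    _ ≤ (12 * (6 * C + 1)) * (1 / (12 * (6 * C + 1)) * Real.exp ((ν₀ / 4) * L)) := by gcongr
    _ = Real.exp ((ν₀ / 4) * L) := by field_simp


/-- The main set, abstract parameters. -/
theorem KLm_abstract {D C ν ε ν₀ : ℝ} (hν : 0 < ν) (hD : D = 2 / ν) (hC0 : 0 < C)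
    (hC : ∀ (θ : ℝ) (N0 X0 U : ℕ) (η R : ℝ),
      1 ≤ X0 → 1 ≤ U → 0 < η → η ≤ 1 → 1 ≤ R → R ^ 3 ≤ N0 → (X0:ℝ) ≤ (N0:ℝ) ^ D →
      (∀ n : ℕ, 1 ≤ n → n ≤ N0 → η ≤ dn ((n:ℝ) * θ)) →
      (16 * R ^ 2 / η ^ 2 ≤ X0 ∨ 2 * Real.sqrt R / η ≤ U) →
      ∑ x ∈ Ico X0 (8 * X0), ∑ x' ∈ (Ico X0 (8 * X0)).filter (· ≠ x),
          (Nat.gcd x x' : ℝ) * hh θ U (max x x' - min x x')
        ≤ C * (X0:ℝ) ^ 2 * (U:ℝ) ^ 2 * (1 + Real.log (X0:ℝ)) * (1 / (U:ℝ) + 1 / R))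
    (k : ℕ) (hk : 1 ≤ k) (hM : 2 ≤ M) (lam : ℝ) (hkl : 50 * (k:ℝ) ≤ lam) (hlam1 : 1 ≤ lam)
    (P Q0 T S2 j2 Y Y' : ℕ) (β y4 t L : ℝ) (hY : 1 ≤ Y) (hY' : Y' ≤ 2 * Y) (hT : 2 ≤ T) (hPQ : P ≤ Q0) (hQ4 : 4 ≤ Q0)
    (hfits : ∀ a ∈ Ico 1 (Y' + 1), Fits B M a)
    (hQ0 : lam ^ 16 ≤ Q0) (ht1 : 1 ≤ t) (htT : t ^ 16 = T) (hS2 : (S2:ℝ) ≤ 2 * t) (hlj : lam ^ j2 ≤ t)
    (hy41 : 1 ≤ y4) (hy4 : y4 ^ 4 = Y) (hL : L = Real.log Y) (hL1 : 2 ≤ L)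
    (hMA : MA β ⌊(Y:ℝ) ^ ν⌋₊ ((Y:ℝ) ^ (-(1 / 4 : ℝ))))
    (hN1 : (T:ℝ) ^ 4 ≤ (Y:ℝ) ^ ν) (hN2 : (Y:ℝ) ^ (ν / 2) ≤ ((⌊(Y:ℝ) ^ ν⌋₊ / T : ℕ):ℝ))
    (hN3 : 68 * (T:ℝ) ^ 4 ≤ y4)
    (hoff : 12 * lam ^ 2 * Real.sqrt (3 * C * (1 + L)) ≤ t ^ 4)
    (hN4 : ∀ r : ℕ, (r:ℝ) ≤ 1 + L ^ (ε / 4) → (lam ^ 2) ^ r ≤ Real.exp (L ^ ε / 32))
    (hN3' : ∀ (s X : ℕ), L ^ (ε / 4) < s → lam ^ (16 * s) ≤ T → L / 2 ≤ Real.log X → 1 ≤ X →
      ∃ η : ℝ, 0 < η ∧ η ≤ 1 / 4 ∧ 2 ≤ ⌈(T:ℝ) ^ ((1:ℝ) / (s:ℝ))⌉₊ ∧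
        (lam ^ 2) ^ (s + 1) * ((X:ℝ) ^ (1 - η) *
          Real.exp (3 * ((⌈(T:ℝ) ^ ((1:ℝ) / (s:ℝ))⌉₊ : ℕ):ℝ) ^ η * Mer ⌈(T:ℝ) ^ ((1:ℝ) / (s:ℝ))⌉₊)) ≤ X)
    (hmain : (4 * L) ^ 6 * (17 * Real.exp (L ^ ε / 32)) * Real.exp (6 * (5 + 4 * Real.log (2 * L + 2))) ≤ Real.exp (L ^ ε / 8)) :
    mm k (SS (B := B) (M := M) β (Mset P Q0 T T S2 j2 Y Y')) ^ 2 ≤ Y * Real.exp (L ^ ε / 8) := by
  have hLpos : 0 < L := by linarith
  have hYpos : (0:ℝ) < Y := by exact_mod_cast hY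
  set G := Real.exp (L ^ ε / 32) with hG
  have hG1 : 1 ≤ G := Real.one_le_exp (by positivity)
  set Lm := Nat.log 2 Y' with hLm'
  have hLm : Y' < 2 ^ (Lm + 1) := Nat.lt_pow_succ_log_self (by norm_num) Y'
  have hk1 : 1 ≤ k := hk
  have hSS : SS (B := B) (M := M) β (Mset P Q0 T T S2 j2 Y Y') = fun ω =>
      ∑ q ∈ Qset Q0 T, ∑ r ∈ range (Nat.log 2 Y' + 1), ∑ i ∈ range (Lm + 1),
        ff ω q * famF P Q0 T S2 j2 Y Y' β q r i ω := by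
    funext ω
    exact SS_eq_fam P Q0 T S2 j2 Y Y' Lm hPQ (by omega) hT hY le_rfl β ω
  set A := Real.sqrt (17 * G * Y) with hA
  have hA0 : 0 ≤ A := Real.sqrt_nonneg _
  have hLm0 : (0:ℝ) ≤ (Lm:ℝ) + 1 := by positivity
  -- family
  have hfam : ∀ q ∈ Qset Q0 T, ∀ r i : ℕ,
      mm k (fun ω : Om B M => ff ω q * famF P Q0 T S2 j2 Y Y' β q r i ω) ≤ ((Lm:ℝ) + 1) * A * (Real.sqrt q)⁻¹ := by
    intro q hq r i
    rw [mm_unimod k hk _ _ (fun ω => norm_ff ω q)]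
    have h1 := fam_bound (ν₀ := ν₀) hν hD hC0 hC k hk hM lam hkl hlam1 P Q0 T S2 j2 Y Y' q r i Lm β y4 t L G hY hY' hT hq hLm hfits
      hQ0 ht1 htT hS2 hlj hy41 hy4 hL (by linarith) hMA hN1 hN2 hN3 hG1 hoff hN4 hN3'
    have hq1 := (mem_Qset.1 hq).1.1
    have hq0 : (0:ℝ) < q := by exact_mod_cast hq1
    have hsq0 : 0 < Real.sqrt q := Real.sqrt_pos.2 hq0
    have h2 : (((Lm:ℝ) + 1) * A * (Real.sqrt q)⁻¹) ^ 2 = ((Lm:ℝ) + 1) ^ 2 * (((Y:ℝ) / q) * (17 * G)) := by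
      rw [mul_pow, mul_pow, inv_pow, Real.sq_sqrt hq0.le, hA, Real.sq_sqrt (by positivity)]
      field_simp
    rw [← h2] at h1
    exact (pow_le_pow_iff_left₀ (mm_nonneg _ _) (by positivity) (by norm_num)).1 h1
  have hsum : mm k (SS (B := B) (M := M) β (Mset P Q0 T T S2 j2 Y Y')) ≤
      ((Lm:ℝ) + 1) ^ 3 * A * Real.exp (3 * Mer (T + 1)) := by
    rw [hSS]
    calc mm k (fun ω : Om B M => ∑ q ∈ Qset Q0 T, ∑ r ∈ range (Nat.log 2 Y' + 1), ∑ i ∈ range (Lm + 1),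
            ff ω q * famF P Q0 T S2 j2 Y Y' β q r i ω)
        ≤ ∑ q ∈ Qset Q0 T, mm k (fun ω : Om B M => ∑ r ∈ range (Nat.log 2 Y' + 1), ∑ i ∈ range (Lm + 1),
            ff ω q * famF P Q0 T S2 j2 Y Y' β q r i ω) := mm_sum k hk _ _
      _ ≤ ∑ q ∈ Qset Q0 T, ∑ r ∈ range (Nat.log 2 Y' + 1), mm k (fun ω : Om B M => ∑ i ∈ range (Lm + 1),
            ff ω q * famF P Q0 T S2 j2 Y Y' β q r i ω) :=
          Finset.sum_le_sum fun q _ => mm_sum k hk _ _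
      _ ≤ ∑ q ∈ Qset Q0 T, ∑ r ∈ range (Nat.log 2 Y' + 1), ∑ i ∈ range (Lm + 1),
            mm k (fun ω : Om B M => ff ω q * famF P Q0 T S2 j2 Y Y' β q r i ω) :=
          Finset.sum_le_sum fun q _ => Finset.sum_le_sum fun r _ => mm_sum k hk _ _
      _ ≤ ∑ q ∈ Qset Q0 T, ∑ r ∈ range (Nat.log 2 Y' + 1), ∑ i ∈ range (Lm + 1),
            ((Lm:ℝ) + 1) * A * (Real.sqrt q)⁻¹ :=
          Finset.sum_le_sum fun q hq => Finset.sum_le_sum fun r _ => Finset.sum_le_sum fun i _ => hfam q hq r i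
      _ = ((Lm:ℝ) + 1) ^ 3 * A * ∑ q ∈ Qset Q0 T, (Real.sqrt q)⁻¹ := by
          simp only [Finset.sum_const, Finset.card_range, nsmul_eq_mul, ← hLm']
          rw [Finset.mul_sum]
          refine Finset.sum_congr rfl fun q _ => ?_
          push_cast
          ring
      _ ≤ ((Lm:ℝ) + 1) ^ 3 * A * Real.exp (3 * Mer (T + 1)) := by
          gcongr
          refine sum_squarefull Q0 (T + 1) hQ4 _ ?_
          intro a ha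
          obtain ⟨⟨ha1, haT⟩, haq⟩ := mem_Qset.1 ha
          refine ⟨by omega, haq, fun p hp => ?_⟩
          have := Nat.le_of_mem_primeFactors hp
          omega
  -- numerics
  have hLmle : (Lm:ℝ) + 1 ≤ 4 * L := by
    rcases Nat.eq_zero_or_pos Y' with h0 | h0
    · have : Lm = 0 := by
        rw [hLm', h0]
        simp
      rw [this]
      push_cast
      linarith
    · have h1 : 2 ^ Lm ≤ Y' := Nat.pow_log_le_self 2 (by omega)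
      have h2 : ((2:ℝ) ^ Lm) ≤ 2 * (Y:ℝ) := by
        have : 2 ^ Lm ≤ 2 * Y := h1.trans hY'
        exact_mod_cast this
      have h3 := Real.log_le_log (by positivity) h2
      rw [Real.log_pow, Real.log_mul (by norm_num) hYpos.ne', ← hL] at h3
      have hl2 : (1 / 2 : ℝ) ≤ Real.log 2 := by
        have := Real.log_two_gt_d9
        linarith
      have h4 : (Lm:ℝ) * (1 / 2) ≤ (Lm:ℝ) * Real.log 2 := by gcongr
      have hl3 := Real.log_two_lt_d9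
      linarith
  have hTY : T + 1 ≤ Y := by
    have hT1 : (1:ℝ) ≤ T := by
      have : (2:ℝ) ≤ T := by exact_mod_cast hT
      linarith
    have h1 : (T:ℝ) ≤ (T:ℝ) ^ 4 := le_self_pow₀ hT1 (by norm_num)
    have h2 : y4 ≤ y4 ^ 4 := le_self_pow₀ hy41 (by norm_num)
    have h3 : (T:ℝ) + 1 ≤ (Y:ℝ) := by
      rw [← hy4]
      have h4 : (0:ℝ) ≤ (T:ℝ) ^ 4 := by positivity
      linarith
    exact_mod_cast h3
  have hMerle : Mer (T + 1) ≤ 5 + 4 * Real.log (2 * L + 2) := by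
    have h1 := Mer_le (T + 1) (by omega)
    have h2 : Real.log ((T + 1 : ℕ):ℝ) ≤ L := by
      rw [hL]
      exact Real.log_le_log (by positivity) (by exact_mod_cast hTY)
    have h3 : 0 ≤ Real.log ((T + 1 : ℕ):ℝ) := Real.log_natCast_nonneg _
    have h4 : Real.log (2 * Real.log ((T + 1 : ℕ):ℝ) + 2) ≤ Real.log (2 * L + 2) :=
      Real.log_le_log (by linarith) (by linarith)
    linarith
  have hAsq : A ^ 2 = 17 * G * Y := Real.sq_sqrt (by positivity)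
  calc mm k (SS (B := B) (M := M) β (Mset P Q0 T T S2 j2 Y Y')) ^ 2
      ≤ (((Lm:ℝ) + 1) ^ 3 * A * Real.exp (3 * Mer (T + 1))) ^ 2 := by
        exact pow_le_pow_left₀ (mm_nonneg _ _) hsum 2
    _ = ((Lm:ℝ) + 1) ^ 6 * (17 * G) * Real.exp (6 * Mer (T + 1)) * Y := by
        rw [mul_pow, mul_pow, hAsq, ← Real.exp_nat_mul]
        have : ((2:ℕ):ℝ) * (3 * Mer (T + 1)) = 6 * Mer (T + 1) := by
          push_cast
          ring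
        rw [this]
        ring
    _ ≤ (4 * L) ^ 6 * (17 * G) * Real.exp (6 * (5 + 4 * Real.log (2 * L + 2))) * Y := by
        gcongr
    _ ≤ Real.exp (L ^ ε / 8) * Y := by gcongr
    _ = Y * Real.exp (L ^ ε / 8) := mul_comm _ _


lemma TY_N2 (Y T : ℕ) (ν ν₀ : ℝ) (hν : 0 < ν) (hν₀ : 0 < ν₀) (hν₀1 : ν₀ ≤ ν / 8)
    (hYpos : (0:ℝ) < Y) (hLpos : 0 < Real.log Y) (hT2 : 2 ≤ T) (hTleexp : (T:ℝ) ≤ 2 * Real.exp (ν₀ * Real.log Y))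
    (hA16 : (16:ℝ) ≤ Real.exp ((ν / 2) * Real.log Y)) (hA8 : (8:ℝ) ≤ Real.exp ((3 * ν / 8) * Real.log Y)) :
    (Y:ℝ) ^ (ν / 2) ≤ ((⌊(Y:ℝ) ^ ν⌋₊ / T : ℕ):ℝ) := by
  have hrp : ∀ x : ℝ, (Y:ℝ) ^ x = Real.exp (x * Real.log Y) := by
    intro x
    rw [Real.rpow_def_of_pos hYpos, mul_comm]
  have hTpos : (0:ℝ) < T := by
    have : (2:ℝ) ≤ T := by exact_mod_cast hT2
    linarith
  have hpy : (Y:ℝ) ^ ν = Real.exp (ν * Real.log Y) := hrp ν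
  obtain ⟨e1, he1⟩ : ∃ e, e = Real.exp ((ν / 8) * Real.log Y) := ⟨_, rfl⟩
  obtain ⟨e2, he2⟩ : ∃ e, e = Real.exp ((ν / 2) * Real.log Y) := ⟨_, rfl⟩
  obtain ⟨e3, he3⟩ : ∃ e, e = Real.exp ((3 * ν / 8) * Real.log Y) := ⟨_, rfl⟩
  have he10 : 0 < e1 := by rw [he1]; exact Real.exp_pos _
  have he20 : 0 < e2 := by rw [he2]; exact Real.exp_pos _
  have he30 : 0 < e3 := by rw [he3]; exact Real.exp_pos _
  have hp3 : (Y:ℝ) ^ ν = e3 * e2 * e1 := by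
    rw [hpy, he1, he2, he3, ← Real.exp_add, ← Real.exp_add]
    congr 1
    ring
  rw [← he2] at hA16
  rw [← he3] at hA8
  have hT' : (T:ℝ) ≤ 2 * e1 := by
    refine hTleexp.trans ?_
    rw [he1]
    gcongr
  have hflr := Nat.lt_floor_add_one ((Y:ℝ) ^ ν)
  have hlarge : e2 * e1 ≤ (Y:ℝ) ^ ν / 8 := by
    rw [hp3]
    have : 0 < e2 * e1 := by positivity
    nlinarith
  have h1e : 1 ≤ e1 := by
    rw [he1]
    exact Real.one_le_exp (by positivity)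
  have hfl : (Y:ℝ) ^ ν / 2 ≤ (⌊(Y:ℝ) ^ ν⌋₊ : ℝ) := by
    have : 16 * 1 ≤ e2 * e1 := by nlinarith
    linarith
  have hdiv : (⌊(Y:ℝ) ^ ν⌋₊ : ℝ) / T - 1 ≤ ((⌊(Y:ℝ) ^ ν⌋₊ / T : ℕ):ℝ) := by
    have h1 := Nat.lt_div_mul_add (a := ⌊(Y:ℝ) ^ ν⌋₊) (b := T) (by omega)
    have h2 : (⌊(Y:ℝ) ^ ν⌋₊ : ℝ) < ((⌊(Y:ℝ) ^ ν⌋₊ / T : ℕ):ℝ) * T + T := by exact_mod_cast h1
    rw [sub_le_iff_le_add, div_le_iff₀ hTpos]
    linarith
  refine le_trans ?_ hdiv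
  rw [hrp (ν / 2), ← he2]
  have hb : 2 * e2 ≤ (⌊(Y:ℝ) ^ ν⌋₊ : ℝ) / T := by
    rw [le_div_iff₀ hTpos]
    calc 2 * e2 * T ≤ 2 * e2 * (2 * e1) := by gcongr
      _ = 4 * (e2 * e1) := by ring
      _ ≤ 4 * ((Y:ℝ) ^ ν / 8) := by gcongr
      _ = (Y:ℝ) ^ ν / 2 := by ring
      _ ≤ _ := hfl
  linarith

lemma TY_facts (Y T : ℕ) (ν ν₀ : ℝ) (hν : 0 < ν) (hν₀ : 0 < ν₀) (hν₀1 : ν₀ ≤ ν / 8) (hν1 : ν ≤ 1 / 16)
    (hYpos : (0:ℝ) < Y) (hLpos : 0 < Real.log Y) (hT2 : 2 ≤ T) (hTleexp : (T:ℝ) ≤ 2 * Real.exp (ν₀ * Real.log Y))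
    (hA16 : (16:ℝ) ≤ Real.exp ((ν / 2) * Real.log Y)) (hA1088 : (1088:ℝ) ≤ Real.exp ((3 / 16) * Real.log Y))
    (hA8 : (8:ℝ) ≤ Real.exp ((3 * ν / 8) * Real.log Y)) :
    (T:ℝ) ^ 4 ≤ (Y:ℝ) ^ ν ∧ (Y:ℝ) ^ (ν / 2) ≤ ((⌊(Y:ℝ) ^ ν⌋₊ / T : ℕ):ℝ) ∧ 68 * (T:ℝ) ^ 4 ≤ (Y:ℝ) ^ ((1:ℝ) / 4) := by
  have hrp : ∀ x : ℝ, (Y:ℝ) ^ x = Real.exp (x * Real.log Y) := by
    intro x
    rw [Real.rpow_def_of_pos hYpos, mul_comm]
  have hT4 : (T:ℝ) ^ 4 ≤ 16 * Real.exp (4 * ν₀ * Real.log Y) := by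
    calc (T:ℝ) ^ 4 ≤ (2 * Real.exp (ν₀ * Real.log Y)) ^ 4 := by gcongr
      _ = 16 * Real.exp (4 * ν₀ * Real.log Y) := by
          rw [mul_pow, ← Real.exp_nat_mul]
          norm_num
          ring_nf
  refine ⟨?_, TY_N2 Y T ν ν₀ hν hν₀ hν₀1 hYpos hLpos hT2 hTleexp hA16 hA8, ?_⟩
  · rw [hrp]
    refine hT4.trans ?_
    have h1 : ν * Real.log Y = (ν / 2) * Real.log Y + (ν / 2) * Real.log Y := by ring
    rw [h1, Real.exp_add]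
    have h2 : Real.exp (4 * ν₀ * Real.log Y) ≤ Real.exp ((ν / 2) * Real.log Y) := by
      apply Real.exp_le_exp.2
      gcongr
      linarith
    have h3 := Real.exp_pos (4 * ν₀ * Real.log Y)
    exact mul_le_mul hA16 h2 h3.le (by positivity)
  · rw [hrp]
    have h2 : (1 / 4 : ℝ) * Real.log Y = (3 / 16) * Real.log Y + (1 / 16) * Real.log Y := by ring
    rw [h2, Real.exp_add]
    have h3 : Real.exp (4 * ν₀ * Real.log Y) ≤ Real.exp ((1 / 16) * Real.log Y) := by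
      apply Real.exp_le_exp.2
      gcongr
      linarith
    calc 68 * (T:ℝ) ^ 4 ≤ 68 * (16 * Real.exp (4 * ν₀ * Real.log Y)) := by gcongr
      _ = 1088 * Real.exp (4 * ν₀ * Real.log Y) := by ring
      _ ≤ _ := mul_le_mul hA1088 h3 (Real.exp_pos _).le (by positivity)

/-- The main set. Blueprint section 10.2. `ν₀ ≤ ν / 8`, `ν₀ ≤ ε / 100`. -/
theorem KL_m (ε ν ν₀ : ℝ) (hε : 0 < ε) (hε1 : ε < 1) (hν : 0 < ν) (hν1 : ν ≤ 1 / 16) (hν₀ : 0 < ν₀)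
    (hν₀1 : ν₀ ≤ ν / 8) (hν₀2 : ν₀ ≤ ε / 100) :
    ∃ Y0 : ℕ, ∀ Y Y' : ℕ, Y0 ≤ Y → Y' ≤ 2 * Y → ∀ β : ℝ,
      MA β ⌊(Y:ℝ) ^ ν⌋₊ ((Y:ℝ) ^ (-(1 / 4 : ℝ))) → ∀ k : ℕ, 1 ≤ k → (k:ℝ) ≤ (Real.log Y) ^ (1 - ε) →
      ∀ (B M : ℕ) [NeZero M], 2 ≤ M → (∀ a ∈ Ico 1 (Y' + 1), Fits B M a) →
        let p := par ε ν₀ Y
        mm k (SS (B := B) (M := M) β (Mset p.P p.Q0 p.T p.T p.S2 p.j2 Y Y')) ^ 2
          ≤ Y * Real.exp ((Real.log Y) ^ ε / 8) := by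
  have hν₀64 : ν₀ ≤ 1 / 64 := by linarith
  have hD1 : (1:ℝ) ≤ 2 / ν := by
    rw [le_div_iff₀ hν]
    linarith
  obtain ⟨C, hC0, hC⟩ := p1_bound (2 / ν) hD1
  obtain ⟨Y1, hY1⟩ := par_facts ε ν₀ hε hε1 hν₀ hν₀64
  -- the eventual facts in `L`
  have hEv : ∀ᶠ L : ℝ in atTop,
      (∀ (lam : ℝ) (s T X : ℕ), 1000 ≤ lam → lam ≤ L → L ^ (ε / 4) < s →
        lam ^ (16 * s) ≤ T → Real.log T ≤ (5 / 4) * ν₀ * L → L / 2 ≤ Real.log X → 1 ≤ X →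
        ∃ η : ℝ, 0 < η ∧ η ≤ 1 / 4 ∧ 2 ≤ ⌈(T:ℝ) ^ ((1:ℝ) / (s:ℝ))⌉₊ ∧
          (lam ^ 2) ^ (s + 1) * ((X:ℝ) ^ (1 - η) *
            Real.exp (3 * ((⌈(T:ℝ) ^ ((1:ℝ) / (s:ℝ))⌉₊ : ℕ):ℝ) ^ η * Mer ⌈(T:ℝ) ^ ((1:ℝ) / (s:ℝ))⌉₊)) ≤ X) ∧
      (∀ (lam : ℝ) (r : ℕ), 1 ≤ lam → lam ≤ L → (r:ℝ) ≤ 1 + L ^ (ε / 4) → (lam ^ 2) ^ r ≤ Real.exp (L ^ ε / 32)) ∧
      ((4 * L) ^ 6 * (17 * Real.exp (L ^ ε / 32)) * Real.exp (6 * (5 + 4 * Real.log (2 * L + 2))) ≤ Real.exp (L ^ ε / 8)) ∧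
      (∀ lam : ℝ, 1 ≤ lam → lam ≤ L → 12 * lam ^ 2 * Real.sqrt (3 * C * (1 + L)) ≤ Real.exp ((ν₀ / 4) * L)) ∧
      (16:ℝ) ≤ Real.exp ((ν / 2) * L) ∧ (1088:ℝ) ≤ Real.exp ((3 / 16) * L) ∧ (2:ℝ) ≤ Real.exp ((ν₀ / 4) * L) ∧
      (8:ℝ) ≤ Real.exp ((3 * ν / 8) * L) ∧ (2:ℝ) ≤ L := by
    have hexp : ∀ a : ℝ, 0 < a → ∀ c : ℝ, ∀ᶠ L : ℝ in atTop, c ≤ Real.exp (a * L) := by
      intro a ha c
      have h1 : Tendsto (fun L : ℝ => a * L) atTop atTop := tendsto_id.const_mul_atTop ha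
      exact (Real.tendsto_exp_atTop.comp h1).eventually_ge_atTop c
    filter_upwards [ev_N3 ε ν₀ hε hν₀ hν₀2 hν₀64, ev_N4 ε hε, ev_N1 ε hε, ev_off C ν₀ hC0 hν₀,
      hexp (ν / 2) (by positivity) 16, hexp (3 / 16) (by norm_num) 1088, hexp (ν₀ / 4) (by positivity) 2,
      hexp (3 * ν / 8) (by positivity) 8, eventually_ge_atTop 2] with L h1 h2 h3 h4 h5 h6 h7 h8 h9
    exact ⟨h1, h2, h3, h4, h5, h6, h7, h8, h9⟩
  obtain ⟨L0, hL0⟩ := eventually_atTop.1 hEv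
  refine ⟨max (max Y1 ⌈Real.exp L0⌉₊) 3, ?_⟩
  intro Y Y' hY hY' β hMA k hk hkL B M _ hM hfits
  intro p
  have hYY1 : Y1 ≤ Y := le_trans (le_trans (le_max_left _ _) (le_max_left _ _)) hY
  have hYexp : ⌈Real.exp L0⌉₊ ≤ Y := le_trans (le_trans (le_max_right _ _) (le_max_left _ _)) hY
  have hY3 : 3 ≤ Y := le_trans (le_max_right _ _) hY
  have hYpos : (0:ℝ) < Y := by
    have : (3:ℝ) ≤ Y := by exact_mod_cast hY3
    linarith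
  have hLge : L0 ≤ Real.log Y := by
    rw [Real.le_log_iff_exp_le hYpos]
    exact (Nat.le_ceil _).trans (by exact_mod_cast hYexp)
  obtain ⟨hA3, hA4, hA1, hAoff, hA16, hA1088, hA2, hA8, hAL⟩ := hL0 _ hLge
  obtain ⟨_, _, hPQ, h1000, hT2, hTle, hlamL, hlj, _⟩ := hY1 Y hYY1
  have hLdef : Real.log Y = Real.log Y := rfl
  have hL1' : 1 ≤ Real.log Y := by linarith
  have hrp : ∀ x : ℝ, (Y:ℝ) ^ x = Real.exp (x * Real.log Y) := by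
    intro x
    rw [Real.rpow_def_of_pos hYpos, mul_comm]
  have hlam1 : (1:ℝ) ≤ p.lam := by linarith
  -- `k` against `lam`
  have hkl : 50 * (k:ℝ) ≤ p.lam := by
    rw [p.hlam, p.hKb]
    have : (k:ℝ) ≤ (⌈(Real.log Y) ^ (1 - ε)⌉₊ : ℝ) := hkL.trans (Nat.le_ceil _)
    linarith
  have hQ0 : p.lam ^ 16 ≤ p.Q0 := by
    rw [p.hQ0]
    exact Nat.le_ceil _
  have hQ4 : 4 ≤ p.Q0 := by
    have h1 : (1000:ℝ) ≤ p.lam ^ 16 := by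
      calc (1000:ℝ) ≤ p.lam := h1000
        _ ≤ p.lam ^ 16 := le_self_pow₀ hlam1 (by norm_num)
    have h2 : (4:ℝ) ≤ p.Q0 := by linarith
    exact_mod_cast h2
  have hTpos : (0:ℝ) < p.T := by
    have : (2:ℝ) ≤ p.T := by exact_mod_cast hT2
    linarith
  have hT1 : (1:ℝ) ≤ p.T := by
    have : (2:ℝ) ≤ p.T := by exact_mod_cast hT2
    linarith
  -- t
  obtain ⟨t, ht⟩ : ∃ t : ℝ, t = (p.T:ℝ) ^ ((1:ℝ) / 16) := ⟨_, rfl⟩
  have ht1 : 1 ≤ t := by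
    rw [ht]
    exact Real.one_le_rpow hT1 (by norm_num)
  have htT : t ^ 16 = p.T := by
    rw [ht, ← Real.rpow_natCast, ← Real.rpow_mul hTpos.le]
    norm_num
  have hS2 : (p.S2:ℝ) ≤ 2 * t := by
    rw [p.hS2, ← ht]
    have := Nat.ceil_lt_add_one (a := t) (by linarith)
    linarith
  have hlj' : p.lam ^ p.j2 ≤ t := by
    rw [ht]
    exact hlj
  -- y4
  obtain ⟨y4, hy⟩ : ∃ y : ℝ, y = (Y:ℝ) ^ ((1:ℝ) / 4) := ⟨_, rfl⟩
  have hy41 : 1 ≤ y4 := by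
    rw [hy]
    have : (1:ℝ) ≤ Y := by
      have : (3:ℝ) ≤ Y := by exact_mod_cast hY3
      linarith
    exact Real.one_le_rpow this (by norm_num)
  have hy4 : y4 ^ 4 = Y := by
    rw [hy, ← Real.rpow_natCast, ← Real.rpow_mul hYpos.le]
    norm_num
  -- T against powers of Y
  have hTleexp : (p.T:ℝ) ≤ 2 * Real.exp (ν₀ * Real.log Y) := by
    rw [← hrp]
    exact hTle
  have hTgeexp : Real.exp (ν₀ * Real.log Y) ≤ (p.T:ℝ) := by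
    rw [← hrp, p.hT]
    exact Nat.le_ceil _
  have hLpos : 0 < Real.log Y := by linarith
  obtain ⟨hN1, hN2, hN3⟩ := TY_facts Y p.T ν ν₀ hν hν₀ hν₀1 hν1 hYpos hLpos hT2 hTleexp hA16 hA1088 hA8
  rw [← hy] at hN3
  have hoff' : 12 * p.lam ^ 2 * Real.sqrt (3 * C * (1 + Real.log Y)) ≤ t ^ 4 := by
    refine (hAoff p.lam hlam1 hlamL).trans ?_
    have h1 : t ^ 4 = (p.T:ℝ) ^ ((1:ℝ) / 4) := by
      rw [ht, ← Real.rpow_natCast, ← Real.rpow_mul hTpos.le]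
      norm_num
    rw [h1]
    have h2 : Real.exp ((ν₀ / 4) * Real.log Y) = (Real.exp (ν₀ * Real.log Y)) ^ ((1:ℝ) / 4) := by
      rw [← Real.exp_mul]
      congr 1
      ring
    rw [h2]
    exact Real.rpow_le_rpow (Real.exp_pos _).le hTgeexp (by norm_num)
  have hlogT : Real.log p.T ≤ (5 / 4) * ν₀ * Real.log Y := by
    rw [Real.log_le_iff_le_exp hTpos]
    refine hTleexp.trans ?_
    have h1 : (5 / 4) * ν₀ * Real.log Y = (ν₀ / 4) * Real.log Y + ν₀ * Real.log Y := by ring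
    rw [h1, Real.exp_add]
    gcongr
  have hN3' : ∀ (s X : ℕ), (Real.log Y) ^ (ε / 4) < s → p.lam ^ (16 * s) ≤ p.T → Real.log Y / 2 ≤ Real.log X → 1 ≤ X →
      ∃ η : ℝ, 0 < η ∧ η ≤ 1 / 4 ∧ 2 ≤ ⌈(p.T:ℝ) ^ ((1:ℝ) / (s:ℝ))⌉₊ ∧
        (p.lam ^ 2) ^ (s + 1) * ((X:ℝ) ^ (1 - η) *
          Real.exp (3 * ((⌈(p.T:ℝ) ^ ((1:ℝ) / (s:ℝ))⌉₊ : ℕ):ℝ) ^ η * Mer ⌈(p.T:ℝ) ^ ((1:ℝ) / (s:ℝ))⌉₊)) ≤ X :=
    fun s X h1 h2 h3 h4 => hA3 p.lam s p.T X h1000 hlamL h1 h2 hlogT h3 h4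
  have hN4 : ∀ r : ℕ, (r:ℝ) ≤ 1 + (Real.log Y) ^ (ε / 4) → (p.lam ^ 2) ^ r ≤ Real.exp ((Real.log Y) ^ ε / 32) :=
    fun r h => hA4 p.lam r hlam1 hlamL h
  exact KLm_abstract (ν₀ := ν₀) hν rfl hC0 hC k hk hM p.lam hkl hlam1 p.P p.Q0 p.T p.S2 p.j2 Y Y' β y4 t (Real.log Y)
    (by omega) hY' hT2 hPQ hQ4 hfits hQ0 ht1 htT hS2 hlj' hy41 hy4 rfl hAL hMA hN1 hN2 hN3 hoff' hN4 hN3' hA1

end

end Vale.Agent.Lib.P028K
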