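import Vale.Agent.Lib.P028K.KLsp
import Vale.Agent.Lib.P028K.KLm

/-! Part KL: assembly of the twisted moment bound. -/

open Finset

namespace Vale.Agent.Lib.P028K

open Vale.Agent.Lib.P028
open Vale.Agent.Lib.P028T

noncomputable section

/-- The twisted moment bound. -/
theorem KL (ε ν : ℝ) (hε : 0 < ε) (hε1 : ε < 1) (hν : 0 < ν) (hν1 : ν ≤ 1 / 16) :
    ∃ Y0 : ℕ, ∀ Y Y' : ℕ, Y0 ≤ Y → Y' ≤ 2 * Y → ∀ β : ℝ,
      MA β ⌊(Y:ℝ) ^ ν⌋₊ ((Y:ℝ) ^ (-(1 / 4 : ℝ))) → ∀ k : ℕ, 1 ≤ k → (k:ℝ) ≤ (Real.log Y) ^ (1 - ε) →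
      ∀ (B M : ℕ) [NeZero M], 2 ≤ M → (∀ a ∈ Ico 1 (Y' + 1), Fits B M a) →
        nr k (fun ω : Om B M => ‖SS β (Ico Y Y') ω‖ ^ 2) ≤ Y * Real.exp ((Real.log Y) ^ ε) := by
  set ν₀ : ℝ := min (ν / 8) (min (ε / 100) (1 / 64)) with hν₀def
  have hν₀ : 0 < ν₀ := by
    rw [hν₀def]
    refine lt_min (by positivity) (lt_min (by positivity) (by norm_num))
  have hν₀1 : ν₀ ≤ ν / 8 := min_le_left _ _
  have hν₀2 : ν₀ ≤ ε / 100 := (min_le_right _ _).trans (min_le_left _ _)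
  have hν₀3 : ν₀ ≤ 1 / 64 := (min_le_right _ _).trans (min_le_right _ _)
  obtain ⟨Y1, hY1⟩ := KL_sp ε ν₀ hε hε1 hν₀ hν₀3
  obtain ⟨Y2, hY2⟩ := KL_m ε ν ν₀ hε hε1 hν hν1 hν₀ hν₀1 hν₀2
  refine ⟨max 1 (max Y1 (max Y2 ⌈Real.exp ((2:ℝ) ^ (1 / ε))⌉₊)), ?_⟩
  intro Y Y' hY hY' β hMA k hk hkL B M _ hM hfit
  have hY0 : 1 ≤ Y := (le_max_left _ _).trans hY
  have hYa : Y1 ≤ Y := ((le_max_left _ _).trans (le_max_right _ _)).trans hY
  have hYb : Y2 ≤ Y :=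
    ((le_max_left _ _).trans ((le_max_right _ _).trans (le_max_right _ _))).trans hY
  have hYc : ⌈Real.exp ((2:ℝ) ^ (1 / ε))⌉₊ ≤ Y :=
    ((le_max_right _ _).trans ((le_max_right _ _).trans (le_max_right _ _))).trans hY
  have hfit' : ∀ a ∈ Ico Y Y', Fits B M a := by
    intro a ha
    apply hfit
    rw [Finset.mem_Ico] at ha ⊢
    omega
  have hsp := hY1 Y Y' hYa hY' β k hk hkL B M hfit'
  have hm := hY2 Y Y' hYb hY' β hMA k hk hkL B M hM hfit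
  simp only at hsp hm
  set p := par ε ν₀ Y with hp
  set MS := Mset p.P p.Q0 p.T p.T p.S2 p.j2 Y Y' with hMS
  have hsub : MS ⊆ Ico Y Y' := Finset.filter_subset _ _
  have hsplit : (SS (B := B) (M := M) β (Ico Y Y'))
      = fun ω => SS (B := B) (M := M) β (Ico Y Y' \ MS) ω + SS (B := B) (M := M) β MS ω := by
    funext ω
    unfold SS
    exact (Finset.sum_sdiff hsub).symm
  have hadd : mm k (SS (B := B) (M := M) β (Ico Y Y'))
      ≤ mm k (SS (B := B) (M := M) β (Ico Y Y' \ MS)) + mm k (SS (B := B) (M := M) β MS) := by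
    rw [hsplit]
    exact mm_add k hk _ _
  have hnr : nr k (fun ω : Om B M => ‖SS β (Ico Y Y') ω‖ ^ 2)
      = mm k (SS (B := B) (M := M) β (Ico Y Y')) ^ 2 := (mm_sq k hk _).symm
  rw [hnr]
  set a := mm k (SS (B := B) (M := M) β (Ico Y Y' \ MS)) with ha
  set b := mm k (SS (B := B) (M := M) β MS) with hb
  have ha0 : 0 ≤ a := mm_nonneg _ _
  have hb0 : 0 ≤ b := mm_nonneg _ _
  have hc0 : 0 ≤ mm k (SS (B := B) (M := M) β (Ico Y Y')) := mm_nonneg _ _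
  have hsq : mm k (SS (B := B) (M := M) β (Ico Y Y')) ^ 2 ≤ 2 * (a ^ 2 + b ^ 2) := by
    have h1 : mm k (SS (B := B) (M := M) β (Ico Y Y')) ^ 2 ≤ (a + b) ^ 2 :=
      pow_le_pow_left₀ hc0 hadd 2
    nlinarith [sq_nonneg (a - b)]
  set L := Real.log (Y:ℝ) with hL
  have hYR : (1:ℝ) ≤ (Y:ℝ) := by exact_mod_cast hY0
  have hexpY : Real.exp ((2:ℝ) ^ (1 / ε)) ≤ (Y:ℝ) := (Nat.le_ceil _).trans (by exact_mod_cast hYc)
  have hLge : (2:ℝ) ^ (1 / ε) ≤ L := by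
    rw [hL, Real.le_log_iff_exp_le (by linarith)]
    exact hexpY
  have hLε : (2:ℝ) ≤ L ^ ε := by
    have h0 : (0:ℝ) ≤ (2:ℝ) ^ (1 / ε) := by positivity
    have := Real.rpow_le_rpow h0 hLge hε.le
    rw [← Real.rpow_mul (by norm_num), one_div, inv_mul_cancel₀ hε.ne', Real.rpow_one] at this
    exact this
  have hE1 : (1:ℝ) ≤ Real.exp (L ^ ε / 8) := Real.one_le_exp (by positivity)
  have hE : 4 * Real.exp (L ^ ε / 8) ≤ Real.exp (L ^ ε) := by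
    have h4 : (4:ℝ) ≤ Real.exp (L ^ ε * (7 / 8)) := by
      have h2 : Real.exp (7 / 4 : ℝ) ≤ Real.exp (L ^ ε * (7 / 8)) :=
        Real.exp_le_exp.2 (by nlinarith)
      have h3 : (4:ℝ) ≤ Real.exp (7 / 4) := by
        have h5 : Real.exp (7 / 4 : ℝ) = Real.exp (7 / 16) ^ 4 := by
          rw [← Real.exp_nat_mul]; norm_num
        have h6 : (23 / 16 : ℝ) ≤ Real.exp (7 / 16) := by
          have := Real.add_one_le_exp (7 / 16 : ℝ)
          linarith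
        rw [h5]
        calc (4:ℝ) ≤ (23 / 16 : ℝ) ^ 4 := by norm_num
          _ ≤ Real.exp (7 / 16) ^ 4 := pow_le_pow_left₀ (by norm_num) h6 4
      linarith
    have : Real.exp (L ^ ε) = Real.exp (L ^ ε * (7 / 8)) * Real.exp (L ^ ε / 8) := by
      rw [← Real.exp_add]
      congr 1
      ring
    rw [this]
    exact mul_le_mul_of_nonneg_right h4 (Real.exp_pos _).le
  have hYpos : (0:ℝ) ≤ (Y:ℝ) := by linarith
  calc mm k (SS (B := B) (M := M) β (Ico Y Y')) ^ 2 ≤ 2 * (a ^ 2 + b ^ 2) := hsq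
    _ ≤ 2 * ((Y:ℝ) + (Y:ℝ) * Real.exp (L ^ ε / 8)) := by
        have : a ^ 2 + b ^ 2 ≤ (Y:ℝ) + (Y:ℝ) * Real.exp (L ^ ε / 8) := add_le_add hsp hm
        linarith
    _ ≤ (Y:ℝ) * (4 * Real.exp (L ^ ε / 8)) := by nlinarith
    _ ≤ (Y:ℝ) * Real.exp (L ^ ε) := mul_le_mul_of_nonneg_left hE hYpos

end

end Vale.Agent.Lib.P028K
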