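import Vale.Agent.Lib.P028K.EP

/-! Part Rarity: weighted counts of rough numbers. Blueprint section 7. -/

open Finset

namespace Vale.Agent.Lib.P028K

open Vale.Agent.Lib.P028
open Vale.Agent.Lib.P028T

noncomputable section

/-- Rough numbers in an interval. -/
def Rough (P X X' : ℕ) : Finset ℕ := (Ico X X').filter (fun a => a ≠ 0 ∧ ∀ p ∈ a.primeFactors, P ≤ p)

private lemma OO_eq (a : ℕ) : OO a = ∑ p ∈ a.primeFactors, a.factorization p := by
  unfold OO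
  rw [← ArithmeticFunction.cardFactors_apply, ArithmeticFunction.cardFactors_eq_sum_factorization]
  rfl

private lemma cast_eq_prod (a : ℕ) (ha : a ≠ 0) :
    (a:ℝ) = ∏ p ∈ a.primeFactors, (p:ℝ) ^ a.factorization p := by
  have h := Nat.prod_factorization_pow_eq_self ha
  rw [Nat.prod_factorization_eq_prod_primeFactors] at h
  conv_lhs => rw [← h]
  push_cast
  rfl

private lemma prod_lam (lam : ℝ) (a : ℕ) (ha : a ≠ 0) :
    ∏ p ∈ a.primeFactors, (lam / (p:ℝ)) ^ a.factorization p = lam ^ OO a / a := by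
  rw [OO_eq a, cast_eq_prod a ha, ← prod_pow_eq_pow_sum, ← prod_div_distrib]
  apply prod_congr rfl
  intro p _
  rw [div_pow]

private lemma wprod_rough (lam : ℝ) (P : ℕ) (c : ℕ → ℝ) (a : ℕ) (ha : a ≠ 0)
    (hr : ∀ p ∈ a.primeFactors, P ≤ p) :
    wprod (fun p => if P ≤ p then (lam / (p:ℝ)) * c p else 0) a
      = lam ^ OO a / a * ∏ p ∈ a.primeFactors, c p ^ a.factorization p := by
  unfold wprod
  rw [← prod_lam lam a ha, ← prod_mul_distrib]
  apply prod_congr rfl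
  intro p hp
  dsimp only
  rw [if_pos (hr p hp), mul_pow]

private lemma Rough_hA {P X X' : ℕ} (hX' : X' ≤ 2 * X) :
    ∀ a ∈ Rough P X X', a ≠ 0 ∧ ∀ p ∈ a.primeFactors, p < 2 * X := by
  intro a ha
  unfold Rough at ha
  rw [mem_filter, mem_Ico] at ha
  refine ⟨ha.2.1, ?_⟩
  intro p hp
  have h1 : p ≤ a := Nat.le_of_dvd (Nat.pos_of_ne_zero ha.2.1) (Nat.dvd_of_mem_primeFactors hp)
  omega

private lemma sum_below_le_Mer (z : ℕ) : ∑ p ∈ z.primesBelow, (1:ℝ) / p ≤ Mer z := by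
  unfold Mer Nat.primesBelow
  apply sum_le_sum_of_subset_of_nonneg
  · intro p hp
    rw [mem_filter, mem_range] at hp ⊢
    exact ⟨by omega, hp.2⟩
  · intro p _ _
    positivity

private lemma Mer_nonneg (z : ℕ) : 0 ≤ Mer z := by
  unfold Mer
  exact sum_nonneg fun p _ => by positivity

private lemma sum_wprod_le (lam : ℝ) (hlam : 0 ≤ lam) (P : ℕ) (hP : 100 * lam ≤ P) (c : ℕ → ℝ)
    (hc0 : ∀ p, 0 ≤ c p) (hc : ∀ p, c p ≤ 3) (X X' : ℕ) (hX' : X' ≤ 2 * X) :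
    ∑ a ∈ Rough P X X', wprod (fun p => if P ≤ p then (lam / (p:ℝ)) * c p else 0) a
      ≤ Real.exp (9 * lam * Mer (2 * X)) := by
  refine (EP_cm _ ?_ (2 * X) _ (Rough_hA hX')).trans ?_
  · intro p hp
    split_ifs with h
    · have hp0 : (0:ℝ) < p := by exact_mod_cast hp.pos
      have h1 : (P:ℝ) ≤ p := by exact_mod_cast h
      have h2 : lam / p ≤ 1 / 100 := by
        rw [div_le_iff₀ hp0]
        linarith
      refine ⟨mul_nonneg (div_nonneg hlam hp0.le) (hc0 p), ?_⟩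
      have h3 := mul_le_mul h2 (hc p) (hc0 p) (by norm_num)
      linarith
    · norm_num
  · apply Real.exp_le_exp.2
    have h1 : ∑ p ∈ (2 * X).primesBelow, (if P ≤ p then (lam / (p:ℝ)) * c p else 0)
        ≤ ∑ p ∈ (2 * X).primesBelow, 3 * lam * ((1:ℝ) / p) := by
      apply sum_le_sum
      intro p _
      have h0 : 0 ≤ lam / (p:ℝ) := by positivity
      split_ifs with h
      · have := mul_le_mul_of_nonneg_left (hc p) h0
        calc lam / (p:ℝ) * c p ≤ lam / (p:ℝ) * 3 := this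
          _ = 3 * lam * ((1:ℝ) / p) := by ring
      · have : 0 ≤ 3 * lam * ((1:ℝ) / p) := by positivity
        exact this
    rw [← mul_sum] at h1
    have h2 := sum_below_le_Mer (2 * X)
    have h3 := Mer_nonneg (2 * X)
    nlinarith [mul_le_mul_of_nonneg_left h2 (by positivity : (0:ℝ) ≤ 3 * lam),
      mul_nonneg hlam h3]

theorem bias (lam : ℝ) (hlam : 2 ≤ lam) (P X X' : ℕ) (hP : 100 * lam ≤ P) (hX : 1 ≤ X) (hX' : X' ≤ 2 * X) :
    ∑ a ∈ Rough P X X', lam ^ OO a ≤ 2 * (X:ℝ) * Real.exp (9 * lam * Mer (2 * X)) := by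
  have hl0 : 0 ≤ lam := by linarith
  have hX0 : (0:ℝ) ≤ 2 * (X:ℝ) := by positivity
  have h1 := sum_wprod_le lam hl0 P hP (fun _ => 1) (fun _ => by norm_num) (fun _ => by norm_num) X X' hX'
  refine le_trans ?_ (mul_le_mul_of_nonneg_left h1 hX0)
  rw [mul_sum]
  apply sum_le_sum
  intro a ha
  unfold Rough at ha
  rw [mem_filter, mem_Ico] at ha
  have ha0 : a ≠ 0 := ha.2.1
  rw [wprod_rough lam P (fun _ => 1) a ha0 ha.2.2]
  simp only [one_pow, prod_const_one, mul_one]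
  have ha1 : (0:ℝ) < a := by exact_mod_cast Nat.pos_of_ne_zero ha0
  have ha2 : (a:ℝ) ≤ 2 * X := by
    have : a ≤ 2 * X := by omega
    exact_mod_cast this
  have hp : 0 ≤ lam ^ OO a := by positivity
  rw [← mul_div_assoc, le_div_iff₀ ha1]
  nlinarith

/-! The multiplicative weight for the first rarity part. -/

private def G1 (lam : ℝ) (P Q0 p e : ℕ) : ℝ :=
  if P ≤ p then (lam / (p:ℝ)) ^ e * (if Q0 ≤ p ∧ 2 ≤ e then ((p:ℝ) ^ e) ^ ((1:ℝ) / 4) else 1) else 0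

private def g1 (lam : ℝ) (P Q0 n : ℕ) : ℝ := ∏ p ∈ n.primeFactors, G1 lam P Q0 p (n.factorization p)

private lemma G1_nonneg (lam : ℝ) (hlam : 0 ≤ lam) (P Q0 p e : ℕ) : 0 ≤ G1 lam P Q0 p e := by
  unfold G1
  split_ifs
  · positivity
  · positivity
  · norm_num

private lemma g1_one (lam : ℝ) (P Q0 : ℕ) : g1 lam P Q0 1 = 1 := by
  simp [g1]

private lemma g1_mul (lam : ℝ) (P Q0 : ℕ) {m n : ℕ} (h : Nat.Coprime m n) :
    g1 lam P Q0 (m * n) = g1 lam P Q0 m * g1 lam P Q0 n := by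
  unfold g1
  rw [Nat.Coprime.primeFactors_mul h, prod_union (Nat.Coprime.disjoint_primeFactors h)]
  congr 1
  · apply prod_congr rfl
    intro p hp
    rw [Nat.factorization_eq_of_coprime_left h (by simpa using hp)]
  · apply prod_congr rfl
    intro p hp
    rw [Nat.factorization_eq_of_coprime_right h (by simpa using hp)]

private lemma g1_prime_pow (lam : ℝ) (P Q0 : ℕ) {p : ℕ} (hp : p.Prime) {e : ℕ} (he : e ≠ 0) :
    g1 lam P Q0 (p ^ e) = G1 lam P Q0 p e := by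
  unfold g1
  rw [Nat.primeFactors_prime_pow he hp, prod_singleton, hp.factorization_pow]
  simp

private lemma G1_le (lam : ℝ) (hlam : 2 ≤ lam) (P Q0 p e : ℕ) (hP : 100 * lam ≤ P) (hQ : lam ^ 8 ≤ Q0)
    (hp : 1 ≤ p) (he : 1 ≤ e) :
    G1 lam P Q0 p e ≤ 4 * (if P ≤ p then lam / (p:ℝ) else 0) * (1 / 2 : ℝ) ^ e := by
  unfold G1
  have hp0 : (0:ℝ) < p := by exact_mod_cast hp
  by_cases hPp : P ≤ p
  swap
  · simp [hPp]
  simp only [hPp, if_true]
  have hPp' : (P:ℝ) ≤ p := by exact_mod_cast hPp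
  set x : ℝ := lam / p with hx
  have hl0 : 0 < lam := by linarith
  have hx0 : 0 ≤ x := by positivity
  have hx1 : x ≤ 1 / 2 := by
    rw [hx, div_le_iff₀ hp0]
    linarith
  have hpow : ∀ e : ℕ, x ^ (e + 1) ≤ x * (1 / 2 : ℝ) ^ e := by
    intro e
    rw [pow_succ, mul_comm]
    exact mul_le_mul_of_nonneg_left (pow_le_pow_left₀ hx0 hx1 e) hx0
  by_cases hc : Q0 ≤ p ∧ 2 ≤ e
  · simp only [hc, and_self, if_true]
    obtain ⟨hc1, hc2⟩ := hc
    obtain ⟨d, rfl⟩ : ∃ d, e = d + 2 := ⟨e - 2, by omega⟩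
    -- the fourth root of `p`
    set t : ℝ := (p:ℝ) ^ ((1:ℝ) / 4) with ht
    have ht0 : 0 < t := Real.rpow_pos_of_pos hp0 _
    have ht4 : t ^ 4 = p := by
      rw [ht, ← Real.rpow_natCast, ← Real.rpow_mul hp0.le]
      norm_num
    have hroot : ((p:ℝ) ^ (d + 2)) ^ ((1:ℝ) / 4) = t ^ (d + 2) := by
      rw [ht, ← Real.rpow_natCast, ← Real.rpow_natCast, ← Real.rpow_mul hp0.le, ← Real.rpow_mul hp0.le,
        mul_comm]
    rw [hroot]
    have hQp : (Q0:ℝ) ≤ p := by exact_mod_cast hc1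
    have hl8 : lam ^ 8 ≤ t ^ 4 := by
      rw [ht4]
      exact hQ.trans hQp
    have htl : lam ^ 2 ≤ t := by
      by_contra hlt
      push Not at hlt
      have : t ^ 4 < (lam ^ 2) ^ 4 := pow_lt_pow_left₀ hlt ht0.le (by norm_num)
      have h8 : (lam ^ 2) ^ 4 = lam ^ 8 := by ring
      linarith
    have hlt : lam ≤ t := by nlinarith
    have hlt4 : 4 ≤ t := by nlinarith
    set y : ℝ := lam / t ^ 3 with hy
    have hxy : x * t = y := by
      rw [hx, hy, ← ht4]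
      field_simp
    have hy0 : 0 ≤ y := by positivity
    have hy1 : y ≤ 1 / 2 := by
      rw [hy, div_le_iff₀ (by positivity)]
      have h1 : t ≤ t ^ 3 := by nlinarith [sq_nonneg t, mul_pos ht0 ht0]
      nlinarith [mul_pos ht0 ht0, pow_pos ht0 3]
    have hy2 : y ^ 2 ≤ x := by
      rw [hy, hx, ← ht4, div_pow, div_le_div_iff₀ (by positivity) (by positivity)]
      have h1 : lam * t ^ 4 ≤ (t ^ 3) ^ 2 := by
        have : (t ^ 3) ^ 2 = t ^ 2 * t ^ 4 := by ring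
        rw [this]
        have h2 : lam ≤ t ^ 2 := by nlinarith
        exact mul_le_mul_of_nonneg_right h2 (by positivity)
      have := mul_le_mul_of_nonneg_left h1 hl0.le
      nlinarith
    calc x ^ (d + 2) * t ^ (d + 2) = y ^ (d + 2) := by rw [← mul_pow, hxy]
      _ = y ^ 2 * y ^ d := by ring
      _ ≤ x * (1 / 2 : ℝ) ^ d := mul_le_mul hy2 (pow_le_pow_left₀ hy0 hy1 d) (by positivity) hx0
      _ = 4 * x * (1 / 2 : ℝ) ^ (d + 2) := by ring
  · simp only [hc, if_false, mul_one]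
    obtain ⟨d, rfl⟩ : ∃ d, e = d + 1 := ⟨e - 1, by omega⟩
    calc x ^ (d + 1) ≤ x * (1 / 2 : ℝ) ^ d := hpow d
      _ ≤ 4 * x * (1 / 2 : ℝ) ^ (d + 1) := by
        have h2 : 0 ≤ x * (1 / 2 : ℝ) ^ d := by positivity
        have : 4 * x * (1 / 2 : ℝ) ^ (d + 1) = 2 * (x * (1 / 2 : ℝ) ^ d) := by ring
        rw [this]
        linarith

private lemma g1_tsum (lam : ℝ) (hlam : 2 ≤ lam) (P Q0 : ℕ) (hP : 100 * lam ≤ P) (hQ : lam ^ 8 ≤ Q0)
    {p : ℕ} (hp : p.Prime) :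
    Summable (fun e : ℕ => g1 lam P Q0 (p ^ e)) ∧
      ∑' e : ℕ, g1 lam P Q0 (p ^ e) ≤ Real.exp (8 * (lam * ((1:ℝ) / p))) := by
  set x' : ℝ := if P ≤ p then lam / (p:ℝ) else 0 with hx'
  have hp0 : (0:ℝ) < p := by exact_mod_cast hp.pos
  have hl0 : 0 ≤ lam := by linarith
  have hx'0 : 0 ≤ x' := by
    rw [hx']
    split_ifs
    · positivity
    · exact le_rfl
  have hx'1 : x' ≤ lam * ((1:ℝ) / p) := by
    rw [hx']
    have : 0 ≤ lam * ((1:ℝ) / p) := by positivity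
    split_ifs
    · rw [mul_one_div]
    · exact this
  have hb : HasSum (fun e : ℕ => (if e = 0 then (1:ℝ) else 0) + 4 * x' * (1 / 2 : ℝ) ^ e) (1 + 4 * x' * 2) :=
    (hasSum_ite_eq (0:ℕ) (1:ℝ)).add (hasSum_geometric_two.mul_left (4 * x'))
  have hle : ∀ e : ℕ, g1 lam P Q0 (p ^ e) ≤ (if e = 0 then (1:ℝ) else 0) + 4 * x' * (1 / 2 : ℝ) ^ e := by
    intro e
    rcases Nat.eq_zero_or_pos e with rfl | he
    · simp only [pow_zero, g1_one, if_true]
      have : 0 ≤ 4 * x' * (1 / 2 : ℝ) ^ 0 := by positivity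
      linarith
    · rw [g1_prime_pow lam P Q0 hp he.ne', if_neg he.ne', zero_add]
      exact G1_le lam hlam P Q0 p e hP hQ hp.pos he
  have h0 : ∀ e : ℕ, 0 ≤ g1 lam P Q0 (p ^ e) := fun e => prod_nonneg fun q _ => G1_nonneg lam hl0 P Q0 q _
  have hsum : Summable (fun e : ℕ => g1 lam P Q0 (p ^ e)) :=
    Summable.of_nonneg_of_le h0 hle hb.summable
  refine ⟨hsum, ?_⟩
  have h1 : ∑' e : ℕ, g1 lam P Q0 (p ^ e) ≤ 1 + 4 * x' * 2 := by
    rw [← hb.tsum_eq]
    exact hsum.tsum_le_tsum hle hb.summable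
  have h2 := Real.add_one_le_exp (8 * (lam * ((1:ℝ) / p)))
  nlinarith

private lemma sum_g1_le (lam : ℝ) (hlam : 2 ≤ lam) (P Q0 : ℕ) (hP : 100 * lam ≤ P) (hQ : lam ^ 8 ≤ Q0)
    (X X' : ℕ) (hX' : X' ≤ 2 * X) :
    ∑ a ∈ Rough P X X', g1 lam P Q0 a ≤ Real.exp (9 * lam * Mer (2 * X)) := by
  have hl0 : 0 ≤ lam := by linarith
  have h1 := EP_gen (g1 lam P Q0) (g1_one lam P Q0) (fun h => g1_mul lam P Q0 h)
    (fun n => prod_nonneg fun q _ => G1_nonneg lam hl0 P Q0 q _)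
    (fun p hp => (g1_tsum lam hlam P Q0 hP hQ hp).1) (2 * X) (Rough P X X') (Rough_hA hX')
  refine h1.trans ?_
  have h2 : ∏ p ∈ (2 * X).primesBelow, ∑' e : ℕ, g1 lam P Q0 (p ^ e)
      ≤ ∏ p ∈ (2 * X).primesBelow, Real.exp (8 * (lam * ((1:ℝ) / p))) := by
    apply prod_le_prod
    · intro p hp
      exact tsum_nonneg fun e => prod_nonneg fun q _ => G1_nonneg lam hl0 P Q0 q _
    · intro p hp
      exact (g1_tsum lam hlam P Q0 hP hQ (Nat.prime_of_mem_primesBelow hp)).2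
  refine h2.trans ?_
  rw [← Real.exp_sum]
  apply Real.exp_le_exp.2
  rw [← mul_sum, ← mul_sum]
  have h3 := sum_below_le_Mer (2 * X)
  have h4 := Mer_nonneg (2 * X)
  nlinarith [mul_le_mul_of_nonneg_left h3 hl0, mul_nonneg hl0 h4]

/-- The value of `g1` on rough numbers. -/
private lemma g1_rough (lam : ℝ) (P Q0 a : ℕ) (ha : a ≠ 0) (hr : ∀ p ∈ a.primeFactors, P ≤ p) :
    g1 lam P Q0 a = lam ^ OO a / a * ((qP Q0 a : ℕ) : ℝ) ^ ((1:ℝ) / 4) := by
  unfold g1 qP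
  rw [← prod_lam lam a ha, Nat.cast_prod, ← Real.finsetProd_rpow _ _ (fun _ _ => by positivity), prod_filter,
    ← prod_mul_distrib]
  apply prod_congr rfl
  intro p hp
  unfold G1
  rw [if_pos (hr p hp)]
  push_cast
  rfl

/-- The splitting of `a` along `Q`. -/
private lemma split_eq (Q0 a : ℕ) (ha : a ≠ 0) : smP Q0 a * qP Q0 a * hc Q0 a = a := by
  unfold smP qP hc
  rw [prod_filter, prod_filter, prod_filter, ← prod_mul_distrib, ← prod_mul_distrib]
  conv_rhs => rw [← Nat.prod_factorization_pow_eq_self ha, Nat.prod_factorization_eq_prod_primeFactors]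
  apply prod_congr rfl
  intro p hp
  have he : 1 ≤ a.factorization p :=
    (Nat.prime_of_mem_primeFactors hp).factorization_pos_of_dvd ha (Nat.dvd_of_mem_primeFactors hp)
  by_cases h1 : p < Q0
  · have h2 : ¬ (Q0 ≤ p ∧ 2 ≤ a.factorization p) := fun h => by omega
    have h3 : ¬ (Q0 ≤ p ∧ a.factorization p = 1) := fun h => by omega
    simp [h1, h2, h3]
  · have h1' : Q0 ≤ p := by omega
    by_cases h2 : 2 ≤ a.factorization p
    · have h3 : a.factorization p ≠ 1 := by omega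
      simp [h1, h1', h2, h3]
    · have h3 : a.factorization p = 1 := by omega
      simp [h1, h1', h3]

theorem rare (lam : ℝ) (hlam : 2 ≤ lam) (P Q0 W T j2 X X' : ℕ) (hP : 100 * lam ≤ P) (hQ : lam ^ 8 ≤ Q0)
    (hPQ : P ≤ Q0) (hX : 1 ≤ X) (hX' : X' ≤ 2 * X) (hW : 1 ≤ W) (hT : 1 ≤ T) :
    ∑ a ∈ (Rough P X X').filter (fun a => W < qP Q0 a ∨ j2 < OO a ∨ (qP Q0 a ≤ W ∧ hc Q0 a < T)), lam ^ OO a
      ≤ 2 * (X:ℝ) * Real.exp (9 * lam * Mer (2 * X)) *
          ((W:ℝ) ^ (-(1 / 4 : ℝ)) + (1 / 2 : ℝ) ^ j2 + ((W:ℝ) * T / X) ^ (1 / Real.log Q0)) := by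
  have hl0 : 0 ≤ lam := by linarith
  have hlpos : 0 < lam := by linarith
  have hX1 : (0:ℝ) < X := by exact_mod_cast hX
  have hW1 : (0:ℝ) < W := by exact_mod_cast hW
  have hT1 : (0:ℝ) < T := by exact_mod_cast hT
  have hQ1 : (1:ℝ) < Q0 := by
    have h1 : (2:ℝ) ^ 8 ≤ lam ^ 8 := pow_le_pow_left₀ (by norm_num) hlam 8
    have : (2:ℝ) ^ 8 = 256 := by norm_num
    linarith
  have hlogQ : 0 < Real.log Q0 := Real.log_pos hQ1
  set η : ℝ := 1 / Real.log Q0 with hη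
  have hη0 : 0 < η := by positivity
  set c₁ : ℝ := (W:ℝ) ^ (-(1 / 4 : ℝ)) with hc₁
  set c₂ : ℝ := (1 / 2 : ℝ) ^ j2 with hc₂
  set c₃ : ℝ := ((W:ℝ) * T / X) ^ η with hc₃
  have hc₁0 : 0 ≤ c₁ := Real.rpow_nonneg hW1.le _
  have hc₂0 : 0 ≤ c₂ := by positivity
  have hc₃0 : 0 ≤ c₃ := Real.rpow_nonneg (by positivity) _
  set E : ℝ := Real.exp (9 * lam * Mer (2 * X)) with hE
  -- the weights
  set w₂ : ℕ → ℝ := fun a => wprod (fun p => if P ≤ p then (lam / (p:ℝ)) * (fun _ => (2:ℝ)) p else 0) a with hw₂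
  set cc : ℕ → ℝ := fun p => if p < Q0 then (p:ℝ) ^ η else 1 with hcc
  set w₃ : ℕ → ℝ := fun a => wprod (fun p => if P ≤ p then (lam / (p:ℝ)) * cc p else 0) a with hw₃
  have hcc0 : ∀ p, 0 ≤ cc p := by
    intro p
    rw [hcc]
    dsimp only
    split_ifs
    · positivity
    · norm_num
  have hcc3 : ∀ p, cc p ≤ 3 := by
    intro p
    rw [hcc]
    dsimp only
    split_ifs with h
    · have h1 : (p:ℝ) ^ η ≤ (Q0:ℝ) ^ η := by
        apply Real.rpow_le_rpow (by positivity) _ hη0.le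
        exact_mod_cast h.le
      have h2 : (Q0:ℝ) ^ η = Real.exp 1 := by
        rw [Real.rpow_def_of_pos (by linarith), hη]
        congr 1
        field_simp
      have h3 := Real.exp_one_lt_d9
      linarith
    · norm_num
  have hs₁ : ∑ a ∈ Rough P X X', g1 lam P Q0 a ≤ E := sum_g1_le lam hlam P Q0 hP hQ X X' hX'
  have hs₂ : ∑ a ∈ Rough P X X', w₂ a ≤ E :=
    sum_wprod_le lam hl0 P hP (fun _ => (2:ℝ)) (fun _ => by norm_num) (fun _ => by norm_num) X X' hX'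
  have hs₃ : ∑ a ∈ Rough P X X', w₃ a ≤ E := sum_wprod_le lam hl0 P hP cc hcc0 hcc3 X X' hX'
  -- the pointwise bound
  have key : ∀ a ∈ (Rough P X X').filter (fun a => W < qP Q0 a ∨ j2 < OO a ∨ (qP Q0 a ≤ W ∧ hc Q0 a < T)),
      lam ^ OO a ≤ 2 * (X:ℝ) * (c₁ * g1 lam P Q0 a + c₂ * w₂ a + c₃ * w₃ a) := by
    intro a ha
    rw [mem_filter] at ha
    obtain ⟨har, hcase⟩ := ha
    unfold Rough at har
    rw [mem_filter, mem_Ico] at har
    obtain ⟨⟨haX, haX'⟩, ha0, hr⟩ := har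
    have hapos : (0:ℝ) < a := by exact_mod_cast Nat.pos_of_ne_zero ha0
    have ha2 : (a:ℝ) ≤ 2 * X := by
      have : a ≤ 2 * X := by omega
      exact_mod_cast this
    set L : ℝ := lam ^ OO a / a with hL
    have hL0 : 0 ≤ L := by positivity
    have hLa : lam ^ OO a ≤ 2 * (X:ℝ) * L := by
      have : lam ^ OO a = a * L := by
        rw [hL]
        field_simp
      rw [this]
      exact mul_le_mul_of_nonneg_right ha2 hL0
    have h1 : g1 lam P Q0 a = L * ((qP Q0 a : ℕ) : ℝ) ^ ((1:ℝ) / 4) := g1_rough lam P Q0 a ha0 hr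
    have h2 : w₂ a = L * (2:ℝ) ^ OO a := by
      rw [hw₂]
      dsimp only
      rw [wprod_rough lam P (fun _ => (2:ℝ)) a ha0 hr, prod_pow_eq_pow_sum, ← OO_eq]
    have h3 : w₃ a = L * ((smP Q0 a : ℕ) : ℝ) ^ η := by
      rw [hw₃]
      dsimp only
      rw [wprod_rough lam P cc a ha0 hr]
      congr 1
      unfold smP
      rw [Nat.cast_prod, ← Real.finsetProd_rpow _ _ (fun _ _ => by positivity), prod_filter]
      apply prod_congr rfl
      intro p _
      rw [hcc]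
      dsimp only
      split_ifs
      · push_cast
        rw [← Real.rpow_natCast, ← Real.rpow_natCast, ← Real.rpow_mul (by positivity), ← Real.rpow_mul (by positivity),
          mul_comm]
      · simp
    have hg1 : 0 ≤ g1 lam P Q0 a := prod_nonneg fun q _ => G1_nonneg lam hl0 P Q0 q _
    have hg2 : 0 ≤ w₂ a := by
      rw [h2]
      positivity
    have hg3 : 0 ≤ w₃ a := by
      rw [h3]
      positivity
    have hXX : 0 ≤ 2 * (X:ℝ) := by positivity
    -- it suffices to bound `L` by one of the three terms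
    suffices hsuff : L ≤ c₁ * g1 lam P Q0 a ∨ L ≤ c₂ * w₂ a ∨ L ≤ c₃ * w₃ a by
      have hmain : L ≤ c₁ * g1 lam P Q0 a + c₂ * w₂ a + c₃ * w₃ a := by
        have t1 : 0 ≤ c₁ * g1 lam P Q0 a := mul_nonneg hc₁0 hg1
        have t2 : 0 ≤ c₂ * w₂ a := mul_nonneg hc₂0 hg2
        have t3 : 0 ≤ c₃ * w₃ a := mul_nonneg hc₃0 hg3
        rcases hsuff with h | h | h <;> linarith
      exact hLa.trans (mul_le_mul_of_nonneg_left hmain hXX)
    rcases hcase with hA | hA | ⟨hA, hB⟩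
    · left
      rw [h1]
      have hWq : (W:ℝ) ≤ ((qP Q0 a : ℕ) : ℝ) := by exact_mod_cast hA.le
      have h4 : (W:ℝ) ^ ((1:ℝ) / 4) ≤ ((qP Q0 a : ℕ) : ℝ) ^ ((1:ℝ) / 4) :=
        Real.rpow_le_rpow hW1.le hWq (by norm_num)
      have h5 : c₁ * (W:ℝ) ^ ((1:ℝ) / 4) = 1 := by
        rw [hc₁, ← Real.rpow_add hW1]
        norm_num
      have h6 : 1 ≤ c₁ * ((qP Q0 a : ℕ) : ℝ) ^ ((1:ℝ) / 4) :=
        calc (1:ℝ) = c₁ * (W:ℝ) ^ ((1:ℝ) / 4) := h5.symm
          _ ≤ _ := mul_le_mul_of_nonneg_left h4 hc₁0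
      calc L = L * 1 := by ring
        _ ≤ L * (c₁ * ((qP Q0 a : ℕ) : ℝ) ^ ((1:ℝ) / 4)) := mul_le_mul_of_nonneg_left h6 hL0
        _ = c₁ * (L * ((qP Q0 a : ℕ) : ℝ) ^ ((1:ℝ) / 4)) := by ring
    · right; left
      rw [h2]
      have h6 : 1 ≤ c₂ * (2:ℝ) ^ OO a := by
        rw [hc₂]
        obtain ⟨d, hd⟩ : ∃ d, OO a = j2 + d := ⟨OO a - j2, by omega⟩
        rw [hd, pow_add, ← mul_assoc, ← mul_pow]
        norm_num
        exact one_le_pow₀ (by norm_num)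
      calc L = L * 1 := by ring
        _ ≤ L * (c₂ * (2:ℝ) ^ OO a) := mul_le_mul_of_nonneg_left h6 hL0
        _ = c₂ * (L * (2:ℝ) ^ OO a) := by ring
    · right; right
      rw [h3]
      have hsplit := split_eq Q0 a ha0
      have hnat : X ≤ smP Q0 a * W * T := by
        calc X ≤ a := haX
          _ = smP Q0 a * qP Q0 a * hc Q0 a := hsplit.symm
          _ ≤ smP Q0 a * W * T := by
            apply Nat.mul_le_mul (Nat.mul_le_mul_left _ hA) hB.le
      have hreal : (X:ℝ) ≤ ((smP Q0 a : ℕ):ℝ) * W * T := by exact_mod_cast hnat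
      have h7 : 1 ≤ (W:ℝ) * T / X * ((smP Q0 a : ℕ):ℝ) := by
        rw [div_mul_eq_mul_div, le_div_iff₀ hX1]
        linarith
      have h8 : 1 ≤ ((W:ℝ) * T / X * ((smP Q0 a : ℕ):ℝ)) ^ η := Real.one_le_rpow h7 hη0.le
      rw [Real.mul_rpow (by positivity) (by positivity)] at h8
      calc L = L * 1 := by ring
        _ ≤ L * (c₃ * ((smP Q0 a : ℕ):ℝ) ^ η) := mul_le_mul_of_nonneg_left h8 hL0
        _ = c₃ * (L * ((smP Q0 a : ℕ):ℝ) ^ η) := by ring
  have hnon : ∀ a, 0 ≤ 2 * (X:ℝ) * (c₁ * g1 lam P Q0 a + c₂ * w₂ a + c₃ * w₃ a) := by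
    intro a
    have hg1 : 0 ≤ g1 lam P Q0 a := prod_nonneg fun q _ => G1_nonneg lam hl0 P Q0 q _
    have hg2 : 0 ≤ w₂ a := by
      rw [hw₂]
      exact prod_nonneg fun q _ => pow_nonneg (by
        dsimp only
        split_ifs
        · positivity
        · exact le_rfl) _
    have hg3 : 0 ≤ w₃ a := by
      rw [hw₃]
      exact prod_nonneg fun q _ => pow_nonneg (by
        dsimp only
        split_ifs
        · exact mul_nonneg (by positivity) (hcc0 q)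
        · exact le_rfl) _
    positivity
  calc ∑ a ∈ (Rough P X X').filter (fun a => W < qP Q0 a ∨ j2 < OO a ∨ (qP Q0 a ≤ W ∧ hc Q0 a < T)), lam ^ OO a
      ≤ ∑ a ∈ (Rough P X X').filter (fun a => W < qP Q0 a ∨ j2 < OO a ∨ (qP Q0 a ≤ W ∧ hc Q0 a < T)),
          2 * (X:ℝ) * (c₁ * g1 lam P Q0 a + c₂ * w₂ a + c₃ * w₃ a) := sum_le_sum key
    _ ≤ ∑ a ∈ Rough P X X', 2 * (X:ℝ) * (c₁ * g1 lam P Q0 a + c₂ * w₂ a + c₃ * w₃ a) :=
        sum_le_sum_of_subset_of_nonneg (filter_subset _ _) (fun a _ _ => hnon a)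
    _ = 2 * (X:ℝ) * (c₁ * ∑ a ∈ Rough P X X', g1 lam P Q0 a + c₂ * ∑ a ∈ Rough P X X', w₂ a
          + c₃ * ∑ a ∈ Rough P X X', w₃ a) := by
        rw [← mul_sum, sum_add_distrib, sum_add_distrib, mul_sum, mul_sum, mul_sum]
    _ ≤ 2 * (X:ℝ) * (c₁ * E + c₂ * E + c₃ * E) := by
        apply mul_le_mul_of_nonneg_left _ (by positivity)
        have t1 := mul_le_mul_of_nonneg_left hs₁ hc₁0
        have t2 := mul_le_mul_of_nonneg_left hs₂ hc₂0
        have t3 := mul_le_mul_of_nonneg_left hs₃ hc₃0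
        linarith
    _ = 2 * (X:ℝ) * E * (c₁ + c₂ + c₃) := by ring

end

end Vale.Agent.Lib.P028K
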