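import Vale.Agent.Lib.P028K.HyperCor

/-! Part SP: the bound without twist. -/

open Finset

namespace Vale.Agent.Lib.P028K

open Vale.Agent.Lib.P028
open Vale.Agent.Lib.P028T

noncomputable section

variable {B M : ℕ} [NeZero M]

lemma smP_mul_rgP (P a : ℕ) (ha : a ≠ 0) : smP P a * rgP P a = a := by
  unfold smP rgP
  have h1 := Finset.prod_filter_mul_prod_filter_not a.primeFactors (· < P)
    (fun p => p ^ a.factorization p)
  have h2 : a.primeFactors.filter (fun x => ¬ x < P) = a.primeFactors.filter (P ≤ ·) := by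
    apply Finset.filter_congr
    intro x _
    exact not_lt
  rw [h2] at h1
  rw [h1]
  exact Nat.prod_factorization_pow_eq_self ha

lemma sp_rgP_ne_zero (P a : ℕ) (ha : a ≠ 0) : rgP P a ≠ 0 := by
  intro h
  have := smP_mul_rgP P a ha
  rw [h, mul_zero] at this
  exact ha this.symm

lemma sp_smP_ne_zero (P a : ℕ) (ha : a ≠ 0) : smP P a ≠ 0 := by
  intro h
  have := smP_mul_rgP P a ha
  rw [h, zero_mul] at this
  exact ha this.symm

lemma sp_fits_of_dvd {a b : ℕ} (h : Fits B M a) (hb : b ∣ a) : Fits B M b := by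
  obtain ⟨h0, h1, h2⟩ := h
  have hb0 : b ≠ 0 := by
    rintro rfl
    exact h0 (Nat.eq_zero_of_zero_dvd hb)
  refine ⟨hb0, ?_, ?_⟩
  · intro p hp
    exact h1 p (Nat.primeFactors_mono hb h0 hp)
  · intro p
    have : b.factorization p ≤ a.factorization p :=
      ((Nat.factorization_le_iff_dvd hb0 h0).2 hb) p
    have := h2 p
    omega

theorem sp_general (k : ℕ) (hk : 1 ≤ k) (lam : ℝ) (hlam : 50 * (k:ℝ) ≤ lam) (P : ℕ) (A : Finset ℕ) (β : ℝ)
    (hA : ∀ a ∈ A, Fits B M a) :
    mm k (SS (B := B) (M := M) β A)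
      ≤ ∑ s ∈ A.image (smP P), Real.sqrt (∑ a ∈ A.filter (fun a => smP P a = s), lam ^ OO (rgP P a)) := by
  have hsplit : SS (B := B) (M := M) β A = fun ω => ∑ s ∈ A.image (smP P),
      ∑ a ∈ A.filter (fun a => smP P a = s), ff ω a * ee (β * a) := by
    funext ω
    unfold SS
    exact (Finset.sum_fiberwise_of_maps_to (fun x hx => Finset.mem_image_of_mem _ hx) _).symm
  rw [hsplit]
  refine (mm_sum k hk _ _).trans (Finset.sum_le_sum fun s hs => ?_)
  obtain ⟨a0, ha0, rfl⟩ := Finset.mem_image.1 hs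
  set s := smP P a0 with hs_def
  have hs0 : s ≠ 0 := sp_smP_ne_zero P a0 (hA a0 ha0).1
  set fib := A.filter (fun a => smP P a = s) with hfib
  have hfibA : ∀ a ∈ fib, a ∈ A ∧ smP P a = s := fun a ha => Finset.mem_filter.1 ha
  have hinner : (fun ω : Om B M => ∑ a ∈ fib, ff ω a * ee (β * a))
      = fun ω => ff ω s * ∑ c0 ∈ fib.image (rgP P), ff ω c0 * ee (β * ((s * c0 : ℕ) : ℝ)) := by
    funext ω
    have hinj : Set.InjOn (rgP P) (fib : Set ℕ) := by
      intro a ha b hb hab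
      have ha' := hfibA a ha
      have hb' := hfibA b hb
      have e1 := smP_mul_rgP P a (hA a ha'.1).1
      have e2 := smP_mul_rgP P b (hA b hb'.1).1
      rw [← e1, ← e2, ha'.2, hb'.2, hab]
    rw [Finset.sum_image hinj, Finset.mul_sum]
    refine Finset.sum_congr rfl fun a ha => ?_
    have ha' := hfibA a ha
    have e1 := smP_mul_rgP P a (hA a ha'.1).1
    have hr0 := sp_rgP_ne_zero P a (hA a ha'.1).1
    rw [ha'.2] at e1
    rw [e1, ← mul_assoc, ← ff_mul ω hs0 hr0, e1]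
  rw [hinner, mm_unimod k hk _ _ (fun ω => norm_ff ω s)]
  have hfits : ∀ c0 ∈ fib.image (rgP P), Fits B M c0 := by
    intro c0 hc0
    obtain ⟨a, ha, rfl⟩ := Finset.mem_image.1 hc0
    have ha' := hfibA a ha
    exact sp_fits_of_dvd (hA a ha'.1) ⟨smP P a, by rw [mul_comm]; exact (smP_mul_rgP P a (hA a ha'.1).1).symm⟩
  have hmain := hyper_single (B := B) (M := M) k hk lam hlam (fib.image (rgP P))
    (fun c0 => ee (β * ((s * c0 : ℕ) : ℝ))) hfits
  have hinj : Set.InjOn (rgP P) (fib : Set ℕ) := by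
    intro a ha b hb hab
    have ha' := hfibA a ha
    have hb' := hfibA b hb
    have e1 := smP_mul_rgP P a (hA a ha'.1).1
    have e2 := smP_mul_rgP P b (hA b hb'.1).1
    rw [← e1, ← e2, ha'.2, hb'.2, hab]
  have hrhs : ∑ c0 ∈ fib.image (rgP P), lam ^ OO c0 * ‖ee (β * ((s * c0 : ℕ) : ℝ))‖ ^ 2
      = ∑ a ∈ fib, lam ^ OO (rgP P a) := by
    rw [Finset.sum_image hinj]
    refine Finset.sum_congr rfl fun a _ => ?_
    rw [norm_ee]
    simp
  rw [hrhs] at hmain
  exact (le_abs_self _).trans (Real.abs_le_sqrt hmain)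

end

end Vale.Agent.Lib.P028K
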