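import Vale.Agent.Lib.P028K.MType
import Vale.Agent.Lib.P028K.Rarity
import Vale.Agent.Lib.P028K.SP
import Vale.Agent.Lib.P028K.Decomp

/-! Parameters of the twisted moment bound. Blueprint section 10. -/

open Finset

namespace Vale.Agent.Lib.P028K

open Vale.Agent.Lib.P028
open Vale.Agent.Lib.P028T

noncomputable section

/-- The approximate-return hypothesis. -/
def MA (θ : ℝ) (N0 : ℕ) (η : ℝ) : Prop := ∀ n : ℕ, 1 ≤ n → n ≤ N0 → η ≤ dn ((n:ℝ) * θ)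

/-- Parameters, as functions of `Y`, `ε` and `ν₀`. -/
structure Par (ε ν₀ : ℝ) (Y : ℕ) where
  Kb : ℕ
  hKb : Kb = ⌈(Real.log Y) ^ (1 - ε)⌉₊
  lam : ℝ
  hlam : lam = 50 * Kb
  P : ℕ
  hP : P = ⌈lam ^ 2⌉₊
  Q0 : ℕ
  hQ0 : Q0 = ⌈lam ^ 16⌉₊
  T : ℕ
  hT : T = ⌈(Y:ℝ) ^ ν₀⌉₊
  S2 : ℕ
  hS2 : S2 = ⌈(T:ℝ) ^ ((1:ℝ) / 16)⌉₊
  j2 : ℕ
  hj2 : j2 = ⌊Real.log T / (16 * Real.log lam)⌋₊

/-- The canonical parameters. -/
def par (ε ν₀ : ℝ) (Y : ℕ) : Par ε ν₀ Y :=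
  { Kb := _, hKb := rfl, lam := _, hlam := rfl, P := _, hP := rfl, Q0 := _, hQ0 := rfl, T := _, hT := rfl,
    S2 := _, hS2 := rfl, j2 := _, hj2 := rfl }

end

end Vale.Agent.Lib.P028K
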