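import Vale.Agent.Lib.P028K.KLmTop

/-! KLmB: `mtype` applied to one family of the main set (structural part). Blueprint section 10.2. -/

open Finset

namespace Vale.Agent.Lib.P028K

open Vale.Agent.Lib.P028
open Vale.Agent.Lib.P028T

noncomputable section

variable {B M : ℕ} [NeZero M]

/-- The scale of the cofactors of a family. -/
def Xz (Y q i : ℕ) : ℕ := max 1 (Y / (2 * q * 2 ^ i))

/-- The top parts of a family. -/
def Ubf (Q0 T Y' q r i : ℕ) : Finset ℕ :=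
  (Uset Q0 T Y' q r).filter (fun u => 2 ^ i ≤ u ∧ u < 2 * 2 ^ i)

/-- The cofactors of a family, with a bound `z` for their largest prime. -/
def bfm (P Q0 S2 j2 Y Y' q r i z : ℕ) : Finset ℕ :=
  (Bset P Q0 S2 j2 Y' q r).filter (fun x => x ∈ Ico (Xz Y q i) (8 * Xz Y q i) ∧ bigP x < z)

/-- A cofactor of a family lies in the window of `Xz`. -/
lemma mem_window {Y Y' q u x i : ℕ} (hq : 1 ≤ q) (hY' : Y' ≤ 2 * Y) (hx : 1 ≤ x)
    (hu1 : 2 ^ i ≤ u) (hu2 : u < 2 * 2 ^ i) (hI : q * u * x ∈ Ico Y Y') :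
    x ∈ Ico (Xz Y q i) (8 * Xz Y q i) := by
  obtain ⟨h1, h2⟩ := mem_Ico.1 hI
  have hU : 0 < 2 ^ i := Nat.two_pow_pos i
  have hA : 0 < q * 2 ^ i := Nat.mul_pos hq hU
  refine mem_Ico.2 ⟨max_le hx ?_, ?_⟩
  · apply Nat.div_le_of_le_mul
    calc Y ≤ q * u * x := h1
      _ ≤ q * (2 * 2 ^ i) * x := by
          apply Nat.mul_le_mul_right
          apply Nat.mul_le_mul_left
          omega
      _ = 2 * q * 2 ^ i * x := by ring
  · set t := Y / (2 * q * 2 ^ i) with ht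
    have h3 : Y < (2 * q * 2 ^ i) * (t + 1) := by
      rw [ht]
      exact Nat.lt_mul_div_succ Y (by positivity)
    have h4 : (q * 2 ^ i) * x < (q * 2 ^ i) * (4 * (t + 1)) := by
      calc (q * 2 ^ i) * x ≤ q * u * x := by
            apply Nat.mul_le_mul_right
            apply Nat.mul_le_mul_left
            exact hu1
        _ < Y' := h2
        _ ≤ 2 * Y := hY'
        _ < 2 * ((2 * q * 2 ^ i) * (t + 1)) := by omega
        _ = (q * 2 ^ i) * (4 * (t + 1)) := by ring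
    have h5 : x < 4 * (t + 1) := Nat.lt_of_mul_lt_mul_left h4
    have h6 : 1 ≤ Xz Y q i := le_max_left _ _
    have h7 : t ≤ Xz Y q i := le_max_right _ _
    omega

/-- `mtype` applied to one family. -/
theorem fam_bound (k : ℕ) (hk : 1 ≤ k) (hM : 2 ≤ M) (lam : ℝ) (hlam : 50 * (k:ℝ) ≤ lam) (β : ℝ)
    (P Q0 T S2 j2 Y Y' q r i Lm z : ℕ) (Pbar : ℝ) (hq : 1 ≤ q) (hY' : Y' ≤ 2 * Y)
    (hLm : Y' < 2 ^ (Lm + 1)) (hFits : ∀ a ∈ Ico 1 (Y' + 1), Fits B M a)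
    (hz : ∀ u ∈ Ubf Q0 T Y' q r i, u.minFac ≤ z)
    (hPbar : ∑ x ∈ Ico (Xz Y q i) (8 * Xz Y q i), ∑ x' ∈ (Ico (Xz Y q i) (8 * Xz Y q i)).filter (· ≠ x),
        (Nat.gcd x x' : ℝ) * hh (β * q) (2 ^ i) (max x x' - min x x') ≤ Pbar) :
    mm k (Fam (B := B) (M := M) P Q0 T S2 j2 Y Y' β q r i) ^ 2
      ≤ (50 * (k:ℝ) ^ 2) ^ r * (((Lm:ℝ) + 1) ^ 2 *
          (∑ x ∈ bfm P Q0 S2 j2 Y Y' q r i z,
              (((Ico (2 ^ i) (2 * 2 ^ i)).filter (fun n => q * n * x ∈ Ico Y Y')).card : ℝ)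
            + 3 * (S2:ℝ) * lam ^ j2 * Real.sqrt Pbar)) := by
  have hUb : ∀ u ∈ Ubf Q0 T Y' q r i, 2 ^ i ≤ u ∧ u < 2 * 2 ^ i ∧ u.minFac ≤ Y' ∧ Squarefree u ∧
      u.primeFactors.card = r ∧ ∀ p ∈ u.primeFactors, p < B := by
    intro u hu
    obtain ⟨hu0, hu1, hu2⟩ := mem_filter.1 hu
    obtain ⟨hu3, hus, hur, _⟩ := mem_filter.1 hu0
    obtain ⟨hu4, hu5⟩ := mem_Icc.1 hu3
    refine ⟨hu1, hu2, (Nat.minFac_le (by omega)).trans hu5, hus, hur, ?_⟩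
    exact (hFits u (mem_Ico.2 ⟨hu4, by omega⟩)).2.1
  have hb : ∀ x ∈ bfm P Q0 S2 j2 Y Y' q r i z, Fits B M x ∧ smP P x ≤ S2 ∧ OO (rgP P x) ≤ j2 ∧
      Xz Y q i ≤ x ∧ x < 8 * Xz Y q i := by
    intro x hx
    obtain ⟨hx0, hx1, _⟩ := mem_filter.1 hx
    obtain ⟨hx3, _, _, hxS, hxJ⟩ := mem_filter.1 hx0
    obtain ⟨hx4, hx5⟩ := mem_Icc.1 hx3
    obtain ⟨hx6, hx7⟩ := mem_Ico.1 hx1
    exact ⟨hFits x (mem_Ico.2 ⟨hx4, by omega⟩), hxS, by omega, hx6, hx7⟩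
  have hfun : Fam (B := B) (M := M) P Q0 T S2 j2 Y Y' β q r i = fun ω : Om B M =>
      ∑ u ∈ Ubf Q0 T Y' q r i, ff ω u *
        ∑ x ∈ (bfm P Q0 S2 j2 Y Y' q r i z).filter
            (fun x => bigP x < u.minFac ∧ q * u * x ∈ Ico Y Y'),
          ff ω x * ee (β * ((q * u * x : ℕ):ℝ)) := by
    funext ω
    unfold Fam
    refine Finset.sum_congr rfl (fun u hu => ?_)
    congr 1
    refine Finset.sum_congr ?_ (fun _ _ => rfl)
    ext x
    simp only [bfm, mem_filter]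
    constructor
    · rintro ⟨hx0, hx1, hx2⟩
      refine ⟨⟨hx0, ?_, ?_⟩, hx1, hx2⟩
      · have hx3 := (mem_Icc.1 (mem_filter.1 hx0).1).1
        have hU := (hUb u hu)
        exact mem_window hq hY' hx3 hU.1 hU.2.1 hx2
      · exact lt_of_lt_of_le hx1 (hz u hu)
    · rintro ⟨⟨hx0, _⟩, hx1, hx2⟩
      exact ⟨hx0, hx1, hx2⟩
  rw [hfun]
  exact mtype k hk hM lam hlam β P S2 j2 Y Y' q r (2 ^ i) Lm (Xz Y q i) Pbar hq (le_max_left _ _)
    Nat.one_le_two_pow hLm (Ubf Q0 T Y' q r i) (bfm P Q0 S2 j2 Y Y' q r i z) hUb hb hPbar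

/-- The diagonal term of a family is at most the size of the top parts times the cofactors. -/
lemma dterm_le (P Q0 S2 j2 Y Y' q r i z : ℕ) :
    ∑ x ∈ bfm P Q0 S2 j2 Y Y' q r i z,
        (((Ico (2 ^ i) (2 * 2 ^ i)).filter (fun n => q * n * x ∈ Ico Y Y')).card : ℝ)
      ≤ (2:ℝ) ^ i * ((bfm P Q0 S2 j2 Y Y' q r i z).card : ℝ) := by
  have h : ∀ x ∈ bfm P Q0 S2 j2 Y Y' q r i z,
      (((Ico (2 ^ i) (2 * 2 ^ i)).filter (fun n => q * n * x ∈ Ico Y Y')).card : ℝ) ≤ (2:ℝ) ^ i := by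
    intro x _
    have h1 : ((Ico (2 ^ i) (2 * 2 ^ i)).filter (fun n => q * n * x ∈ Ico Y Y')).card ≤ 2 ^ i := by
      refine (Finset.card_filter_le _ _).trans ?_
      rw [Nat.card_Ico]
      omega
    exact_mod_cast h1
  calc _ ≤ ∑ _x ∈ bfm P Q0 S2 j2 Y Y' q r i z, (2:ℝ) ^ i := Finset.sum_le_sum h
    _ = _ := by
      rw [Finset.sum_const, nsmul_eq_mul]
      ring

/-- The cofactors of a family are at most the window. -/
lemma bfm_card_le (P Q0 S2 j2 Y Y' q r i z : ℕ) :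
    (bfm P Q0 S2 j2 Y Y' q r i z).card ≤ 8 * Xz Y q i := by
  have hsub : bfm P Q0 S2 j2 Y Y' q r i z ⊆ Ico (Xz Y q i) (8 * Xz Y q i) := by
    intro x hx
    exact (mem_filter.1 hx).2.1
  calc _ ≤ (Ico (Xz Y q i) (8 * Xz Y q i)).card := Finset.card_le_card hsub
    _ ≤ 8 * Xz Y q i := by
      rw [Nat.card_Ico]
      omega

/-- Size facts on a top part of a family: `r ≥ 2` forces `Q0 ^ (r - 1) ≤ T`, and a bound on the
smallest prime of the top part. -/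
lemma top_facts {Q0 T Y' q r u : ℕ} (hu : u ∈ Uset Q0 T Y' q r) (hT : 2 ≤ T) :
    u.minFac ^ (r - 1) < T ∧ Q0 ^ (r - 1) < T ∧ u < T * u.minFac ∧ u.minFac.Prime ∧ 1 ≤ r := by
  obtain ⟨hu0, hus, hur, huQ, _, hTu, huT⟩ := mem_filter.1 hu
  have hu00 : u ≠ 0 := hus.ne_zero
  have hu1 : u ≠ 1 := by omega
  have hmp : u.minFac.Prime := Nat.minFac_prime hu1
  have hmu : u.minFac ∈ u.primeFactors :=
    Nat.mem_primeFactors.2 ⟨hmp, Nat.minFac_dvd u, hu00⟩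
  have hr1 : 1 ≤ r := by
    rw [← hur]
    exact Finset.card_pos.2 ⟨_, hmu⟩
  have hcard : (u.primeFactors.erase u.minFac).card = r - 1 := by
    rw [Finset.card_erase_of_mem hmu, hur]
  have hprod : u = u.minFac * ∏ t ∈ u.primeFactors.erase u.minFac, t := by
    conv_lhs => rw [← Nat.prod_primeFactors_of_squarefree hus]
    exact (Finset.mul_prod_erase _ (fun t => t) hmu).symm
  have hdiv : u / u.minFac = ∏ t ∈ u.primeFactors.erase u.minFac, t :=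
    Nat.div_eq_of_eq_mul_right hmp.pos hprod
  have hm1 : u.minFac ^ (r - 1) ≤ u / u.minFac := by
    rw [hdiv, ← hcard]
    refine Finset.pow_card_le_prod _ _ _ (fun t ht => ?_)
    have ht' := Finset.mem_of_mem_erase ht
    exact Nat.minFac_le_of_dvd (Nat.prime_of_mem_primeFactors ht').two_le
      (Nat.dvd_of_mem_primeFactors ht')
  have hm2 : Q0 ^ (r - 1) ≤ u / u.minFac := by
    rw [hdiv, ← hcard]
    exact Finset.pow_card_le_prod _ _ _ (fun t ht => huQ t (Finset.mem_of_mem_erase ht))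
  refine ⟨lt_of_le_of_lt hm1 huT, lt_of_le_of_lt hm2 huT, ?_, hmp, hr1⟩
  exact (Nat.div_lt_iff_lt_mul hmp.pos).1 huT

end

end Vale.Agent.Lib.P028K
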