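import Vale.Agent.Lib.P028K.KLmTop

/-! KLmN: the final numerical step of the main set bound. Blueprint section 10.2. -/

open Finset Filter

namespace Vale.Agent.Lib.P028K

open Vale.Agent.Lib.P028
open Vale.Agent.Lib.P028T

noncomputable section

private lemma ev_num (ε : ℝ) (hε : 0 < ε) :
    ∀ᶠ L : ℝ in atTop, 111 + 28 * Real.log L ≤ L ^ ε / 24 ∧ 3 ≤ L := by
  have h1 : ∀ᶠ L : ℝ in atTop, 5328 ≤ L ^ ε :=
    (tendsto_rpow_atTop hε).eventually (eventually_ge_atTop 5328)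
  have h2 := (isLittleO_log_rpow_atTop (r := ε) hε).bound (c := 1 / 1344) (by norm_num)
  filter_upwards [h1, h2, eventually_ge_atTop 3] with L h1 h2 h3
  have h4 : 0 ≤ L ^ ε := by positivity
  rw [Real.norm_of_nonneg (Real.log_nonneg (by linarith)), Real.norm_of_nonneg h4] at h2
  refine ⟨?_, h3⟩
  linarith

/-- The numerical inequality. -/
theorem KLm_num (ε ν₀ : ℝ) (hε : 0 < ε) (hε1 : ε < 1) (hν : 0 < ν₀) (hν1 : ν₀ ≤ 1 / 64) :
    ∃ Y0 : ℕ, ∀ Y Y' : ℕ, Y0 ≤ Y → Y' ≤ 2 * Y → let p := par ε ν₀ Y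
      ((Nat.log 2 Y' + 1 : ℕ):ℝ) ^ 4 * Real.exp (6 * Mer (p.T + 1))
          * Real.exp ((Real.log Y) ^ ε / 12)
        ≤ Real.exp ((Real.log Y) ^ ε / 8) := by
  obtain ⟨Y1, hY1⟩ := par_facts ε ν₀ hε hε1 hν hν1
  have hlogT : Tendsto (fun Y : ℕ => Real.log (Y:ℝ)) atTop atTop :=
    Real.tendsto_log_atTop.comp tendsto_natCast_atTop_atTop
  obtain ⟨Y2, hY2⟩ := eventually_atTop.1
    (hlogT.eventually (ev_num ε hε))
  refine ⟨max (max Y1 Y2) 3, fun Y Y' hY hY' => ?_⟩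
  intro p
  have hYa : Y1 ≤ Y := le_trans (le_trans (le_max_left _ _) (le_max_left _ _)) hY
  have hYb : Y2 ≤ Y := le_trans (le_trans (le_max_right _ _) (le_max_left _ _)) hY
  have hY3 : 3 ≤ Y := le_trans (le_max_right _ _) hY
  obtain ⟨h1, h3⟩ := hY2 Y hYb
  set L := Real.log (Y:ℝ) with hL
  obtain ⟨_, _, _, _, hT2, hTle, _, _, _⟩ := hY1 Y hYa
  have hYpos : (0:ℝ) < Y := by
    have : (3:ℝ) ≤ Y := by exact_mod_cast hY3
    linarith
  have hL3 : (0:ℝ) < L := by linarith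
  have hℓ : 0 ≤ Real.log L := Real.log_nonneg (by linarith)
  have hlog3 : Real.log 3 ≤ 2 := by
    have := Real.log_le_sub_one_of_pos (show (0:ℝ) < 3 by norm_num)
    linarith
  have hlog2 : (1:ℝ) / 2 ≤ Real.log 2 := by
    have := Real.log_two_gt_d9
    linarith
  have hlog2' : Real.log 2 ≤ 1 := by
    have := Real.log_le_sub_one_of_pos (show (0:ℝ) < 2 by norm_num)
    linarith
  -- bound for the logarithm of `Y'`
  have hI : ((Nat.log 2 Y' + 1 : ℕ):ℝ) ≤ 3 * L := by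
    have hI1 : ((Nat.log 2 Y' : ℕ):ℝ) * Real.log 2 ≤ Real.log 2 + L := by
      rcases Nat.eq_zero_or_pos Y' with h0 | h0
      · subst h0
        simp only [Nat.log_zero_right, Nat.cast_zero, zero_mul]
        linarith
      · have hpow : 2 ^ Nat.log 2 Y' ≤ 2 * Y := (Nat.pow_log_le_self 2 (by omega)).trans hY'
        have hpow' : (2:ℝ) ^ Nat.log 2 Y' ≤ 2 * (Y:ℝ) := by exact_mod_cast hpow
        have := Real.log_le_log (by positivity) hpow'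
        rw [Real.log_pow, Real.log_mul (by norm_num) hYpos.ne'] at this
        exact this
    have hI2 : ((Nat.log 2 Y' : ℕ):ℝ) ≤ 1 + 2 * L := by
      have hn0 : (0:ℝ) ≤ ((Nat.log 2 Y' : ℕ):ℝ) := Nat.cast_nonneg _
      nlinarith
    push_cast
    linarith
  -- bound for `Mer`
  have hTr : (p.T:ℝ) ≤ 2 * (Y:ℝ) ^ ν₀ := hTle
  have hYν : (Y:ℝ) ^ ν₀ ≤ (Y:ℝ) := by
    have hY1' : (1:ℝ) ≤ Y := by
      have : (3:ℝ) ≤ Y := by exact_mod_cast hY3
      linarith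
    calc (Y:ℝ) ^ ν₀ ≤ (Y:ℝ) ^ (1:ℝ) :=
          Real.rpow_le_rpow_of_exponent_le hY1' (by linarith)
      _ = Y := Real.rpow_one _
  have hTlog : Real.log ((p.T + 1 : ℕ):ℝ) ≤ 2 * L := by
    have hTle3 : ((p.T + 1 : ℕ):ℝ) ≤ (Y:ℝ) ^ 2 := by
      have hY3' : (3:ℝ) ≤ Y := by exact_mod_cast hY3
      push_cast
      have hν0 : ((Y:ℝ) ^ ν₀) ≤ ((Y:ℝ) ^ (1 / 64 : ℝ)) :=
        Real.rpow_le_rpow_of_exponent_le (by linarith) hν1
      have h8 : ((Y:ℝ) ^ (1 / 64 : ℝ)) ≤ (Y:ℝ) :=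
        calc ((Y:ℝ) ^ (1 / 64 : ℝ)) ≤ (Y:ℝ) ^ (1:ℝ) :=
              Real.rpow_le_rpow_of_exponent_le (by linarith) (by norm_num)
          _ = Y := Real.rpow_one _
      nlinarith
    have hpos : (0:ℝ) < ((p.T + 1 : ℕ):ℝ) := by
      push_cast; positivity
    have := Real.log_le_log hpos hTle3
    rw [Real.log_pow] at this
    push_cast at this ⊢
    linarith
  have hMer : Mer (p.T + 1) ≤ 17 + 4 * Real.log L := by
    have hm := Mer_le (p.T + 1) (le_trans hT2 (Nat.le_succ _))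
    have h5 : Real.log (2 * Real.log ((p.T + 1 : ℕ):ℝ) + 2) ≤ Real.log (6 * L) := by
      have hl0 : 0 ≤ Real.log ((p.T + 1 : ℕ):ℝ) := Real.log_natCast_nonneg _
      have hpos2 : 0 < 2 * Real.log ((p.T + 1 : ℕ):ℝ) + 2 := by linarith
      exact Real.log_le_log hpos2 (by linarith)
    have h6 : Real.log (6 * L) = Real.log 6 + Real.log L :=
      Real.log_mul (by norm_num) hL3.ne'
    have h7 : Real.log 6 ≤ 3 := by
      have h8 : Real.log 6 = Real.log 2 + Real.log 3 := by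
        rw [← Real.log_mul (by norm_num) (by norm_num)]
        norm_num
      linarith
    have hm' : Mer (p.T + 1) ≤ 5 + 4 * Real.log (2 * Real.log ((p.T + 1 : ℕ):ℝ) + 2) := hm
    linarith
  -- combine
  have hIexp : ((Nat.log 2 Y' + 1 : ℕ):ℝ) ^ 4 ≤ Real.exp (5 + 4 * Real.log L + 4) := by
    have h3L : (3 * L) ^ 4 = Real.exp (4 * Real.log (3 * L)) := by
      rw [show (4:ℝ) * Real.log (3 * L) = ((4:ℕ):ℝ) * Real.log (3 * L) by norm_num,
        Real.exp_nat_mul, Real.exp_log (by positivity)]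
    have hlog3L : Real.log (3 * L) = Real.log 3 + Real.log L :=
      Real.log_mul (by norm_num) hL3.ne'
    have hnn : (0:ℝ) ≤ ((Nat.log 2 Y' + 1 : ℕ):ℝ) := Nat.cast_nonneg _
    calc ((Nat.log 2 Y' + 1 : ℕ):ℝ) ^ 4 ≤ (3 * L) ^ 4 := pow_le_pow_left₀ hnn hI 4
      _ = Real.exp (4 * Real.log (3 * L)) := h3L
      _ ≤ _ := by
        apply Real.exp_le_exp.2
        rw [hlog3L]
        linarith
  have hMexp : Real.exp (6 * Mer (p.T + 1)) ≤ Real.exp (102 + 24 * Real.log L) :=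
    Real.exp_le_exp.2 (by linarith)
  calc ((Nat.log 2 Y' + 1 : ℕ):ℝ) ^ 4 * Real.exp (6 * Mer (p.T + 1)) * Real.exp (L ^ ε / 12)
      ≤ Real.exp (5 + 4 * Real.log L + 4) * Real.exp (102 + 24 * Real.log L)
          * Real.exp (L ^ ε / 12) := by
        refine mul_le_mul_of_nonneg_right ?_ (Real.exp_pos _).le
        exact mul_le_mul hIexp hMexp (Real.exp_pos _).le (Real.exp_pos _).le
    _ = Real.exp (111 + 28 * Real.log L + L ^ ε / 12) := by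
        rw [← Real.exp_add, ← Real.exp_add]
        congr 1
        ring
    _ ≤ Real.exp (L ^ ε / 8) := by
        apply Real.exp_le_exp.2
        linarith

/-- The bound for the main set, given the bound for each family. -/
theorem KLm_of_fam (ε ν₀ : ℝ) (hε : 0 < ε) (hε1 : ε < 1) (hν : 0 < ν₀) (hν1 : ν₀ ≤ 1 / 64) :
    ∃ Y0 : ℕ, ∀ Y Y' : ℕ, Y0 ≤ Y → Y' ≤ 2 * Y → ∀ β : ℝ, ∀ k : ℕ, 1 ≤ k →
      ∀ (B M : ℕ) [NeZero M], let p := par ε ν₀ Y
        (∀ q ∈ Qset p.Q0 p.T, ∀ r ∈ range (Nat.log 2 Y' + 1), ∀ i ∈ range (Nat.log 2 Y' + 1),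
          mm k (Fam (B := B) (M := M) p.P p.Q0 p.T p.S2 p.j2 Y Y' β q r i) ^ 2
            ≤ (Y:ℝ) / q * Real.exp ((Real.log Y) ^ ε / 12)) →
        mm k (SS (B := B) (M := M) β (Mset p.P p.Q0 p.T p.T p.S2 p.j2 Y Y')) ^ 2
          ≤ Y * Real.exp ((Real.log Y) ^ ε / 8) := by
  obtain ⟨Y1, hY1⟩ := par_facts ε ν₀ hε hε1 hν hν1
  obtain ⟨Y2, hY2⟩ := KLm_num ε ν₀ hε hε1 hν hν1
  refine ⟨max (max Y1 Y2) 1, fun Y Y' hY hY' β k hk B M _ => ?_⟩
  intro p hfam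
  have hYa : Y1 ≤ Y := le_trans (le_trans (le_max_left _ _) (le_max_left _ _)) hY
  have hYb : Y2 ≤ Y := le_trans (le_trans (le_max_right _ _) (le_max_left _ _)) hY
  have hY3 : 1 ≤ Y := le_trans (le_max_right _ _) hY
  obtain ⟨_, hlamQ, hPQ, hlam, hT2, _⟩ := hY1 Y hYa
  have hQ : 4 ≤ p.Q0 := by
    have h1 : (1000:ℝ) ≤ p.lam := hlam
    have h2 : p.lam ^ 8 ≤ (p.Q0:ℝ) := hlamQ
    have h3 : p.lam ≤ p.lam ^ 8 := le_self_pow₀ (by linarith) (by norm_num)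
    have h4 : (4:ℝ) ≤ (p.Q0:ℝ) := by linarith
    exact_mod_cast h4
  have hnum := hY2 Y Y' hYb hY'
  have htop := KLm_top (B := B) (M := M) p.P p.Q0 p.T p.T p.S2 p.j2 Y Y' k hk hPQ hQ hT2 hY3 β
    (Real.exp ((Real.log Y) ^ ε / 12)) (Real.exp_pos _).le hfam
  refine htop.trans ?_
  have hY0 : (0:ℝ) ≤ Y := Nat.cast_nonneg _
  calc ((Nat.log 2 Y' + 1 : ℕ):ℝ) ^ 4 * ((Y:ℝ) * Real.exp ((Real.log Y) ^ ε / 12))
        * Real.exp (6 * Mer (p.T + 1))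
      = (Y:ℝ) * (((Nat.log 2 Y' + 1 : ℕ):ℝ) ^ 4 * Real.exp (6 * Mer (p.T + 1))
          * Real.exp ((Real.log Y) ^ ε / 12)) := by ring
    _ ≤ Y * Real.exp ((Real.log Y) ^ ε / 8) := mul_le_mul_of_nonneg_left hnum hY0

end

end Vale.Agent.Lib.P028K
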