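import Vale.Agent.Lib.P028K.KLmB

/-! KLmP: the off-diagonal term of one family of the main set. Blueprint section 10.2. -/

open Finset Filter

namespace Vale.Agent.Lib.P028K

open Vale.Agent.Lib.P028
open Vale.Agent.Lib.P028T

noncomputable section

/-- The case distinction for `p1_bound`. -/
lemma off_case (Y q i T : ℕ) (w η : ℝ) (hw2 : 2 ≤ w) (hYw : (Y:ℝ) = w ^ 64) (hηinv : η * w ^ 16 = 1)
    (hη0 : 0 < η) (hT1 : 1 ≤ T) (hTw : (T:ℝ) ≤ 2 * w) (hq : 1 ≤ q) (hqT : q ≤ T) :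
    16 * (T:ℝ) ^ 2 / η ^ 2 ≤ (Xz Y q i : ℝ) ∨ 2 * Real.sqrt (T:ℝ) / η ≤ ((2 ^ i : ℕ) : ℝ) := by
  have hw12 : (2:ℝ) ^ 12 ≤ w ^ 12 := pow_le_pow_left₀ (by norm_num) hw2 12
  have hww : (1:ℝ) ≤ w := by linarith
  have hw0 : 0 < w := by linarith
  have hT0 : (0:ℝ) < T := by exact_mod_cast hT1
  have hsqrtT : Real.sqrt (T:ℝ) ≤ 2 * w := by
    have h6 : (1:ℝ) ≤ T := by exact_mod_cast hT1
    have h7 : Real.sqrt (T:ℝ) ≤ (T:ℝ) := by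
      rw [Real.sqrt_le_left (by linarith)]
      nlinarith
    linarith
  by_cases hU : 2 * Real.sqrt (T:ℝ) / η ≤ ((2 ^ i : ℕ) : ℝ)
  · exact Or.inr hU
  · left
    have hU' := not_le.1 hU
    have hinv : 1 / η = w ^ 16 := by
      rw [div_eq_iff hη0.ne']
      linarith
    have h8 : 2 * Real.sqrt (T:ℝ) / η = 2 * Real.sqrt (T:ℝ) * (1 / η) := by ring
    rw [h8, hinv] at hU'
    have h9 : 2 * Real.sqrt (T:ℝ) * w ^ 16 ≤ 2 * (2 * w) * w ^ 16 := by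
      apply mul_le_mul_of_nonneg_right _ (by positivity)
      linarith
    have hU2 : ((2 ^ i : ℕ) : ℝ) ≤ 4 * w ^ 17 := by
      calc ((2 ^ i : ℕ) : ℝ) ≤ 2 * (2 * w) * w ^ 16 := hU'.le.trans h9
        _ = 4 * w ^ 17 := by ring
    have hq2 : (q:ℝ) ≤ 2 * w := by
      have : (q:ℝ) ≤ T := by exact_mod_cast hqT
      linarith
    have hU0 : (0:ℝ) < ((2 ^ i : ℕ) : ℝ) := by positivity
    set A : ℕ := 2 * q * 2 ^ i with hA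
    have hA0 : 0 < A := by positivity
    have hAr : (A:ℝ) ≤ 16 * w ^ 18 := by
      have : (A:ℝ) = 2 * (q:ℝ) * ((2 ^ i : ℕ) : ℝ) := by
        rw [hA]; push_cast; ring
      rw [this]
      calc 2 * (q:ℝ) * ((2 ^ i : ℕ) : ℝ) ≤ 2 * (2 * w) * (4 * w ^ 17) := by
            apply mul_le_mul _ hU2 hU0.le (by positivity)
            linarith
        _ = 16 * w ^ 18 := by ring
    set t : ℕ := Y / A with ht
    have ht1 : (Y:ℝ) < (A:ℝ) * ((t:ℝ) + 1) := by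
      have := Nat.lt_mul_div_succ Y hA0
      have h10 : (Y:ℝ) < ((A * (Y / A + 1) : ℕ) : ℝ) := by exact_mod_cast this
      rw [ht]
      push_cast at h10
      exact h10
    have ht2 : w ^ 46 ≤ 16 * ((t:ℝ) + 1) := by
      have h11 : (Y:ℝ) < 16 * w ^ 18 * ((t:ℝ) + 1) :=
        lt_of_lt_of_le ht1 (mul_le_mul_of_nonneg_right hAr (by positivity))
      rw [hYw] at h11
      have h12 : w ^ 18 * w ^ 46 < w ^ 18 * (16 * ((t:ℝ) + 1)) := by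
        calc w ^ 18 * w ^ 46 = w ^ 64 := by ring
          _ < 16 * w ^ 18 * ((t:ℝ) + 1) := h11
          _ = _ := by ring
      exact (lt_of_mul_lt_mul_left h12 (by positivity)).le
    have htX : (t:ℝ) ≤ (Xz Y q i : ℝ) := by
      have : t ≤ Xz Y q i := le_max_right _ _
      exact_mod_cast this
    have hη2 : 16 * (T:ℝ) ^ 2 / η ^ 2 = 16 * (T:ℝ) ^ 2 * (w ^ 16) ^ 2 := by
      rw [← hinv]
      field_simp
    rw [hη2]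
    have hT2w : (T:ℝ) ^ 2 ≤ (2 * w) ^ 2 := pow_le_pow_left₀ hT0.le hTw 2
    have hw34 : 1 ≤ w ^ 34 := one_le_pow₀ hww
    have hfin : 16 * (2 * w) ^ 2 * (w ^ 16) ^ 2 ≤ (t:ℝ) := by
      have h13 : 16 * (2 * w) ^ 2 * (w ^ 16) ^ 2 = 64 * w ^ 34 := by ring
      rw [h13]
      have h14 : w ^ 46 = w ^ 12 * w ^ 34 := by ring
      have h15 : 4096 * w ^ 34 ≤ w ^ 46 := by
        rw [h14]
        apply mul_le_mul_of_nonneg_right _ (by positivity)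
        linarith
      linarith
    calc 16 * (T:ℝ) ^ 2 * (w ^ 16) ^ 2 ≤ 16 * (2 * w) ^ 2 * (w ^ 16) ^ 2 := by
          apply mul_le_mul_of_nonneg_right _ (by positivity)
          linarith
      _ ≤ (t:ℝ) := hfin
      _ ≤ _ := htX

/-- `p1_bound` applied to one family. -/
theorem off_P (ε ν ν₀ : ℝ) (hε : 0 < ε) (hε1 : ε < 1) (hν : 0 < ν) (hν1 : ν ≤ 1 / 16) (hν₀ : 0 < ν₀)
    (hν₀1 : ν₀ ≤ ν / 8) (hν₀2 : ν₀ ≤ 1 / 64) :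
    ∃ C : ℝ, 0 < C ∧ ∃ Y0 : ℕ, ∀ Y : ℕ, Y0 ≤ Y → ∀ β : ℝ,
      MA β ⌊(Y:ℝ) ^ ν⌋₊ ((Y:ℝ) ^ (-(1 / 4 : ℝ))) →
      let p := par ε ν₀ Y
      ∀ q i : ℕ, 1 ≤ q → q ≤ p.T →
        ∑ x ∈ Ico (Xz Y q i) (8 * Xz Y q i), ∑ x' ∈ (Ico (Xz Y q i) (8 * Xz Y q i)).filter (· ≠ x),
            (Nat.gcd x x' : ℝ) * hh (β * q) (2 ^ i) (max x x' - min x x')
          ≤ C * (Xz Y q i : ℝ) ^ 2 * ((2 ^ i : ℕ) : ℝ) ^ 2 * (1 + Real.log (Xz Y q i : ℝ))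
              * (1 / ((2 ^ i : ℕ) : ℝ) + 1 / (p.T : ℝ)) := by
  have hD : (1:ℝ) ≤ 2 / ν := by
    rw [le_div_iff₀ hν]; linarith
  obtain ⟨C, hC, hp1⟩ := p1_bound (2 / ν) hD
  obtain ⟨Y1, hY1⟩ := par_facts ε ν₀ hε hε1 hν₀ hν₀2
  have hnat : Tendsto (fun Y : ℕ => (Y:ℝ)) atTop atTop := tendsto_natCast_atTop_atTop
  have h1 : ∀ᶠ Y : ℕ in atTop, (2:ℝ) ≤ (Y:ℝ) ^ (ν / 8) :=
    ((tendsto_rpow_atTop (by positivity : 0 < ν / 8)).comp hnat).eventually (eventually_ge_atTop 2)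
  have h2 : ∀ᶠ Y : ℕ in atTop, (2:ℝ) ≤ (Y:ℝ) ^ ((1:ℝ) / 64) :=
    ((tendsto_rpow_atTop (by norm_num : (0:ℝ) < 1 / 64)).comp hnat).eventually
      (eventually_ge_atTop 2)
  obtain ⟨Y2, hY2⟩ := eventually_atTop.1 (h1.and h2)
  refine ⟨C, hC, max (max Y1 Y2) 1, fun Y hY β hMA => ?_⟩
  intro p q i hq hqT
  have hYa : Y1 ≤ Y := le_trans (le_trans (le_max_left _ _) (le_max_left _ _)) hY
  have hYb : Y2 ≤ Y := le_trans (le_trans (le_max_right _ _) (le_max_left _ _)) hY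
  have hY1' : 1 ≤ Y := le_trans (le_max_right _ _) hY
  obtain ⟨hb2, hw2⟩ := hY2 Y hYb
  obtain ⟨_, _, _, _, hT2, hTle, _⟩ := hY1 Y hYa
  have hT2' : 2 ≤ p.T := hT2
  have hTle' : (p.T:ℝ) ≤ 2 * (Y:ℝ) ^ ν₀ := hTle
  have hYr : (1:ℝ) ≤ Y := by exact_mod_cast hY1'
  have hY0 : (0:ℝ) < Y := by linarith
  set b : ℝ := (Y:ℝ) ^ (ν / 8) with hb
  set w : ℝ := (Y:ℝ) ^ ((1:ℝ) / 64) with hw
  have hb0 : 0 < b := by linarith
  have hw0 : 0 < w := by linarith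
  have ha : (Y:ℝ) ^ ν = b ^ 8 := by
    rw [hb, ← Real.rpow_natCast, ← Real.rpow_mul hY0.le]
    congr 1
    push_cast
    ring
  have hb4 : (Y:ℝ) ^ (ν / 2) = b ^ 4 := by
    rw [hb, ← Real.rpow_natCast, ← Real.rpow_mul hY0.le]
    congr 1
    push_cast
    ring
  have hYw : (Y:ℝ) = w ^ 64 := by
    rw [hw, ← Real.rpow_natCast, ← Real.rpow_mul hY0.le]
    norm_num
  have hTb : (p.T:ℝ) ≤ 2 * b := by
    refine hTle'.trans ?_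
    have := Real.rpow_le_rpow_of_exponent_le hYr hν₀1
    linarith
  have hTw : (p.T:ℝ) ≤ 2 * w := by
    refine hTle'.trans ?_
    have := Real.rpow_le_rpow_of_exponent_le hYr hν₀2
    linarith
  have hT0 : (0:ℝ) < p.T := by exact_mod_cast (by omega : 0 < p.T)
  set n1 : ℕ := ⌊(Y:ℝ) ^ ν⌋₊ with hn1
  set N0 : ℕ := n1 / p.T with hN0
  have hb2' : (2:ℝ) ^ 4 ≤ b ^ 4 := pow_le_pow_left₀ (by norm_num) hb2 4
  have hb3' : (2:ℝ) ^ 3 ≤ b ^ 3 := pow_le_pow_left₀ (by norm_num) hb2 3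
  -- `T ^ 4 ≤ n1`
  have hT4 : p.T ^ 3 * p.T ≤ n1 := by
    apply Nat.le_floor
    rw [ha]
    push_cast
    have h3 : (p.T:ℝ) ^ 3 * p.T = (p.T:ℝ) ^ 4 := by ring
    rw [h3]
    calc (p.T:ℝ) ^ 4 ≤ (2 * b) ^ 4 := pow_le_pow_left₀ hT0.le hTb 4
      _ = 16 * b ^ 4 := by ring
      _ ≤ b ^ 4 * b ^ 4 := by
          apply mul_le_mul_of_nonneg_right _ (by positivity)
          linarith
      _ = b ^ 8 := by ring
  have hN3 : p.T ^ 3 ≤ N0 := (Nat.le_div_iff_mul_le (by omega)).2 hT4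
  have hR3 : (p.T:ℝ) ^ 3 ≤ (N0:ℝ) := by exact_mod_cast hN3
  -- `Y ^ (ν / 2) ≤ N0`
  have hb4N : b ^ 4 ≤ (N0:ℝ) := by
    have hc1 := Nat.le_ceil (b ^ 4)
    have hc2 : (⌈b ^ 4⌉₊ : ℝ) < b ^ 4 + 1 := Nat.ceil_lt_add_one (by positivity)
    have hmul : ⌈b ^ 4⌉₊ * p.T ≤ n1 := by
      apply Nat.le_floor
      rw [ha]
      push_cast
      have hb1 : 1 ≤ b ^ 4 := by linarith
      calc (⌈b ^ 4⌉₊ : ℝ) * p.T ≤ (b ^ 4 + 1) * (2 * b) :=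
            mul_le_mul hc2.le hTb hT0.le (by positivity)
        _ ≤ (2 * b ^ 4) * (2 * b) := by
            apply mul_le_mul_of_nonneg_right _ (by positivity)
            linarith
        _ = 4 * b ^ 5 := by ring
        _ ≤ b ^ 3 * b ^ 5 := by
            apply mul_le_mul_of_nonneg_right _ (by positivity)
            linarith
        _ = b ^ 8 := by ring
    have hle : ⌈b ^ 4⌉₊ ≤ N0 := (Nat.le_div_iff_mul_le (by omega)).2 hmul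
    have hle' : (⌈b ^ 4⌉₊ : ℝ) ≤ (N0:ℝ) := by exact_mod_cast hle
    linarith
  -- `X0` facts
  have hX01 : 1 ≤ Xz Y q i := le_max_left _ _
  have hX0Y : Xz Y q i ≤ Y := max_le hY1' (Nat.div_le_self _ _)
  have hXN : (Xz Y q i : ℝ) ≤ (N0:ℝ) ^ (2 / ν) := by
    have h3 : (Xz Y q i : ℝ) ≤ Y := by exact_mod_cast hX0Y
    refine h3.trans ?_
    have h4 : (Y:ℝ) = (b ^ 4) ^ (2 / ν) := by
      rw [← hb4, ← Real.rpow_mul hY0.le]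
      have : ν / 2 * (2 / ν) = 1 := by field_simp
      rw [this, Real.rpow_one]
    rw [h4]
    exact Real.rpow_le_rpow (by positivity) hb4N (by positivity)
  -- `η`
  set η : ℝ := (Y:ℝ) ^ (-(1 / 4 : ℝ)) with hη
  have hη0 : 0 < η := Real.rpow_pos_of_pos hY0 _
  have hη1 : η ≤ 1 := Real.rpow_le_one_of_one_le_of_nonpos hYr (by norm_num)
  have hηinv : η * w ^ 16 = 1 := by
    have h5 : w ^ 16 = (Y:ℝ) ^ ((1:ℝ) / 4) := by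
      rw [hw, ← Real.rpow_natCast, ← Real.rpow_mul hY0.le]
      norm_num
    rw [h5, hη, ← Real.rpow_add hY0]
    norm_num
  have hMA' : ∀ n : ℕ, 1 ≤ n → n ≤ N0 → η ≤ dn ((n:ℝ) * (β * q)) := by
    intro n hn hnN
    have hle : n * q ≤ n1 := by
      calc n * q ≤ N0 * p.T := Nat.mul_le_mul hnN hqT
        _ ≤ n1 := Nat.div_mul_le_self _ _
    have := hMA (n * q) (Nat.mul_pos hn hq) hle
    have he : ((n:ℝ) * (β * q)) = ((n * q : ℕ):ℝ) * β := by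
      push_cast; ring
    rw [he]
    exact this
  have hcase : 16 * (p.T:ℝ) ^ 2 / η ^ 2 ≤ (Xz Y q i : ℝ) ∨
      2 * Real.sqrt (p.T:ℝ) / η ≤ ((2 ^ i : ℕ) : ℝ) :=
    off_case Y q i p.T w η hw2 hYw hηinv hη0 (by omega) hTw hq hqT
  have hR : (1:ℝ) ≤ (p.T:ℝ) := by exact_mod_cast (by omega : 1 ≤ p.T)
  exact hp1 (β * q) N0 (Xz Y q i) (2 ^ i) η (p.T:ℝ) hX01 Nat.one_le_two_pow hη0 hη1 hR hR3 hXN hMA'
    hcase


/-- Polynomial against exponential. -/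
lemma poly_exp (c A L : ℝ) (hc : 0 < c) (hL : 0 < L) (h : 720 * A / c ^ 6 ≤ L) :
    A * L ^ 5 ≤ Real.exp (c * L) := by
  have h1 := Real.pow_div_factorial_le_exp (c * L) (by positivity) 6
  refine le_trans ?_ h1
  have h2 : (Nat.factorial 6 : ℝ) = 720 := by norm_num [Nat.factorial]
  rw [h2, le_div_iff₀ (by norm_num)]
  have h3 : 720 * A ≤ L * c ^ 6 := by
    rw [div_le_iff₀ (by positivity)] at h
    exact h
  have h4 : 0 ≤ L ^ 5 := by positivity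
  calc A * L ^ 5 * 720 = (720 * A) * L ^ 5 := by ring
    _ ≤ (L * c ^ 6) * L ^ 5 := mul_le_mul_of_nonneg_right h3 h4
    _ = (c * L) ^ 6 := by ring

/-- The power of `50 k ^ 2` on a family. -/
lemma pow_off {lam : ℝ} {k r Q0 T : ℕ} (hlam : 1 ≤ lam) (hk : 50 * (k:ℝ) ≤ lam) (hr : 1 ≤ r)
    (hQ : lam ^ 16 ≤ (Q0:ℝ)) (hQT : Q0 ^ (r - 1) ≤ T) :
    (50 * (k:ℝ) ^ 2) ^ r ≤ lam ^ 2 * (T:ℝ) ^ ((1:ℝ) / 8) := by
  have hk0 : (0:ℝ) ≤ k := Nat.cast_nonneg _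
  have hlam0 : 0 ≤ lam := by linarith
  have hkl : (k:ℝ) ≤ lam := by linarith
  have h1 : 50 * (k:ℝ) ^ 2 ≤ lam ^ 2 := by
    calc 50 * (k:ℝ) ^ 2 = (50 * (k:ℝ)) * k := by ring
      _ ≤ lam * lam := mul_le_mul hk hkl hk0 hlam0
      _ = lam ^ 2 := by ring
  have h2 : 0 ≤ 50 * (k:ℝ) ^ 2 := by positivity
  obtain ⟨s, rfl⟩ : ∃ s, r = s + 1 := ⟨r - 1, by omega⟩
  simp only [Nat.add_sub_cancel] at hQT
  have h3 : (lam ^ 2) ^ s ≤ (T:ℝ) ^ ((1:ℝ) / 8) := by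
    have h4 : ((lam ^ 2) ^ s) ^ 8 ≤ (T:ℝ) := by
      have h5 : ((lam ^ 2) ^ s) ^ 8 = (lam ^ 16) ^ s := by
        ring
      rw [h5]
      have h6 : (lam ^ 16) ^ s ≤ (Q0:ℝ) ^ s := pow_le_pow_left₀ (by positivity) hQ s
      have h7 : ((Q0 ^ s : ℕ):ℝ) ≤ (T:ℝ) := by exact_mod_cast hQT
      push_cast at h7
      linarith
    have h8 : 0 ≤ (lam ^ 2) ^ s := by positivity
    have h9 := Real.rpow_le_rpow (by positivity) h4 (by norm_num : (0:ℝ) ≤ (1:ℝ) / 8)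
    have h10 : (((lam ^ 2) ^ s) ^ 8) ^ ((1:ℝ) / 8) = (lam ^ 2) ^ s := by
      have := Real.pow_rpow_inv_natCast h8 (by norm_num : (8:ℕ) ≠ 0)
      norm_num at this ⊢
      exact this
    rw [h10] at h9
    exact h9
  calc (50 * (k:ℝ) ^ 2) ^ (s + 1) = (50 * (k:ℝ) ^ 2) ^ s * (50 * (k:ℝ) ^ 2) := pow_succ _ _
    _ ≤ (lam ^ 2) ^ s * lam ^ 2 :=
        mul_le_mul (pow_le_pow_left₀ h2 h1 s) h1 h2 (by positivity)
    _ ≤ (T:ℝ) ^ ((1:ℝ) / 8) * lam ^ 2 := mul_le_mul_of_nonneg_right h3 (by positivity)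
    _ = _ := by ring

/-- The size of a family. -/
lemma Xz_mul_le {Y Y' q i : ℕ} (hq : 1 ≤ q) (hY' : Y' ≤ 2 * Y) (hqU : q * 2 ^ i < Y') :
    (Xz Y q i : ℝ) * ((2 ^ i : ℕ) : ℝ) ≤ 2 * (Y:ℝ) / q := by
  have hq0 : (0:ℝ) < q := by exact_mod_cast hq
  rw [le_div_iff₀ hq0]
  have hmax : (Xz Y q i : ℝ) = max 1 ((Y / (2 * q * 2 ^ i) : ℕ) : ℝ) := by
    unfold Xz
    push_cast
    rfl
  rw [hmax]
  rcases le_total (1:ℝ) ((Y / (2 * q * 2 ^ i) : ℕ) : ℝ) with h | h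
  · rw [max_eq_right h]
    have h1 : Y / (2 * q * 2 ^ i) * (2 * q * 2 ^ i) ≤ Y := Nat.div_mul_le_self _ _
    have h2 : ((Y / (2 * q * 2 ^ i) : ℕ) : ℝ) * (2 * (q:ℝ) * ((2 ^ i : ℕ) : ℝ)) ≤ (Y:ℝ) := by
      exact_mod_cast h1
    have h3 : (0:ℝ) ≤ (Y:ℝ) := Nat.cast_nonneg _
    nlinarith
  · rw [max_eq_left h]
    have h1 : ((q * 2 ^ i : ℕ) : ℝ) ≤ ((2 * Y : ℕ) : ℝ) := by
      exact_mod_cast (hqU.le.trans hY')
    push_cast at h1 ⊢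
    linarith

/-- Combination of the bounds. -/
lemma off_combine {E M Sj sP Y' lam2 T8 L2 sq : ℝ} (hE0 : 0 ≤ E) (hM0 : 0 ≤ M) (hS0 : 0 ≤ Sj) (hP0 : 0 ≤ sP)
    (hY0 : 0 ≤ Y') (hl0 : 0 ≤ lam2) (hT8 : 0 < T8) (hL0 : 0 ≤ L2) (hsq : 0 ≤ sq)
    (hE : E ≤ lam2 * T8) (hM : M ≤ 9 * L2) (hS : Sj ≤ 6 * T8)
    (hP : sP ≤ (2 * Y') * (sq / T8 ^ 4))
    (hfin : 108 * lam2 * L2 * sq ≤ T8 ^ 2) : E * (M * (Sj * sP)) ≤ Y' := by
  have h1 : E * (M * (Sj * sP)) ≤ (lam2 * T8) * ((9 * L2) * ((6 * T8) * ((2 * Y') * (sq / T8 ^ 4)))) := by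
    apply mul_le_mul hE _ (by positivity) (by positivity)
    apply mul_le_mul hM _ (by positivity) (by positivity)
    apply mul_le_mul hS hP hP0 (by positivity)
  refine h1.trans ?_
  have h2 : (lam2 * T8) * ((9 * L2) * ((6 * T8) * ((2 * Y') * (sq / T8 ^ 4))))
      = Y' * ((108 * lam2 * L2 * sq) / T8 ^ 2) := by
    field_simp
    ring
  rw [h2]
  have h3 : (108 * lam2 * L2 * sq) / T8 ^ 2 ≤ 1 := by
    rw [div_le_one (by positivity)]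
    exact hfin
  calc Y' * ((108 * lam2 * L2 * sq) / T8 ^ 2) ≤ Y' * 1 := mul_le_mul_of_nonneg_left h3 hY0
    _ = Y' := mul_one _

/-- The bound for the logarithm. -/
lemma log2_add_one_le {Y Y' : ℕ} {L : ℝ} (hL : L = Real.log Y) (hY : 1 ≤ Y) (h3 : 3 ≤ L)
    (hY' : Y' ≤ 2 * Y) : (Nat.log 2 Y' : ℝ) + 1 ≤ 3 * L := by
  have hYpos : (0:ℝ) < Y := by exact_mod_cast hY
  have hlog2 : (1:ℝ) / 2 ≤ Real.log 2 := by
    have := Real.log_two_gt_d9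
    linarith
  have hlog2' : Real.log 2 ≤ 1 := by
    have := Real.log_le_sub_one_of_pos (show (0:ℝ) < 2 by norm_num)
    linarith
  have hI1 : ((Nat.log 2 Y' : ℕ):ℝ) * Real.log 2 ≤ Real.log 2 + L := by
    rcases Nat.eq_zero_or_pos Y' with h0 | h0
    · subst h0
      simp only [Nat.log_zero_right, Nat.cast_zero, zero_mul]
      linarith
    · have hpow : 2 ^ Nat.log 2 Y' ≤ 2 * Y := (Nat.pow_log_le_self 2 (by omega)).trans hY'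
      have hpow' : (2:ℝ) ^ Nat.log 2 Y' ≤ 2 * (Y:ℝ) := by exact_mod_cast hpow
      have := Real.log_le_log (by positivity) hpow'
      rw [Real.log_pow, Real.log_mul (by norm_num) hYpos.ne', ← hL] at this
      exact this
  have hn0 : (0:ℝ) ≤ ((Nat.log 2 Y' : ℕ):ℝ) := Nat.cast_nonneg _
  nlinarith

/-- The square root of the off-diagonal bound. -/
lemma sqrt_off {C X U T L Yq : ℝ} (hC : 0 < C) (hX : 1 ≤ X) (hU : 0 < U) (hT : 0 < T) (hL0 : 0 ≤ L)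
    (hlog : Real.log X ≤ L) (hTU : T < 2 * U) (hXU : X * U ≤ 2 * Yq) :
    Real.sqrt (C * X ^ 2 * U ^ 2 * (1 + Real.log X) * (1 / U + 1 / T))
      ≤ (2 * Yq) * (Real.sqrt (3 * C * (1 + L)) / Real.sqrt T) := by
  have h1 : 1 / U + 1 / T ≤ 3 / T := by
    have : 1 / U ≤ 2 / T := by
      rw [div_le_div_iff₀ hU hT]
      linarith
    have h2 : 3 / T = 2 / T + 1 / T := by ring
    linarith
  have hlog0 : 0 ≤ Real.log X := Real.log_nonneg hX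
  have h3 : C * X ^ 2 * U ^ 2 * (1 + Real.log X) * (1 / U + 1 / T)
      ≤ (X * U) ^ 2 * ((3 * C * (1 + L)) / T) := by
    have hpos : 0 ≤ C * X ^ 2 * U ^ 2 := by positivity
    calc C * X ^ 2 * U ^ 2 * (1 + Real.log X) * (1 / U + 1 / T)
        ≤ C * X ^ 2 * U ^ 2 * (1 + L) * (3 / T) := by
          apply mul_le_mul _ h1 (by positivity) (by positivity)
          exact mul_le_mul_of_nonneg_left (by linarith) hpos
      _ = _ := by ring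
  have hXU0 : 0 ≤ X * U := by
    have : 0 < X := by linarith
    positivity
  calc _ ≤ Real.sqrt ((X * U) ^ 2 * ((3 * C * (1 + L)) / T)) := Real.sqrt_le_sqrt h3
    _ = (X * U) * (Real.sqrt (3 * C * (1 + L)) / Real.sqrt T) := by
        rw [Real.sqrt_mul (by positivity), Real.sqrt_sq hXU0, Real.sqrt_div (by positivity)]
    _ ≤ _ := by
        apply mul_le_mul_of_nonneg_right hXU
        positivity

lemma off_T8big {Y T : ℕ} {ν₀ : ℝ} (hYr : (0:ℝ) < Y) (hT0 : (0:ℝ) < T) (h2 : (Y:ℝ) ^ ν₀ ≤ (T:ℝ)) :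
    Real.exp (ν₀ / 4 * Real.log Y) ≤ ((T:ℝ) ^ ((1:ℝ) / 8)) ^ 2 := by
  have h1 : ((T:ℝ) ^ ((1:ℝ) / 8)) ^ 2 = (T:ℝ) ^ ((1:ℝ) / 4) := by
    rw [← Real.rpow_natCast, ← Real.rpow_mul hT0.le]
    norm_num
  rw [h1]
  have h3 := Real.rpow_le_rpow (by positivity) h2 (by norm_num : (0:ℝ) ≤ (1:ℝ) / 4)
  refine le_trans (le_of_eq ?_) h3
  rw [← Real.rpow_mul hYr.le, Real.rpow_def_of_pos hYr]
  congr 1
  ring

lemma off_Sj {T S2 j2 : ℕ} {lam : ℝ} (hS2 : S2 = ⌈(T:ℝ) ^ ((1:ℝ) / 16)⌉₊)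
    (hlamj : lam ^ j2 ≤ (T:ℝ) ^ ((1:ℝ) / 16)) (hlam0 : 0 ≤ lam) (hT0 : (0:ℝ) < T)
    (hT1 : (1:ℝ) ≤ T) :
    3 * (S2:ℝ) * lam ^ j2 ≤ 6 * (T:ℝ) ^ ((1:ℝ) / 8) := by
  have hT1616 : (T:ℝ) ^ ((1:ℝ) / 16) * (T:ℝ) ^ ((1:ℝ) / 16) = (T:ℝ) ^ ((1:ℝ) / 8) := by
    rw [← Real.rpow_add hT0]
    norm_num
  have hpos : 0 < (T:ℝ) ^ ((1:ℝ) / 16) := Real.rpow_pos_of_pos hT0 _
  have hone : 1 ≤ (T:ℝ) ^ ((1:ℝ) / 16) := Real.one_le_rpow hT1 (by norm_num)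
  have hS : (S2:ℝ) ≤ 2 * (T:ℝ) ^ ((1:ℝ) / 16) := by
    rw [hS2]
    have := Nat.ceil_lt_add_one (a := (T:ℝ) ^ ((1:ℝ) / 16)) hpos.le
    linarith
  have h1 : 0 ≤ lam ^ j2 := by positivity
  have h2 : (0:ℝ) ≤ (S2:ℝ) := Nat.cast_nonneg _
  rw [← hT1616]
  calc 3 * (S2:ℝ) * lam ^ j2 ≤ 3 * (2 * (T:ℝ) ^ ((1:ℝ) / 16)) * (T:ℝ) ^ ((1:ℝ) / 16) := by
        apply mul_le_mul _ hlamj h1 (by positivity)
        linarith
    _ = _ := by ring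

lemma off_sq {C L : ℝ} (hC : 0 < C) (hL : 1 ≤ L) :
    Real.sqrt (3 * C * (1 + L)) ≤ (1 + 3 * C) * (2 * L) := by
  have hx0 : 0 ≤ 3 * C * (1 + L) := by positivity
  have h1 : Real.sqrt (3 * C * (1 + L)) ≤ 1 + 3 * C * (1 + L) := by
    rw [Real.sqrt_le_left (by positivity)]
    nlinarith
  nlinarith

lemma off_fin {C L lam ν₀ sq T82 : ℝ} (hC : 0 < C) (hL3 : 3 ≤ L) (hν₀ : 0 < ν₀)
    (hLbig : 720 * (216 * (1 + 3 * C)) / (ν₀ / 4) ^ 6 ≤ L) (hlam0 : 0 ≤ lam) (hlamL : lam ≤ L)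
    (hsq0 : 0 ≤ sq) (hsqle : sq ≤ (1 + 3 * C) * (2 * L)) (hT : Real.exp (ν₀ / 4 * L) ≤ T82) :
    108 * lam ^ 2 * L ^ 2 * sq ≤ T82 := by
  have hL0 : 0 < L := by linarith
  have h1 := poly_exp (ν₀ / 4) (216 * (1 + 3 * C)) L (by positivity) hL0 hLbig
  refine le_trans ?_ (h1.trans hT)
  have h2 : lam ^ 2 ≤ L ^ 2 := pow_le_pow_left₀ hlam0 hlamL 2
  calc 108 * lam ^ 2 * L ^ 2 * sq ≤ 108 * L ^ 2 * L ^ 2 * ((1 + 3 * C) * (2 * L)) := by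
        apply mul_le_mul _ hsqle hsq0 (by positivity)
        apply mul_le_mul_of_nonneg_right _ (by positivity)
        linarith
    _ = _ := by ring

/-- The numerical core of the off-diagonal term. -/
lemma off_core {C ν₀ lam : ℝ} {k r q i j2 S2 T Q0 Y Y' : ℕ} (hC : 0 < C) (hν₀ : 0 < ν₀)
    (hL3 : 3 ≤ Real.log (Y:ℝ)) (hLbig : 720 * (216 * (1 + 3 * C)) / (ν₀ / 4) ^ 6 ≤ Real.log (Y:ℝ))
    (hYd : 1 ≤ Y) (hY' : Y' ≤ 2 * Y) (hl1 : 1 ≤ lam) (hlamL : lam ≤ Real.log (Y:ℝ))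
    (hlamj : lam ^ j2 ≤ (T:ℝ) ^ ((1:ℝ) / 16)) (hS2 : S2 = ⌈(T:ℝ) ^ ((1:ℝ) / 16)⌉₊)
    (hQ0 : lam ^ 16 ≤ (Q0:ℝ)) (hT2 : 2 ≤ T) (hTY : (Y:ℝ) ^ ν₀ ≤ (T:ℝ))
    (hk : 50 * (k:ℝ) ≤ lam) (hr : 1 ≤ r) (hq : 1 ≤ q) (hQT : Q0 ^ (r - 1) ≤ T)
    (hTU : T < 2 * 2 ^ i) (hqU : q * 2 ^ i < Y') :
    (50 * (k:ℝ) ^ 2) ^ r * (((Nat.log 2 Y' : ℝ) + 1) ^ 2 * (3 * (S2:ℝ) * lam ^ j2 *
      Real.sqrt (C * (Xz Y q i : ℝ) ^ 2 * ((2 ^ i : ℕ) : ℝ) ^ 2 * (1 + Real.log (Xz Y q i : ℝ))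
        * (1 / ((2 ^ i : ℕ) : ℝ) + 1 / (T : ℝ))))) ≤ (Y:ℝ) / q := by
  set L := Real.log (Y:ℝ) with hL
  have hL0 : 0 < L := by linarith
  have hYr : (0:ℝ) < Y := by exact_mod_cast hYd
  have hT0 : (0:ℝ) < T := by exact_mod_cast (by omega : 0 < T)
  have hT1 : (1:ℝ) ≤ T := by exact_mod_cast (by omega : 1 ≤ T)
  have hq0 : (0:ℝ) < q := by exact_mod_cast hq
  have hlam0 : 0 ≤ lam := by linarith
  have hT8pos : 0 < (T:ℝ) ^ ((1:ℝ) / 8) := Real.rpow_pos_of_pos hT0 _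
  have hsqrtT : Real.sqrt (T:ℝ) = ((T:ℝ) ^ ((1:ℝ) / 8)) ^ 4 := by
    rw [Real.sqrt_eq_rpow, ← Real.rpow_natCast, ← Real.rpow_mul hT0.le]
    norm_num
  have hX1 : (1:ℝ) ≤ (Xz Y q i : ℝ) := by
    have : 1 ≤ Xz Y q i := le_max_left _ _
    exact_mod_cast this
  have hXY : (Xz Y q i : ℝ) ≤ Y := by
    have : Xz Y q i ≤ Y := max_le hYd (Nat.div_le_self _ _)
    exact_mod_cast this
  have hlogX : Real.log (Xz Y q i : ℝ) ≤ L := Real.log_le_log (by linarith) hXY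
  have hU0 : (0:ℝ) < ((2 ^ i : ℕ) : ℝ) := by positivity
  have hTU' : (T:ℝ) < 2 * ((2 ^ i : ℕ) : ℝ) := by exact_mod_cast hTU
  have hXU' : (Xz Y q i : ℝ) * ((2 ^ i : ℕ) : ℝ) ≤ 2 * ((Y:ℝ) / q) := by
    refine (Xz_mul_le hq hY' hqU).trans (le_of_eq ?_)
    ring
  have hsq0 : 0 ≤ Real.sqrt (3 * C * (1 + L)) := Real.sqrt_nonneg _
  have hsP := sqrt_off hC hX1 hU0 hT0 hL0.le hlogX hTU' hXU'
  rw [hsqrtT] at hsP
  have hSj := off_Sj hS2 hlamj hlam0 hT0 hT1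
  have hE := pow_off hl1 hk hr hQ0 hQT
  have hI := log2_add_one_le hL hYd hL3 hY'
  have hI0 : (0:ℝ) ≤ (Nat.log 2 Y' : ℝ) + 1 := by positivity
  have hM : ((Nat.log 2 Y' : ℝ) + 1) ^ 2 ≤ 9 * L ^ 2 := by
    calc ((Nat.log 2 Y' : ℝ) + 1) ^ 2 ≤ (3 * L) ^ 2 := pow_le_pow_left₀ hI0 hI 2
      _ = _ := by ring
  have hsqle := off_sq (L := L) hC (by linarith)
  have hT8big := off_T8big hYr hT0 hTY
  have hfin := off_fin hC hL3 hν₀ hLbig hlam0 hlamL hsq0 hsqle hT8big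
  exact off_combine (E := (50 * (k:ℝ) ^ 2) ^ r) (lam2 := lam ^ 2) (T8 := (T:ℝ) ^ ((1:ℝ) / 8))
    (L2 := L ^ 2) (sq := Real.sqrt (3 * C * (1 + L)))
    (by positivity) (by positivity) (by positivity) (Real.sqrt_nonneg _) (by positivity)
    (by positivity) hT8pos (by positivity) hsq0 hE hM hSj hsP hfin

/-- The off-diagonal term of one family. -/
theorem off_diag (ε ν ν₀ : ℝ) (hε : 0 < ε) (hε1 : ε < 1) (hν : 0 < ν) (hν1 : ν ≤ 1 / 16) (hν₀ : 0 < ν₀)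
    (hν₀1 : ν₀ ≤ ν / 8) (hν₀2 : ν₀ ≤ 1 / 64) :
    ∃ Y0 : ℕ, ∀ Y Y' : ℕ, Y0 ≤ Y → Y' ≤ 2 * Y → ∀ β : ℝ,
      MA β ⌊(Y:ℝ) ^ ν⌋₊ ((Y:ℝ) ^ (-(1 / 4 : ℝ))) →
      let p := par ε ν₀ Y
      ∀ k r q i : ℕ, 50 * (k:ℝ) ≤ p.lam → 1 ≤ r → 1 ≤ q → q ≤ p.T → p.Q0 ^ (r - 1) ≤ p.T →
        p.T < 2 * 2 ^ i → q * 2 ^ i < Y' →
        ∃ Pbar : ℝ,
          (∑ x ∈ Ico (Xz Y q i) (8 * Xz Y q i), ∑ x' ∈ (Ico (Xz Y q i) (8 * Xz Y q i)).filter (· ≠ x),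
            (Nat.gcd x x' : ℝ) * hh (β * q) (2 ^ i) (max x x' - min x x') ≤ Pbar) ∧
          (50 * (k:ℝ) ^ 2) ^ r * (((Nat.log 2 Y' : ℝ) + 1) ^ 2 *
            (3 * (p.S2:ℝ) * p.lam ^ p.j2 * Real.sqrt Pbar)) ≤ (Y:ℝ) / q := by
  obtain ⟨C, hC, Y1, hY1⟩ := off_P ε ν ν₀ hε hε1 hν hν1 hν₀ hν₀1 hν₀2
  obtain ⟨Y2, hY2⟩ := par_facts ε ν₀ hε hε1 hν₀ hν₀2
  have htend : Tendsto (fun Y : ℕ => Real.log (Y:ℝ)) atTop atTop :=
    Real.tendsto_log_atTop.comp tendsto_natCast_atTop_atTop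
  obtain ⟨Y3, hY3⟩ := eventually_atTop.1 ((htend.eventually_ge_atTop 3).and
    (htend.eventually_ge_atTop (720 * (216 * (1 + 3 * C)) / (ν₀ / 4) ^ 6)))
  refine ⟨max (max Y1 Y2) (max Y3 1), fun Y Y' hY hY' β hMA => ?_⟩
  intro p k r q i hk hr hq hqT hQT hTU hqU
  have hYa : Y1 ≤ Y := le_trans (le_trans (le_max_left _ _) (le_max_left _ _)) hY
  have hYb : Y2 ≤ Y := le_trans (le_trans (le_max_right _ _) (le_max_left _ _)) hY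
  have hYc : Y3 ≤ Y := le_trans (le_trans (le_max_left _ _) (le_max_right _ _)) hY
  have hYd : 1 ≤ Y := le_trans (le_trans (le_max_right _ _) (le_max_right _ _)) hY
  obtain ⟨hL3, hLbig⟩ := hY3 Y hYc
  have hP1 := hY1 Y hYa β hMA q i hq hqT
  obtain ⟨_, _, _, hl1000, hT2, _, hlamL, hlamj, _⟩ := hY2 Y hYb
  refine ⟨_, hP1, ?_⟩
  have hl1 : 1 ≤ p.lam := by
    have : (1000:ℝ) ≤ p.lam := hl1000
    linarith
  exact off_core hC hν₀ hL3 hLbig hYd hY' hl1 hlamL hlamj p.hS2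
    (by rw [p.hQ0]; exact Nat.le_ceil _) hT2 (by rw [p.hT]; exact Nat.le_ceil _) hk hr hq hQT hTU hqU

end

end Vale.Agent.Lib.P028K
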