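import Vale.Agent.Lib.P028K.KLpar

/-! Helper for KL_m: the Rankin bound for many top primes, and the power bound for few. -/

open Finset Filter

namespace Vale.Agent.Lib.P028K

open Vale.Agent.Lib.P028
open Vale.Agent.Lib.P028T

noncomputable section

private lemma eventual_num (ε ν₀ : ℝ) (hε : 0 < ε) (hν : 0 < ν₀) :
    ∀ᶠ L : ℝ in atTop, 100 ≤ ν₀ * L ∧ 400 ≤ L ^ (ε / 4) ∧ 1 ≤ Real.log L ∧
      1632 * Real.log L ≤ L ^ ((1:ℝ) / 2) ∧ 64 * Real.log L ≤ L ∧ 100 ≤ L := by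
  have h1 : ∀ᶠ L : ℝ in atTop, 100 ≤ ν₀ * L :=
    (tendsto_id.const_mul_atTop hν).eventually (eventually_ge_atTop 100)
  have h2 : ∀ᶠ L : ℝ in atTop, 400 ≤ L ^ (ε / 4) :=
    (tendsto_rpow_atTop (by positivity)).eventually (eventually_ge_atTop 400)
  have h3 : ∀ᶠ L : ℝ in atTop, 1 ≤ Real.log L :=
    Real.tendsto_log_atTop.eventually (eventually_ge_atTop 1)
  have h4 : ∀ᶠ L : ℝ in atTop, 1632 * Real.log L ≤ L ^ ((1:ℝ) / 2) := by
    have := (isLittleO_log_rpow_atTop (r := (1:ℝ) / 2) (by norm_num)).bound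
      (c := 1 / 1632) (by norm_num)
    filter_upwards [this, eventually_gt_atTop 1] with L hL hL1
    rw [Real.norm_of_nonneg (Real.log_nonneg hL1.le),
      Real.norm_of_nonneg (by positivity)] at hL
    linarith
  have h5 : ∀ᶠ L : ℝ in atTop, 64 * Real.log L ≤ L := by
    have := (Real.isLittleO_log_id_atTop).bound (c := 1 / 64) (by norm_num)
    filter_upwards [this, eventually_gt_atTop 1] with L hL hL1
    simp only [id_eq] at hL
    rw [Real.norm_of_nonneg (Real.log_nonneg hL1.le),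
      Real.norm_of_nonneg (by linarith)] at hL
    linarith
  filter_upwards [h1, h2, h3, h4, h5, eventually_ge_atTop 100] with L a1 a2 a3 a4 a5 a6
  exact ⟨a1, a2, a3, a4, a5, a6⟩

private lemma case_top {L ℓ D w sw sL : ℝ} (hL : 100 ≤ L) (hℓ : 0 < ℓ) (hD : D ≤ ℓ)
    (h8 : w * (8 * D) ≤ 1 + L / 64) (hℓL : 64 * ℓ ≤ L)
    (hsw : sw ≤ sL) (hsq : 1632 * ℓ ≤ sL) (hsLL : sL * sL = L) (hsL0 : 0 ≤ sL) :
    2 * (w + 1) * D + 3 * (sw * (17 * ℓ)) ≤ (1 / 4) * (L / 2) := by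
  have h1 : 2 * (w * D) ≤ L / 32 := by
    have : w * (8 * D) = 8 * (w * D) := by ring
    rw [this] at h8
    linarith
  have h2 : 2 * D ≤ L / 32 := by linarith
  have h4 : sw * ℓ ≤ sL * ℓ := mul_le_mul_of_nonneg_right hsw hℓ.le
  have h5 : sL * (1632 * ℓ) ≤ sL * sL := mul_le_mul_of_nonneg_left hsq hsL0
  have h6 : 2 * (w + 1) * D = 2 * (w * D) + 2 * D := by ring
  have h7 : 3 * (sw * (17 * ℓ)) = 51 * (sw * ℓ) := by ring
  have h8' : sL * (1632 * ℓ) = 1632 * (sL * ℓ) := by ring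
  rw [h6, h7]
  rw [hsLL, h8'] at h5
  linarith

private lemma case_eta0 {L ℓ D w sw lz lw ν₀ ε : ℝ} (hε : 0 < ε) (hL : 0 < L) (hℓ : 0 < ℓ) (hD : D ≤ ℓ)
    (hw : 0 < w) (hlz : 0 < lz) (hsw : 20 ≤ sw) (hswsq : sw * sw = w)
    (hwlz : w * lz ≤ (6 / 5) * (ν₀ * L)) (hlw : (ε / 4) * ℓ ≤ lw) (hν : ν₀ ≤ ε / 100) :
    2 * (w + 1) * D + 3 * (sw * (17 * ℓ)) ≤ ((1 / 2) * lw / lz) * (L / 2) := by
  have h5 : 5 * w * ℓ ≤ ((1 / 2) * lw / lz) * (L / 2) := by
    have hh : ((1 / 2) * lw / lz) * (L / 2) = (lw * L) / (4 * lz) := by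
      field_simp
      ring
    rw [hh, le_div_iff₀ (by positivity)]
    have h6 : 5 * w * ℓ * (4 * lz) = 20 * ℓ * (w * lz) := by ring
    rw [h6]
    have h7 : 20 * ℓ * (w * lz) ≤ 20 * ℓ * ((6 / 5) * (ν₀ * L)) :=
      mul_le_mul_of_nonneg_left hwlz (by positivity)
    have h8 : 20 * ℓ * ((6 / 5) * (ν₀ * L)) = (24 * ν₀) * ℓ * L := by ring
    have h9 : (24 * ν₀) * ℓ ≤ lw := by
      have h10 : 24 * ν₀ ≤ ε / 4 := by linarith
      have := mul_le_mul_of_nonneg_right h10 hℓ.le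
      linarith
    have h10 := mul_le_mul_of_nonneg_right h9 hL.le
    linarith
  have h6 : 2 * (w + 1) * D ≤ 2 * (w + 1) * ℓ :=
    mul_le_mul_of_nonneg_left hD (by positivity)
  have h7 : 2 + 51 * sw ≤ 3 * w := by
    rw [← hswsq]
    nlinarith
  have h8 := mul_le_mul_of_nonneg_right h7 hℓ.le
  have h9 : 2 * (w + 1) * ℓ + 3 * (sw * (17 * ℓ)) = 2 * w * ℓ + (2 + 51 * sw) * ℓ := by ring
  have h10 : 5 * w * ℓ = 2 * w * ℓ + 3 * w * ℓ := by ring
  linarith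

/-- Bound for the logarithm of `z`. -/
private lemma logz_facts {T : ℕ} {w ν₀ L : ℝ} (hT2 : (2:ℝ) ≤ T) (hw : 1 ≤ w)
    (hlogT : Real.log T ≤ 1 + ν₀ * L) (h100 : 100 ≤ ν₀ * L) (h8 : 8 * w ≤ Real.log T) :
    let A : ℝ := (T:ℝ) ^ ((1:ℝ) / w)
    let z : ℕ := ⌈A⌉₊
    2 ≤ z ∧ 0 < Real.log z ∧ w * Real.log z ≤ (6 / 5) * (ν₀ * L) ∧ Real.log z ≤ 2 + ν₀ * L := by
  intro A z
  have hT0 : (0:ℝ) < T := by linarith
  have hw0 : 0 < w := by linarith
  have hlogT0 : 0 < Real.log T := by linarith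
  set t : ℝ := Real.log T / w with ht
  have ht8 : 8 ≤ t := by
    rw [ht, le_div_iff₀ hw0]
    linarith
  have hA0 : 0 < A := by positivity
  have hlogA : Real.log A = t := by
    show Real.log ((T:ℝ) ^ ((1:ℝ) / w)) = t
    rw [Real.log_rpow hT0, ht]
    field_simp
  have hA2 : 2 ≤ A := by
    have h1 : (2:ℝ) ≤ Real.exp 1 := by
      have := Real.exp_one_gt_d9
      linarith
    have h2 : Real.exp 1 ≤ A := by
      rw [← Real.exp_log hA0, hlogA]
      exact Real.exp_le_exp.mpr (by linarith)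
    linarith
  have hAz : A ≤ z := Nat.le_ceil A
  have hzlt : (z:ℝ) < A + 1 := Nat.ceil_lt_add_one hA0.le
  have hz2r : (2:ℝ) ≤ z := by linarith
  have hz2 : 2 ≤ z := by exact_mod_cast hz2r
  have hz0 : (0:ℝ) < z := by linarith
  have hlog2 : Real.log 2 ≤ 1 := by
    have := Real.log_two_lt_d9
    linarith
  have hlogz1 : Real.log z ≤ 1 + t := by
    have h1 : Real.log z ≤ Real.log (2 * A) := Real.log_le_log hz0 (by linarith)
    rw [Real.log_mul (by norm_num) hA0.ne', hlogA] at h1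
    linarith
  have hlogz0 : 0 < Real.log z := Real.log_pos (by linarith)
  have h1 : w * t = Real.log T := by
    rw [ht]; field_simp
  have h2 : w * Real.log z ≤ w * ((9 / 8) * t) :=
    mul_le_mul_of_nonneg_left (by linarith) hw0.le
  have h3 : w * ((9 / 8) * t) = (9 / 8) * (w * t) := by ring
  have ht_le : t ≤ Real.log T := by
    rw [ht]
    exact div_le_self hlogT0.le hw
  refine ⟨hz2, hlogz0, ?_, by linarith⟩
  rw [h3, h1] at h2
  linarith

private lemma mer_bound {z : ℕ} {L ℓ : ℝ} (hz2 : 2 ≤ z) (hL : 100 ≤ L) (hℓ : ℓ = Real.log L) (hℓ1 : 1 ≤ ℓ)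
    (hz : Real.log z ≤ L) : Mer z ≤ 17 * ℓ := by
  have h1 := Mer_le z hz2
  have hL0 : 0 < L := by linarith
  have hz0 : (1:ℝ) < z := by
    have : (2:ℝ) ≤ z := by exact_mod_cast hz2
    linarith
  have hlz : 0 < Real.log z := Real.log_pos hz0
  have h2 : 2 * Real.log z + 2 ≤ 3 * L := by linarith
  have h3 : Real.log (2 * Real.log z + 2) ≤ Real.log (3 * L) :=
    Real.log_le_log (by linarith) h2
  rw [Real.log_mul (by norm_num) hL0.ne', ← hℓ] at h3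
  have h4 : Real.log 3 ≤ 2 := by
    have h5 : Real.log 3 ≤ Real.log (Real.exp 2) := by
      apply Real.log_le_log (by norm_num)
      have := Real.add_one_le_exp (2:ℝ)
      linarith
    rwa [Real.log_exp] at h5
  linarith

private lemma mer_nonneg (z : ℕ) : 0 ≤ Mer z := by
  unfold Mer
  exact Finset.sum_nonneg (fun _ _ => by positivity)

/-- The Rankin step in clean form. -/
private lemma rankin_clean {X0 z r k : ℕ} {lam L ℓ w η Dexp : ℝ} (b : Finset ℕ) (hX1 : 1 ≤ X0)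
    (hz2 : 2 ≤ z) (hη : 0 < η) (hη1 : η ≤ 1 / 4) (hlogx : L / 2 ≤ Real.log ((8 * X0 : ℕ) : ℝ))
    (hb : ∀ x ∈ b, 1 ≤ x ∧ x < 8 * X0 ∧ bigP x < z) (hw : 0 ≤ w)
    (hzη : (z:ℝ) ^ η ≤ Real.sqrt w) (hMer : Mer z ≤ 17 * ℓ) (hlam : 0 < lam) (hk : 50 * (k:ℝ) ≤ lam)
    (hDexp : Dexp = 2 * (r:ℝ) * Real.log lam)
    (hexp : Dexp + 3 * (Real.sqrt w * (17 * ℓ)) ≤ η * (L / 2)) :
    (50 * (k:ℝ) ^ 2) ^ r * (b.card : ℝ) ≤ 8 * X0 := by
  have hx1 : 1 ≤ 8 * X0 := by omega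
  have hcount := smooth_count (8 * X0) z hx1 hz2 η hη hη1
  have hbsub : b ⊆ (Icc 1 (8 * X0)).filter (fun n => bigP n < z) := by
    intro x hx
    obtain ⟨h1, h2, h3⟩ := hb x hx
    rw [Finset.mem_filter, Finset.mem_Icc]
    exact ⟨⟨h1, h2.le⟩, h3⟩
  have hcard : (b.card : ℝ) ≤ (((Icc 1 (8 * X0)).filter (fun n => bigP n < z)).card : ℝ) := by
    exact_mod_cast Finset.card_le_card hbsub
  set x : ℝ := ((8 * X0 : ℕ) : ℝ) with hx
  have hx0 : 0 < x := by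
    have : (1:ℝ) ≤ x := by
      rw [hx]
      exact_mod_cast hx1
    linarith
  have hk0 : (0:ℝ) ≤ k := Nat.cast_nonneg _
  have hkk : 50 * (k:ℝ) ^ 2 ≤ lam ^ 2 := by nlinarith
  have hpow : (50 * (k:ℝ) ^ 2) ^ r ≤ Real.exp Dexp := by
    have h1 : (50 * (k:ℝ) ^ 2) ^ r ≤ (lam ^ 2) ^ r := pow_le_pow_left₀ (by positivity) hkk r
    have h3 : lam ^ 2 = Real.exp (2 * Real.log lam) := by
      rw [show 2 * Real.log lam = Real.log lam + Real.log lam by ring, Real.exp_add, Real.exp_log hlam]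
      ring
    have h2 : (lam ^ 2) ^ r = Real.exp Dexp := by
      rw [h3, ← Real.exp_nat_mul, hDexp]
      congr 1
      ring
    linarith
  have hzm : (z:ℝ) ^ η * Mer z ≤ Real.sqrt w * (17 * ℓ) :=
    mul_le_mul hzη hMer (mer_nonneg z) (Real.sqrt_nonneg _)
  have hE : Real.exp (3 * (z:ℝ) ^ η * Mer z) ≤ Real.exp (3 * (Real.sqrt w * (17 * ℓ))) :=
    Real.exp_le_exp.mpr (by linarith)
  have hxpow : x ^ (1 - η) ≤ x * Real.exp (-(η * (L / 2))) := by
    rw [Real.rpow_sub hx0, Real.rpow_one, div_eq_mul_inv]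
    apply mul_le_mul_of_nonneg_left _ hx0.le
    rw [Real.exp_neg]
    apply inv_anti₀ (Real.exp_pos _)
    rw [Real.rpow_def_of_pos hx0]
    apply Real.exp_le_exp.mpr
    have := mul_le_mul_of_nonneg_left hlogx hη.le
    linarith
  have hcount' : (b.card : ℝ) ≤ x * Real.exp (-(η * (L / 2))) * Real.exp (3 * (Real.sqrt w * (17 * ℓ))) := by
    refine hcard.trans (hcount.trans ?_)
    have h0 : 0 ≤ x ^ (1 - η) := by positivity
    exact mul_le_mul hxpow hE (Real.exp_pos _).le (by positivity)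
  have hcn : (0:ℝ) ≤ (b.card : ℝ) := Nat.cast_nonneg _
  calc (50 * (k:ℝ) ^ 2) ^ r * (b.card : ℝ)
      ≤ Real.exp Dexp * (x * Real.exp (-(η * (L / 2))) * Real.exp (3 * (Real.sqrt w * (17 * ℓ)))) :=
        mul_le_mul hpow hcount' hcn (Real.exp_pos _).le
    _ = x * Real.exp (Dexp + 3 * (Real.sqrt w * (17 * ℓ)) - η * (L / 2)) := by
        rw [Real.exp_sub, Real.exp_add, Real.exp_neg]
        field_simp
    _ ≤ x * 1 := by
        apply mul_le_mul_of_nonneg_left _ hx0.le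
        rw [Real.exp_le_one_iff]
        linarith
    _ = 8 * X0 := by
        rw [hx]
        push_cast
        ring

/-- Many top primes: the `r`-th power of `50 k²` is absorbed by Rankin's trick. `z` is the
smoothness bound `⌈T^(1/(r-1))⌉`. -/
theorem rankin_top (ε ν₀ : ℝ) (hε : 0 < ε) (hε1 : ε < 1) (hν : 0 < ν₀) (hν2 : ν₀ ≤ ε / 100)
    (hν1 : ν₀ ≤ 1 / 64) :
    ∃ Y0 : ℕ, ∀ Y : ℕ, Y0 ≤ Y →
      let p := par ε ν₀ Y
      ∀ k r X0 : ℕ, 50 * (k:ℝ) ≤ p.lam →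
      (Real.log Y) ^ (ε / 4) ≤ (r:ℝ) - 1 → p.Q0 ^ (r - 1) ≤ p.T →
      (Y:ℝ) ^ ((1:ℝ) / 2) ≤ X0 →
      ∀ b : Finset ℕ, (∀ x ∈ b, 1 ≤ x ∧ x < 8 * X0 ∧ bigP x < ⌈(p.T:ℝ) ^ ((1:ℝ) / ((r:ℝ) - 1))⌉₊) →
      (50 * (k:ℝ) ^ 2) ^ r * (b.card : ℝ) ≤ 8 * X0 := by
  obtain ⟨Y1, hY1⟩ := par_facts ε ν₀ hε hε1 hν hν1
  have htend : Tendsto (fun Y : ℕ => Real.log (Y:ℝ)) atTop atTop :=
    Real.tendsto_log_atTop.comp tendsto_natCast_atTop_atTop
  have hev := htend.eventually (eventual_num ε ν₀ hε hν)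
  obtain ⟨Y2, hY2⟩ := eventually_atTop.mp hev
  refine ⟨max Y1 Y2, ?_⟩
  intro Y hY p k r X0 hk hr hQT hX0 b hb
  obtain ⟨-, hQ8, -, hlam1000, hT2, hTle, hlamL, -, -⟩ := hY1 Y (le_trans (le_max_left _ _) hY)
  obtain ⟨hE1, hE3, hE4, hE5, hE6, hE7⟩ := hY2 Y (le_trans (le_max_right _ _) hY)
  generalize hLdef : Real.log (Y:ℝ) = L at *
  generalize hℓdef : Real.log L = ℓ at *
  have hY0 : (0:ℝ) < Y := by
    rcases Nat.eq_zero_or_pos Y with h | h
    · rw [h] at hLdef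
      simp at hLdef
      rw [← hLdef] at hE7
      norm_num at hE7
    · exact_mod_cast h
  generalize hlamdef : p.lam = lam at *
  generalize hTdef : p.T = T at *
  generalize hQ0def : p.Q0 = Q0 at *
  have hlam0 : 0 < lam := by linarith
  have hD1 : 1 ≤ Real.log lam := by
    rw [Real.le_log_iff_exp_le hlam0]
    have := Real.exp_one_lt_d9
    linarith
  have hDℓ : Real.log lam ≤ ℓ := by
    rw [← hℓdef]
    exact Real.log_le_log hlam0 hlamL
  have hw400 : 400 ≤ (r:ℝ) - 1 := le_trans hE3 hr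
  have hr1 : 1 ≤ r := by
    by_contra h
    have hr0 : r = 0 := by omega
    rw [hr0] at hw400
    norm_num at hw400
  have hr' : ((r - 1 : ℕ) : ℝ) = (r:ℝ) - 1 := by
    rw [Nat.cast_sub hr1]
    simp
  generalize hwdef : (r:ℝ) - 1 = w at *
  have hw0 : 0 < w := by linarith
  have hT2' : (2:ℝ) ≤ T := by exact_mod_cast hT2
  have hT0 : (0:ℝ) < T := by linarith
  have hlog2 : Real.log 2 ≤ 1 := by
    have := Real.log_two_lt_d9
    linarith
  have hlogT : Real.log T ≤ 1 + ν₀ * L := by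
    have h1 : Real.log T ≤ Real.log (2 * (Y:ℝ) ^ ν₀) := Real.log_le_log hT0 hTle
    rw [Real.log_mul (by norm_num) (by positivity), Real.log_rpow hY0, hLdef] at h1
    linarith
  have hlogQ : 8 * Real.log lam ≤ Real.log Q0 := by
    have h1 : Real.log (lam ^ 8) ≤ Real.log Q0 := Real.log_le_log (by positivity) hQ8
    rw [Real.log_pow] at h1
    exact_mod_cast h1
  have hQ00 : (0:ℝ) < Q0 := lt_of_lt_of_le (by positivity) hQ8
  have hwQ : w * Real.log Q0 ≤ Real.log T := by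
    have h1 : ((Q0 ^ (r - 1) : ℕ) : ℝ) ≤ T := by exact_mod_cast hQT
    have h2 := Real.log_le_log (by rw [Nat.cast_pow]; exact pow_pos hQ00 _) h1
    rw [Nat.cast_pow, Real.log_pow, hr'] at h2
    exact h2
  have hw8D : w * (8 * Real.log lam) ≤ Real.log T :=
    le_trans (mul_le_mul_of_nonneg_left hlogQ hw0.le) hwQ
  have hν0L2 : ν₀ * L ≤ L / 64 := by
    have hL0 : 0 ≤ L := by linarith
    have := mul_le_mul_of_nonneg_right hν1 hL0
    linarith
  have hw8 : 8 * w ≤ Real.log T := by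
    have : w * 8 ≤ w * (8 * Real.log lam) := mul_le_mul_of_nonneg_left (by linarith) hw0.le
    linarith
  have hwL : w ≤ L := by linarith
  obtain ⟨hz2, hlz, hwlz, hlzle⟩ := logz_facts hT2' (by linarith) hlogT hE1 hw8
  generalize hzdef : ⌈(T:ℝ) ^ ((1:ℝ) / w)⌉₊ = z at *
  have hMer : Mer z ≤ 17 * ℓ := mer_bound hz2 hE7 hℓdef.symm hE4 (by linarith)
  have hz0 : (0:ℝ) < z := by
    have : (2:ℝ) ≤ z := by exact_mod_cast hz2
    linarith
  have hlogw0 : 0 < Real.log w := Real.log_pos (by linarith)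
  have hL0 : 0 < L := by linarith
  have hlogw : (ε / 4) * ℓ ≤ Real.log w := by
    have h1 : Real.log (L ^ (ε / 4)) ≤ Real.log w :=
      Real.log_le_log (by positivity) hr
    rw [Real.log_rpow hL0, hℓdef] at h1
    exact h1
  have hY1' : (1:ℝ) ≤ Y := by
    have : Y ≠ 0 := by
      intro h
      rw [h] at hY0
      simp at hY0
    exact_mod_cast Nat.one_le_iff_ne_zero.mpr this
  have hX0' : (1:ℝ) ≤ X0 := by
    have h1 : (1:ℝ) ≤ (Y:ℝ) ^ ((1:ℝ) / 2) := Real.one_le_rpow hY1' (by norm_num)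
    linarith
  have hX01 : 1 ≤ X0 := by exact_mod_cast hX0'
  have hlogx : L / 2 ≤ Real.log ((8 * X0 : ℕ) : ℝ) := by
    have h1 : (Y:ℝ) ^ ((1:ℝ) / 2) ≤ ((8 * X0 : ℕ) : ℝ) := by
      push_cast
      linarith
    have h2 := Real.log_le_log (by positivity) h1
    rw [Real.log_rpow hY0, hLdef] at h2
    linarith
  -- the exponent
  have hsqw20 : 20 ≤ Real.sqrt w := Real.le_sqrt_of_sq_le (by linarith)
  have hsqwsq : Real.sqrt w * Real.sqrt w = w := Real.mul_self_sqrt hw0.le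
  have hℓ0 : 0 < ℓ := by linarith
  set η0 : ℝ := (1 / 2) * Real.log w / Real.log z with hη0
  have hη0pos : 0 < η0 := by positivity
  have hrw : (r:ℝ) = w + 1 := by rw [← hwdef]; ring
  have hsq : 1632 * ℓ ≤ Real.sqrt L := by
    rw [Real.sqrt_eq_rpow]
    exact hE5
  have hcase1 : 2 * (w + 1) * Real.log lam + 3 * (Real.sqrt w * (17 * ℓ)) ≤ (1 / 4) * (L / 2) :=
    case_top hE7 hℓ0 hDℓ (by linarith) hE6 (Real.sqrt_le_sqrt hwL) hsq
      (Real.mul_self_sqrt hL0.le) (Real.sqrt_nonneg _)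
  have hcase2 : 2 * (w + 1) * Real.log lam + 3 * (Real.sqrt w * (17 * ℓ)) ≤ η0 * (L / 2) :=
    case_eta0 hε hL0 hℓ0 hDℓ hw0 hlz hsqw20 hsqwsq hwlz hlogw hν2
  have hηpos : 0 < min (1 / 4) η0 := lt_min (by norm_num) hη0pos
  have hzη : (z:ℝ) ^ (min (1 / 4) η0) ≤ Real.sqrt w := by
    have h1 : (z:ℝ) ^ (min (1 / 4) η0) = Real.exp (Real.log z * min (1 / 4) η0) :=
      Real.rpow_def_of_pos hz0 _
    have h2 : Real.log z * min (1 / 4) η0 ≤ (1 / 2) * Real.log w := by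
      have h4 : Real.log z * min (1 / 4) η0 ≤ Real.log z * η0 :=
        mul_le_mul_of_nonneg_left (min_le_right _ _) hlz.le
      have h3 : Real.log z * η0 = (1 / 2) * Real.log w := by
        rw [hη0]; field_simp
      linarith
    rw [h1, Real.sqrt_eq_rpow, Real.rpow_def_of_pos hw0]
    apply Real.exp_le_exp.mpr
    linarith
  have hexp : 2 * (r:ℝ) * Real.log lam + 3 * (Real.sqrt w * (17 * ℓ)) ≤ min (1 / 4) η0 * (L / 2) := by
    rw [hrw]
    rcases le_total (1 / 4) η0 with hc | hc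
    · rw [min_eq_left hc]
      exact hcase1
    · rw [min_eq_right hc]
      exact hcase2
  exact rankin_clean b hX01 hz2 hηpos (min_le_left _ _) hlogx hb hw0.le hzη hMer hlam0 hk rfl hexp

/-- Few top primes: `(50 k²)^r` is at most `exp(L^ε/16)` for `r ≤ L^(ε/4) + 1`. -/
theorem pow_few (ε : ℝ) (hε : 0 < ε) :
    ∃ Y0 : ℕ, ∀ Y : ℕ, Y0 ≤ Y → ∀ (k r : ℕ) (lam : ℝ), 0 < lam → lam ≤ Real.log Y → 50 * (k:ℝ) ≤ lam →
      (r:ℝ) ≤ (Real.log Y) ^ (ε / 4) + 1 →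
      (50 * (k:ℝ) ^ 2) ^ r ≤ Real.exp ((Real.log Y) ^ ε / 16) := by
  have hev : ∀ᶠ L : ℝ in atTop, 1 ≤ L ∧ 64 * Real.log L ≤ L ^ (ε / 2) := by
    have := (isLittleO_log_rpow_atTop (r := ε / 2) (by positivity)).bound
      (c := 1 / 64) (by norm_num)
    filter_upwards [this, eventually_gt_atTop 1] with L hL hL1
    rw [Real.norm_of_nonneg (Real.log_nonneg hL1.le),
      Real.norm_of_nonneg (by positivity)] at hL
    exact ⟨hL1.le, by linarith⟩
  have htend : Tendsto (fun Y : ℕ => Real.log (Y:ℝ)) atTop atTop :=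
    Real.tendsto_log_atTop.comp tendsto_natCast_atTop_atTop
  obtain ⟨Y2, hY2⟩ := eventually_atTop.mp (htend.eventually hev)
  refine ⟨Y2, ?_⟩
  intro Y hY k r lam hlam hlamL hk hr
  obtain ⟨hL1, hL2⟩ := hY2 Y hY
  generalize hLdef : Real.log (Y:ℝ) = L at *
  have hL0 : 0 < L := by linarith
  have hk0 : (0:ℝ) ≤ k := Nat.cast_nonneg _
  have hkk : 50 * (k:ℝ) ^ 2 ≤ L ^ 2 := by
    have h1 : 50 * (k:ℝ) ≤ L := by linarith
    nlinarith
  have hpow : (50 * (k:ℝ) ^ 2) ^ r ≤ Real.exp ((r:ℝ) * (2 * Real.log L)) := by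
    have h1 : (50 * (k:ℝ) ^ 2) ^ r ≤ (L ^ 2) ^ r := pow_le_pow_left₀ (by positivity) hkk r
    have h3 : L ^ 2 = Real.exp (2 * Real.log L) := by
      rw [show 2 * Real.log L = Real.log L + Real.log L by ring, Real.exp_add, Real.exp_log hL0]
      ring
    rw [h3, ← Real.exp_nat_mul] at h1
    exact h1
  refine hpow.trans (Real.exp_le_exp.mpr ?_)
  have hlogL0 : 0 ≤ Real.log L := Real.log_nonneg hL1
  have h1 : (r:ℝ) ≤ 2 * L ^ (ε / 4) := by
    have : 1 ≤ L ^ (ε / 4) := Real.one_le_rpow hL1 (by positivity)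
    linarith
  have h2 : L ^ ε = L ^ (ε / 4) * L ^ (ε / 4) * L ^ (ε / 2) := by
    rw [← Real.rpow_add hL0, ← Real.rpow_add hL0]
    congr 1
    ring
  have h5 : 1 ≤ L ^ (ε / 4) := Real.one_le_rpow hL1 (by positivity)
  have h3 : (r:ℝ) * (2 * Real.log L) ≤ 2 * L ^ (ε / 4) * (2 * Real.log L) :=
    mul_le_mul_of_nonneg_right h1 (by positivity)
  have h6 : L ^ (ε / 4) * (64 * Real.log L) ≤ L ^ (ε / 4) * L ^ (ε / 2) :=
    mul_le_mul_of_nonneg_left hL2 (by positivity)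
  have h7 : L ^ (ε / 4) * L ^ (ε / 2) ≤ L ^ (ε / 4) * (L ^ (ε / 4) * L ^ (ε / 2)) := by
    have h8 : 0 ≤ L ^ (ε / 4) * L ^ (ε / 2) := by positivity
    nlinarith
  have h9 : L ^ (ε / 4) * (L ^ (ε / 4) * L ^ (ε / 2)) = L ^ ε := by
    rw [h2]; ring
  have h10 : L ^ (ε / 4) * (64 * Real.log L) = 16 * (2 * L ^ (ε / 4) * (2 * Real.log L)) := by ring
  linarith

end

end Vale.Agent.Lib.P028K
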