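import Vale.Agent.Lib.P028K.KLpar

/-! KLmTop: assembling the families of the main set. Blueprint section 10.2. -/

open Finset

namespace Vale.Agent.Lib.P028K

open Vale.Agent.Lib.P028
open Vale.Agent.Lib.P028T

noncomputable section

variable {B M : ℕ} [NeZero M]

/-- One family of the main set: fixed `q`, `r` and dyadic size `2 ^ i` of the top part. -/
def Fam (P Q0 T S2 j2 Y Y' : ℕ) (β : ℝ) (q r i : ℕ) (ω : Om B M) : ℂ :=
  ∑ u ∈ (Uset Q0 T Y' q r).filter (fun u => 2 ^ i ≤ u ∧ u < 2 * 2 ^ i), ff ω u *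
    ∑ x ∈ (Bset P Q0 S2 j2 Y' q r).filter (fun x => bigP x < u.minFac ∧ q * u * x ∈ Ico Y Y'),
      ff ω x * ee (β * ((q * u * x : ℕ):ℝ))

/-- The sum over the main set in terms of the families. -/
lemma SS_eq_Fam (P Q0 W T S2 j2 Y Y' : ℕ) (hPQ : P ≤ Q0) (hQ : 2 ≤ Q0) (hT : 2 ≤ T) (hY : 1 ≤ Y)
    (β : ℝ) (ω : Om B M) :
    SS β (Mset P Q0 W T S2 j2 Y Y') ω = ∑ q ∈ Qset Q0 W, ff ω q *
      ∑ r ∈ range (Nat.log 2 Y' + 1), ∑ i ∈ range (Nat.log 2 Y' + 1),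
        Fam P Q0 T S2 j2 Y Y' β q r i ω := by
  unfold SS
  rw [decomp_M P Q0 W T S2 j2 Y Y' hPQ hQ hT hY (fun a => ff ω a * ee (β * (a:ℝ)))]
  refine Finset.sum_congr rfl (fun q hq => ?_)
  rw [Finset.mul_sum]
  refine Finset.sum_congr rfl (fun r _ => ?_)
  have hq0 : q ≠ 0 := by
    have := (mem_Icc.1 (mem_filter.1 hq).1).1
    omega
  -- split the top parts by size
  have hmaps : ∀ u ∈ Uset Q0 T Y' q r, Nat.log 2 u ∈ range (Nat.log 2 Y' + 1) := by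
    intro u hu
    have h1 := (mem_Icc.1 (mem_filter.1 hu).1).2
    rw [mem_range, Nat.lt_succ_iff]
    exact Nat.log_mono_right h1
  rw [← Finset.sum_fiberwise_of_maps_to hmaps, Finset.mul_sum]
  refine Finset.sum_congr rfl (fun i _ => ?_)
  unfold Fam
  have hfil : (Uset Q0 T Y' q r).filter (fun u => Nat.log 2 u = i)
      = (Uset Q0 T Y' q r).filter (fun u => 2 ^ i ≤ u ∧ u < 2 * 2 ^ i) := by
    refine Finset.filter_congr (fun u hu => ?_)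
    have h1 := (mem_Icc.1 (mem_filter.1 hu).1).1
    rw [Nat.log_eq_iff (Or.inr ⟨by norm_num, by omega⟩), pow_succ, mul_comm (2 ^ i) 2]
  rw [hfil, Finset.mul_sum]
  refine Finset.sum_congr rfl (fun u hu => ?_)
  have hu' := (mem_filter.1 hu).1
  have hu0 : u ≠ 0 := by
    have := (mem_Icc.1 (mem_filter.1 hu').1).1
    omega
  rw [Finset.mul_sum, Finset.mul_sum]
  refine Finset.sum_congr rfl (fun x hx => ?_)
  have hx' := (mem_filter.1 hx).1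
  have hx0 : x ≠ 0 := by
    have := (mem_Icc.1 (mem_filter.1 hx').1).1
    omega
  rw [ff_mul ω (mul_ne_zero hq0 hu0) hx0, ff_mul ω hq0 hu0]
  ring

/-- Top level assembly of the bound for the main set. -/
theorem KLm_top (P Q0 W T S2 j2 Y Y' k : ℕ) (hk : 1 ≤ k) (hPQ : P ≤ Q0) (hQ : 4 ≤ Q0) (hT : 2 ≤ T)
    (hY : 1 ≤ Y) (β E : ℝ) (hE : 0 ≤ E)
    (hfam : ∀ q ∈ Qset Q0 W, ∀ r ∈ range (Nat.log 2 Y' + 1), ∀ i ∈ range (Nat.log 2 Y' + 1),
      mm k (Fam (B := B) (M := M) P Q0 T S2 j2 Y Y' β q r i) ^ 2 ≤ (Y:ℝ) / q * E) :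
    mm k (SS (B := B) (M := M) β (Mset P Q0 W T S2 j2 Y Y')) ^ 2
      ≤ (((Nat.log 2 Y' + 1 : ℕ):ℝ)) ^ 4 * ((Y:ℝ) * E) * Real.exp (6 * Mer (W + 1)) := by
  set I : ℕ := Nat.log 2 Y' + 1 with hI
  set sq : ℝ := Real.sqrt ((Y:ℝ) * E) with hsq
  have hsq0 : 0 ≤ sq := Real.sqrt_nonneg _
  have hYE : 0 ≤ (Y:ℝ) * E := by positivity
  have hSS : (SS (B := B) (M := M) β (Mset P Q0 W T S2 j2 Y Y')) = fun ω =>
      ∑ q ∈ Qset Q0 W, ff ω q * ∑ r ∈ range I, ∑ i ∈ range I,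
        Fam (B := B) (M := M) P Q0 T S2 j2 Y Y' β q r i ω := by
    funext ω
    exact SS_eq_Fam P Q0 W T S2 j2 Y Y' hPQ (by omega) hT hY β ω
  -- the bound for one family
  have hone : ∀ q ∈ Qset Q0 W, ∀ r ∈ range I, ∀ i ∈ range I,
      mm k (Fam (B := B) (M := M) P Q0 T S2 j2 Y Y' β q r i) ≤ sq * (Real.sqrt q)⁻¹ := by
    intro q hq r hr i hi
    have hq1 : 1 ≤ q := (mem_Icc.1 (mem_filter.1 hq).1).1
    have hqpos : (0:ℝ) < q := by exact_mod_cast hq1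
    have h1 := hfam q hq r hr i hi
    have h2 : mm k (Fam (B := B) (M := M) P Q0 T S2 j2 Y Y' β q r i)
        ≤ Real.sqrt ((Y:ℝ) / q * E) := Real.le_sqrt_of_sq_le h1
    refine h2.trans (le_of_eq ?_)
    have h3 : (Y:ℝ) / q * E = ((Y:ℝ) * E) * ((q:ℝ))⁻¹ := by
      field_simp
    rw [h3, Real.sqrt_mul hYE, Real.sqrt_inv]
  have hsum : mm k (SS (B := B) (M := M) β (Mset P Q0 W T S2 j2 Y Y'))
      ≤ ∑ q ∈ Qset Q0 W, ∑ r ∈ range I, ∑ i ∈ range I, sq * (Real.sqrt q)⁻¹ := by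
    rw [hSS]
    refine (mm_sum k hk _ _).trans (Finset.sum_le_sum (fun q hq => ?_))
    rw [mm_unimod k hk _ _ (fun ω => norm_ff ω q)]
    refine (mm_sum k hk _ _).trans (Finset.sum_le_sum (fun r hr => ?_))
    refine (mm_sum k hk _ _).trans (Finset.sum_le_sum (fun i hi => ?_))
    exact hone q hq r hr i hi
  have hqs : ∑ q ∈ Qset Q0 W, (Real.sqrt q)⁻¹ ≤ Real.exp (3 * Mer (W + 1)) := by
    refine sum_squarefull Q0 (W + 1) hQ _ (fun a ha => ?_)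
    obtain ⟨h1, h2⟩ := mem_filter.1 ha
    obtain ⟨h3, h4⟩ := mem_Icc.1 h1
    refine ⟨by omega, h2, fun p hp => ?_⟩
    have := Nat.le_of_dvd (by omega) (Nat.dvd_of_mem_primeFactors hp)
    omega
  have hconst : ∑ q ∈ Qset Q0 W, ∑ r ∈ range I, ∑ i ∈ range I, sq * (Real.sqrt q)⁻¹
      = ((I:ℝ) ^ 2 * sq) * ∑ q ∈ Qset Q0 W, (Real.sqrt q)⁻¹ := by
    rw [Finset.mul_sum]
    refine Finset.sum_congr rfl (fun q _ => ?_)
    simp only [Finset.sum_const, card_range, nsmul_eq_mul]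
    ring
  rw [hconst] at hsum
  have hsum2 : mm k (SS (B := B) (M := M) β (Mset P Q0 W T S2 j2 Y Y'))
      ≤ ((I:ℝ) ^ 2 * sq) * Real.exp (3 * Mer (W + 1)) :=
    hsum.trans (mul_le_mul_of_nonneg_left hqs (by positivity))
  have hnn := mm_nonneg k (SS (B := B) (M := M) β (Mset P Q0 W T S2 j2 Y Y'))
  calc mm k (SS (B := B) (M := M) β (Mset P Q0 W T S2 j2 Y Y')) ^ 2
      ≤ (((I:ℝ) ^ 2 * sq) * Real.exp (3 * Mer (W + 1))) ^ 2 :=
        pow_le_pow_left₀ hnn hsum2 2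
    _ = (I:ℝ) ^ 4 * sq ^ 2 * (Real.exp (3 * Mer (W + 1))) ^ 2 := by ring
    _ = (I:ℝ) ^ 4 * ((Y:ℝ) * E) * Real.exp (6 * Mer (W + 1)) := by
        have h6 : Real.exp (3 * Mer (W + 1)) ^ 2 = Real.exp (6 * Mer (W + 1)) := by
          rw [← Real.exp_nat_mul]
          congr 1
          push_cast
          ring
        rw [hsq, Real.sq_sqrt hYE, h6]

end

end Vale.Agent.Lib.P028K
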