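import Vale.Agent.Lib.P028K.KLpar

/-! Part KLsp: everything outside the main set. Blueprint section 10.1. -/

open Finset

namespace Vale.Agent.Lib.P028K

open Vale.Agent.Lib.P028
open Vale.Agent.Lib.P028T

noncomputable section

/-! ### Factorisation of the parts -/

private lemma klsp_rg_fact (P a q : ℕ) :
    (rgP P a).factorization q = if q ∈ a.primeFactors ∧ P ≤ q then a.factorization q else 0 := by
  unfold rgP
  have h0 : ∀ p ∈ a.primeFactors.filter (P ≤ ·), p ^ a.factorization p ≠ 0 := by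
    intro p hp
    have := Nat.prime_of_mem_primeFactors (Finset.mem_filter.1 hp).1
    exact pow_ne_zero _ this.ne_zero
  rw [Nat.factorization_prod h0, Finsupp.finsetSum_apply]
  have h1 : ∀ p ∈ a.primeFactors.filter (P ≤ ·), (p ^ a.factorization p).factorization q
      = if p = q then a.factorization p else 0 := by
    intro p hp
    have hp' := Nat.prime_of_mem_primeFactors (Finset.mem_filter.1 hp).1
    rw [hp'.factorization_pow, Finsupp.single_apply]
  rw [Finset.sum_congr rfl h1, Finset.sum_ite_eq']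
  simp only [Finset.mem_filter]

private lemma klsp_sm_fact (P a q : ℕ) :
    (smP P a).factorization q = if q ∈ a.primeFactors ∧ q < P then a.factorization q else 0 := by
  unfold smP
  have h0 : ∀ p ∈ a.primeFactors.filter (· < P), p ^ a.factorization p ≠ 0 := by
    intro p hp
    have := Nat.prime_of_mem_primeFactors (Finset.mem_filter.1 hp).1
    exact pow_ne_zero _ this.ne_zero
  rw [Nat.factorization_prod h0, Finsupp.finsetSum_apply]
  have h1 : ∀ p ∈ a.primeFactors.filter (· < P), (p ^ a.factorization p).factorization q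
      = if p = q then a.factorization p else 0 := by
    intro p hp
    have hp' := Nat.prime_of_mem_primeFactors (Finset.mem_filter.1 hp).1
    rw [hp'.factorization_pow, Finsupp.single_apply]
  rw [Finset.sum_congr rfl h1, Finset.sum_ite_eq']
  simp only [Finset.mem_filter]

private lemma klsp_fact_ne {a q : ℕ} (h : q ∈ a.primeFactors) : a.factorization q ≠ 0 := by
  rw [← Nat.support_factorization] at h
  exact Finsupp.mem_support_iff.1 h

private lemma klsp_rg_primes (P a q : ℕ) :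
    q ∈ (rgP P a).primeFactors ↔ q ∈ a.primeFactors ∧ P ≤ q := by
  rw [← Nat.support_factorization (rgP P a), Finsupp.mem_support_iff, klsp_rg_fact]
  constructor
  · intro h
    by_contra hc
    exact h (if_neg hc)
  · intro h
    rw [if_pos h]
    exact klsp_fact_ne h.1

private lemma klsp_sm_primes (P a q : ℕ) (h : q ∈ (smP P a).primeFactors) : q < P := by
  rw [← Nat.support_factorization (smP P a), Finsupp.mem_support_iff, klsp_sm_fact] at h
  by_contra hc
  exact h (if_neg fun h' => hc h'.2)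

private lemma klsp_qP (P Q a : ℕ) (hPQ : P ≤ Q) : qP Q (rgP P a) = qP Q a := by
  unfold qP
  have hset : (rgP P a).primeFactors.filter (fun p => Q ≤ p ∧ 2 ≤ (rgP P a).factorization p)
      = a.primeFactors.filter (fun p => Q ≤ p ∧ 2 ≤ a.factorization p) := by
    ext q
    simp only [Finset.mem_filter, klsp_rg_primes, klsp_rg_fact]
    constructor
    · rintro ⟨⟨h1, h2⟩, h3, h4⟩
      rw [if_pos ⟨h1, h2⟩] at h4
      exact ⟨h1, h3, h4⟩
    · rintro ⟨h1, h3, h4⟩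
      have h2 : P ≤ q := hPQ.trans h3
      rw [if_pos ⟨h1, h2⟩]
      exact ⟨⟨h1, h2⟩, h3, h4⟩
  rw [hset]
  refine Finset.prod_congr rfl fun q hq => ?_
  have hq' := Finset.mem_filter.1 hq
  rw [klsp_rg_fact, if_pos ⟨hq'.1, hPQ.trans hq'.2.1⟩]

private lemma klsp_hc (P Q a : ℕ) (hPQ : P ≤ Q) : hc Q (rgP P a) = hc Q a := by
  unfold hc
  have hset : (rgP P a).primeFactors.filter (fun p => Q ≤ p ∧ (rgP P a).factorization p = 1)
      = a.primeFactors.filter (fun p => Q ≤ p ∧ a.factorization p = 1) := by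
    ext q
    simp only [Finset.mem_filter, klsp_rg_primes, klsp_rg_fact]
    constructor
    · rintro ⟨⟨h1, h2⟩, h3, h4⟩
      rw [if_pos ⟨h1, h2⟩] at h4
      exact ⟨h1, h3, h4⟩
    · rintro ⟨h1, h3, h4⟩
      have h2 : P ≤ q := hPQ.trans h3
      rw [if_pos ⟨h1, h2⟩]
      exact ⟨⟨h1, h2⟩, h3, h4⟩
  rw [hset]

/-! ### One fibre -/

private lemma klsp_fiber (lam : ℝ) (hlam : 0 ≤ lam) (P s : ℕ) (A D : Finset ℕ)
    (hA0 : ∀ a ∈ A, a ≠ 0) (hD : ∀ a ∈ A, smP P a = s → rgP P a ∈ D) :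
    ∑ a ∈ A.filter (fun a => smP P a = s), lam ^ OO (rgP P a) ≤ ∑ c ∈ D, lam ^ OO c := by
  have hinj : Set.InjOn (rgP P) ((A.filter (fun a => smP P a = s) : Finset ℕ) : Set ℕ) := by
    intro a ha b hb hab
    have ha' := Finset.mem_filter.1 ha
    have hb' := Finset.mem_filter.1 hb
    have e1 := smP_mul_rgP P a (hA0 a ha'.1)
    have e2 := smP_mul_rgP P b (hA0 b hb'.1)
    rw [← e1, ← e2, ha'.2, hb'.2, hab]
  rw [← Finset.sum_image (f := fun c => lam ^ OO c) hinj]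
  refine Finset.sum_le_sum_of_subset_of_nonneg ?_ fun c _ _ => pow_nonneg hlam _
  intro c hc
  obtain ⟨a, ha, rfl⟩ := Finset.mem_image.1 hc
  have ha' := Finset.mem_filter.1 ha
  exact hD a ha'.1 ha'.2

private lemma klsp_rough (P Y Y' a s : ℕ) (hY' : Y' ≤ 2 * Y) (ha : a ∈ Ico Y Y') (ha0 : a ≠ 0)
    (hs : smP P a = s) (hs0 : s ≠ 0) :
    rgP P a ∈ Rough P ((Y - 1) / s + 1) (2 * ((Y - 1) / s + 1)) := by
  have ha' := Finset.mem_Ico.1 ha
  have e1 := smP_mul_rgP P a ha0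
  rw [hs] at e1
  have hc0 := sp_rgP_ne_zero P a ha0
  have hspos : 0 < s := Nat.pos_of_ne_zero hs0
  obtain ⟨d, hd⟩ : ∃ d, d = (Y - 1) / s := ⟨_, rfl⟩
  have hmod := Nat.div_add_mod (Y - 1) s
  have hlt := Nat.mod_lt (Y - 1) hspos
  rw [← hd] at hmod ⊢
  have hsX : Y ≤ s * (d + 1) := by
    rw [Nat.mul_succ]
    omega
  refine Finset.mem_filter.2 ⟨Finset.mem_Ico.2 ⟨?_, ?_⟩, hc0, fun p hp => ((klsp_rg_primes P a p).1 hp).2⟩
  · by_contra hlt2
    push Not at hlt2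
    have : rgP P a ≤ d := by omega
    have h3 : s * rgP P a ≤ s * d := Nat.mul_le_mul_left _ this
    omega
  · by_contra hlt2
    push Not at hlt2
    have h3 : s * (2 * (d + 1)) ≤ s * rgP P a := Nat.mul_le_mul_left _ hlt2
    have h4 : s * (2 * (d + 1)) = 2 * (s * (d + 1)) := by ring
    omega

/-! ### The core estimate, abstract parameters -/

private lemma klsp_core (lam : ℝ) (P Q0 T S2 j2 Y Y' k B M : ℕ) [NeZero M] (β : ℝ) (hY : 1 ≤ Y)
    (hY' : Y' ≤ 2 * Y) (hk : 1 ≤ k) (hlamk : 50 * (k:ℝ) ≤ lam) (h2 : 2 ≤ lam) (h100 : 100 * lam ≤ P)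
    (hQ8 : lam ^ 8 ≤ Q0) (hPQ : P ≤ Q0) (hT1 : 1 ≤ T) (hP55 : 55 ≤ P) (hS21 : 1 ≤ S2)
    (hfit : ∀ a ∈ Ico Y Y', Fits B M a) (e : ℝ)
    (hρ : ∀ X : ℝ, (Y:ℝ) / S2 ≤ X → (T:ℝ) ^ (-(1 / 4 : ℝ)) + (1 / 2 : ℝ) ^ j2 +
      ((T:ℝ) * T / X) ^ (1 / Real.log Q0) ≤ 4 * Real.exp (-e))
    (hS : (S2:ℝ) ^ (-(1 / Real.log P)) ≤ Real.exp (-e)) (he : 0 ≤ e)
    (hfin : 5 + 9 * lam * (5 + 4 * Real.log (2 * Real.log (4 * Y) + 2)) + 36 * Real.sqrt P ≤ e) :
    mm k (SS (B := B) (M := M) β (Ico Y Y' \ Mset P Q0 T T S2 j2 Y Y')) ^ 2 ≤ Y := by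
  obtain ⟨A, hAdef⟩ : ∃ A, A = Ico Y Y' \ Mset P Q0 T T S2 j2 Y Y' := ⟨_, rfl⟩
  rw [← hAdef]
  have hAsub : ∀ a ∈ A, a ∈ Ico Y Y' := by
    intro a ha
    rw [hAdef] at ha
    exact (Finset.mem_sdiff.1 ha).1
  have hA : ∀ a ∈ A, Fits B M a := fun a ha => hfit a (hAsub a ha)
  have hA0 : ∀ a ∈ A, a ≠ 0 := fun a ha => (hA a ha).1
  have hsp := sp_general (B := B) (M := M) k hk lam hlamk P A β hA
  have hlam0 : 0 ≤ lam := by linarith
  have hYr : (1:ℝ) ≤ Y := by exact_mod_cast hY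
  have hY0 : (0:ℝ) < Y := by linarith
  obtain ⟨m, hm⟩ : ∃ m, m = 5 + 4 * Real.log (2 * Real.log (4 * Y) + 2) := ⟨_, rfl⟩
  rw [← hm] at hfin
  obtain ⟨Bd, hBd⟩ : ∃ Bd, Bd = Real.exp (9 * lam * m) := ⟨_, rfl⟩
  have hBd0 : 0 < Bd := by
    rw [hBd]
    exact Real.exp_pos _
  obtain ⟨E, hE⟩ : ∃ E, E = Real.exp (18 * Real.sqrt P) := ⟨_, rfl⟩
  have hE0 : 0 < E := by
    rw [hE]
    exact Real.exp_pos _
  obtain ⟨G, hG⟩ : ∃ G, G = Real.sqrt (6 * Y * Bd) := ⟨_, rfl⟩
  have hG0 : 0 ≤ G := by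
    rw [hG]
    exact Real.sqrt_nonneg _
  have hG2 : G ^ 2 = 6 * Y * Bd := by
    rw [hG]
    exact Real.sq_sqrt (by positivity)
  obtain ⟨F, hF⟩ : ∃ F, F = Real.exp (-(e / 2)) := ⟨_, rfl⟩
  have hF0 : 0 < F := by
    rw [hF]
    exact Real.exp_pos _
  have hF2 : F ^ 2 = Real.exp (-e) := by
    rw [hF, ← Real.exp_nat_mul]
    congr 1
    push_cast
    ring
  have hFle : Real.exp (-e) ≤ F := by
    rw [hF]
    apply Real.exp_le_exp.2
    linarith
  -- the bound on one fibre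
  have hkey : ∀ s ∈ A.image (smP P),
      Real.sqrt (∑ a ∈ A.filter (fun a => smP P a = s), lam ^ OO (rgP P a))
        ≤ G * (Real.sqrt s)⁻¹ * (if s ≤ S2 then 2 * F else 1) := by
    intro s hs
    obtain ⟨a0, ha0, hsa0⟩ := Finset.mem_image.1 hs
    have hs0 : s ≠ 0 := by
      rw [← hsa0]
      exact sp_smP_ne_zero P a0 (hA0 a0 ha0)
    have hspos : 0 < s := Nat.pos_of_ne_zero hs0
    have hsr : (0:ℝ) < s := by exact_mod_cast hspos
    have hs2Y : s < 2 * Y := by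
      have e1 := smP_mul_rgP P a0 (hA0 a0 ha0)
      have h3 := sp_rgP_ne_zero P a0 (hA0 a0 ha0)
      rw [hsa0] at e1
      have h4 : s ≤ a0 := by
        rw [← e1]
        exact Nat.le_mul_of_pos_right _ (Nat.pos_of_ne_zero h3)
      have h5 := (Finset.mem_Ico.1 (hAsub a0 ha0)).2
      omega
    obtain ⟨X, hX⟩ : ∃ X, X = (Y - 1) / s + 1 := ⟨_, rfl⟩
    have hX1 : 1 ≤ X := by
      rw [hX]
      exact Nat.le_add_left 1 _
    have hmod := Nat.div_add_mod (Y - 1) s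
    have hlt := Nat.mod_lt (Y - 1) hspos
    have hdle : (Y - 1) / s ≤ Y - 1 := Nat.div_le_self _ _
    obtain ⟨d, hd⟩ : ∃ d, d = (Y - 1) / s := ⟨_, rfl⟩
    obtain ⟨r, hr⟩ : ∃ r, r = (Y - 1) % s := ⟨_, rfl⟩
    rw [← hd, ← hr] at hmod
    rw [← hr] at hlt
    rw [← hd] at hdle
    have hXd : X = d + 1 := by rw [hX, hd]
    have hXs1 : Y ≤ s * X := by
      rw [hXd, Nat.mul_succ]
      omega
    have hXs2 : s * X ≤ 3 * Y := by
      rw [hXd, Nat.mul_succ]
      omega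
    have hXY : X ≤ Y := by
      omega
    have hXr1 : (Y:ℝ) / s ≤ X := by
      rw [div_le_iff₀ hsr, mul_comm]
      exact_mod_cast hXs1
    have hXr2 : (2:ℝ) * X ≤ 6 * Y / s := by
      rw [le_div_iff₀ hsr]
      have : ((s * X : ℕ):ℝ) ≤ ((3 * Y : ℕ):ℝ) := by exact_mod_cast hXs2
      push_cast at this
      linarith
    have hXr0 : (0:ℝ) < X := by exact_mod_cast hX1
    -- Mertens
    have hMer : Real.exp (9 * lam * Mer (2 * X)) ≤ Bd := by
      rw [hBd]
      apply Real.exp_le_exp.2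
      apply mul_le_mul_of_nonneg_left _ (by linarith)
      have h3 := Mer_le (2 * X) (by omega)
      rw [hm]
      refine h3.trans ?_
      have h4 : Real.log ((2 * X : ℕ):ℝ) ≤ Real.log (4 * Y) := by
        apply Real.log_le_log
        · push_cast
          linarith
        · push_cast
          have : (X:ℝ) ≤ Y := by exact_mod_cast hXY
          linarith
      have h5 : 0 ≤ Real.log ((2 * X : ℕ):ℝ) := by
        apply Real.log_nonneg
        push_cast
        have : (1:ℝ) ≤ X := by exact_mod_cast hX1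
        linarith
      have h6 : Real.log (2 * Real.log ((2 * X : ℕ):ℝ) + 2) ≤ Real.log (2 * Real.log (4 * Y) + 2) :=
        Real.log_le_log (by linarith) (by linarith)
      linarith
    have hsq : ((Real.sqrt s)⁻¹) ^ 2 = 1 / (s:ℝ) := by
      rw [inv_pow, Real.sq_sqrt hsr.le, one_div]
    have hinv0 : 0 ≤ (Real.sqrt s)⁻¹ := inv_nonneg.2 (Real.sqrt_nonneg _)
    have hRbase : 2 * (X:ℝ) * Real.exp (9 * lam * Mer (2 * X)) ≤ 6 * Y / s * Bd :=
      mul_le_mul hXr2 hMer (Real.exp_pos _).le (by positivity)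
    by_cases hsS : s ≤ S2
    · rw [if_pos hsS]
      apply Real.sqrt_le_iff.2
      refine ⟨by positivity, ?_⟩
      have h3 : ∑ a ∈ A.filter (fun a => smP P a = s), lam ^ OO (rgP P a)
          ≤ ∑ c ∈ (Rough P X (2 * X)).filter (fun a => T < qP Q0 a ∨ j2 < OO a ∨ (qP Q0 a ≤ T ∧ hc Q0 a < T)),
              lam ^ OO c := by
        apply klsp_fiber lam hlam0 P s A _ hA0
        intro a ha hsa
        refine Finset.mem_filter.2 ⟨?_, ?_⟩
        · rw [hX]
          exact klsp_rough P Y Y' a s hY' (hAsub a ha) (hA0 a ha) hsa hs0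
        · rw [klsp_qP P Q0 a hPQ, klsp_hc P Q0 a hPQ]
          have hnot : a ∉ Mset P Q0 T T S2 j2 Y Y' := by
            rw [hAdef] at ha
            exact (Finset.mem_sdiff.1 ha).2
          by_contra hcon
          push Not at hcon
          apply hnot
          refine Finset.mem_filter.2 ⟨hAsub a ha, hcon.1, by omega, hcon.2.1, hcon.2.2 hcon.1⟩
      have h4 := rare lam h2 P Q0 T T j2 X (2 * X) h100 hQ8 hPQ hX1 le_rfl hT1 hT1
      have h5 : (Y:ℝ) / S2 ≤ X := by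
        refine le_trans ?_ hXr1
        apply div_le_div_of_nonneg_left hY0.le hsr
        exact_mod_cast hsS
      have h6 := hρ X h5
      have h7 : 0 ≤ (T:ℝ) ^ (-(1 / 4 : ℝ)) + (1 / 2 : ℝ) ^ j2 +
          ((T:ℝ) * T / X) ^ (1 / Real.log Q0) := by positivity
      have h8 : 2 * (X:ℝ) * Real.exp (9 * lam * Mer (2 * X)) * ((T:ℝ) ^ (-(1 / 4 : ℝ)) + (1 / 2 : ℝ) ^ j2 +
          ((T:ℝ) * T / X) ^ (1 / Real.log Q0)) ≤ (6 * Y / s * Bd) * (4 * Real.exp (-e)) :=
        mul_le_mul hRbase h6 h7 (by positivity)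
      have h9 : (G * (Real.sqrt s)⁻¹ * (2 * F)) ^ 2 = (6 * Y / s * Bd) * (4 * Real.exp (-e)) := by
        rw [mul_pow, mul_pow, mul_pow, hG2, hsq, hF2]
        ring
      rw [h9]
      exact h3.trans (h4.trans h8)
    · rw [if_neg hsS, mul_one]
      apply Real.sqrt_le_iff.2
      refine ⟨by positivity, ?_⟩
      have h3 : ∑ a ∈ A.filter (fun a => smP P a = s), lam ^ OO (rgP P a)
          ≤ ∑ c ∈ Rough P X (2 * X), lam ^ OO c := by
        apply klsp_fiber lam hlam0 P s A _ hA0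
        intro a ha hsa
        rw [hX]
        exact klsp_rough P Y Y' a s hY' (hAsub a ha) (hA0 a ha) hsa hs0
      have h4 := bias lam h2 P X (2 * X) h100 hX1 le_rfl
      have h9 : (G * (Real.sqrt s)⁻¹) ^ 2 = 6 * Y / s * Bd := by
        rw [mul_pow, hG2, hsq]
        ring
      rw [h9]
      exact h3.trans (h4.trans hRbase)
  -- sum over the fibres
  have himg : ∀ s ∈ A.image (smP P), s ≠ 0 ∧ ∀ p ∈ s.primeFactors, p < P := by
    intro s hs
    obtain ⟨a0, ha0, rfl⟩ := Finset.mem_image.1 hs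
    exact ⟨sp_smP_ne_zero P a0 (hA0 a0 ha0), fun p hp => klsp_sm_primes P a0 p hp⟩
  have hsum1 : ∑ s ∈ (A.image (smP P)).filter (fun s => s ≤ S2), (Real.sqrt s)⁻¹ ≤ E := by
    have h3 := sum_smooth_large P hP55 1 le_rfl ((A.image (smP P)).filter (fun s => s ≤ S2)) (by
      intro s hs
      have hs' := himg s (Finset.mem_filter.1 hs).1
      refine ⟨hs'.1, hs'.2, ?_⟩
      exact_mod_cast Nat.pos_of_ne_zero hs'.1)
    rw [Real.one_rpow, one_mul] at h3
    rw [hE]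
    exact h3
  have hsum2 : ∑ s ∈ (A.image (smP P)).filter (fun s => ¬ s ≤ S2), (Real.sqrt s)⁻¹
      ≤ Real.exp (-e) * E := by
    have h3 := sum_smooth_large P hP55 (S2:ℝ) (by exact_mod_cast hS21)
      ((A.image (smP P)).filter (fun s => ¬ s ≤ S2)) (by
      intro s hs
      have hs1 := Finset.mem_filter.1 hs
      have hs' := himg s hs1.1
      refine ⟨hs'.1, hs'.2, ?_⟩
      have : S2 ≤ s := by omega
      exact_mod_cast this)
    rw [← hE] at h3
    exact h3.trans (mul_le_mul_of_nonneg_right hS hE0.le)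
  have hmm : mm k (SS (B := B) (M := M) β A) ≤ G * E * (3 * F) := by
    refine hsp.trans ?_
    refine (Finset.sum_le_sum hkey).trans ?_
    rw [← Finset.sum_filter_add_sum_filter_not (A.image (smP P)) (fun s => s ≤ S2)]
    have h3 : ∑ s ∈ (A.image (smP P)).filter (fun s => s ≤ S2),
        G * (Real.sqrt s)⁻¹ * (if s ≤ S2 then 2 * F else 1) ≤ G * E * (2 * F) := by
      have h4 : ∀ s ∈ (A.image (smP P)).filter (fun s => s ≤ S2),
          G * (Real.sqrt s)⁻¹ * (if s ≤ S2 then 2 * F else 1) = G * (2 * F) * (Real.sqrt s)⁻¹ := by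
        intro s hs
        rw [if_pos (Finset.mem_filter.1 hs).2]
        ring
      rw [Finset.sum_congr rfl h4, ← Finset.mul_sum]
      calc G * (2 * F) * _ ≤ G * (2 * F) * E := mul_le_mul_of_nonneg_left hsum1 (by positivity)
        _ = G * E * (2 * F) := by ring
    have h5 : ∑ s ∈ (A.image (smP P)).filter (fun s => ¬ s ≤ S2),
        G * (Real.sqrt s)⁻¹ * (if s ≤ S2 then 2 * F else 1) ≤ G * E * F := by
      have h4 : ∀ s ∈ (A.image (smP P)).filter (fun s => ¬ s ≤ S2),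
          G * (Real.sqrt s)⁻¹ * (if s ≤ S2 then 2 * F else 1) = G * (Real.sqrt s)⁻¹ := by
        intro s hs
        rw [if_neg (Finset.mem_filter.1 hs).2, mul_one]
      rw [Finset.sum_congr rfl h4, ← Finset.mul_sum]
      calc G * _ ≤ G * (Real.exp (-e) * E) := mul_le_mul_of_nonneg_left hsum2 hG0
        _ ≤ G * (F * E) := by
            apply mul_le_mul_of_nonneg_left _ hG0
            exact mul_le_mul_of_nonneg_right hFle hE0.le
        _ = G * E * F := by ring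
    have h7 : G * E * (3 * F) = G * E * (2 * F) + G * E * F := by ring
    rw [h7]
    exact add_le_add h3 h5
  have hmm0 := mm_nonneg k (SS (B := B) (M := M) β A)
  have hsq : mm k (SS (B := B) (M := M) β A) ^ 2 ≤ (G * E * (3 * F)) ^ 2 :=
    pow_le_pow_left₀ hmm0 hmm 2
  refine hsq.trans ?_
  have hE2 : E ^ 2 = Real.exp (36 * Real.sqrt P) := by
    rw [hE, ← Real.exp_nat_mul]
    congr 1
    push_cast
    ring
  have hval : (G * E * (3 * F)) ^ 2 = 54 * Y * (Bd * E ^ 2 * F ^ 2) := by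
    rw [mul_pow, mul_pow, mul_pow, hG2]
    ring
  rw [hval, hBd, hE2, hF2, ← Real.exp_add, ← Real.exp_add]
  have h7 : Real.exp (9 * lam * m + 36 * Real.sqrt P + -e) ≤ Real.exp (-5) :=
    Real.exp_le_exp.2 (by linarith)
  have h8 : (54:ℝ) * Real.exp (-5) ≤ 1 := by
    rw [Real.exp_neg, ← div_eq_mul_inv, div_le_one (Real.exp_pos _)]
    have he := Real.exp_one_gt_d9
    have h4 : Real.exp 5 = Real.exp 1 ^ 5 := by
      rw [← Real.exp_nat_mul]
      norm_num
    rw [h4]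
    have h5 : (2.7 : ℝ) ^ 5 ≤ Real.exp 1 ^ 5 := pow_le_pow_left₀ (by norm_num) (by linarith) 5
    norm_num at h5
    linarith
  calc 54 * (Y:ℝ) * Real.exp (9 * lam * m + 36 * Real.sqrt P + -e)
      ≤ 54 * (Y:ℝ) * Real.exp (-5) := mul_le_mul_of_nonneg_left h7 (by positivity)
    _ = (Y:ℝ) * (54 * Real.exp (-5)) := by ring
    _ ≤ (Y:ℝ) * 1 := mul_le_mul_of_nonneg_left h8 hY0.le
    _ = Y := mul_one _

/-! ### Numerics -/

private lemma klsp_num (ε ν₀ δ : ℝ) (hε : 0 < ε) (hε1 : ε < 1) (hν : 0 < ν₀) (hν1 : ν₀ ≤ 1 / 64)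
    (Y : ℕ) (p : Par ε ν₀ Y)
    (h100 : 100 * p.lam ≤ p.P) (hQ8 : p.lam ^ 8 ≤ p.Q0) (hPQ : p.P ≤ p.Q0) (h1000 : 1000 ≤ p.lam)
    (hT2 : 2 ≤ p.T) (hTup : (p.T:ℝ) ≤ 2 * (Y:ℝ) ^ ν₀) (hlamL : p.lam ≤ Real.log Y)
    (hj : Real.log (p.lam) * ((p.j2 : ℝ) + 1) * 16 ≥ Real.log p.T)
    (hL200 : 200 ≤ Real.log Y) (hδ0 : 0 < δ)
    (hδ : Real.log (Real.log Y) ≤ δ * (Real.log Y) ^ (ε / 2))
    (hδK : δ ^ 2 * (7805 * 48 / ν₀) ≤ 1) :
    (55 ≤ p.P ∧ 1 ≤ p.S2) ∧
    (∀ X : ℝ, (Y:ℝ) / p.S2 ≤ X → (p.T:ℝ) ^ (-(1 / 4 : ℝ)) + (1 / 2 : ℝ) ^ p.j2 +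
      ((p.T:ℝ) * p.T / X) ^ (1 / Real.log p.Q0)
        ≤ 4 * Real.exp (-(ν₀ / 48 * (Real.log Y / Real.log (Real.log Y))))) ∧
    ((p.S2:ℝ) ^ (-(1 / Real.log p.P)) ≤ Real.exp (-(ν₀ / 48 * (Real.log Y / Real.log (Real.log Y))))) ∧
    0 ≤ ν₀ / 48 * (Real.log Y / Real.log (Real.log Y)) ∧
    (5 + 9 * p.lam * (5 + 4 * Real.log (2 * Real.log (4 * Y) + 2)) + 36 * Real.sqrt p.P
      ≤ ν₀ / 48 * (Real.log Y / Real.log (Real.log Y))) := by
  have hY0 : (0:ℝ) < Y := by
    rcases Nat.eq_zero_or_pos Y with h | h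
    · rw [h] at hL200
      norm_num at hL200
    · exact_mod_cast h
  obtain ⟨L, hLdef⟩ : ∃ L, L = Real.log Y := ⟨_, rfl⟩
  rw [← hLdef] at hlamL hL200 hδ ⊢
  have hL0 : 0 < L := by linarith
  have hexpL : Real.exp L = Y := by
    rw [hLdef]
    exact Real.exp_log hY0
  have hrpow : ∀ x : ℝ, (Y:ℝ) ^ x = Real.exp (L * x) := by
    intro x
    rw [Real.rpow_def_of_pos hY0, hLdef]
  obtain ⟨lL, hlLdef⟩ : ∃ lL, lL = Real.log L := ⟨_, rfl⟩
  rw [← hlLdef] at hδ ⊢
  have he1 := Real.exp_one_lt_d9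
  have he1' := Real.exp_one_gt_d9
  have hlL5 : 5 ≤ lL := by
    rw [hlLdef, Real.le_log_iff_exp_le hL0]
    have h4 : Real.exp 5 = Real.exp 1 ^ 5 := by
      rw [← Real.exp_nat_mul]
      norm_num
    rw [h4]
    have h5 : Real.exp 1 ^ 5 ≤ (2.7182818286 : ℝ) ^ 5 := pow_le_pow_left₀ (Real.exp_pos _).le he1.le 5
    norm_num at h5
    linarith
  have hlL0 : 0 < lL := by linarith
  obtain ⟨W, hWdef⟩ : ∃ W, W = L / lL := ⟨_, rfl⟩
  rw [← hWdef]
  have hW0 : 0 ≤ W := by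
    rw [hWdef]
    positivity
  have hWL : W ≤ L := by
    rw [hWdef]
    exact div_le_self hL0.le (by linarith)
  have hWlL : W * lL = L := by
    rw [hWdef]
    field_simp
  obtain ⟨e, hedef⟩ : ∃ e, e = ν₀ / 48 * W := ⟨_, rfl⟩
  rw [← hedef]
  have he0 : 0 ≤ e := by
    rw [hedef]
    positivity
  -- T
  obtain ⟨T, hTdef⟩ : ∃ T : ℝ, T = (p.T:ℝ) := ⟨_, rfl⟩
  rw [← hTdef] at hTup hj ⊢
  have hT2r : 2 ≤ T := by
    rw [hTdef]
    exact_mod_cast hT2
  have hT0 : 0 < T := by linarith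
  have hTlow : Real.exp (L * ν₀) ≤ T := by
    rw [← hrpow, hTdef, p.hT]
    exact Nat.le_ceil _
  have hlogT : L * ν₀ ≤ Real.log T := (Real.le_log_iff_exp_le hT0).2 hTlow
  have hTup' : T ≤ 2 * Real.exp (L * ν₀) := by
    rw [← hrpow]
    exact hTup
  -- S2
  obtain ⟨S, hSdef⟩ : ∃ S : ℝ, S = (p.S2:ℝ) := ⟨_, rfl⟩
  rw [← hSdef]
  have hT116 : 1 ≤ T ^ ((1:ℝ) / 16) := Real.one_le_rpow (by linarith) (by norm_num)
  have hSlow : T ^ ((1:ℝ) / 16) ≤ S := by
    rw [hSdef, p.hS2, ← hTdef]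
    exact Nat.le_ceil _
  have hSup : S < T ^ ((1:ℝ) / 16) + 1 := by
    rw [hSdef, p.hS2, ← hTdef]
    exact Nat.ceil_lt_add_one (by positivity)
  have hT116' : T ^ ((1:ℝ) / 16) ≤ T := by
    calc T ^ ((1:ℝ) / 16) ≤ T ^ (1:ℝ) :=
          Real.rpow_le_rpow_of_exponent_le (by linarith) (by norm_num)
      _ = T := Real.rpow_one T
  have hS1 : 1 ≤ S := by linarith
  have hS0 : 0 < S := by linarith
  have hS2T : S ≤ 2 * T := by linarith
  have hlogS : (1 / 16) * Real.log T ≤ Real.log S := by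
    have h3 := Real.log_le_log (by positivity) hSlow
    rw [Real.log_rpow hT0] at h3
    exact h3
  -- lam, P, Q0
  obtain ⟨lam, hlamdef⟩ : ∃ lam, lam = p.lam := ⟨_, rfl⟩
  rw [← hlamdef] at h100 hQ8 h1000 hlamL hj ⊢
  have hlam0 : 0 < lam := by linarith
  obtain ⟨PP, hPPdef⟩ : ∃ PP : ℝ, PP = (p.P:ℝ) := ⟨_, rfl⟩
  rw [← hPPdef] at h100 ⊢
  obtain ⟨Qr, hQrdef⟩ : ∃ Qr : ℝ, Qr = (p.Q0:ℝ) := ⟨_, rfl⟩
  rw [← hQrdef] at hQ8 ⊢
  have hPlow : lam ^ 2 ≤ PP := by
    rw [hPPdef, p.hP, ← hlamdef]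
    exact Nat.le_ceil _
  have hPup : PP < lam ^ 2 + 1 := by
    rw [hPPdef, p.hP, ← hlamdef]
    exact Nat.ceil_lt_add_one (by positivity)
  have hlam2 : (1000:ℝ) ^ 2 ≤ lam ^ 2 := pow_le_pow_left₀ (by norm_num) h1000 2
  have hP0 : 1 < PP := by
    have h3 : (1000:ℝ) ^ 2 = 1000000 := by norm_num
    linarith
  have hP2 : PP ≤ 2 * lam ^ 2 := by linarith
  have hloglam1 : 1 ≤ Real.log lam := by
    rw [Real.le_log_iff_exp_le hlam0]
    linarith
  have hloglamL : Real.log lam ≤ lL := by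
    rw [hlLdef]
    exact Real.log_le_log hlam0 hlamL
  have hlog2 : Real.log 2 ≤ 1 := by
    have := Real.log_le_sub_one_of_pos (show (0:ℝ) < 2 by norm_num)
    linarith
  have hlogP : Real.log PP ≤ 3 * lL := by
    have h3 : Real.log PP ≤ Real.log (2 * lam ^ 2) := Real.log_le_log (by linarith) hP2
    rw [Real.log_mul (by norm_num) (by positivity), Real.log_pow] at h3
    push_cast at h3
    linarith
  have hlogP0 : 0 < Real.log PP := Real.log_pos hP0
  have hsqrtP : Real.sqrt PP ≤ 2 * lam := by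
    apply Real.sqrt_le_iff.2
    refine ⟨by positivity, ?_⟩
    have h3 : (2 * lam) ^ 2 = 4 * lam ^ 2 := by ring
    have h4 : 0 ≤ lam ^ 2 := sq_nonneg lam
    rw [h3]
    linarith
  have hQlow : lam ^ 16 ≤ Qr := by
    rw [hQrdef, p.hQ0, ← hlamdef]
    exact Nat.le_ceil _
  have hQup : Qr < lam ^ 16 + 1 := by
    rw [hQrdef, p.hQ0, ← hlamdef]
    exact Nat.ceil_lt_add_one (by positivity)
  have hlam16 : (1:ℝ) ≤ lam ^ 16 := one_le_pow₀ (by linarith)
  have hQ2 : Qr ≤ 2 * lam ^ 16 := by linarith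
  have hPQr : PP ≤ Qr := by
    rw [hPPdef, hQrdef]
    exact_mod_cast hPQ
  have hQ1 : 1 < Qr := by linarith
  have hlogQ : Real.log Qr ≤ 17 * lL := by
    have h3 : Real.log Qr ≤ Real.log (2 * lam ^ 16) := Real.log_le_log (by linarith) hQ2
    rw [Real.log_mul (by norm_num) (by positivity), Real.log_pow] at h3
    push_cast at h3
    linarith
  have hlogQ0 : 0 < Real.log Qr := Real.log_pos hQ1
  have hL1 : (1:ℝ) ≤ L := by linarith
  have hνe : e ≤ ν₀ / 48 * L := by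
    rw [hedef]
    exact mul_le_mul_of_nonneg_left hWL (by positivity)
  refine ⟨⟨?_, ?_⟩, ?_, ?_, he0, ?_⟩
  · have : (55:ℝ) ≤ p.P := by
      rw [← hPPdef]
      linarith
    exact_mod_cast this
  · have : (1:ℝ) ≤ p.S2 := by
      rw [← hSdef]
      exact hS1
    exact_mod_cast this
  · intro X hX
    have hX0 : 0 < X := lt_of_lt_of_le (div_pos hY0 hS0) hX
    -- first term
    have ht1 : T ^ (-(1 / 4 : ℝ)) ≤ Real.exp (-e) := by
      rw [Real.rpow_def_of_pos hT0]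
      apply Real.exp_le_exp.2
      have h3 : 0 ≤ L * ν₀ := by positivity
      linarith
    -- second term
    have hj2 : ν₀ / 16 * W ≤ (p.j2 : ℝ) + 1 := by
      have h3 : ν₀ * L ≤ lL * ((p.j2 : ℝ) + 1) * 16 := by
        have h4 : Real.log lam * ((p.j2 : ℝ) + 1) * 16 ≤ lL * ((p.j2 : ℝ) + 1) * 16 := by
          have h5 : (0:ℝ) ≤ (p.j2 : ℝ) + 1 := by positivity
          have h6 := mul_le_mul_of_nonneg_right hloglamL h5
          linarith
        linarith
      have h4 : ν₀ / 16 * W * lL ≤ ((p.j2 : ℝ) + 1) * lL := by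
        calc ν₀ / 16 * W * lL = ν₀ / 16 * (W * lL) := by ring
          _ = ν₀ * L / 16 := by rw [hWlL]; ring
          _ ≤ ((p.j2 : ℝ) + 1) * lL := by linarith
      exact le_of_mul_le_mul_right h4 hlL0
    have ht2 : (1 / 2 : ℝ) ^ p.j2 ≤ 2 * Real.exp (-e) := by
      have hhalf : (1 / 2 : ℝ) ≤ Real.exp (-(1 / 2)) := by
        have := Real.add_one_le_exp (-(1 / 2) : ℝ)
        linarith
      have h3 : (1 / 2 : ℝ) ^ (p.j2 + 1) ≤ Real.exp (-(1 / 2)) ^ (p.j2 + 1) :=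
        pow_le_pow_left₀ (by norm_num) hhalf _
      rw [← Real.exp_nat_mul] at h3
      have h4 : Real.exp (((p.j2 + 1 : ℕ):ℝ) * (-(1 / 2))) ≤ Real.exp (-e) := by
        apply Real.exp_le_exp.2
        push_cast
        rw [hedef]
        have h5 : ν₀ / 48 * W ≤ ν₀ / 16 * W := by
          apply mul_le_mul_of_nonneg_right _ hW0
          linarith
        linarith
      have h5 : (1 / 2 : ℝ) ^ (p.j2 + 1) = (1 / 2) * (1 / 2 : ℝ) ^ p.j2 := by
        rw [pow_succ]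
        ring
      linarith
    -- third term
    have ht3 : (T * T / X) ^ (1 / Real.log Qr) ≤ Real.exp (-e) := by
      have hb : T * T / X ≤ Real.exp (-(L / 2)) := by
        rw [div_le_iff₀ hX0]
        have h3 : T * T * S ≤ Real.exp (L / 2) := by
          have h4 : T * T * S ≤ 2 * T ^ 3 := by
            have h41 := mul_le_mul_of_nonneg_left hS2T (mul_pos hT0 hT0).le
            have h42 : T * T * (2 * T) = 2 * T ^ 3 := by ring
            linarith
          have h5 : T ^ 3 ≤ (2 * Real.exp (L * ν₀)) ^ 3 := pow_le_pow_left₀ hT0.le hTup' 3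
          have h6 : (2 * Real.exp (L * ν₀)) ^ 3 = 8 * Real.exp (3 * (L * ν₀)) := by
            rw [mul_pow, ← Real.exp_nat_mul]
            norm_num
          have h7 : (16:ℝ) ≤ Real.exp 3 := by
            have h4' : Real.exp 3 = Real.exp 1 ^ 3 := by
              rw [← Real.exp_nat_mul]
              norm_num
            rw [h4']
            have h5' : (2.7182818283 : ℝ) ^ 3 ≤ Real.exp 1 ^ 3 :=
              pow_le_pow_left₀ (by norm_num) he1'.le 3
            norm_num at h5'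
            linarith
          have h8 : 16 * Real.exp (3 * (L * ν₀)) ≤ Real.exp (L / 2) := by
            calc 16 * Real.exp (3 * (L * ν₀)) ≤ Real.exp 3 * Real.exp (3 * (L * ν₀)) :=
                  mul_le_mul_of_nonneg_right h7 (Real.exp_pos _).le
              _ = Real.exp (3 + 3 * (L * ν₀)) := by rw [Real.exp_add]
              _ ≤ Real.exp (L / 2) := by
                  apply Real.exp_le_exp.2
                  have h9 := mul_le_mul_of_nonneg_left hν1 hL0.le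
                  linarith
          rw [h6] at h5
          linarith
        have h4 : Real.exp (-(L / 2)) * (Y:ℝ) = Real.exp (L / 2) := by
          rw [← hexpL, ← Real.exp_add]
          congr 1
          ring
        have h5 : (Y:ℝ) ≤ X * S := (div_le_iff₀ hS0).1 hX
        have h6 : T * T * S ≤ Real.exp (-(L / 2)) * (X * S) := by
          calc T * T * S ≤ Real.exp (L / 2) := h3
            _ = Real.exp (-(L / 2)) * (Y:ℝ) := h4.symm
            _ ≤ Real.exp (-(L / 2)) * (X * S) :=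
                mul_le_mul_of_nonneg_left h5 (Real.exp_pos _).le
        have h7 : T * T * S ≤ Real.exp (-(L / 2)) * X * S := by
          rw [mul_assoc (Real.exp (-(L / 2)))]
          exact h6
        exact le_of_mul_le_mul_right h7 hS0
      have hexp0 : 0 ≤ 1 / Real.log Qr := by positivity
      have h3 : (T * T / X) ^ (1 / Real.log Qr) ≤ Real.exp (-(L / 2)) ^ (1 / Real.log Qr) :=
        Real.rpow_le_rpow (by positivity) hb hexp0
      rw [← Real.exp_mul] at h3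
      refine h3.trans (Real.exp_le_exp.2 ?_)
      have h4 : 1 / (17 * lL) ≤ 1 / Real.log Qr := one_div_le_one_div_of_le hlogQ0 hlogQ
      have h5 : (L / 2) * (1 / (17 * lL)) = W / 34 := by
        rw [hWdef]
        field_simp
        ring
      have h6 : e ≤ W / 34 := by
        rw [hedef]
        have h9 : ν₀ / 48 ≤ 1 / 34 := by linarith
        have h10 := mul_le_mul_of_nonneg_right h9 hW0
        linarith
      have h7 : (L / 2) * (1 / (17 * lL)) ≤ (L / 2) * (1 / Real.log Qr) :=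
        mul_le_mul_of_nonneg_left h4 (by linarith)
      have h8 : -(L / 2) * (1 / Real.log Qr) = -((L / 2) * (1 / Real.log Qr)) := by ring
      rw [h8]
      linarith
    linarith
  · rw [Real.rpow_def_of_pos hS0]
    apply Real.exp_le_exp.2
    have h3 : ν₀ * L / 16 ≤ Real.log S := by
      have : 0 ≤ L * ν₀ := by positivity
      linarith
    have h4 : 1 / (3 * lL) ≤ 1 / Real.log PP := one_div_le_one_div_of_le hlogP0 hlogP
    have h5 : (ν₀ * L / 16) * (1 / (3 * lL)) = e := by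
      rw [hedef, hWdef]
      field_simp
      ring
    have h6 : (ν₀ * L / 16) * (1 / (3 * lL)) ≤ Real.log S * (1 / Real.log PP) :=
      mul_le_mul h3 h4 (by positivity) (le_trans (by positivity) h3)
    have h8 : Real.log S * -(1 / Real.log PP) = -(Real.log S * (1 / Real.log PP)) := by ring
    rw [h8]
    linarith
  · -- the final inequality
    obtain ⟨R, hRdef⟩ : ∃ R, R = L ^ (1 - ε) := ⟨_, rfl⟩
    have hR1 : 1 ≤ R := by
      rw [hRdef]
      exact Real.one_le_rpow hL1 (by linarith)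
    have hRε : R * L ^ ε = L := by
      rw [hRdef, ← Real.rpow_add hL0]
      norm_num
    have hlam100 : lam ≤ 100 * R := by
      rw [hlamdef, p.hlam]
      have h3 : (p.Kb:ℝ) < R + 1 := by
        rw [p.hKb, ← hLdef, ← hRdef]
        exact Nat.ceil_lt_add_one (by positivity)
      linarith
    have hlog4 : Real.log (4 * Y) ≤ L + 3 := by
      rw [Real.log_mul (by norm_num) hY0.ne', ← hLdef]
      have := Real.log_le_sub_one_of_pos (show (0:ℝ) < 4 by norm_num)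
      linarith
    have hlog4' : 0 ≤ Real.log (4 * Y) := by
      apply Real.log_nonneg
      have h5 : (1:ℝ) ≤ Y := by
        rw [← hexpL]
        exact Real.one_le_exp hL0.le
      linarith
    have hlog3L : Real.log (2 * Real.log (4 * Y) + 2) ≤ 2 + lL := by
      have h3 : Real.log (2 * Real.log (4 * Y) + 2) ≤ Real.log (3 * L) :=
        Real.log_le_log (by linarith) (by linarith)
      rw [Real.log_mul (by norm_num) hL0.ne', ← hlLdef] at h3
      have := Real.log_le_sub_one_of_pos (show (0:ℝ) < 3 by norm_num)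
      linarith
    have hm : 5 + 4 * Real.log (2 * Real.log (4 * Y) + 2) ≤ 7 * lL := by linarith
    have hstep : 5 + 9 * lam * (5 + 4 * Real.log (2 * Real.log (4 * Y) + 2)) + 36 * Real.sqrt PP
        ≤ 7805 * R * lL := by
      have h3 : 9 * lam * (5 + 4 * Real.log (2 * Real.log (4 * Y) + 2)) ≤ 9 * lam * (7 * lL) :=
        mul_le_mul_of_nonneg_left hm (by positivity)
      have h4 : lam * lL ≤ 100 * R * lL := mul_le_mul_of_nonneg_right hlam100 hlL0.le
      have h5 : 72 * lam ≤ 15 * (lam * lL) := by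
        have h51 := mul_le_mul_of_nonneg_left hlL5 hlam0.le
        linarith
      have h6 : 1 ≤ R * lL := one_le_mul_of_one_le_of_one_le hR1 (by linarith)
      have h7 : 9 * lam * (7 * lL) = 63 * (lam * lL) := by ring
      have h8 : 7805 * R * lL = 7805 * (R * lL) := by ring
      have h9 : 100 * R * lL = 100 * (R * lL) := by ring
      rw [h8]
      rw [h9] at h4
      linarith
    refine hstep.trans ?_
    rw [hedef, hWdef]
    have hK0 : 0 < (7805 * 48 / ν₀) := by positivity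
    have hLε : (L ^ (ε / 2)) ^ 2 = L ^ ε := by
      rw [← Real.rpow_natCast, ← Real.rpow_mul hL0.le]
      norm_num
    have hlLsq : lL ^ 2 ≤ (δ * L ^ (ε / 2)) ^ 2 := pow_le_pow_left₀ hlL0.le hδ 2
    have hKlL : (7805 * 48 / ν₀) * lL ^ 2 ≤ L ^ ε := by
      calc (7805 * 48 / ν₀) * lL ^ 2 ≤ (7805 * 48 / ν₀) * (δ * L ^ (ε / 2)) ^ 2 :=
            mul_le_mul_of_nonneg_left hlLsq hK0.le
        _ = (δ ^ 2 * (7805 * 48 / ν₀)) * L ^ ε := by rw [mul_pow, hLε]; ring
        _ ≤ 1 * L ^ ε := mul_le_mul_of_nonneg_right hδK (by positivity)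
        _ = L ^ ε := one_mul _
    have hfinal : R * ((7805 * 48 / ν₀) * lL ^ 2) ≤ L := by
      calc R * ((7805 * 48 / ν₀) * lL ^ 2) ≤ R * L ^ ε :=
            mul_le_mul_of_nonneg_left hKlL (by linarith)
        _ = L := hRε
    have hkey : 7805 * R * lL * lL ≤ ν₀ / 48 * L := by
      have h3 : ν₀ / 48 * (R * ((7805 * 48 / ν₀) * lL ^ 2)) = 7805 * R * lL * lL := by
        field_simp
      rw [← h3]
      exact mul_le_mul_of_nonneg_left hfinal (by positivity)
    have h3 : ν₀ / 48 * (L / lL) = (ν₀ / 48 * L) / lL := by ring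
    rw [h3, le_div_iff₀ hlL0]
    exact hkey

/-- Everything outside the main set. Blueprint section 10.1. -/
theorem KL_sp (ε ν₀ : ℝ) (hε : 0 < ε) (hε1 : ε < 1) (hν : 0 < ν₀) (hν1 : ν₀ ≤ 1 / 64) :
    ∃ Y0 : ℕ, ∀ Y Y' : ℕ, Y0 ≤ Y → Y' ≤ 2 * Y → ∀ β : ℝ, ∀ k : ℕ, 1 ≤ k → (k:ℝ) ≤ (Real.log Y) ^ (1 - ε) →
      ∀ (B M : ℕ) [NeZero M], (∀ a ∈ Ico Y Y', Fits B M a) →
        let p := par ε ν₀ Y
        mm k (SS (B := B) (M := M) β (Ico Y Y' \ Mset p.P p.Q0 p.T p.T p.S2 p.j2 Y Y')) ^ 2 ≤ Y := by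
  obtain ⟨Y1, hY1⟩ := par_facts ε ν₀ hε hε1 hν hν1
  obtain ⟨K, hKdef⟩ : ∃ K : ℝ, K = 7805 * 48 / ν₀ := ⟨_, rfl⟩
  have hK0 : 0 < K := by
    rw [hKdef]
    positivity
  obtain ⟨δ, hδdef⟩ : ∃ δ : ℝ, δ = 1 / (K + 1) := ⟨_, rfl⟩
  have hδ0 : 0 < δ := by
    rw [hδdef]
    positivity
  have hδK : δ ^ 2 * (7805 * 48 / ν₀) ≤ 1 := by
    rw [← hKdef]
    have h3 : δ * (K + 1) = 1 := by
      rw [hδdef]
      field_simp
    have h4 : δ ^ 2 * K ≤ δ ^ 2 * (K + 1) ^ 2 := by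
      apply mul_le_mul_of_nonneg_left _ (by positivity)
      nlinarith
    calc δ ^ 2 * K ≤ δ ^ 2 * (K + 1) ^ 2 := h4
      _ = (δ * (K + 1)) ^ 2 := by ring
      _ = 1 := by rw [h3]; norm_num
  have hlo := (isLittleO_log_rpow_atTop (show 0 < ε / 2 by linarith)).def hδ0
  obtain ⟨L1, hL1⟩ := Filter.eventually_atTop.1 hlo
  refine ⟨max Y1 ⌈Real.exp (max L1 200)⌉₊, ?_⟩
  intro Y Y' hY hY' β k hk hkL B M _ hfit
  have hYY1 : Y1 ≤ Y := le_trans (le_max_left _ _) hY
  have hYe : ⌈Real.exp (max L1 200)⌉₊ ≤ Y := le_trans (le_max_right _ _) hY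
  have hYr : Real.exp (max L1 200) ≤ Y := (Nat.le_ceil _).trans (by exact_mod_cast hYe)
  have hY0 : (0:ℝ) < Y := lt_of_lt_of_le (Real.exp_pos _) hYr
  have hLbig : max L1 200 ≤ Real.log Y := (Real.le_log_iff_exp_le hY0).2 hYr
  have hL200 : 200 ≤ Real.log Y := le_trans (le_max_right _ _) hLbig
  have hLL1 : L1 ≤ Real.log Y := le_trans (le_max_left _ _) hLbig
  have hδ : Real.log (Real.log Y) ≤ δ * (Real.log Y) ^ (ε / 2) := by
    have h3 := hL1 _ hLL1
    rw [Real.norm_eq_abs, Real.norm_of_nonneg (by positivity)] at h3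
    exact (le_abs_self _).trans h3
  have hYnat : 1 ≤ Y := by
    have : (0:ℝ) < Y := hY0
    have h3 : 0 < Y := by exact_mod_cast this
    omega
  obtain ⟨h100, hQ8, hPQ, h1000, hT2, hTup, hlamL, -, hj⟩ := hY1 Y hYY1
  obtain ⟨⟨hP55, hS21⟩, hρ, hS, he, hfin⟩ := klsp_num ε ν₀ δ hε hε1 hν hν1 Y (par ε ν₀ Y)
    h100 hQ8 hPQ h1000 hT2 hTup hlamL hj hL200 hδ0 hδ hδK
  have hlamk : 50 * (k:ℝ) ≤ (par ε ν₀ Y).lam := by
    rw [(par ε ν₀ Y).hlam]
    have h3 : (k:ℝ) ≤ ((par ε ν₀ Y).Kb : ℝ) := by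
      rw [(par ε ν₀ Y).hKb]
      exact hkL.trans (Nat.le_ceil _)
    linarith
  exact klsp_core (par ε ν₀ Y).lam (par ε ν₀ Y).P (par ε ν₀ Y).Q0 (par ε ν₀ Y).T (par ε ν₀ Y).S2
    (par ε ν₀ Y).j2 Y Y' k B M β hYnat hY' hk hlamk (by linarith) h100 hQ8 hPQ (by omega) hP55 hS21 hfit
    _ hρ hS he hfin

end

end Vale.Agent.Lib.P028K
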