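import Vale.Agent.Lib.P028K.MLDefs

/-! Part MLlarge: large d. Blueprint section 12. -/

open Finset

namespace Vale.Agent.Lib.P028K

open Vale.Agent.Lib.P028
open Vale.Agent.Lib.P028T
open Vale.Agent.Lib.P028G

noncomputable section

/-- One side of a separated set. -/
private lemma sep_side {S : Finset ℕ} (x : ℕ → ℝ) {δ : ℝ} (hδ : 0 < δ) {G : ℝ} (hG : 0 ≤ G)
    (h0 : ∀ j ∈ S, 0 ≤ x j ∧ x j ≤ 1 / 2)
    (hsep : ∀ j ∈ S, ∀ j' ∈ S, j ≠ j' → δ ≤ |x j - x j'|) :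
    ∑ j ∈ S, min G (1 / x j) ≤ G + (1 / δ) * (1 + Real.log (⌊1 / (2 * δ)⌋₊ : ℝ)) := by
  classical
  set I := ⌊1 / (2 * δ)⌋₊ with hI
  set f : ℕ → ℝ := fun i => if i = 0 then G else (1 / δ) * (1 / (i:ℝ)) with hf
  have hfnn : ∀ i, 0 ≤ f i := by
    intro i
    simp only [hf]
    split_ifs
    · exact hG
    · positivity
  set idx : ℕ → ℕ := fun j => ⌊x j / δ⌋₊ with hidx
  have hinj : Set.InjOn idx (S : Set ℕ) := by
    intro j hj j' hj' hjj
    by_contra hne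
    have h1 := hsep j hj j' hj' hne
    have h2 := h0 j hj
    have h3 := h0 j' hj'
    have h4 : 0 ≤ x j / δ := div_nonneg h2.1 hδ.le
    have h5 : 0 ≤ x j' / δ := div_nonneg h3.1 hδ.le
    have h6 := Nat.floor_le h4
    have h7 := Nat.lt_floor_add_one (x j / δ)
    have h8 := Nat.floor_le h5
    have h9 := Nat.lt_floor_add_one (x j' / δ)
    have hjj' : ((⌊x j / δ⌋₊ : ℕ) : ℝ) = (⌊x j' / δ⌋₊ : ℕ) := by
      have : ⌊x j / δ⌋₊ = ⌊x j' / δ⌋₊ := hjj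
      rw [this]
    have h10 : |x j / δ - x j' / δ| < 1 := by
      rw [abs_lt]
      constructor <;> linarith
    have h11 : |x j - x j'| < δ := by
      have : x j - x j' = (x j / δ - x j' / δ) * δ := by
        field_simp
      rw [this, abs_mul, abs_of_pos hδ]
      nlinarith
    linarith
  have hle : ∀ j ∈ S, min G (1 / x j) ≤ f (idx j) := by
    intro j hj
    simp only [hf]
    split_ifs with h
    · exact min_le_left _ _
    · refine (min_le_right _ _).trans ?_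
      have h2 := h0 j hj
      have h4 : 0 ≤ x j / δ := div_nonneg h2.1 hδ.le
      have h6 := Nat.floor_le h4
      have hi1 : (1:ℝ) ≤ (idx j : ℕ) := by
        have : 1 ≤ idx j := Nat.one_le_iff_ne_zero.2 h
        exact_mod_cast this
      have hi0 : (0:ℝ) < (idx j : ℕ) := by linarith
      have h7 : ((idx j : ℕ) : ℝ) * δ ≤ x j := by
        have := (le_div_iff₀ hδ).1 h6
        exact this
      have h8 : 0 < ((idx j : ℕ) : ℝ) * δ := by positivity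
      have h9 : 1 / x j ≤ 1 / (((idx j : ℕ) : ℝ) * δ) := one_div_le_one_div_of_le h8 h7
      have h10 : 1 / (((idx j : ℕ) : ℝ) * δ) = (1 / δ) * (1 / ((idx j : ℕ) : ℝ)) := by
        field_simp
      linarith
  have hrange : ∀ j ∈ S, idx j ∈ range (I + 1) := by
    intro j hj
    rw [Finset.mem_range, Nat.lt_succ_iff]
    apply Nat.floor_le_floor
    have h2 := h0 j hj
    rw [div_le_div_iff₀ hδ (by positivity)]
    nlinarith
  calc ∑ j ∈ S, min G (1 / x j) ≤ ∑ j ∈ S, f (idx j) := Finset.sum_le_sum hle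
    _ = ∑ i ∈ S.image idx, f i := (Finset.sum_image hinj).symm
    _ ≤ ∑ i ∈ range (I + 1), f i := by
        apply Finset.sum_le_sum_of_subset_of_nonneg
        · intro i hi
          obtain ⟨j, hj, rfl⟩ := Finset.mem_image.1 hi
          exact hrange j hj
        · intro i _ _
          exact hfnn i
    _ = G + (1 / δ) * ∑ i ∈ Icc 1 I, (1 / (i:ℝ)) := by
        rw [Finset.sum_range_succ', Finset.mul_sum, add_comm]
        have h1 : f 0 = G := by simp [hf]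
        have h2 : ∑ k ∈ range I, f (k + 1) = ∑ i ∈ Icc 1 I, (1 / δ) * (1 / (i:ℝ)) := by
          refine Finset.sum_bij (fun a _ => a + 1) ?_ ?_ ?_ ?_
          · intro a ha
            rw [Finset.mem_range] at ha
            rw [Finset.mem_Icc]
            omega
          · intro a _ b _ h
            omega
          · intro b hb
            rw [Finset.mem_Icc] at hb
            exact ⟨b - 1, Finset.mem_range.2 (by omega), by omega⟩
          · intro a _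
            simp [hf]
        rw [h1, h2]
    _ ≤ G + (1 / δ) * (1 + Real.log (I : ℝ)) := by
        have := harmonic_le_one_add_log I
        rw [harmonic_eq_sum_Icc] at this
        push_cast at this
        have h2 : ∑ i ∈ Icc 1 I, (1 / (i:ℝ)) ≤ 1 + Real.log (I:ℝ) := by
          simpa [one_div] using this
        have h3 : 0 ≤ 1 / δ := by positivity
        nlinarith

/-- A separated set: both sides. -/
private lemma sep_block {S : Finset ℕ} (x : ℕ → ℝ) {δ : ℝ} (hδ : 0 < δ) {G : ℝ} (hG : 0 ≤ G)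
    (h0 : ∀ j ∈ S, |x j| ≤ 1 / 2)
    (hsep : ∀ j ∈ S, ∀ j' ∈ S, j ≠ j' → δ ≤ |x j - x j'|) :
    ∑ j ∈ S, min G (1 / |x j|) ≤ 2 * (G + (1 / δ) * (1 + Real.log (⌊1 / (2 * δ)⌋₊ : ℝ))) := by
  classical
  rw [← Finset.sum_filter_add_sum_filter_not S (fun j => 0 ≤ x j)]
  have h1 : ∑ j ∈ S.filter (fun j => 0 ≤ x j), min G (1 / |x j|) ≤
      G + (1 / δ) * (1 + Real.log (⌊1 / (2 * δ)⌋₊ : ℝ)) := by
    have h2 : ∀ j ∈ S.filter (fun j => 0 ≤ x j), min G (1 / |x j|) = min G (1 / x j) := by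
      intro j hj
      rw [abs_of_nonneg (Finset.mem_filter.1 hj).2]
    rw [Finset.sum_congr rfl h2]
    apply sep_side x hδ hG
    · intro j hj
      obtain ⟨h3, h4⟩ := Finset.mem_filter.1 hj
      have := h0 j h3
      rw [abs_of_nonneg h4] at this
      exact ⟨h4, this⟩
    · intro j hj j' hj' hne
      exact hsep j (Finset.mem_filter.1 hj).1 j' (Finset.mem_filter.1 hj').1 hne
  have h1' : ∑ j ∈ S.filter (fun j => ¬ 0 ≤ x j), min G (1 / |x j|) ≤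
      G + (1 / δ) * (1 + Real.log (⌊1 / (2 * δ)⌋₊ : ℝ)) := by
    have h2 : ∀ j ∈ S.filter (fun j => ¬ 0 ≤ x j), min G (1 / |x j|) = min G (1 / (fun i => - x i) j) := by
      intro j hj
      have := (Finset.mem_filter.1 hj).2
      rw [abs_of_neg (not_le.1 this)]
    rw [Finset.sum_congr rfl h2]
    apply sep_side (fun i => - x i) hδ hG
    · intro j hj
      obtain ⟨h3, h4⟩ := Finset.mem_filter.1 hj
      have := h0 j h3
      rw [abs_of_neg (not_le.1 h4)] at this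
      exact ⟨by linarith [not_le.1 h4], this⟩
    · intro j hj j' hj' hne
      have := hsep j (Finset.mem_filter.1 hj).1 j' (Finset.mem_filter.1 hj').1 hne
      have h5 : |(- x j) - (- x j')| = |x j - x j'| := by
        rw [← abs_neg]
        congr 1
        ring
      simp only [h5]
      exact this
  linarith

/-- One block of consecutive twists. -/
private lemma avg_block {γ : ℝ} {Δ G : ℕ} {r X : ℝ} (hG : 1 ≤ G) (hr1 : 1 ≤ r) (hrr : r * r = G)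
    (hclose : ∀ N : ℕ, 1 ≤ N → (N:ℝ) ≤ X → 1 / r ≤ dn ((N:ℝ) * γ)) {L₁ : ℕ} (hL₁1 : 1 ≤ L₁)
    (hL₁Δ : (L₁:ℝ) * Δ ≤ X) (hΔ : 1 ≤ Δ) (L0 t : ℕ) :
    ∑ j ∈ (Ico 1 L0).filter (fun j => j / L₁ = t),
      min (G:ℝ) (1 / dn (((j * Δ : ℕ):ℝ) * γ)) ≤ 2 * ((G:ℝ) + r * (1 + Real.log G)) := by
  classical
  have hGR : (1:ℝ) ≤ G := by exact_mod_cast hG
  have hG0 : (0:ℝ) ≤ G := by linarith
  have hr0 : 0 < r := by linarith
  have hrG : r ≤ G := by nlinarith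
  have hlogG : 0 ≤ Real.log G := Real.log_nonneg hGR
  set S := (Ico 1 L0).filter (fun j => j / L₁ = t) with hS
  set s : ℕ → ℝ := fun j => ((j * Δ : ℕ):ℝ) * γ with hs
  set x : ℕ → ℝ := fun j => s j - round (s j) with hx
  have hdn : ∀ j, dn (s j) = |x j| := fun j => rfl
  have hδ : 0 < 1 / r := by positivity
  have hsep : ∀ j ∈ S, ∀ j' ∈ S, j ≠ j' → 1 / r ≤ |x j - x j'| := by
    -- the case `j' < j`
    have key : ∀ j ∈ S, ∀ j' ∈ S, j' < j → 1 / r ≤ |x j - x j'| := by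
      intro j hj j' hj' hlt
      have h1 := (Finset.mem_filter.1 hj).2
      have h2 := (Finset.mem_filter.1 hj').2
      have hdiff : j - j' < L₁ := by
        have hL : 0 < L₁ := hL₁1
        have h3 := Nat.div_add_mod j L₁
        have h4 := Nat.div_add_mod j' L₁
        have h5 := Nat.mod_lt j hL
        have h6 := Nat.mod_lt j' hL
        rw [h1] at h3
        rw [h2] at h4
        omega
      set N := (j - j') * Δ with hN
      have hN1 : 1 ≤ N := Nat.mul_pos (by omega) hΔ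
      have hNX : (N:ℝ) ≤ X := by
        have h3 : ((j - j' : ℕ):ℝ) ≤ L₁ := by exact_mod_cast hdiff.le
        have h7 : (0:ℝ) ≤ Δ := Nat.cast_nonneg _
        rw [hN]
        push_cast
        push_cast at h3
        nlinarith
      have h3 := hclose N hN1 hNX
      have h4 : (N:ℝ) * γ = s j - s j' := by
        simp only [hs, hN]
        have : j * Δ = (j - j') * Δ + j' * Δ := by
          rw [← Nat.add_mul]
          congr 1
          omega
        rw [this]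
        push_cast
        ring
      have h5 := dn_le_abs_sub ((N:ℝ) * γ) (round (s j) - round (s j'))
      have h6 : (N:ℝ) * γ - ((round (s j) - round (s j') : ℤ):ℝ) = x j - x j' := by
        rw [h4]
        simp only [hx]
        push_cast
        ring
      rw [h6] at h5
      linarith
    intro j hj j' hj' hne
    rcases lt_or_gt_of_ne hne with h | h
    · rw [abs_sub_comm]
      exact key j' hj' j hj h
    · exact key j hj j' hj' h
  have h0 : ∀ j ∈ S, |x j| ≤ 1 / 2 := fun j _ => dn_le_half (s j)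
  have h1 := sep_block x hδ hG0 h0 hsep
  have h2 : 1 / (1 / r) = r := by field_simp
  rw [h2] at h1
  have h3 : Real.log ((⌊1 / (2 * (1 / r))⌋₊ : ℕ) : ℝ) ≤ Real.log G := by
    by_cases hI : ⌊1 / (2 * (1 / r))⌋₊ = 0
    · rw [hI]
      simpa using hlogG
    · have hI1 : (1:ℝ) ≤ ((⌊1 / (2 * (1 / r))⌋₊ : ℕ) : ℝ) := by
        exact_mod_cast Nat.one_le_iff_ne_zero.2 hI
      apply Real.log_le_log (by linarith)
      have h4 := Nat.floor_le (show (0:ℝ) ≤ 1 / (2 * (1 / r)) by positivity)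
      have h5 : 1 / (2 * (1 / r)) = r / 2 := by field_simp
      rw [h5] at h4
      rw [h5]
      linarith
  have h4 : ∑ j ∈ S, min (G:ℝ) (1 / dn (s j)) = ∑ j ∈ S, min (G:ℝ) (1 / |x j|) := rfl
  calc ∑ j ∈ S, min (G:ℝ) (1 / dn (((j * Δ : ℕ):ℝ) * γ)) = ∑ j ∈ S, min (G:ℝ) (1 / |x j|) := h4
    _ ≤ _ := h1
    _ ≤ _ := by
        nlinarith

/-- The numerical end of `avg_min`. -/
private lemma avg_num {L0 L₁ G Δ X r ℓ bound : ℝ} (hL0 : 0 ≤ L0) (hL₁ : 1 ≤ L₁)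
    (hL₁half : X / Δ / 2 ≤ L₁) (hΔ : 0 < Δ) (hX : 0 < X) (hG : 0 ≤ G) (hr : 0 ≤ r) (hℓ : 0 ≤ 1 + ℓ)
    (hb : bound = 2 * (G + r * (1 + ℓ))) :
    2 * L0 / L₁ * bound ≤ L0 * (16 * G * Δ / X + 16 * r * (1 + ℓ)) := by
  have hL₁pos : 0 < L₁ := by linarith
  have h4 : 1 / L₁ ≤ 2 * Δ / X := by
    rw [div_le_div_iff₀ hL₁pos hX]
    have h5 : X ≤ 2 * L₁ * Δ := by
      have h6 := (div_le_iff₀ (by norm_num : (0:ℝ) < 2)).1 hL₁half
      have h7 := (div_le_iff₀ hΔ).1 h6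
      nlinarith
    linarith
  have h5 : 1 / L₁ ≤ 1 := by
    rw [div_le_one hL₁pos]
    exact hL₁
  have h6 : 2 * L0 / L₁ * bound = L0 * (1 / L₁ * (2 * bound)) := by
    field_simp
  rw [h6]
  apply mul_le_mul_of_nonneg_left _ hL0
  have h7 : 1 / L₁ * (2 * bound) = 1 / L₁ * (4 * G) + 1 / L₁ * (4 * (r * (1 + ℓ))) := by
    rw [hb]
    ring
  rw [h7]
  have h8 : 1 / L₁ * (4 * G) ≤ 2 * Δ / X * (4 * G) :=
    mul_le_mul_of_nonneg_right h4 (by positivity)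
  have h9 : 1 / L₁ * (4 * (r * (1 + ℓ))) ≤ 1 * (4 * (r * (1 + ℓ))) :=
    mul_le_mul_of_nonneg_right h5 (by positivity)
  have h10 : 2 * Δ / X * (4 * G) ≤ 16 * G * Δ / X := by
    have : 2 * Δ / X * (4 * G) = 8 * G * Δ / X := by ring
    rw [this]
    apply div_le_div_of_nonneg_right _ hX.le
    have : 0 ≤ G * Δ := by positivity
    nlinarith
  have h11 : 0 ≤ r * (1 + ℓ) := by positivity
  have h12 : 16 * r * (1 + ℓ) = 16 * (r * (1 + ℓ)) := by ring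
  rw [h12]
  linarith

/-- Average of the geometric sum. -/
lemma avg_min {γ c₀ : ℝ} {κ : ℕ} (hγ : Dio γ c₀ κ) (hc₀ : 0 < c₀) (hκ : 1 ≤ κ) (Δ G L0 : ℕ) (hΔ : 1 ≤ Δ) (hG : 1 ≤ G) :
    ∑ j ∈ Ico 1 L0, min (G:ℝ) (1 / dn (((j * Δ : ℕ):ℝ) * γ))
      ≤ (L0:ℝ) * (16 * (G:ℝ) * (Δ:ℝ) / max 1 ((c₀ * Real.sqrt G) ^ ((1:ℝ) / κ))
          + 16 * Real.sqrt G * (1 + Real.log G)) := by
  classical
  have hGR : (1:ℝ) ≤ G := by exact_mod_cast hG
  have hΔR : (1:ℝ) ≤ Δ := by exact_mod_cast hΔ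
  have hG0 : (0:ℝ) ≤ G := by linarith
  set r : ℝ := Real.sqrt G with hr
  have hr1 : 1 ≤ r := by
    rw [hr]
    exact Real.one_le_sqrt.2 hGR
  have hr0 : 0 < r := by linarith
  have hrr : r * r = G := Real.mul_self_sqrt hG0
  have hrG : r ≤ G := by nlinarith
  set X : ℝ := (c₀ * r) ^ ((1:ℝ) / κ) with hX
  have hκ0 : (κ:ℝ) ≠ 0 := by
    have : (1:ℝ) ≤ κ := by exact_mod_cast hκ
    linarith
  have hXpos : 0 < X := Real.rpow_pos_of_pos (mul_pos hc₀ hr0) _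
  have hXκ : X ^ κ = c₀ * r := by
    rw [hX, ← Real.rpow_natCast, ← Real.rpow_mul (mul_pos hc₀ hr0).le, one_div, inv_mul_cancel₀ hκ0,
      Real.rpow_one]
  have hlogG : 0 ≤ Real.log G := Real.log_nonneg hGR
  -- close returns
  have hclose : ∀ N : ℕ, 1 ≤ N → (N:ℝ) ≤ X → 1 / r ≤ dn ((N:ℝ) * γ) := by
    intro N hN hNX
    have h1 := hγ N hN
    have hN0 : (0:ℝ) < (N:ℝ) ^ κ := by
      have : (1:ℝ) ≤ N := by exact_mod_cast hN
      positivity
    have h2 : (N:ℝ) ^ κ ≤ c₀ * r := by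
      rw [← hXκ]
      exact pow_le_pow_left₀ (Nat.cast_nonneg _) hNX _
    refine le_trans ?_ h1
    rw [div_le_div_iff₀ hr0 hN0]
    linarith
  have hdnle : ∀ j : ℕ, min (G:ℝ) (1 / dn (((j * Δ : ℕ):ℝ) * γ)) ≤ G := fun j => min_le_left _ _
  have hnn : ∀ j : ℕ, 0 ≤ min (G:ℝ) (1 / dn (((j * Δ : ℕ):ℝ) * γ)) := by
    intro j
    exact le_min hG0 (div_nonneg zero_le_one (dn_nonneg _))
  have hL0 : (0:ℝ) ≤ L0 := Nat.cast_nonneg _
  have hmaxpos : 0 < max 1 X := lt_of_lt_of_le zero_lt_one (le_max_left _ _)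
  set L₁ := ⌊X / Δ⌋₊ with hL₁
  have hΔ0 : (0:ℝ) < Δ := by linarith
  have hsecond : 0 ≤ 16 * r * (1 + Real.log G) := by positivity
  have hfirst : 0 ≤ 16 * (G:ℝ) * (Δ:ℝ) / max 1 X := by positivity
  by_cases hL₁0 : L₁ = 0
  · -- `X < Δ`
    have h1 : X / Δ < 1 := by
      have := Nat.lt_floor_add_one (X / Δ)
      rw [← hL₁, hL₁0] at this
      simpa using this
    have h2 : X < Δ := by
      rwa [div_lt_one hΔ0] at h1
    have h3 : max 1 X ≤ Δ := max_le hΔR h2.le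
    have h4 : (G:ℝ) ≤ 16 * (G:ℝ) * (Δ:ℝ) / max 1 X := by
      rw [le_div_iff₀ hmaxpos]
      nlinarith [le_max_left (1:ℝ) X]
    have h5 : ∑ j ∈ Ico 1 L0, min (G:ℝ) (1 / dn (((j * Δ : ℕ):ℝ) * γ)) ≤ (L0:ℝ) * G := by
      refine (Finset.sum_le_sum fun j _ => hdnle j).trans ?_
      rw [Finset.sum_const, nsmul_eq_mul, Nat.card_Ico]
      apply mul_le_mul_of_nonneg_right _ hG0
      have : L0 - 1 ≤ L0 := Nat.sub_le _ _
      exact_mod_cast this
    refine h5.trans ?_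
    apply mul_le_mul_of_nonneg_left _ hL0
    linarith
  -- blocks
  have hL₁1 : 1 ≤ L₁ := Nat.one_le_iff_ne_zero.2 hL₁0
  have hL₁le : (L₁:ℝ) ≤ X / Δ := Nat.floor_le (by positivity)
  have hL₁Δ : (L₁:ℝ) * Δ ≤ X := (le_div_iff₀ hΔ0).1 hL₁le
  have hL₁R : (1:ℝ) ≤ L₁ := by exact_mod_cast hL₁1
  have hX1 : 1 ≤ X := by nlinarith
  have hXΔ : 1 ≤ X / Δ := le_trans hL₁R hL₁le
  have hmaxX : max 1 X = X := max_eq_right hX1
  have hL₁half : X / Δ / 2 ≤ L₁ := by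
    have := Nat.lt_floor_add_one (X / Δ)
    rw [← hL₁] at this
    linarith
  set bound : ℝ := 2 * ((G:ℝ) + r * (1 + Real.log G)) with hbound
  have hbound0 : 0 ≤ bound := by positivity
  have hblock : ∀ t : ℕ, ∑ j ∈ (Ico 1 L0).filter (fun j => j / L₁ = t),
      min (G:ℝ) (1 / dn (((j * Δ : ℕ):ℝ) * γ)) ≤ bound := by
    intro t
    rw [hbound]
    exact avg_block hG hr1 hrr hclose hL₁1 hL₁Δ hΔ L0 t
  by_cases hLL : L0 < L₁
  · -- no block is needed: every term is at most `r`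
    have h1 : ∀ j ∈ Ico 1 L0, min (G:ℝ) (1 / dn (((j * Δ : ℕ):ℝ) * γ)) ≤ r := by
      intro j hj
      rw [Finset.mem_Ico] at hj
      refine (min_le_right _ _).trans ?_
      have h2 : ((j * Δ : ℕ) : ℝ) ≤ X := by
        have h3 : (j:ℝ) ≤ L₁ := by exact_mod_cast (hj.2.trans hLL).le
        push_cast
        nlinarith
      have h3 := hclose (j * Δ) (Nat.mul_pos (by omega) hΔ) h2
      have h4 : 0 < 1 / r := by positivity
      have h5 : 1 / dn (((j * Δ : ℕ):ℝ) * γ) ≤ 1 / (1 / r) := one_div_le_one_div_of_le h4 h3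
      have h6 : 1 / (1 / r) = r := by field_simp
      rwa [h6] at h5
    have h2 : ∑ j ∈ Ico 1 L0, min (G:ℝ) (1 / dn (((j * Δ : ℕ):ℝ) * γ)) ≤ (L0:ℝ) * r := by
      refine (Finset.sum_le_sum h1).trans ?_
      rw [Finset.sum_const, nsmul_eq_mul, Nat.card_Ico]
      apply mul_le_mul_of_nonneg_right _ hr0.le
      have : L0 - 1 ≤ L0 := Nat.sub_le _ _
      exact_mod_cast this
    refine h2.trans ?_
    apply mul_le_mul_of_nonneg_left _ hL0
    nlinarith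
  · have hLL' : L₁ ≤ L0 := not_lt.1 hLL
    have hmaps : ∀ j ∈ Ico 1 L0, j / L₁ ∈ range (L0 / L₁ + 1) := by
      intro j hj
      rw [Finset.mem_Ico] at hj
      rw [Finset.mem_range, Nat.lt_succ_iff]
      exact Nat.div_le_div_right hj.2.le
    have hfib := Finset.sum_fiberwise_of_maps_to hmaps
      (fun j => min (G:ℝ) (1 / dn (((j * Δ : ℕ):ℝ) * γ)))
    rw [← hfib]
    have h1 : ∑ t ∈ range (L0 / L₁ + 1), ∑ j ∈ (Ico 1 L0).filter (fun j => j / L₁ = t),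
        min (G:ℝ) (1 / dn (((j * Δ : ℕ):ℝ) * γ)) ≤ ((L0 / L₁ + 1 : ℕ) : ℝ) * bound := by
      refine (Finset.sum_le_sum fun t _ => hblock t).trans ?_
      rw [Finset.sum_const, nsmul_eq_mul, Finset.card_range]
    refine h1.trans ?_
    have hL0R : (L₁:ℝ) ≤ L0 := by exact_mod_cast hLL'
    have hL₁pos : (0:ℝ) < L₁ := by linarith
    have h2 : ((L0 / L₁ + 1 : ℕ) : ℝ) ≤ 2 * (L0:ℝ) / L₁ := by
      push_cast
      have h3 : ((L0 / L₁ : ℕ) : ℝ) ≤ (L0:ℝ) / L₁ := Nat.cast_div_le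
      have h4 : (1:ℝ) ≤ (L0:ℝ) / L₁ := by
        rw [le_div_iff₀ hL₁pos]
        linarith
      have h5 : 2 * (L0:ℝ) / L₁ = (L0:ℝ) / L₁ + (L0:ℝ) / L₁ := by ring
      rw [h5]
      linarith
    have h3 : ((L0 / L₁ + 1 : ℕ) : ℝ) * bound ≤ 2 * (L0:ℝ) / L₁ * bound :=
      mul_le_mul_of_nonneg_right h2 hbound0
    refine h3.trans ?_
    rw [hmaxX]
    exact avg_num hL0 hL₁R hL₁half hΔ0 hXpos hG0 hr0.le (by linarith) hbound

lemma mem_Nn_iff {M d n : ℕ} (hd : 1 ≤ d) : n ∈ Nn M d ↔ M ≤ d * n ∧ d * n < 2 * M := by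
  unfold Nn
  rw [Finset.mem_filter, Finset.mem_range]
  constructor
  · exact fun h => h.2
  · intro h
    refine ⟨?_, h⟩
    have : n ≤ d * n := Nat.le_mul_of_pos_left n hd
    omega

/-- The values of `d` contributing to a pair `n, m`. -/
def JJ (D0 Mm n m : ℕ) : Finset ℕ :=
  (Ioc D0 (2 * Mm)).filter (fun d => n ∈ Nn Mm d ∧ m ∈ Nn Mm d)

private lemma ceil_iff1 {M d n : ℕ} (hn : 1 ≤ n) : ⌈(M:ℝ) / n⌉₊ ≤ d ↔ M ≤ d * n := by
  have hn0 : (0:ℝ) < n := by exact_mod_cast hn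
  rw [Nat.ceil_le, div_le_iff₀ hn0]
  exact_mod_cast Iff.rfl

private lemma ceil_iff2 {M d n : ℕ} (hn : 1 ≤ n) : d < ⌈(2 * M:ℝ) / n⌉₊ ↔ d * n < 2 * M := by
  have hn0 : (0:ℝ) < n := by exact_mod_cast hn
  rw [Nat.lt_ceil, lt_div_iff₀ hn0]
  exact_mod_cast Iff.rfl

/-- The contributing `d` form an interval. -/
private lemma JJ_eq {D0 M n m : ℕ} (hn : 1 ≤ n) (hm : 1 ≤ m) :
    JJ D0 M n m = Ico (max (D0 + 1) (max ⌈(M:ℝ) / n⌉₊ ⌈(M:ℝ) / m⌉₊))
      (min (2 * M + 1) (min ⌈(2 * M:ℝ) / n⌉₊ ⌈(2 * M:ℝ) / m⌉₊)) := by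
  ext d
  unfold JJ
  rw [Finset.mem_filter, Finset.mem_Ioc, Finset.mem_Ico, max_le_iff, max_le_iff, lt_min_iff,
    lt_min_iff, ceil_iff1 hn, ceil_iff1 hm, ceil_iff2 hn, ceil_iff2 hm]
  constructor
  · rintro ⟨⟨h1, h2⟩, h3, h4⟩
    have hd : 1 ≤ d := by omega
    rw [mem_Nn_iff hd] at h3 h4
    exact ⟨⟨by omega, h3.1, h4.1⟩, by omega, h3.2, h4.2⟩
  · rintro ⟨⟨h1, h2, h3⟩, h4, h5, h6⟩
    have hd : 1 ≤ d := by omega
    rw [mem_Nn_iff hd, mem_Nn_iff hd]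
    exact ⟨⟨by omega, by omega⟩, ⟨h2, h5⟩, h3, h6⟩

/-- The size of the multipliers. -/
private lemma card_Nn_le {M d : ℕ} (hd : 1 ≤ d) : ((Nn M d).card : ℝ) ≤ (M:ℝ) / d + 1 := by
  have hd0 : (0:ℝ) < d := by exact_mod_cast hd
  have hsub : Nn M d ⊆ Ico ⌈(M:ℝ) / d⌉₊ ⌈(2 * M:ℝ) / d⌉₊ := by
    intro n hn
    rw [mem_Nn_iff hd] at hn
    rw [Finset.mem_Ico]
    constructor
    · rw [Nat.ceil_le, div_le_iff₀ hd0]
      have : M ≤ n * d := by
        rw [mul_comm]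
        exact hn.1
      exact_mod_cast this
    · rw [Nat.lt_ceil, lt_div_iff₀ hd0]
      have : n * d < 2 * M := by
        rw [mul_comm]
        exact hn.2
      exact_mod_cast this
  have h1 := Finset.card_le_card hsub
  rw [Nat.card_Ico] at h1
  have h2 : (0:ℝ) ≤ (M:ℝ) / d := by positivity
  have h3 : (0:ℝ) ≤ (2 * M:ℝ) / d := by positivity
  have h4 := Nat.ceil_lt_add_one h3
  have h5 := Nat.le_ceil ((M:ℝ) / d)
  have h6 : (2 * M:ℝ) / d = (M:ℝ) / d + (M:ℝ) / d := by ring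
  rcases le_total ⌈(M:ℝ) / d⌉₊ ⌈(2 * M:ℝ) / d⌉₊ with h7 | h7
  · have h8 : ((Nn M d).card : ℝ) ≤ ((⌈(2 * M:ℝ) / d⌉₊ - ⌈(M:ℝ) / d⌉₊ : ℕ) : ℝ) := by
      exact_mod_cast h1
    rw [Nat.cast_sub h7] at h8
    linarith
  · have h8 : (Nn M d).card = 0 := by omega
    rw [h8]
    push_cast
    linarith

/-- The sum over the twists for a pair `n ≠ m`. -/
private lemma W_bound {γ c₀ : ℝ} {κ : ℕ} (hγ : Dio γ c₀ κ) (hc₀ : 0 < c₀) (hκ : 1 ≤ κ)
    {M L0 D0 : ℕ} {X₀ : ℝ} (hM : 1 ≤ M) (hX₀ : 0 < X₀)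
    (hX : ∀ G : ℕ, D0 < G → X₀ ≤ (c₀ * Real.sqrt G) ^ ((1:ℝ) / κ))
    {n m : ℕ} (hn : 1 ≤ n) (hm : 1 ≤ m) (hnm : n ≠ m) :
    ∑ j ∈ Ico 1 L0, ‖∑ d ∈ JJ D0 M n m, ee (((j * d : ℕ):ℝ) * γ * ((n:ℝ) - m))‖
      ≤ (L0:ℝ) * (32 * (M:ℝ) / X₀ + 16 * Real.sqrt (2 * (M:ℝ)) * (1 + Real.log (2 * (M:ℝ)))) := by
  have hMR : (1:ℝ) ≤ M := by exact_mod_cast hM
  have h2M : (1:ℝ) ≤ 2 * (M:ℝ) := by linarith
  have hlog2M : 0 ≤ Real.log (2 * (M:ℝ)) := Real.log_nonneg h2M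
  have hL0 : (0:ℝ) ≤ L0 := Nat.cast_nonneg _
  by_cases hJ : (JJ D0 M n m).Nonempty
  swap
  · rw [Finset.not_nonempty_iff_eq_empty] at hJ
    rw [hJ]
    simp only [Finset.sum_empty, norm_zero, Finset.sum_const_zero]
    positivity
  obtain ⟨d₀, hd₀⟩ := hJ
  set mx := max n m with hmx
  set mn := min n m with hmn
  set Δ := mx - mn with hΔ
  have hmx1 : 1 ≤ mx := le_max_of_le_left hn
  set G := 2 * M / mx with hG
  -- facts on `d`
  have hJfacts : ∀ d ∈ JJ D0 M n m, D0 < d ∧ 1 ≤ d ∧ d ≤ G := by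
    intro d hd
    obtain ⟨h1, h2, h3⟩ := Finset.mem_filter.1 hd
    obtain ⟨h4, h5⟩ := Finset.mem_Ioc.1 h1
    have hd1 : 1 ≤ d := by omega
    rw [mem_Nn_iff hd1] at h2 h3
    refine ⟨h4, hd1, ?_⟩
    rw [hG, Nat.le_div_iff_mul_le (by omega)]
    rcases le_total n m with h6 | h6
    · rw [hmx, max_eq_right h6]
      exact h3.2.le
    · rw [hmx, max_eq_left h6]
      exact h2.2.le
  obtain ⟨hd1, hd2, hd3⟩ := hJfacts d₀ hd₀
  have hDG : D0 < G := by omega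
  have hG1 : 1 ≤ G := by omega
  have hΔ1 : 1 ≤ Δ := by
    rw [hΔ, hmx, hmn]
    rcases lt_or_gt_of_ne hnm with h | h
    · rw [max_eq_right h.le, min_eq_left h.le]
      omega
    · rw [max_eq_left h.le, min_eq_right h.le]
      omega
  have hΔmx : Δ ≤ mx := Nat.sub_le _ _
  have hGΔ : G * Δ ≤ 2 * M := by
    calc G * Δ ≤ G * mx := Nat.mul_le_mul_left _ hΔmx
      _ ≤ 2 * M := Nat.div_mul_le_self _ _
  have hG2M : G ≤ 2 * M := Nat.div_le_self _ _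
  have hGR : (1:ℝ) ≤ G := by exact_mod_cast hG1
  have hG2MR : (G:ℝ) ≤ 2 * (M:ℝ) := by exact_mod_cast hG2M
  have hGΔR : (G:ℝ) * Δ ≤ 2 * (M:ℝ) := by exact_mod_cast hGΔ
  -- the real difference
  have hdiff : ∀ j : ℕ, dn ((j:ℝ) * γ * ((n:ℝ) - m)) = dn (((j * Δ : ℕ):ℝ) * γ) := by
    intro j
    rcases lt_or_gt_of_ne hnm with h | h
    · have hΔeq : Δ = m - n := by
        rw [hΔ, hmx, hmn, max_eq_right h.le, min_eq_left h.le]
      have : (j:ℝ) * γ * ((n:ℝ) - m) = - (((j * Δ : ℕ):ℝ) * γ) := by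
        rw [hΔeq]
        push_cast [Nat.cast_sub h.le]
        ring
      rw [this, dn_neg]
    · have hΔeq : Δ = n - m := by
        rw [hΔ, hmx, hmn, max_eq_left h.le, min_eq_right h.le]
      have : (j:ℝ) * γ * ((n:ℝ) - m) = ((j * Δ : ℕ):ℝ) * γ := by
        rw [hΔeq]
        push_cast [Nat.cast_sub h.le]
        ring
      rw [this]
  have hterm : ∀ j ∈ Ico 1 L0, ‖∑ d ∈ JJ D0 M n m, ee (((j * d : ℕ):ℝ) * γ * ((n:ℝ) - m))‖
      ≤ min (G:ℝ) (1 / dn (((j * Δ : ℕ):ℝ) * γ)) := by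
    intro j hj
    rw [Finset.mem_Ico] at hj
    apply le_min
    · refine (norm_sum_le _ _).trans ?_
      simp only [norm_ee, Finset.sum_const, smul_eq_mul, mul_one, nsmul_eq_mul]
      have hsub : JJ D0 M n m ⊆ Icc 1 G := by
        intro d hd
        obtain ⟨_, h2, h3⟩ := hJfacts d hd
        exact Finset.mem_Icc.2 ⟨h2, h3⟩
      have := Finset.card_le_card hsub
      rw [Nat.card_Icc] at this
      have h4 : (JJ D0 M n m).card ≤ G := by omega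
      exact_mod_cast h4
    · have hN1 : 1 ≤ j * Δ := Nat.mul_pos hj.1 hΔ1
      have hpos : 0 < dn (((j * Δ : ℕ):ℝ) * γ) := by
        have h1 := hγ (j * Δ) hN1
        have h2 : (0:ℝ) < ((j * Δ : ℕ):ℝ) ^ κ := by
          have : (1:ℝ) ≤ ((j * Δ : ℕ):ℝ) := by exact_mod_cast hN1
          positivity
        exact lt_of_lt_of_le (div_pos hc₀ h2) h1
      have h1 : ∑ d ∈ JJ D0 M n m, ee (((j * d : ℕ):ℝ) * γ * ((n:ℝ) - m)) =
          ∑ d ∈ JJ D0 M n m, ee (((j:ℝ) * γ * ((n:ℝ) - m)) * d) := by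
        apply Finset.sum_congr rfl
        intro d _
        congr 1
        push_cast
        ring
      rw [h1, JJ_eq hn hm]
      have hθ : 0 < dn ((j:ℝ) * γ * ((n:ℝ) - m)) := by
        rw [hdiff j]
        exact hpos
      refine (geom_bound _ hθ _ _).trans ?_
      rw [hdiff j]
      apply one_div_le_one_div_of_le hpos
      linarith
  refine (Finset.sum_le_sum hterm).trans ?_
  refine (avg_min hγ hc₀ hκ Δ G L0 hΔ1 hG1).trans ?_
  apply mul_le_mul_of_nonneg_left _ hL0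
  have hXG := hX G hDG
  have hmaxX : X₀ ≤ max 1 ((c₀ * Real.sqrt G) ^ ((1:ℝ) / κ)) := hXG.trans (le_max_right _ _)
  have hGΔ0 : (0:ℝ) ≤ (G:ℝ) * Δ := by positivity
  have h1 : 16 * (G:ℝ) * (Δ:ℝ) / max 1 ((c₀ * Real.sqrt G) ^ ((1:ℝ) / κ)) ≤ 32 * (M:ℝ) / X₀ := by
    have h2 : 16 * (G:ℝ) * (Δ:ℝ) / max 1 ((c₀ * Real.sqrt G) ^ ((1:ℝ) / κ)) ≤ 16 * (G:ℝ) * (Δ:ℝ) / X₀ :=
      div_le_div_of_nonneg_left (by positivity) hX₀ hmaxX
    refine h2.trans ?_
    apply div_le_div_of_nonneg_right _ hX₀.le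
    nlinarith
  have h2 : Real.sqrt G ≤ Real.sqrt (2 * (M:ℝ)) := Real.sqrt_le_sqrt hG2MR
  have h3 : Real.log G ≤ Real.log (2 * (M:ℝ)) := Real.log_le_log (by linarith) hG2MR
  have h4 : 0 ≤ Real.log G := Real.log_nonneg hGR
  have h5 : 16 * Real.sqrt G * (1 + Real.log G) ≤ 16 * Real.sqrt (2 * (M:ℝ)) * (1 + Real.log (2 * (M:ℝ))) := by
    apply mul_le_mul (by linarith) (by linarith) (by linarith) (by positivity)
  linarith

/-- A sum over a subset as a sum with a condition. -/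
private lemma sum_sub_ite {T A : Finset ℕ} (hsub : T ⊆ A) (f : ℕ → ℂ) :
    ∑ n ∈ T, f n = ∑ n ∈ A, if n ∈ T then f n else 0 := by
  rw [Finset.sum_ite_mem, Finset.inter_eq_right.2 hsub]

/-- The kernel with the multipliers in a larger set. -/
private lemma BBc_expand {F T A : Finset ℕ} (hsub : T ⊆ A) (θ : ℝ) :
    BBc F T T θ = ∑ q ∈ F, ∑ r ∈ F, ∑ n ∈ A, ∑ m ∈ A,
      if n ∈ T ∧ m ∈ T then (if q * n = r * m then ee (θ * ((n:ℝ) - m)) else 0) else 0 := by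
  unfold BBc
  apply Finset.sum_congr rfl
  intro q _
  apply Finset.sum_congr rfl
  intro r _
  rw [sum_sub_ite hsub]
  apply Finset.sum_congr rfl
  intro n _
  by_cases hn : n ∈ T
  · simp only [hn, if_true, true_and]
    rw [sum_sub_ite hsub]
  · simp only [hn, if_false, false_and, Finset.sum_const_zero]

/-- The sum over `d` for fixed twist. -/
private lemma sum_d_le {γ : ℝ} {F : Finset ℕ} {M D0 Y : ℕ} (hM : 1 ≤ M)
    (hY : ∀ d n, D0 < d → d * n < 2 * M → n ≤ 2 * Y) (j : ℕ) :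
    ∑ d ∈ Ioc D0 (2 * M), (BBc F (Nn M d) (Nn M d) (((j * d : ℕ):ℝ) * γ)).re ≤
      ∑ q ∈ F, ∑ r ∈ F, ∑ n ∈ Icc 1 (2 * Y), ∑ m ∈ Icc 1 (2 * Y),
        if q * n = r * m then ‖∑ d ∈ JJ D0 M n m, ee (((j * d : ℕ):ℝ) * γ * ((n:ℝ) - m))‖ else 0 := by
  set A := Icc 1 (2 * Y) with hA
  have hsub : ∀ d ∈ Ioc D0 (2 * M), Nn M d ⊆ A := by
    intro d hd n hn
    obtain ⟨h1, _⟩ := Finset.mem_Ioc.1 hd
    have hd1 : 1 ≤ d := by omega
    rw [mem_Nn_iff hd1] at hn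
    rw [hA, Finset.mem_Icc]
    refine ⟨?_, hY d n h1 hn.2⟩
    rcases Nat.eq_zero_or_pos n with h0 | h0
    · rw [h0, mul_zero] at hn
      omega
    · exact h0
  have h1 : ∀ d ∈ Ioc D0 (2 * M), BBc F (Nn M d) (Nn M d) (((j * d : ℕ):ℝ) * γ) =
      ∑ q ∈ F, ∑ r ∈ F, ∑ n ∈ A, ∑ m ∈ A,
        if n ∈ Nn M d ∧ m ∈ Nn M d then
          (if q * n = r * m then ee (((j * d : ℕ):ℝ) * γ * ((n:ℝ) - m)) else 0) else 0 :=
    fun d hd => BBc_expand (hsub d hd) _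
  have h2 : ∑ d ∈ Ioc D0 (2 * M), BBc F (Nn M d) (Nn M d) (((j * d : ℕ):ℝ) * γ) =
      ∑ q ∈ F, ∑ r ∈ F, ∑ n ∈ A, ∑ m ∈ A,
        if q * n = r * m then ∑ d ∈ JJ D0 M n m, ee (((j * d : ℕ):ℝ) * γ * ((n:ℝ) - m)) else 0 := by
    rw [Finset.sum_congr rfl h1, Finset.sum_comm]
    apply Finset.sum_congr rfl
    intro q _
    rw [Finset.sum_comm]
    apply Finset.sum_congr rfl
    intro r _
    rw [Finset.sum_comm]
    apply Finset.sum_congr rfl
    intro n _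
    rw [Finset.sum_comm]
    apply Finset.sum_congr rfl
    intro m _
    by_cases hqr : q * n = r * m
    · simp only [hqr, if_true]
      unfold JJ
      rw [Finset.sum_filter]
    · simp only [hqr, if_false, ite_self, Finset.sum_const_zero]
  have h3 : ∑ d ∈ Ioc D0 (2 * M), (BBc F (Nn M d) (Nn M d) (((j * d : ℕ):ℝ) * γ)).re =
      (∑ d ∈ Ioc D0 (2 * M), BBc F (Nn M d) (Nn M d) (((j * d : ℕ):ℝ) * γ)).re := by
    rw [Complex.re_sum]
  rw [h3, h2]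
  simp only [Complex.re_sum]
  apply Finset.sum_le_sum
  intro q _
  apply Finset.sum_le_sum
  intro r _
  apply Finset.sum_le_sum
  intro n _
  apply Finset.sum_le_sum
  intro m _
  split_ifs with hqr
  · exact Complex.re_le_norm _
  · simp

/-- The kernel at twist zero counts. -/
private lemma BBc_zero_re (F A : Finset ℕ) :
    (BBc F A A 0).re = ∑ q ∈ F, ∑ r ∈ F, ∑ n ∈ A, ∑ m ∈ A, if q * n = r * m then (1:ℝ) else 0 := by
  unfold BBc
  simp only [Complex.re_sum]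
  apply Finset.sum_congr rfl
  intro q _
  apply Finset.sum_congr rfl
  intro r _
  apply Finset.sum_congr rfl
  intro n _
  apply Finset.sum_congr rfl
  intro m _
  split_ifs with h
  · simp [ee_zero]
  · simp

/-- The diagonal count. -/
private lemma diag_count {D0 M Y : ℕ} (hM : 1 ≤ M) :
    ∑ n ∈ Icc 1 (2 * Y), ((JJ D0 M n n).card : ℝ) ≤
      (M:ℝ) * (1 + Real.log (2 * (M:ℝ))) + 2 * M := by
  have h1 : ∑ n ∈ Icc 1 (2 * Y), ((JJ D0 M n n).card : ℝ) =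
      ∑ n ∈ Icc 1 (2 * Y), ∑ d ∈ Ioc D0 (2 * M), if n ∈ Nn M d then (1:ℝ) else 0 := by
    apply Finset.sum_congr rfl
    intro n _
    unfold JJ
    simp only [and_self]
    rw [Finset.card_filter]
    push_cast
    rfl
  rw [h1, Finset.sum_comm]
  have h2 : ∀ d ∈ Ioc D0 (2 * M), ∑ n ∈ Icc 1 (2 * Y), (if n ∈ Nn M d then (1:ℝ) else 0) ≤
      (M:ℝ) / d + 1 := by
    intro d hd
    obtain ⟨h3, _⟩ := Finset.mem_Ioc.1 hd
    have hd1 : 1 ≤ d := by omega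
    refine le_trans ?_ (card_Nn_le (M := M) hd1)
    rw [Finset.sum_boole]
    have : (Icc 1 (2 * Y)).filter (fun n => n ∈ Nn M d) ⊆ Nn M d := by
      intro n hn
      exact (Finset.mem_filter.1 hn).2
    exact_mod_cast Finset.card_le_card this
  refine (Finset.sum_le_sum h2).trans ?_
  have h3 : Ioc D0 (2 * M) ⊆ Icc 1 (2 * M) := by
    intro d hd
    obtain ⟨h4, h5⟩ := Finset.mem_Ioc.1 hd
    exact Finset.mem_Icc.2 ⟨by omega, h5⟩
  have h4 : ∑ d ∈ Ioc D0 (2 * M), ((M:ℝ) / d + 1) ≤ ∑ d ∈ Icc 1 (2 * M), ((M:ℝ) / d + 1) := by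
    apply Finset.sum_le_sum_of_subset_of_nonneg h3
    intro d _ _
    positivity
  refine h4.trans ?_
  rw [Finset.sum_add_distrib]
  simp only [Finset.sum_const, Nat.card_Icc, nsmul_eq_mul, mul_one]
  have h5 : ∑ d ∈ Icc 1 (2 * M), (M:ℝ) / d = (M:ℝ) * ∑ d ∈ Icc 1 (2 * M), (1 / (d:ℝ)) := by
    rw [Finset.mul_sum]
    apply Finset.sum_congr rfl
    intro d _
    ring
  rw [h5]
  have h6 := harmonic_le_one_add_log (2 * M)
  rw [harmonic_eq_sum_Icc] at h6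
  push_cast at h6
  have h7 : ∑ d ∈ Icc 1 (2 * M), (1 / (d:ℝ)) ≤ 1 + Real.log (2 * (M:ℝ)) := by
    simpa [one_div] using h6
  have h8 : (0:ℝ) ≤ M := Nat.cast_nonneg _
  have h9 : ((2 * M + 1 - 1 : ℕ) : ℝ) = 2 * (M:ℝ) := by
    push_cast
    simp
  rw [h9]
  nlinarith

/-- The combinatorial core of the large `d` case. -/
lemma ml_core_large {γ c₀ : ℝ} {κ : ℕ} (hγ : Dio γ c₀ κ) (hc₀ : 0 < c₀) (hκ : 1 ≤ κ) {F : Finset ℕ}
    (hF : ∀ q ∈ F, 1 ≤ q) {M L0 D0 Y : ℕ} (hM : 1 ≤ M) {X₀ : ℝ} (hX₀ : 0 < X₀)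
    (hX : ∀ G : ℕ, D0 < G → X₀ ≤ (c₀ * Real.sqrt G) ^ ((1:ℝ) / κ))
    (hY : ∀ d n, D0 < d → d * n < 2 * M → n ≤ 2 * Y) :
    ∑ j ∈ Ico 1 L0, ∑ d ∈ Ioc D0 (2 * M), (BBc F (Nn M d) (Nn M d) (((j * d : ℕ):ℝ) * γ)).re ≤
      (L0:ℝ) * F.card * ((M:ℝ) * (1 + Real.log (2 * (M:ℝ))) + 2 * M) +
        (L0:ℝ) * (32 * (M:ℝ) / X₀ + 16 * Real.sqrt (2 * (M:ℝ)) * (1 + Real.log (2 * (M:ℝ)))) *
          (BBc F (Icc 1 (2 * Y)) (Icc 1 (2 * Y)) 0).re := by
  classical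
  set A := Icc 1 (2 * Y) with hA
  have hMR : (1:ℝ) ≤ M := by exact_mod_cast hM
  have hlog2M : 0 ≤ Real.log (2 * (M:ℝ)) := Real.log_nonneg (by linarith)
  have hL0 : (0:ℝ) ≤ L0 := Nat.cast_nonneg _
  set Wb : ℝ := 32 * (M:ℝ) / X₀ + 16 * Real.sqrt (2 * (M:ℝ)) * (1 + Real.log (2 * (M:ℝ))) with hWb
  have hWb0 : 0 ≤ Wb := by positivity
  set W : ℕ → ℕ → ℝ := fun n m =>
    ∑ j ∈ Ico 1 L0, ‖∑ d ∈ JJ D0 M n m, ee (((j * d : ℕ):ℝ) * γ * ((n:ℝ) - m))‖ with hW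
  have h1 : ∑ j ∈ Ico 1 L0, ∑ d ∈ Ioc D0 (2 * M), (BBc F (Nn M d) (Nn M d) (((j * d : ℕ):ℝ) * γ)).re
      ≤ ∑ q ∈ F, ∑ r ∈ F, ∑ n ∈ A, ∑ m ∈ A, if q * n = r * m then W n m else 0 := by
    refine (Finset.sum_le_sum fun j _ => sum_d_le (γ := γ) (F := F) hM hY j).trans (le_of_eq ?_)
    rw [Finset.sum_comm]
    apply Finset.sum_congr rfl
    intro q _
    rw [Finset.sum_comm]
    apply Finset.sum_congr rfl
    intro r _
    rw [Finset.sum_comm]
    apply Finset.sum_congr rfl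
    intro n _
    rw [Finset.sum_comm]
    apply Finset.sum_congr rfl
    intro m _
    by_cases hqr : q * n = r * m
    · simp only [hqr, if_true, hW]
    · simp only [hqr, if_false, Finset.sum_const_zero]
  -- termwise
  have h2 : ∀ q ∈ F, ∀ r ∈ F, ∀ n ∈ A, ∀ m ∈ A, (if q * n = r * m then W n m else 0) ≤
      (if q * n = r * m then (L0:ℝ) * Wb else 0) +
        (if q = r ∧ n = m then (L0:ℝ) * ((JJ D0 M n n).card : ℝ) else 0) := by
    intro q hq r hr n hn m hm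
    have hn1 : 1 ≤ n := (Finset.mem_Icc.1 hn).1
    have hm1 : 1 ≤ m := (Finset.mem_Icc.1 hm).1
    by_cases hqr : q * n = r * m
    · rw [if_pos hqr, if_pos hqr]
      by_cases hnm : n = m
      · subst hnm
        have hqr' : q = r := Nat.eq_of_mul_eq_mul_right (by omega) hqr
        rw [if_pos ⟨hqr', rfl⟩]
        have h3 : W n n ≤ (L0:ℝ) * ((JJ D0 M n n).card : ℝ) := by
          simp only [hW]
          have h4 : ∀ j ∈ Ico 1 L0, ‖∑ d ∈ JJ D0 M n n, ee (((j * d : ℕ):ℝ) * γ * ((n:ℝ) - n))‖ ≤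
              ((JJ D0 M n n).card : ℝ) := by
            intro j _
            refine (norm_sum_le _ _).trans ?_
            simp only [norm_ee, Finset.sum_const, smul_eq_mul, mul_one, nsmul_eq_mul, le_refl]
          refine (Finset.sum_le_sum h4).trans ?_
          rw [Finset.sum_const, nsmul_eq_mul, Nat.card_Ico]
          apply mul_le_mul_of_nonneg_right _ (Nat.cast_nonneg _)
          have : L0 - 1 ≤ L0 := Nat.sub_le _ _
          exact_mod_cast this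
        have h5 : 0 ≤ (L0:ℝ) * Wb := by positivity
        linarith
      · have h3 := W_bound hγ hc₀ hκ (L0 := L0) (D0 := D0) hM hX₀ hX hn1 hm1 hnm
        have h4 : ¬ (q = r ∧ n = m) := fun h => hnm h.2
        rw [if_neg h4, add_zero]
        exact h3
    · rw [if_neg hqr, if_neg hqr, zero_add]
      split_ifs
      · positivity
      · exact le_rfl
  have h3 : ∑ q ∈ F, ∑ r ∈ F, ∑ n ∈ A, ∑ m ∈ A, (if q * n = r * m then W n m else 0) ≤
      ∑ q ∈ F, ∑ r ∈ F, ∑ n ∈ A, ∑ m ∈ A, ((if q * n = r * m then (L0:ℝ) * Wb else 0) +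
        (if q = r ∧ n = m then (L0:ℝ) * ((JJ D0 M n n).card : ℝ) else 0)) :=
    Finset.sum_le_sum fun q hq => Finset.sum_le_sum fun r hr => Finset.sum_le_sum fun n hn =>
      Finset.sum_le_sum fun m hm => h2 q hq r hr n hn m hm
  have h4 : ∑ q ∈ F, ∑ r ∈ F, ∑ n ∈ A, ∑ m ∈ A, ((if q * n = r * m then (L0:ℝ) * Wb else 0) +
        (if q = r ∧ n = m then (L0:ℝ) * ((JJ D0 M n n).card : ℝ) else 0)) =
      (L0:ℝ) * Wb * (BBc F A A 0).re + (F.card : ℝ) * ((L0:ℝ) * ∑ n ∈ A, ((JJ D0 M n n).card : ℝ)) := by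
    rw [BBc_zero_re]
    simp only [Finset.sum_add_distrib]
    congr 1
    · simp only [Finset.mul_sum]
      apply Finset.sum_congr rfl
      intro q _
      apply Finset.sum_congr rfl
      intro r _
      apply Finset.sum_congr rfl
      intro n _
      apply Finset.sum_congr rfl
      intro m _
      split_ifs <;> simp
    · have h5 : ∀ q ∈ F, ∑ r ∈ F, ∑ n ∈ A, ∑ m ∈ A,
          (if q = r ∧ n = m then (L0:ℝ) * ((JJ D0 M n n).card : ℝ) else 0) =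
          (L0:ℝ) * ∑ n ∈ A, ((JJ D0 M n n).card : ℝ) := by
        intro q hq
        have h6 : ∀ r ∈ F, ∑ n ∈ A, ∑ m ∈ A,
            (if q = r ∧ n = m then (L0:ℝ) * ((JJ D0 M n n).card : ℝ) else 0) =
            if q = r then (L0:ℝ) * ∑ n ∈ A, ((JJ D0 M n n).card : ℝ) else 0 := by
          intro r _
          by_cases hqr : q = r
          · rw [if_pos hqr, Finset.mul_sum]
            apply Finset.sum_congr rfl
            intro n hn
            simp only [hqr, true_and]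
            rw [Finset.sum_ite_eq]
            simp [hn]
          · simp [hqr]
        rw [Finset.sum_congr rfl h6, Finset.sum_ite_eq]
        simp [hq]
      rw [Finset.sum_congr rfl h5, Finset.sum_const, nsmul_eq_mul]
  have h5 := diag_count (D0 := D0) (M := M) (Y := Y) hM
  calc _ ≤ _ := h1
    _ ≤ _ := h3
    _ = _ := h4
    _ ≤ _ := by
      have h6 : (F.card : ℝ) * ((L0:ℝ) * ∑ n ∈ A, ((JJ D0 M n n).card : ℝ)) ≤
          (L0:ℝ) * F.card * ((M:ℝ) * (1 + Real.log (2 * (M:ℝ))) + 2 * M) := by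
        have h7 : (L0:ℝ) * (F.card:ℝ) * ∑ n ∈ A, ((JJ D0 M n n).card : ℝ) ≤
            (L0:ℝ) * F.card * ((M:ℝ) * (1 + Real.log (2 * (M:ℝ))) + 2 * M) :=
          mul_le_mul_of_nonneg_left h5 (by positivity)
        linarith
      linarith

/-- Logarithms are small. -/
private lemma log_le_eps {ε₁ : ℝ} (hε₁ : 0 < ε₁) : ∃ x0 : ℝ, ∀ x, x0 ≤ x → Real.log x ≤ ε₁ * x := by
  have h := Real.isLittleO_log_id_atTop.def hε₁
  obtain ⟨x0, hx0⟩ := Filter.eventually_atTop.1 h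
  refine ⟨max x0 1, fun x hx => ?_⟩
  have h1 := hx0 x ((le_max_left _ _).trans hx)
  have h2 : (1:ℝ) ≤ x := (le_max_right _ _).trans hx
  simp only [id, Real.norm_eq_abs] at h1
  rw [abs_of_pos (by linarith : (0:ℝ) < x)] at h1
  exact (le_abs_self _).trans h1

/-- The asymptotics at the end of the large `d` case. -/
private lemma asymp_large {δ C₁ ε : ℝ} (hδ : 0 < δ) (hC₁ : 0 ≤ C₁) (hε : 0 < ε) :
    ∃ n0 : ℕ, ∀ n : ℕ, n0 ≤ n → ((n:ℝ) + 2 + 2) + GG n * Real.exp (-(δ * n)) * (C₁ + 100 * ((n:ℝ) + 2))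
      ≤ Real.exp (((n:ℝ) + 1) ^ ε / 2) := by
  set ε₁ : ℝ := (δ / 200) ^ 2 / 6 with hε₁
  have hε₁0 : 0 < ε₁ := by positivity
  obtain ⟨x1, hx1⟩ := log_le_eps hε₁0
  have hε₂0 : 0 < δ / 602 := by positivity
  obtain ⟨x2, hx2⟩ := log_le_eps hε₂0
  have h14 : (0:ℝ) < 1 / 4 := by norm_num
  have h3 := (isLittleO_log_rpow_atTop hε).def h14
  obtain ⟨x3, hx3⟩ := Filter.eventually_atTop.1 h3
  have h4 := (tendsto_rpow_atTop hε).eventually_ge_atTop (4 * Real.log 5)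
  obtain ⟨x4, hx4⟩ := Filter.eventually_atTop.1 h4
  obtain ⟨n1, hn1⟩ := exists_nat_ge (max (max x1 x2) (max x3 x4))
  obtain ⟨n2, hn2⟩ := exists_nat_ge C₁
  refine ⟨max (max n1 n2) 2, fun n hn => ?_⟩
  have hn1' : n1 ≤ n := (le_max_left _ _).trans ((le_max_left _ _).trans hn)
  have hn2' : n2 ≤ n := (le_max_right _ _).trans ((le_max_left _ _).trans hn)
  have hn3' : 2 ≤ n := (le_max_right _ _).trans hn
  have hnR : (2:ℝ) ≤ n := by exact_mod_cast hn3'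
  have hn1R : (n1:ℝ) ≤ n := by exact_mod_cast hn1'
  have hn2R : (n2:ℝ) ≤ n := by exact_mod_cast hn2'
  have hmax := hn1.trans hn1R
  have hx1n : x1 ≤ n := ((le_max_left _ _).trans (le_max_left _ _)).trans hmax
  have hx2n : x2 ≤ n := ((le_max_right _ _).trans (le_max_left _ _)).trans hmax
  have hx3n : x3 ≤ n := ((le_max_left _ _).trans (le_max_right _ _)).trans hmax
  have hx4n : x4 ≤ n := ((le_max_right _ _).trans (le_max_right _ _)).trans hmax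
  have hC₁n : C₁ ≤ n := hn2.trans hn2R
  -- the excess
  have hAA : 100 * AA n ≤ (δ / 2) * n := by
    have h5 := hx1 ((n:ℝ) + 2) (by linarith)
    have h6 : 0 ≤ Real.log ((n:ℝ) + 2) := Real.log_nonneg (by linarith)
    have h7 : ((n:ℝ) + 1) * Real.log ((n:ℝ) + 2) ≤ ((δ / 200) * n) ^ 2 := by
      have h8 : ((n:ℝ) + 1) * Real.log ((n:ℝ) + 2) ≤ (2 * (n:ℝ)) * (ε₁ * ((n:ℝ) + 2)) := by
        apply mul_le_mul (by linarith) h5 h6 (by linarith)
      have h9 : (2 * (n:ℝ)) * (ε₁ * ((n:ℝ) + 2)) ≤ (2 * (n:ℝ)) * (ε₁ * (3 * (n:ℝ))) := by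
        apply mul_le_mul_of_nonneg_left _ (by linarith)
        apply mul_le_mul_of_nonneg_left _ hε₁0.le
        linarith
      have h10 : (2 * (n:ℝ)) * (ε₁ * (3 * (n:ℝ))) = ((δ / 200) * n) ^ 2 := by
        rw [hε₁]
        ring
      linarith
    have h11 : AA n ≤ (δ / 200) * n := by
      unfold AA
      rw [Real.sqrt_le_left (by positivity)]
      exact h7
    linarith
  have hpoly : C₁ + 100 * ((n:ℝ) + 2) ≤ Real.exp ((δ / 2) * n) := by
    have h5 : 0 < C₁ + 100 * ((n:ℝ) + 2) := by linarith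
    have h6 := hx2 (C₁ + 100 * ((n:ℝ) + 2)) (by linarith)
    rw [← Real.log_le_iff_le_exp h5]
    refine h6.trans ?_
    have h8 : C₁ + 100 * ((n:ℝ) + 2) ≤ 301 * (n:ℝ) := by linarith
    have h9 : δ / 602 * (C₁ + 100 * ((n:ℝ) + 2)) ≤ δ / 602 * (301 * (n:ℝ)) :=
      mul_le_mul_of_nonneg_left h8 hε₂0.le
    have h10 : δ / 602 * (301 * (n:ℝ)) = (δ / 2) * n := by ring
    linarith
  have hone : GG n * Real.exp (-(δ * n)) * (C₁ + 100 * ((n:ℝ) + 2)) ≤ 1 := by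
    have h5 : GG n * Real.exp (-(δ * n)) ≤ Real.exp (-((δ / 2) * n)) := by
      unfold GG
      rw [← Real.exp_add]
      apply Real.exp_le_exp.2
      have : -((δ / 2) * (n:ℝ)) = (δ / 2) * n - δ * n := by ring
      rw [this]
      linarith
    have h6 : GG n * Real.exp (-(δ * n)) * (C₁ + 100 * ((n:ℝ) + 2)) ≤
        Real.exp (-((δ / 2) * n)) * Real.exp ((δ / 2) * n) :=
      mul_le_mul h5 hpoly (by linarith) (Real.exp_pos _).le
    rw [← Real.exp_add, neg_add_cancel, Real.exp_zero] at h6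
    exact h6
  have hlog : Real.log ((n:ℝ) + 5) ≤ ((n:ℝ) + 1) ^ ε / 2 := by
    have h5 := hx3 ((n:ℝ) + 1) (by linarith)
    have h6 := hx4 ((n:ℝ) + 1) (by linarith)
    have h7 : (0:ℝ) < (n:ℝ) + 1 := by linarith
    have h8 : 0 ≤ ((n:ℝ) + 1) ^ ε := Real.rpow_nonneg h7.le _
    simp only [Real.norm_eq_abs] at h5
    rw [abs_of_nonneg h8] at h5
    have h9 : Real.log ((n:ℝ) + 1) ≤ 1 / 4 * ((n:ℝ) + 1) ^ ε := (le_abs_self _).trans h5
    have h10 : Real.log ((n:ℝ) + 5) ≤ Real.log (5 * ((n:ℝ) + 1)) :=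
      Real.log_le_log (by linarith) (by linarith)
    rw [Real.log_mul (by norm_num) h7.ne'] at h10
    linarith
  have h5 : (n:ℝ) + 5 ≤ Real.exp (((n:ℝ) + 1) ^ ε / 2) := by
    rwa [← Real.log_le_iff_le_exp (by linarith)]
  linarith

/-- The exponents of the large `d` case. -/
private lemma exps_large {m c₀ u : ℝ} (hm : 1 ≤ m) (hc₀ : 0 < c₀) (hu0 : 0 < u) (hu1 : u ≤ 1) :
    m ^ (u / 8) ≤ (1 / c₀) ^ u * m ^ (-(5 * u / 16)) * (c₀ * Real.sqrt (m ^ (1 - u / 8))) ^ u ∧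
    m ^ (u / 8) * Real.sqrt (2 * m) ≤ Real.sqrt 2 * (m ^ (-(5 * u / 16)) * m) := by
  have hm0 : 0 < m := by linarith
  constructor
  · have h1 : Real.sqrt (m ^ (1 - u / 8)) = m ^ ((1 - u / 8) / 2) := by
      rw [Real.sqrt_eq_rpow, ← Real.rpow_mul hm0.le]
      congr 1
      ring
    rw [h1, Real.mul_rpow hc₀.le (Real.rpow_nonneg hm0.le _), ← Real.rpow_mul hm0.le]
    have h2 : (1 / c₀) ^ u * c₀ ^ u = 1 := by
      rw [← Real.mul_rpow (by positivity) hc₀.le]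
      rw [one_div, inv_mul_cancel₀ hc₀.ne', Real.one_rpow]
    have h3 : (1 / c₀) ^ u * m ^ (-(5 * u / 16)) * (c₀ ^ u * m ^ ((1 - u / 8) / 2 * u)) =
        ((1 / c₀) ^ u * c₀ ^ u) * (m ^ (-(5 * u / 16)) * m ^ ((1 - u / 8) / 2 * u)) := by ring
    rw [h3, h2, one_mul, ← Real.rpow_add hm0]
    apply Real.rpow_le_rpow_of_exponent_le hm
    nlinarith
  · rw [Real.sqrt_mul (by norm_num : (0:ℝ) ≤ 2)]
    have h1 : Real.sqrt m = m ^ ((1:ℝ) / 2) := Real.sqrt_eq_rpow m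
    rw [h1]
    have h2 : m ^ (u / 8) * (Real.sqrt 2 * m ^ ((1:ℝ) / 2)) =
        Real.sqrt 2 * (m ^ (u / 8) * m ^ ((1:ℝ) / 2)) := by ring
    rw [h2, ← Real.rpow_add hm0]
    apply mul_le_mul_of_nonneg_left _ (Real.sqrt_nonneg _)
    have h3 : m ^ (-(5 * u / 16)) * m = m ^ (-(5 * u / 16) + 1) := by
      rw [Real.rpow_add hm0, Real.rpow_one]
    rw [h3]
    apply Real.rpow_le_rpow_of_exponent_le hm
    linarith

/-- The bound for the off-diagonal weight. -/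
private lemma wb_num {m X₀ y τ A C₁ Wb N : ℝ} (hm1 : 1 ≤ m) (hX₀0 : 0 < X₀) (hA0 : 0 ≤ A) (hτ0 : 0 < τ)
    (hA : y ≤ A * τ * X₀) (hB : y * Real.sqrt (2 * m) ≤ Real.sqrt 2 * (τ * m))
    (hlogm : 1 + Real.log (2 * m) ≤ N) (hlog0 : 0 ≤ Real.log (2 * m)) (hy1 : 1 ≤ y)
    (hC₁ : C₁ = 128 * A) (hWb : Wb = 32 * m / X₀ + 16 * Real.sqrt (2 * m) * (1 + Real.log (2 * m))) :
    4 * y * Wb ≤ m * (τ * (C₁ + 100 * N)) := by
  have hm0 : 0 < m := by linarith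
  have hN : 0 ≤ N := by linarith
  have h1 : y / X₀ ≤ A * τ := by
    rw [div_le_iff₀ hX₀0]
    exact hA
  have h2 : 4 * y * (32 * m / X₀) = 128 * m * (y / X₀) := by
    field_simp
    ring
  have h3 : 128 * m * (y / X₀) ≤ 128 * m * (A * τ) :=
    mul_le_mul_of_nonneg_left h1 (by positivity)
  have hs2 : Real.sqrt 2 ≤ 3 / 2 := by
    rw [Real.sqrt_le_left (by norm_num)]
    norm_num
  have h4 : y * Real.sqrt (2 * m) ≤ 3 / 2 * (τ * m) :=
    hB.trans (mul_le_mul_of_nonneg_right hs2 (by positivity))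
  have h5 : 4 * y * (16 * Real.sqrt (2 * m) * (1 + Real.log (2 * m))) =
      64 * (y * Real.sqrt (2 * m)) * (1 + Real.log (2 * m)) := by ring
  have h0 : 0 ≤ y * Real.sqrt (2 * m) := by
    have h00 : 0 ≤ Real.sqrt (2 * m) := Real.sqrt_nonneg _
    have h01 : 0 ≤ y := by linarith
    exact mul_nonneg h01 h00
  have h6 : 64 * (y * Real.sqrt (2 * m)) * (1 + Real.log (2 * m)) ≤
      64 * (3 / 2 * (τ * m)) * N := by
    apply mul_le_mul (by linarith) hlogm (by linarith) (by positivity)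
  have h7 : 64 * (3 / 2 * (τ * m)) * N ≤ m * (τ * (100 * N)) := by
    have h8 : 0 ≤ τ * m * N := by positivity
    nlinarith
  have h9 : m * (τ * (C₁ + 100 * N)) = 128 * m * (A * τ) + m * (τ * (100 * N)) := by
    rw [hC₁]
    ring
  rw [hWb, mul_add, h2, h5, h9]
  linarith

/-- The assembly of the large `d` case. -/
private lemma ml_assemble {L K m τ Wb G y Yc BB W1 W2 N E Ex C₁ : ℝ} (hL : 0 ≤ L) (hK : 0 ≤ K) (hm : 0 ≤ m)
    (hG : 1 ≤ G) (hτ : 0 ≤ τ) (hWb : 0 ≤ Wb) (hC : 0 ≤ C₁ + 100 * N) (hy1 : 1 ≤ y) (hY2 : Yc ≤ 2 * y)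
    (hcount : BB ≤ 2 * Yc * K * G) (hWby : 4 * y * Wb ≤ m * (τ * (C₁ + 100 * N)))
    (hlogm : 1 + W1 ≤ N) (hlog0 : 0 ≤ W1) (hτle : τ ≤ Ex)
    (hE : (N + 2) + G * Ex * (C₁ + 100 * N) ≤ E) (hW2 : W2 = m * (1 + W1) + 2 * m) :
    L * K * W2 + L * Wb * BB ≤ L * K * m * E := by
  have hsecond : L * Wb * BB ≤ L * K * G * (m * (τ * (C₁ + 100 * N))) := by
    have h1 : BB ≤ 4 * y * K * G := by
      refine hcount.trans ?_
      have h2 : 0 ≤ K * G := by positivity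
      have h3 : 2 * Yc * K * G = 2 * Yc * (K * G) := by ring
      have h4 : 4 * y * K * G = 4 * y * (K * G) := by ring
      rw [h3, h4]
      apply mul_le_mul_of_nonneg_right _ h2
      linarith
    have h2 : L * Wb * BB ≤ L * Wb * (4 * y * K * G) :=
      mul_le_mul_of_nonneg_left h1 (by positivity)
    refine h2.trans ?_
    have h3 : L * Wb * (4 * y * K * G) = L * K * G * (4 * y * Wb) := by ring
    rw [h3]
    exact mul_le_mul_of_nonneg_left hWby (by positivity)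
  have hfirst : W2 ≤ m * (N + 2) := by
    rw [hW2]
    nlinarith
  have hfirst' : L * K * W2 ≤ L * K * (m * (N + 2)) :=
    mul_le_mul_of_nonneg_left hfirst (by positivity)
  have hfinal : (N + 2) + G * τ * (C₁ + 100 * N) ≤ E := by
    refine le_trans ?_ hE
    have h1 : G * τ ≤ G * Ex := mul_le_mul_of_nonneg_left hτle (by linarith)
    have h2 : G * τ * (C₁ + 100 * N) ≤ G * Ex * (C₁ + 100 * N) :=
      mul_le_mul_of_nonneg_right h1 hC
    linarith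
  have hLKm : 0 ≤ L * K * m := by positivity
  have hend := mul_le_mul_of_nonneg_left hfinal hLKm
  have hexp : L * K * m * ((N + 2) + G * τ * (C₁ + 100 * N)) =
      L * K * (m * (N + 2)) + L * K * G * (m * (τ * (C₁ + 100 * N))) := by
    ring
  rw [hexp] at hend
  linarith

/-- Large `d`: the geometric sum over `d`, diagonal and off-diagonal. -/
theorem ML_large {γ c₀ : ℝ} {κ : ℕ} (hγ : Dio γ c₀ κ) (hc₀ : 0 < c₀) (hκ : 1 ≤ κ) (ε : ℝ) (hε : 0 < ε) (hε1 : ε ≤ 1 / 2) :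
    ∃ n0 : ℕ, ∀ n : ℕ, n0 ≤ n → ∀ F : Finset ℕ, (∀ q ∈ F, 1 ≤ q) → 1 ≤ F.card →
      (2:ℝ) ^ n ≤ F.card → (F.card : ℝ) ≤ 2 * 2 ^ n * GG n → ∀ Mm L0 : ℕ, ((2:ℝ) ^ n) ^ ((1:ℝ) / (4 * ((κ:ℝ) + 1))) ≤ Mm → Mm ≤ 2 ^ n →
      1 ≤ L0 → L0 ≤ 2 ^ n →
      ∑ j ∈ Ico 1 L0, ∑ d ∈ Ioc ⌊(Mm:ℝ) ^ (1 - (1:ℝ) / (8 * κ))⌋₊ (2 * Mm), (BBc F (Nn Mm d) (Nn Mm d) (((j * d : ℕ):ℝ) * γ)).re
        ≤ (L0:ℝ) * F.card * Mm * Real.exp (((n:ℝ) + 1) ^ ε / 2) := by
  have hκR : (1:ℝ) ≤ κ := by exact_mod_cast hκ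
  have hκ0 : (0:ℝ) < κ := by linarith
  set u : ℝ := (1:ℝ) / κ with hu
  have hu0 : 0 < u := by positivity
  have hu1 : u ≤ 1 := by
    rw [hu, div_le_one hκ0]
    exact hκR
  have hc8 : (1:ℝ) / (8 * κ) = u / 8 := by
    rw [hu]
    field_simp
  set v : ℝ := (1:ℝ) / (4 * ((κ:ℝ) + 1)) with hv
  have hv0 : 0 < v := by positivity
  set δ : ℝ := Real.log 2 * (v * (5 * u / 16)) with hδ
  have hlog2 : 0 < Real.log 2 := Real.log_pos (by norm_num)
  have hδ0 : 0 < δ := by positivity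
  set C₁ : ℝ := 128 * (1 / c₀) ^ u with hC₁
  have hC₁0 : 0 ≤ C₁ := by positivity
  obtain ⟨n1, hn1⟩ := asymp_large (C₁ := C₁) hδ0 hC₁0 hε
  refine ⟨max n1 2, fun n hn F hF hK1 hKlow hKup Mm L0 hMlow hMup hL1 _ => ?_⟩
  have hn1' : n1 ≤ n := (le_max_left _ _).trans hn
  have hn2' : 2 ≤ n := (le_max_right _ _).trans hn
  have h2n : (4:ℝ) ≤ (2:ℝ) ^ n := by
    have : (2:ℝ) ^ 2 ≤ (2:ℝ) ^ n := pow_le_pow_right₀ (by norm_num) hn2'
    linarith
  -- `Mm` is at least one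
  have hm1 : (1:ℝ) ≤ (Mm:ℝ) := by
    refine le_trans ?_ hMlow
    exact Real.one_le_rpow (by linarith) hv0.le
  have hM : 1 ≤ Mm := by exact_mod_cast hm1
  set m : ℝ := (Mm:ℝ) with hm
  have hm0 : 0 < m := by linarith
  rw [hc8]
  set D0 := ⌊m ^ (1 - u / 8)⌋₊ with hD0
  set y : ℝ := m ^ (u / 8) with hy
  set z : ℝ := m ^ (1 - u / 8) with hz
  have hyz : y * z = m := by
    rw [hy, hz, ← Real.rpow_add hm0]
    have : u / 8 + (1 - u / 8) = 1 := by ring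
    rw [this, Real.rpow_one]
  have hy1 : 1 ≤ y := Real.one_le_rpow hm1 (by positivity)
  have hz0 : 0 < z := Real.rpow_pos_of_pos hm0 _
  set Y := ⌈y⌉₊ with hY
  have hYy : y ≤ Y := Nat.le_ceil y
  have hY2 : (Y:ℝ) ≤ 2 * y := by
    have := Nat.ceil_lt_add_one (by linarith : (0:ℝ) ≤ y)
    linarith
  set X₀ : ℝ := (c₀ * Real.sqrt z) ^ u with hX₀
  have hsz : 0 < Real.sqrt z := Real.sqrt_pos.2 hz0
  have hX₀0 : 0 < X₀ := Real.rpow_pos_of_pos (by positivity) _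
  have hX : ∀ G : ℕ, D0 < G → X₀ ≤ (c₀ * Real.sqrt G) ^ ((1:ℝ) / κ) := by
    intro G hG
    have h1 : z < G := Nat.lt_of_floor_lt hG
    apply Real.rpow_le_rpow (by positivity) _ hu0.le
    apply mul_le_mul_of_nonneg_left _ hc₀.le
    exact Real.sqrt_le_sqrt h1.le
  have hYb : ∀ d n', D0 < d → d * n' < 2 * Mm → n' ≤ 2 * Y := by
    intro d n' hd hdn
    have h1 : z < d := Nat.lt_of_floor_lt hd
    have h2 : ((d * n' : ℕ) : ℝ) < ((2 * Mm : ℕ) : ℝ) := by exact_mod_cast hdn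
    push_cast at h2
    have h3 : z * n' ≤ d * n' := mul_le_mul_of_nonneg_right h1.le (Nat.cast_nonneg _)
    have h4 : z * (n':ℝ) < z * (2 * y) := by
      have : z * (2 * y) = 2 * m := by
        rw [← hyz]
        ring
      rw [this]
      linarith
    have h5 : (n':ℝ) < 2 * y := lt_of_mul_lt_mul_left h4 hz0.le
    have h6 : (n':ℝ) < ((2 * Y : ℕ) : ℝ) := by
      push_cast
      linarith
    have h7 : n' < 2 * Y := by exact_mod_cast h6
    exact h7.le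
  have hcore := ml_core_large hγ hc₀ hκ hF (L0 := L0) hM hX₀0 hX hYb
  refine hcore.trans ?_
  -- the count
  set K : ℝ := (F.card : ℝ) with hK
  have hK0 : 0 < K := by linarith
  have hGG : 1 ≤ GG n := Real.one_le_exp (by have := AA_pos n; positivity)
  have hyM : y ≤ m := by
    have h1 : m ^ (u / 8) ≤ m ^ (1:ℝ) := Real.rpow_le_rpow_of_exponent_le hm1 (by linarith)
    rwa [Real.rpow_one] at h1
  have hm2n : m ≤ (2:ℝ) ^ n := by
    have : ((Mm : ℕ) : ℝ) ≤ ((2 ^ n : ℕ) : ℝ) := by exact_mod_cast hMup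
    push_cast at this
    exact this
  have hYK : 2 * Y ≤ F.card ^ 2 := by
    have h1 : ((2 * Y : ℕ) : ℝ) ≤ ((F.card ^ 2 : ℕ) : ℝ) := by
      push_cast
      have h2 : 2 * (Y:ℝ) ≤ 4 * (2:ℝ) ^ n := by linarith
      have h3 : 4 * (2:ℝ) ^ n ≤ (2:ℝ) ^ n * (2:ℝ) ^ n :=
        mul_le_mul_of_nonneg_right h2n (by positivity)
      have h4 : (2:ℝ) ^ n * (2:ℝ) ^ n ≤ K * K :=
        mul_le_mul hKlow hKlow (by positivity) (by linarith)
      have h5 : K * K = K ^ 2 := by ring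
      linarith
    exact_mod_cast h1
  have hcount := BB_trivial n F (Icc 1 (2 * Y)) 0 Y hF hK1 hKup
    (fun x hx => Finset.mem_Icc.1 hx) hYK
  -- the size of `τ`
  set τ : ℝ := m ^ (-(5 * u / 16)) with hτ
  have hτ0 : 0 < τ := Real.rpow_pos_of_pos hm0 _
  have hτle : τ ≤ Real.exp (-(δ * n)) := by
    have h1 : τ ≤ (((2:ℝ) ^ n) ^ v) ^ (-(5 * u / 16)) :=
      Real.rpow_le_rpow_of_nonpos (Real.rpow_pos_of_pos (by positivity) _) hMlow
        (by have : 0 < 5 * u / 16 := by positivity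
            linarith)
    refine h1.trans (le_of_eq ?_)
    rw [← Real.rpow_mul (by positivity), Real.rpow_def_of_pos (by positivity), Real.log_pow]
    congr 1
    rw [hδ]
    ring
  obtain ⟨hA, hB⟩ := exps_large hm1 hc₀ hu0 hu1
  have hlogm : 1 + Real.log (2 * m) ≤ (n:ℝ) + 2 := by
    have h1 : 2 * m ≤ (2:ℝ) ^ (n + 1) := by
      rw [pow_succ]
      linarith
    have h2 : Real.log (2 * m) ≤ ((n + 1 : ℕ):ℝ) * Real.log 2 := by
      rw [← Real.log_pow]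
      exact Real.log_le_log (by linarith) h1
    have h3 : Real.log 2 ≤ 1 := by
      have := Real.log_le_sub_one_of_pos (by norm_num : (0:ℝ) < 2)
      linarith
    push_cast at h2
    have hn0 : (0:ℝ) ≤ (n:ℝ) + 1 := by positivity
    nlinarith
  have hlog0 : 0 ≤ Real.log (2 * m) := Real.log_nonneg (by linarith)
  set Wb : ℝ := 32 * m / X₀ + 16 * Real.sqrt (2 * m) * (1 + Real.log (2 * m)) with hWb
  have hWb0 : 0 ≤ Wb := by positivity
  have hL0 : (0:ℝ) ≤ L0 := Nat.cast_nonneg _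
  have hWby : 4 * y * Wb ≤ m * (τ * (C₁ + 100 * ((n:ℝ) + 2))) :=
    wb_num hm1 hX₀0 (by positivity) hτ0 hA hB hlogm hlog0 hy1 hC₁ hWb
  have hE := hn1 n hn1'
  set E : ℝ := Real.exp (((n:ℝ) + 1) ^ ε / 2) with hEdef
  have hCn : 0 ≤ C₁ + 100 * ((n:ℝ) + 2) := by
    have : (0:ℝ) ≤ (n:ℝ) := Nat.cast_nonneg n
    linarith
  exact ml_assemble hL0 hK0.le hm0.le hGG hτ0.le hWb0 hCn hy1 hY2 hcount hWby
    hlogm hlog0 hτle hE rfl

end

end Vale.Agent.Lib.P028K
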