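import Vale.Agent.Lib.P028K.MLsmall
import Vale.Agent.Lib.P028K.MLlarge

/-! Part ML: the average over twists and d. Blueprint section 12. -/

open Finset

namespace Vale.Agent.Lib.P028K

open Vale.Agent.Lib.P028
open Vale.Agent.Lib.P028T
open Vale.Agent.Lib.P028G

noncomputable section

/-- The average over twists and over `d`. -/
theorem ML_main {γ c₀ : ℝ} {κ : ℕ} (hγ : Dio γ c₀ κ) (hc₀ : 0 < c₀) (hκ : 1 ≤ κ) (ε : ℝ) (hε : 0 < ε) (hε1 : ε ≤ 1 / 2) :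
    ∃ n0 : ℕ, ∀ n : ℕ, n0 ≤ n → ∀ F : Finset ℕ, (∀ q ∈ F, 1 ≤ q) → 1 ≤ F.card →
      (2:ℝ) ^ n ≤ F.card → (F.card : ℝ) ≤ 2 * 2 ^ n * GG n → ∀ Mm L0 : ℕ, ((2:ℝ) ^ n) ^ ((1:ℝ) / (4 * ((κ:ℝ) + 1))) ≤ Mm → Mm ≤ 2 ^ n →
      1 ≤ L0 → L0 ≤ 2 ^ n →
      ∑ j ∈ Ico 1 L0, ∑ d ∈ Icc 1 (2 * Mm), (BBc F (Nn Mm d) (Nn Mm d) (((j * d : ℕ):ℝ) * γ)).re
        ≤ (L0:ℝ) * F.card * Mm * Real.exp (((n:ℝ) + 1) ^ ε) := by
  obtain ⟨n1, h1⟩ := ML_small hγ hc₀ hκ ε hε hε1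
  obtain ⟨n2, h2⟩ := ML_large hγ hc₀ hκ ε hε hε1
  obtain ⟨n3, hn3⟩ := exists_nat_ge ((2:ℝ) ^ ((1:ℝ) / ε))
  refine ⟨max n1 (max n2 n3), ?_⟩
  intro n hn F hF hF1 hF2 hF3 Mm L0 hM1 hM2 hL1 hL2
  have hn1 : n1 ≤ n := le_trans (le_max_left _ _) hn
  have hn2 : n2 ≤ n := le_trans (le_trans (le_max_left _ _) (le_max_right _ _)) hn
  have hn3' : n3 ≤ n := le_trans (le_trans (le_max_right _ _) (le_max_right _ _)) hn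
  have hs := h1 n hn1 F hF hF1 hF2 hF3 Mm L0 hM1 hM2 hL1 hL2
  have hl := h2 n hn2 F hF hF1 hF2 hF3 Mm L0 hM1 hM2 hL1 hL2
  -- the split point is below `2 * Mm`
  have hMpos : (1:ℝ) ≤ (Mm:ℝ) := by
    have h0 : (1:ℝ) ≤ ((2:ℝ) ^ n) ^ ((1:ℝ) / (4 * ((κ:ℝ) + 1))) := by
      apply Real.one_le_rpow
      · exact one_le_pow₀ (by norm_num)
      · positivity
    linarith
  have hκ' : (1:ℝ) ≤ (κ:ℝ) := by exact_mod_cast hκ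
  have hexp : (1:ℝ) - 1 / (8 * (κ:ℝ)) ≤ 1 := by
    have : (0:ℝ) ≤ 1 / (8 * (κ:ℝ)) := by positivity
    linarith
  have hfl : ⌊(Mm:ℝ) ^ (1 - (1:ℝ) / (8 * κ))⌋₊ ≤ 2 * Mm := by
    have h3 : (Mm:ℝ) ^ (1 - (1:ℝ) / (8 * κ)) ≤ (Mm:ℝ) := by
      have := Real.rpow_le_rpow_of_exponent_le hMpos hexp
      simpa using this
    have h4 : ⌊(Mm:ℝ) ^ (1 - (1:ℝ) / (8 * κ))⌋₊ ≤ Mm := by
      apply Nat.floor_le_of_le
      exact h3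
    omega
  have hsplit : ∀ j : ℕ, ∑ d ∈ Icc 1 (2 * Mm), (BBc F (Nn Mm d) (Nn Mm d) (((j * d : ℕ):ℝ) * γ)).re
      = ∑ d ∈ Icc 1 ⌊(Mm:ℝ) ^ (1 - (1:ℝ) / (8 * κ))⌋₊, (BBc F (Nn Mm d) (Nn Mm d) (((j * d : ℕ):ℝ) * γ)).re
        + ∑ d ∈ Ioc ⌊(Mm:ℝ) ^ (1 - (1:ℝ) / (8 * κ))⌋₊ (2 * Mm), (BBc F (Nn Mm d) (Nn Mm d) (((j * d : ℕ):ℝ) * γ)).re := by
    intro j
    rw [← Finset.sum_union]
    · apply Finset.sum_congr _ (fun _ _ => rfl)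
      ext d
      simp only [mem_Icc, mem_union, mem_Ioc]
      omega
    · rw [Finset.disjoint_left]
      intro d hd hd'
      simp only [mem_Icc] at hd
      simp only [mem_Ioc] at hd'
      omega
  simp only [hsplit, Finset.sum_add_distrib]
  -- the numerics
  have hnn : (0:ℝ) ≤ (n:ℝ) := Nat.cast_nonneg n
  have hx : (2:ℝ) ≤ ((n:ℝ) + 1) ^ ε := by
    have h5 : (2:ℝ) ^ ((1:ℝ) / ε) ≤ (n:ℝ) + 1 := by
      have : ((n3:ℕ):ℝ) ≤ (n:ℝ) := by exact_mod_cast hn3'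
      linarith
    have h6 : ((2:ℝ) ^ ((1:ℝ) / ε)) ^ ε ≤ ((n:ℝ) + 1) ^ ε :=
      Real.rpow_le_rpow (by positivity) h5 hε.le
    rwa [← Real.rpow_mul (by norm_num), one_div, inv_mul_cancel₀ hε.ne', Real.rpow_one] at h6
  set x : ℝ := ((n:ℝ) + 1) ^ ε with hxdef
  have hexp2 : 2 * Real.exp (x / 2) ≤ Real.exp x := by
    have h7 : x = x / 2 + x / 2 := by ring
    have h8 : Real.exp x = Real.exp (x / 2) * Real.exp (x / 2) := by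
      rw [← Real.exp_add, ← h7]
    have h9 : x / 2 + 1 ≤ Real.exp (x / 2) := Real.add_one_le_exp _
    have h10 : 2 ≤ Real.exp (x / 2) := by linarith
    rw [h8]
    nlinarith [Real.exp_pos (x / 2)]
  have hA : (0:ℝ) ≤ (L0:ℝ) * F.card * Mm := by positivity
  calc _ ≤ (L0:ℝ) * F.card * Mm * Real.exp (x / 2) + (L0:ℝ) * F.card * Mm * Real.exp (x / 2) :=
        add_le_add hs hl
    _ = (L0:ℝ) * F.card * Mm * (2 * Real.exp (x / 2)) := by ring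
    _ ≤ (L0:ℝ) * F.card * Mm * Real.exp x := mul_le_mul_of_nonneg_left hexp2 hA


end

end Vale.Agent.Lib.P028K
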