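import Vale.Agent.Lib.P028K.Basics
import Vale.Agent.Lib.P028G.Num

/-! Part Moment: the kernel against the moments. Blueprint section 11. -/

open Finset

namespace Vale.Agent.Lib.P028K

open Vale.Agent.Lib.P028
open Vale.Agent.Lib.P028T
open Vale.Agent.Lib.P028G

noncomputable section

/-- The torus is large enough for `F A`. -/
def FitsProd (B M : ℕ) (F A : Finset ℕ) : Prop := ∀ q ∈ F, ∀ n ∈ A, Fits B M (q * n)

/-- There is a large torus. -/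
lemma exists_torus (F A : Finset ℕ) (hF : ∀ q ∈ F, q ≠ 0) (hA : ∀ n ∈ A, n ≠ 0) :
    ∃ B M : ℕ, 2 ≤ M ∧ FitsProd B M F A := by
  obtain ⟨N, hN⟩ : ∃ N : ℕ, N = ∑ q ∈ F, ∑ n ∈ A, q * n := ⟨_, rfl⟩
  refine ⟨N + 1, 2 * N + 2, by omega, ?_⟩
  intro q hq n hn
  have hle : q * n ≤ N := by
    rw [hN]
    calc q * n ≤ ∑ n' ∈ A, q * n' :=
          Finset.single_le_sum (f := fun n' => q * n') (fun _ _ => Nat.zero_le _) hn
      _ ≤ _ := Finset.single_le_sum (f := fun q' => ∑ n' ∈ A, q' * n')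
          (fun _ _ => Nat.zero_le _) hq
  have h0 : q * n ≠ 0 := mul_ne_zero (hF q hq) (hA n hn)
  refine ⟨h0, ?_, ?_⟩
  · intro p hp
    have := Nat.le_of_mem_primeFactors hp
    omega
  · intro p
    have := Nat.factorization_lt p h0
    omega

/-- Fits passes to larger tori and divisors. -/
lemma Fits.of_dvd {B M a b : ℕ} (h : Fits B M a) (hb : b ∣ a) : Fits B M b := by
  obtain ⟨h0, h1, h2⟩ := h
  have hb0 : b ≠ 0 := by
    rintro rfl
    exact h0 (Nat.eq_zero_of_zero_dvd hb)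
  refine ⟨hb0, fun p hp => h1 p (Nat.primeFactors_mono hb h0 hp), fun p => ?_⟩
  have h3 := (Nat.factorization_le_iff_dvd hb0 h0).2 hb p
  have h4 := h2 p
  omega

/-- The kernel as an expectation. -/
theorem BB_repr {B M : ℕ} [NeZero M] (F A A' : Finset ℕ) (θ : ℝ) (h : FitsProd B M F A) (h' : FitsProd B M F A') :
    BBc F A A' θ = (∑ ω : Om B M, ‖∑ q ∈ F, ff ω q‖ ^ 2 * (SS θ A ω * (starRingEnd ℂ) (SS θ A' ω)))
      / (Fintype.card (Om B M) : ℂ) := by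
  have hcard : (Fintype.card (Om B M) : ℂ) ≠ 0 := by
    exact_mod_cast Fintype.card_ne_zero
  rw [eq_div_iff hcard]
  have hexp : ∀ ω : Om B M, ((‖∑ q ∈ F, ff ω q‖ : ℂ)) ^ 2 * (SS θ A ω * (starRingEnd ℂ) (SS θ A' ω))
      = ∑ q ∈ F, ∑ r ∈ F, ∑ n ∈ A, ∑ m ∈ A',
          (ff ω (q * n) * (starRingEnd ℂ) (ff ω (r * m))) * ee (θ * ((n:ℝ) - m)) := by
    intro ω
    rw [← Complex.mul_conj']
    unfold SS
    rw [map_sum, map_sum, Finset.sum_mul_sum, Finset.sum_mul_sum]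
    simp only [Finset.sum_mul]
    simp only [Finset.mul_sum]
    refine Finset.sum_congr rfl fun q hq => Finset.sum_congr rfl fun r hr =>
      Finset.sum_congr rfl fun n hn => Finset.sum_congr rfl fun m hm => ?_
    have h1 := (h q hq n hn).1
    have h2 := (h' r hr m hm).1
    rw [ff_mul ω (left_ne_zero_of_mul h1) (right_ne_zero_of_mul h1),
      ff_mul ω (left_ne_zero_of_mul h2) (right_ne_zero_of_mul h2)]
    have h3 : θ * ((n:ℝ) - m) = θ * n - θ * m := by ring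
    rw [h3, ee_sub]
    simp only [map_mul]
    ring
  simp only [hexp]
  have hswap : (∑ ω : Om B M, ∑ q ∈ F, ∑ r ∈ F, ∑ n ∈ A, ∑ m ∈ A',
        (ff ω (q * n) * (starRingEnd ℂ) (ff ω (r * m))) * ee (θ * ((n:ℝ) - m)))
      = ∑ q ∈ F, ∑ r ∈ F, ∑ n ∈ A, ∑ m ∈ A', ∑ ω : Om B M,
        (ff ω (q * n) * (starRingEnd ℂ) (ff ω (r * m))) * ee (θ * ((n:ℝ) - m)) := by
    rw [Finset.sum_comm]
    refine Finset.sum_congr rfl fun q _ => ?_
    rw [Finset.sum_comm]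
    refine Finset.sum_congr rfl fun r _ => ?_
    rw [Finset.sum_comm]
    refine Finset.sum_congr rfl fun n _ => ?_
    rw [Finset.sum_comm]
  rw [hswap]
  unfold BBc
  simp only [Finset.sum_mul]
  refine Finset.sum_congr rfl fun q hq => Finset.sum_congr rfl fun r hr =>
    Finset.sum_congr rfl fun n hn => Finset.sum_congr rfl fun m hm => ?_
  rw [← Finset.sum_mul, ortho (h q hq n hn) (h' r hr m hm)]
  split_ifs <;> ring

lemma BB_card_pos {B M : ℕ} [NeZero M] : (0:ℝ) < (Fintype.card (Om B M) : ℝ) := by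
  exact_mod_cast Fintype.card_pos

/-- The diagonal kernel as a real expectation. -/
lemma BB_re_eq {B M : ℕ} [NeZero M] (F A : Finset ℕ) (θ : ℝ) (h : FitsProd B M F A) :
    (BBc F A A θ).re = EE (fun ω : Om B M => ‖∑ q ∈ F, ff ω q‖ ^ 2 * ‖SS θ A ω‖ ^ 2) := by
  rw [BB_repr (B := B) (M := M) F A A θ h h]
  have h1 : ∀ ω : Om B M, ((‖∑ q ∈ F, ff ω q‖ : ℂ)) ^ 2 * (SS θ A ω * (starRingEnd ℂ) (SS θ A ω))
      = ((‖∑ q ∈ F, ff ω q‖ ^ 2 * ‖SS θ A ω‖ ^ 2 : ℝ) : ℂ) := by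
    intro ω
    rw [Complex.mul_conj']
    push_cast
    ring
  simp only [h1]
  rw [← Complex.ofReal_sum]
  have h2 : (Fintype.card (Om B M) : ℂ) = ((Fintype.card (Om B M) : ℝ) : ℂ) := by push_cast; rfl
  rw [h2, ← Complex.ofReal_div, Complex.ofReal_re]
  rfl

lemma BB_re_nonneg (F A : Finset ℕ) (θ : ℝ) (hF : ∀ q ∈ F, q ≠ 0) (hA : ∀ n ∈ A, n ≠ 0) :
    0 ≤ (BBc F A A θ).re := by
  obtain ⟨B, M, hM, h⟩ := exists_torus F A hF hA
  have : NeZero M := ⟨by omega⟩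
  rw [BB_re_eq (B := B) (M := M) F A θ h]
  exact EE_nonneg fun ω => by positivity

/-- Cauchy-Schwarz for the kernel. -/
theorem BB_cauchy (F A A' : Finset ℕ) (θ : ℝ) (hF : ∀ q ∈ F, q ≠ 0) (hA : ∀ n ∈ A, n ≠ 0) (hA' : ∀ n ∈ A', n ≠ 0) :
    ‖BBc F A A' θ‖ ^ 2 ≤ (BBc F A A θ).re * (BBc F A' A' θ).re := by
  classical
  obtain ⟨B, M, hM, h⟩ := exists_torus F (A ∪ A') hF (by
    intro n hn
    rcases Finset.mem_union.1 hn with h1 | h1
    · exact hA n h1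
    · exact hA' n h1)
  have : NeZero M := ⟨by omega⟩
  have hA1 : FitsProd B M F A := fun q hq n hn => h q hq n (Finset.mem_union_left _ hn)
  have hA2 : FitsProd B M F A' := fun q hq n hn => h q hq n (Finset.mem_union_right _ hn)
  rw [BB_re_eq (B := B) (M := M) F A θ hA1, BB_re_eq (B := B) (M := M) F A' θ hA2,
    BB_repr (B := B) (M := M) F A A' θ hA1 hA2]
  have hc := BB_card_pos (B := B) (M := M)
  obtain ⟨c, hcd⟩ : ∃ c : ℝ, c = (Fintype.card (Om B M) : ℝ) := ⟨_, rfl⟩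
  have hcc : (Fintype.card (Om B M) : ℂ) = (c : ℂ) := by rw [hcd]; push_cast; rfl
  rw [← hcd] at hc
  unfold EE
  rw [← hcd, hcc, norm_div, Complex.norm_real, Real.norm_of_nonneg hc.le]
  -- the pointwise functions
  have hle : ‖∑ ω : Om B M, ((‖∑ q ∈ F, ff ω q‖ : ℂ)) ^ 2 * (SS θ A ω * (starRingEnd ℂ) (SS θ A' ω))‖
      ≤ ∑ ω : Om B M, (‖∑ q ∈ F, ff ω q‖ * ‖SS θ A ω‖) * (‖∑ q ∈ F, ff ω q‖ * ‖SS θ A' ω‖) := by
    refine (norm_sum_le _ _).trans (le_of_eq ?_)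
    refine Finset.sum_congr rfl fun ω _ => ?_
    rw [norm_mul, norm_mul, norm_pow, Complex.norm_real, norm_norm, RCLike.norm_conj]
    ring
  have hCS := Finset.sum_mul_sq_le_sq_mul_sq (Finset.univ : Finset (Om B M))
    (fun ω => ‖∑ q ∈ F, ff ω q‖ * ‖SS θ A ω‖) (fun ω => ‖∑ q ∈ F, ff ω q‖ * ‖SS θ A' ω‖)
  simp only [mul_pow] at hCS
  rw [div_pow, div_mul_div_comm, ← pow_two]
  refine div_le_div_of_nonneg_right ?_ (by positivity)
  refine le_trans ?_ hCS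
  exact pow_le_pow_left₀ (norm_nonneg _) hle 2

/-- Mean square of the norm of the sum of `ff` over `F`. -/
lemma EE_norm_sum_ff {B M : ℕ} [NeZero M] (F : Finset ℕ) (hF : ∀ q ∈ F, Fits B M q) :
    EE (fun ω : Om B M => ‖∑ q ∈ F, ff ω q‖ ^ 2) = (F.card : ℝ) := by
  classical
  have hc := BB_card_pos (B := B) (M := M)
  unfold EE
  rw [div_eq_iff hc.ne']
  have h1 : ∀ ω : Om B M, ((‖∑ q ∈ F, ff ω q‖ ^ 2 : ℝ) : ℂ)
      = ∑ q ∈ F, ∑ r ∈ F, ff ω q * (starRingEnd ℂ) (ff ω r) := by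
    intro ω
    push_cast
    rw [← Complex.mul_conj', map_sum, Finset.sum_mul_sum]
  have h2 : ((∑ ω : Om B M, ‖∑ q ∈ F, ff ω q‖ ^ 2 : ℝ) : ℂ)
      = (((F.card : ℝ) * (Fintype.card (Om B M) : ℝ) : ℝ) : ℂ) := by
    rw [Complex.ofReal_sum]
    simp only [h1]
    rw [Finset.sum_comm]
    have h3 : ∀ q ∈ F, (∑ ω : Om B M, ∑ r ∈ F, ff ω q * (starRingEnd ℂ) (ff ω r))
        = (Fintype.card (Om B M) : ℂ) := by
      intro q hq
      rw [Finset.sum_comm]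
      rw [Finset.sum_congr rfl fun r hr => ortho (hF q hq) (hF r hr)]
      rw [Finset.sum_ite_eq F q, if_pos hq]
    rw [Finset.sum_congr rfl h3, Finset.sum_const, nsmul_eq_mul]
    push_cast
    rfl
  exact_mod_cast h2

lemma norm_sum_ff_le {B M : ℕ} [NeZero M] (F : Finset ℕ) (ω : Om B M) :
    ‖∑ q ∈ F, ff ω q‖ ≤ (F.card : ℝ) := by
  refine (norm_sum_le _ _).trans (le_of_eq ?_)
  simp [norm_ff]

/-- The moment step. -/
theorem BB_moment {B M : ℕ} [NeZero M] (k : ℕ) (hk : 1 ≤ k) (F A : Finset ℕ) (θ : ℝ) (h : FitsProd B M F A) :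
    (BBc F A A θ).re ≤ (F.card : ℝ) ^ (1 + (1:ℝ) / k) * nr k (fun ω : Om B M => ‖SS θ A ω‖ ^ 2) := by
  have hnn : 0 ≤ (F.card : ℝ) ^ (1 + (1:ℝ) / k) * nr k (fun ω : Om B M => ‖SS θ A ω‖ ^ 2) :=
    mul_nonneg (by positivity) (nr_nonneg _ _)
  by_cases hA : A = ∅
  · subst hA
    simpa [BBc] using hnn
  by_cases hFe : F = ∅
  · subst hFe
    simpa [BBc] using hnn
  obtain ⟨n0, hn0⟩ := Finset.nonempty_iff_ne_empty.2 hA
  have hK : (0:ℝ) < (F.card : ℝ) := by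
    exact_mod_cast Finset.card_pos.2 (Finset.nonempty_iff_ne_empty.2 hFe)
  have hFits : ∀ q ∈ F, Fits B M q := fun q hq => (h q hq n0 hn0).of_dvd (Dvd.intro _ rfl)
  have hk0 : k ≠ 0 := by omega
  have hkR : (0:ℝ) < (k:ℝ) := by exact_mod_cast hk
  rw [BB_re_eq (B := B) (M := M) F A θ h]
  obtain ⟨a, ha⟩ : ∃ a : Om B M → ℝ, a = fun ω => ‖∑ q ∈ F, ff ω q‖ ^ 2 := ⟨_, rfl⟩
  obtain ⟨b, hb⟩ : ∃ b : Om B M → ℝ, b = fun ω => ‖SS θ A ω‖ ^ 2 := ⟨_, rfl⟩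
  have ha0 : ∀ ω, 0 ≤ a ω := fun ω => by rw [ha]; positivity
  have hb0 : ∀ ω, 0 ≤ b ω := fun ω => by rw [hb]; positivity
  have haK : ∀ ω, a ω ≤ (F.card : ℝ) ^ 2 := fun ω => by
    rw [ha]
    exact pow_le_pow_left₀ (norm_nonneg _) (norm_sum_ff_le F ω) 2
  have hEa : EE a = (F.card : ℝ) := by rw [ha]; exact EE_norm_sum_ff F hFits
  obtain ⟨x, hx⟩ : ∃ x : Om B M → ℝ, x = fun ω => a ω ^ ((k:ℝ)⁻¹) := ⟨_, rfl⟩
  have hx0 : ∀ ω, 0 ≤ x ω := fun ω => by rw [hx]; exact Real.rpow_nonneg (ha0 ω) _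
  have hxk : ∀ ω, x ω ^ k = a ω := fun ω => by
    rw [hx]; exact Real.rpow_inv_natCast_pow (ha0 ω) hk0
  have hH := EE_holder k hk (x := x) (V := fun ω => x ω * b ω) hx0
    (fun ω => mul_nonneg (hx0 ω) (hb0 ω))
  have e1 : (fun ω => x ω ^ (k - 1) * (x ω * b ω)) = fun ω => a ω * b ω := by
    funext ω
    rw [← hxk ω, ← mul_assoc, ← pow_succ, Nat.sub_add_cancel hk]
  have e2 : (fun ω => x ω ^ k) = a := by funext ω; exact hxk ω
  have e3 : EE (fun ω => (x ω * b ω) ^ k) ≤ (F.card : ℝ) ^ 2 * EE (fun ω => |b ω| ^ k) := by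
    rw [← EE_mul_left]
    refine EE_mono fun ω => ?_
    rw [mul_pow, hxk ω, abs_of_nonneg (hb0 ω)]
    exact mul_le_mul_of_nonneg_right (haK ω) (pow_nonneg (hb0 ω) _)
  rw [e1, e2, hEa] at hH
  have e0 : (fun ω => ‖∑ q ∈ F, ff ω q‖ ^ 2 * ‖SS θ A ω‖ ^ 2) = fun ω => a ω * b ω := by
    rw [ha, hb]
  rw [e0]
  refine hH.trans ?_
  have hnb : 0 ≤ EE (fun ω => |b ω| ^ k) := EE_nonneg fun ω => by positivity
  have hnb2 : 0 ≤ EE (fun ω => (x ω * b ω) ^ k) :=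
    EE_nonneg fun ω => pow_nonneg (mul_nonneg (hx0 ω) (hb0 ω)) _
  have hroot : (EE (fun ω => (x ω * b ω) ^ k)) ^ ((1:ℝ) / k)
      ≤ (F.card : ℝ) ^ ((2:ℝ) / k) * nr k b := by
    unfold nr
    calc (EE (fun ω => (x ω * b ω) ^ k)) ^ ((1:ℝ) / k)
        ≤ ((F.card : ℝ) ^ 2 * EE (fun ω => |b ω| ^ k)) ^ ((1:ℝ) / k) :=
          Real.rpow_le_rpow hnb2 e3 (by positivity)
      _ = ((F.card : ℝ) ^ 2) ^ ((1:ℝ) / k) * (EE (fun ω => |b ω| ^ k)) ^ ((1:ℝ) / k) :=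
          Real.mul_rpow (by positivity) hnb
      _ = _ := by
          congr 1
          rw [← Real.rpow_natCast, ← Real.rpow_mul hK.le]
          congr 1
          push_cast
          ring
  have hexp : (F.card : ℝ) ^ (1 + (1:ℝ) / k) = (F.card : ℝ) ^ (((k:ℝ) - 1) / k) * (F.card : ℝ) ^ ((2:ℝ) / k) := by
    rw [← Real.rpow_add hK]
    congr 1
    field_simp
    ring
  rw [hexp, mul_assoc, ← hb]
  exact mul_le_mul_of_nonneg_left hroot (by positivity)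

/-- The trivial bound, from the moment bound of `P028G`. -/
theorem BB_trivial (n : ℕ) (F A : Finset ℕ) (θ : ℝ) (Y : ℕ) (hF : ∀ q ∈ F, 1 ≤ q) (hK1 : 1 ≤ F.card)
    (hK : (F.card : ℝ) ≤ 2 * 2 ^ n * GG n) (hA : ∀ x ∈ A, 1 ≤ x ∧ x ≤ 2 * Y) (hY : 2 * Y ≤ F.card ^ 2) :
    (BBc F A A θ).re ≤ 2 * (Y:ℝ) * (F.card : ℝ) * GG n := by
  classical
  have hW := WW_le_num n F hF hK1 hK
  have hY0 : (0:ℝ) ≤ (Y:ℝ) := Nat.cast_nonneg Y
  have hterm : ∀ q ∈ F, ∀ r ∈ F, (∑ n ∈ A, ∑ m ∈ A,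
      (if q * n = r * m then ee (θ * ((n:ℝ) - m)) else 0)).re ≤ 2 * (Y:ℝ) * NN (F.card ^ 2) 1 q r := by
    intro q _ r _
    -- map the pair into tuples of length one
    let φ : ℕ × ℕ → (Fin 1 → ℕ) × (Fin 1 → ℕ) := fun p => (fun _ => p.1, fun _ => p.2)
    have hφinj : Function.Injective φ := by
      intro p p' hpp
      have h1 := congrFun (congrArg Prod.fst hpp) 0
      have h2 := congrFun (congrArg Prod.snd hpp) 0
      exact Prod.ext h1 h2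
    have hsub : (A ×ˢ A).image φ ⊆ Tup (F.card ^ 2) 1 ×ˢ Tup (F.card ^ 2) 1 := by
      intro x hx
      obtain ⟨p, hp, rfl⟩ := Finset.mem_image.1 hx
      obtain ⟨hp1, hp2⟩ := Finset.mem_product.1 hp
      refine Finset.mem_product.2 ⟨mem_Tup.2 fun _ => ?_, mem_Tup.2 fun _ => ?_⟩
      · exact ⟨(hA _ hp1).1, (hA _ hp1).2.trans hY⟩
      · exact ⟨(hA _ hp2).1, (hA _ hp2).2.trans hY⟩
    have hnn : ∀ x ∈ Tup (F.card ^ 2) 1 ×ˢ Tup (F.card ^ 2) 1, x ∉ (A ×ˢ A).image φ → (0:ℝ) ≤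
        if q * pr x.1 = r * pr x.2 then om (pr x.1) * om (pr x.2) else 0 := by
      intro x _ _
      split_ifs
      · exact mul_nonneg (om_nonneg _) (om_nonneg _)
      · exact le_rfl
    have h1 := Finset.sum_le_sum_of_subset_of_nonneg hsub hnn
    rw [Finset.sum_image (fun a _ b _ hab => hφinj hab)] at h1
    unfold NN
    refine le_trans ?_ (mul_le_mul_of_nonneg_left h1 (by positivity))
    rw [Finset.sum_product, Finset.mul_sum, Complex.re_sum]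
    refine Finset.sum_le_sum fun n' hn' => ?_
    rw [Finset.mul_sum, Complex.re_sum]
    refine Finset.sum_le_sum fun m hm => ?_
    simp only [φ, pr, Fin.prod_univ_one]
    split_ifs with heq
    · have hre : (ee (θ * ((n':ℝ) - m))).re ≤ 1 := by
        have := Complex.re_le_norm (ee (θ * ((n':ℝ) - m)))
        rwa [norm_ee] at this
      have hn1 := hA n' hn'
      have hm1 := hA m hm
      have hY1 : (1:ℝ) ≤ 2 * (Y:ℝ) := by
        have : 1 ≤ 2 * Y := hn1.1.trans hn1.2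
        exact_mod_cast this
      have hnle : ((n':ℕ):ℝ) ≤ 2 * (Y:ℝ) := by exact_mod_cast hn1.2
      have hmle : ((m:ℕ):ℝ) ≤ 2 * (Y:ℝ) := by exact_mod_cast hm1.2
      have hn0 : (0:ℝ) < (n':ℝ) := by exact_mod_cast hn1.1
      have hm0 : (0:ℝ) < (m:ℝ) := by exact_mod_cast hm1.1
      have hs : Real.sqrt n' * Real.sqrt m ≤ 2 * (Y:ℝ) := by
        calc Real.sqrt n' * Real.sqrt m ≤ Real.sqrt (2 * (Y:ℝ)) * Real.sqrt (2 * (Y:ℝ)) :=
              mul_le_mul (Real.sqrt_le_sqrt hnle) (Real.sqrt_le_sqrt hmle)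
                (Real.sqrt_nonneg _) (Real.sqrt_nonneg _)
          _ = 2 * (Y:ℝ) := Real.mul_self_sqrt (by positivity)
      have hpos : 0 < Real.sqrt n' * Real.sqrt m :=
        mul_pos (Real.sqrt_pos.2 hn0) (Real.sqrt_pos.2 hm0)
      have h4 : om n' * om m = (Real.sqrt n' * Real.sqrt m)⁻¹ := by
        unfold om
        rw [mul_inv]
      rw [h4]
      refine hre.trans ?_
      rw [← div_eq_mul_inv, le_div_iff₀ hpos]
      linarith
    · simp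
  unfold BBc
  rw [Complex.re_sum]
  calc ∑ q ∈ F, (∑ r ∈ F, ∑ n ∈ A, ∑ m ∈ A,
        (if q * n = r * m then ee (θ * ((n:ℝ) - m)) else 0)).re
      ≤ ∑ q ∈ F, ∑ r ∈ F, 2 * (Y:ℝ) * NN (F.card ^ 2) 1 q r := by
        refine Finset.sum_le_sum fun q hq => ?_
        rw [Complex.re_sum]
        exact Finset.sum_le_sum fun r hr => hterm q hq r hr
    _ = 2 * (Y:ℝ) * WW (F.card ^ 2) 1 F := by
        unfold WW
        simp only [Finset.mul_sum]
    _ ≤ 2 * (Y:ℝ) * ((F.card : ℝ) * GG n) := mul_le_mul_of_nonneg_left hW (by positivity)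
    _ = _ := by ring

/-- Real part and norm of the kernel at zero twist dominate. -/
lemma BB_count_le (F A : Finset ℕ) (θ : ℝ) : ‖BBc F A A θ‖ ≤ (BBc F A A 0).re := by
  unfold BBc
  simp only [Complex.re_sum]
  refine norm_sum_le_of_le _ fun q _ => norm_sum_le_of_le _ fun r _ =>
    norm_sum_le_of_le _ fun n _ => norm_sum_le_of_le _ fun m _ => ?_
  split_ifs
  · simp [norm_ee, ee_zero]
  · simp

end

end Vale.Agent.Lib.P028K
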