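import Vale.Agent.Lib.P028K.KL
import Vale.Agent.Lib.P028K.Moment
import Vale.Agent.Lib.P028T.Defs

/-! Part MLdefs: the multiplier intervals. -/

open Finset

namespace Vale.Agent.Lib.P028K

open Vale.Agent.Lib.P028
open Vale.Agent.Lib.P028T
open Vale.Agent.Lib.P028G

noncomputable section

lemma GE_le_GG (ε : ℝ) (hε0 : 0 < ε) (hε : ε ≤ 1 / 2) (n : ℕ) : GE ε n ≤ GG n := by
  unfold GE GG
  apply Real.exp_le_exp.mpr
  have hn : (0:ℝ) ≤ n := Nat.cast_nonneg n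
  have h1 : (1:ℝ) ≤ (n:ℝ) + 1 := by linarith
  have h2 : ((n:ℝ) + 1) ^ ε ≤ ((n:ℝ) + 1) ^ ((1:ℝ) / 2) :=
    Real.rpow_le_rpow_of_exponent_le h1 hε
  have h3 : ((n:ℝ) + 1) ^ ((1:ℝ) / 2) = Real.sqrt ((n:ℝ) + 1) := (Real.sqrt_eq_rpow _).symm
  have h4 : (1:ℝ) / 2 ≤ Real.log ((n:ℝ) + 2) := by
    have h5 : Real.log 2 ≤ Real.log ((n:ℝ) + 2) :=
      Real.log_le_log (by norm_num) (by linarith)
    have h6 := Real.log_two_gt_d9
    linarith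
  have h7 : Real.sqrt ((n:ℝ) + 1) ≤ 100 * AA n := by
    unfold AA
    have h8 : Real.sqrt ((n:ℝ) + 1) ^ 2 = (n:ℝ) + 1 := Real.sq_sqrt (by linarith)
    have h9 : Real.sqrt (((n:ℝ) + 1) * Real.log ((n:ℝ) + 2)) ^ 2
        = ((n:ℝ) + 1) * Real.log ((n:ℝ) + 2) := Real.sq_sqrt (by positivity)
    apply abs_le_of_sq_le_sq' _ (by positivity) |>.2
    rw [mul_pow, h8, h9]
    nlinarith
  linarith

/-- Left end of the multipliers. -/
def Yd (Mm d : ℕ) : ℕ := (Mm + d - 1) / d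

/-- Right end of the multipliers. -/
def Yd' (Mm d : ℕ) : ℕ := (2 * Mm + d - 1) / d

lemma Nn_eq (Mm d : ℕ) (hd : 1 ≤ d) : Nn Mm d = Ico (Yd Mm d) (Yd' Mm d) := by
  have hd0 : 0 < d := hd
  ext n
  simp only [Nn, mem_filter, mem_range, mem_Ico, Yd, Yd']
  have h1 : (Mm + d - 1) / d ≤ n ↔ Mm ≤ d * n := by
    rw [Nat.div_le_iff_le_mul_add_pred hd0]
    constructor <;> intro h <;> omega
  have h2 : n < (2 * Mm + d - 1) / d ↔ d * n < 2 * Mm := by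
    rw [Nat.lt_iff_add_one_le, Nat.le_div_iff_mul_le hd0, Nat.add_mul, one_mul, Nat.mul_comm n d]
    omega
  rw [h1, h2]
  constructor
  · rintro ⟨_, h3, h4⟩; exact ⟨h3, h4⟩
  · rintro ⟨h3, h4⟩
    refine ⟨?_, h3, h4⟩
    have : n ≤ d * n := Nat.le_mul_of_pos_left n hd0
    omega

lemma Yd'_le (Mm d : ℕ) (hd : 1 ≤ d) : Yd' Mm d ≤ 2 * Yd Mm d := by
  have hd0 : 0 < d := hd
  unfold Yd Yd'
  rw [Nat.div_le_iff_le_mul_add_pred hd0]
  have h := Nat.div_add_mod (Mm + d - 1) d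
  have h' := Nat.mod_lt (Mm + d - 1) hd0
  have e : d * (2 * ((Mm + d - 1) / d)) = 2 * (d * ((Mm + d - 1) / d)) := by ring
  rw [e]
  omega

end

end Vale.Agent.Lib.P028K
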