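import Vale.Agent.Lib.P028K.MLDefs

/-! Part MLgood: one good twist. Blueprint section 12. -/

open Finset

namespace Vale.Agent.Lib.P028K

open Vale.Agent.Lib.P028
open Vale.Agent.Lib.P028T
open Vale.Agent.Lib.P028G

noncomputable section

private lemma GG_le (n : ℕ) : GG n ≤ Real.exp (100 * ((n:ℝ) + 1)) := by
  unfold GG
  apply Real.exp_le_exp.mpr
  obtain ⟨-, -, -, h, -⟩ := AA_facts n
  linarith

/-- Logarithmic size of `F`. -/
private lemma log_card_le (n : ℕ) (K : ℕ) (hK1 : 1 ≤ K) (hK : (K : ℝ) ≤ 2 * 2 ^ n * GG n) :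
    Real.log K ≤ 102 * ((n:ℝ) + 1) := by
  have hK0 : (0:ℝ) < K := by exact_mod_cast hK1
  have hn : (0:ℝ) ≤ n := Nat.cast_nonneg n
  have hl2 : Real.log 2 ≤ 1 := by
    have := Real.log_two_lt_d9
    linarith
  have h2pos : (0:ℝ) < 2 := by norm_num
  have hb : (K : ℝ) ≤ Real.exp (102 * ((n:ℝ) + 1)) := by
    have h2 : (2:ℝ) ≤ Real.exp 1 := by
      have := Real.add_one_le_exp (1:ℝ)
      linarith
    have hp : (2:ℝ) ^ n ≤ Real.exp (n:ℝ) := by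
      calc (2:ℝ) ^ n ≤ (Real.exp 1) ^ n := pow_le_pow_left₀ (by norm_num) h2 n
        _ = Real.exp (n:ℝ) := by rw [← Real.exp_nat_mul]; simp
    calc (K : ℝ) ≤ 2 * 2 ^ n * GG n := hK
      _ ≤ Real.exp 1 * Real.exp (n:ℝ) * Real.exp (100 * ((n:ℝ) + 1)) := by
          have := GG_le n
          have hG : 0 ≤ GG n := (Real.exp_pos _).le
          gcongr
      _ = Real.exp (1 + (n:ℝ) + 100 * ((n:ℝ) + 1)) := by
          rw [Real.exp_add, Real.exp_add]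
      _ ≤ Real.exp (102 * ((n:ℝ) + 1)) := by
          apply Real.exp_le_exp.mpr
          linarith
  calc Real.log K ≤ Real.log (Real.exp (102 * ((n:ℝ) + 1))) := Real.log_le_log hK0 hb
    _ = _ := Real.log_exp _

private lemma Yd_lower (Mm d : ℕ) (hd : 1 ≤ d) : (Mm:ℝ) / d ≤ (Yd Mm d : ℕ) := by
  have hd0 : (0:ℝ) < d := by exact_mod_cast hd
  rw [div_le_iff₀ hd0]
  have h : Mm ≤ Yd Mm d * d := by
    unfold Yd
    have h1 := Nat.div_add_mod (Mm + d - 1) d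
    have h2 := Nat.mod_lt (Mm + d - 1) (show 0 < d by omega)
    have h3 : d * ((Mm + d - 1) / d) = (Mm + d - 1) / d * d := Nat.mul_comm _ _
    omega
  exact_mod_cast h

private lemma Yd_upper (Mm d : ℕ) (hd : 1 ≤ d) : ((Yd Mm d : ℕ):ℝ) ≤ (Mm:ℝ) / d + 1 := by
  have hd0 : (0:ℝ) < d := by exact_mod_cast hd
  have h : Yd Mm d * d ≤ Mm + d := by
    unfold Yd
    have h1 := Nat.div_mul_le_self (Mm + d - 1) d
    omega
  have h' : ((Yd Mm d : ℕ):ℝ) * d ≤ (Mm:ℝ) + d := by exact_mod_cast h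
  have : (Mm:ℝ) / d + 1 = ((Mm:ℝ) + d) / d := by field_simp
  rw [this, le_div_iff₀ hd0]
  exact h'

/-- A single good twist at a power scale: KL and the moment step with
`k = ⌊(log Y)^(1-ε)⌋`. -/
theorem ML_good (c₄ ε ν : ℝ) (hc₄ : 0 < c₄) (hε : 0 < ε) (hε1 : ε < 1) (hν : 0 < ν) (hν1 : ν ≤ 1 / 16) :
    ∃ n0 : ℕ, ∃ C : ℝ, 0 < C ∧ ∀ n : ℕ, n0 ≤ n → ∀ F : Finset ℕ, (∀ q ∈ F, 1 ≤ q) → 1 ≤ F.card →
      (F.card : ℝ) ≤ 2 * 2 ^ n * GG n → ∀ (Mm d : ℕ) (β : ℝ), 1 ≤ d → ((2:ℝ) ^ n) ^ c₄ ≤ (Mm:ℝ) / d → Mm ≤ 2 ^ n →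
      MA β ⌊((Yd Mm d : ℕ):ℝ) ^ ν⌋₊ (((Yd Mm d : ℕ):ℝ) ^ (-(1 / 4 : ℝ))) →
      (BBc F (Nn Mm d) (Nn Mm d) β).re ≤ (F.card : ℝ) * ((Mm:ℝ) / d + 1) * Real.exp (C * ((n:ℝ) + 1) ^ ε) := by
  obtain ⟨Y0, hY0⟩ := KL ε ν hε hε1 hν hν1
  have hlog2 : 0 < Real.log 2 := Real.log_pos (by norm_num)
  have hlog2' : Real.log 2 ≤ 1 := by
    have := Real.log_two_lt_d9
    linarith
  obtain ⟨c', hc'⟩ : ∃ c' : ℝ, c' = c₄ * Real.log 2 / 2 := ⟨_, rfl⟩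
  have hc'pos : 0 < c' := by rw [hc']; positivity
  have h1ε : 0 < 1 - ε := by linarith
  -- the threshold for `n`
  obtain ⟨n0, hn0⟩ : ∃ n0 : ℕ, max ((Y0:ℝ) + 1) 1 / (c₄ * Real.log 2) + 1 ≤ n0 := by
    obtain ⟨m, hm⟩ := exists_nat_ge (max ((Y0:ℝ) + 1) 1 / (c₄ * Real.log 2) + 1)
    exact ⟨m, hm⟩
  -- the constant
  obtain ⟨C1, hC1⟩ : ∃ C1 : ℝ, C1 = 204 / c' ^ (1 - ε) := ⟨_, rfl⟩
  have hC1pos : 0 < C1 := by rw [hC1]; positivity
  refine ⟨n0, C1 + 1, by linarith, ?_⟩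
  intro n hn F hFpos hF1 hFcard Mm d β hd hpow hMm hMA
  -- bounds on `n`
  have hnn0 : (n0:ℝ) ≤ n := by exact_mod_cast hn
  have hdiv0 : 0 ≤ max ((Y0:ℝ) + 1) 1 / (c₄ * Real.log 2) := by positivity
  have hn1 : (1:ℝ) ≤ n := by linarith
  have hcn : max ((Y0:ℝ) + 1) 1 ≤ c₄ * n * Real.log 2 := by
    have hcpos : 0 < c₄ * Real.log 2 := by positivity
    have h : max ((Y0:ℝ) + 1) 1 / (c₄ * Real.log 2) ≤ n := by linarith
    rw [div_le_iff₀ hcpos] at h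
    linarith
  have hcn1 : 1 ≤ c₄ * n * Real.log 2 := le_trans (le_max_right _ _) hcn
  have hcnY : (Y0:ℝ) + 1 ≤ c₄ * n * Real.log 2 := le_trans (le_max_left _ _) hcn
  -- the power
  have h2n : ((2:ℝ) ^ n) ^ c₄ = Real.exp (c₄ * n * Real.log 2) := by
    rw [Real.rpow_def_of_pos (by positivity), Real.log_pow]
    congr 1
    ring
  obtain ⟨Y, hYdef⟩ : ∃ Y : ℕ, Y = Yd Mm d := ⟨_, rfl⟩
  obtain ⟨Y', hY'def⟩ : ∃ Y' : ℕ, Y' = Yd' Mm d := ⟨_, rfl⟩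
  rw [← hYdef] at hMA
  have hYl : Real.exp (c₄ * n * Real.log 2) ≤ (Y:ℝ) := by
    rw [← h2n, hYdef]
    exact le_trans hpow (Yd_lower Mm d hd)
  have hYu : (Y:ℝ) ≤ (Mm:ℝ) / d + 1 := by
    rw [hYdef]
    exact Yd_upper Mm d hd
  have hexp_ge : c₄ * n * Real.log 2 + 1 ≤ Real.exp (c₄ * n * Real.log 2) := Real.add_one_le_exp _
  have hYbig : (Y0:ℝ) + 2 ≤ Y := by linarith
  have hY0Y : Y0 ≤ Y := by
    have : (Y0:ℝ) ≤ Y := by linarith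
    exact_mod_cast this
  have hYpos : (0:ℝ) < Y := by
    have : (0:ℝ) ≤ Y0 := Nat.cast_nonneg _
    linarith
  have hY1 : 1 ≤ Y := by
    have : (0:ℝ) < Y := hYpos
    have h : 0 < Y := by exact_mod_cast this
    omega
  -- `log Y`
  have hlogl : c₄ * n * Real.log 2 ≤ Real.log Y := by
    rw [Real.le_log_iff_exp_le hYpos]
    exact hYl
  have hlogY1 : 1 ≤ Real.log Y := le_trans hcn1 hlogl
  have hd0 : (1:ℝ) ≤ d := by exact_mod_cast hd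
  have hMmd : (Mm:ℝ) / d ≤ 2 ^ n := by
    have h1 : (Mm:ℝ) ≤ 2 ^ n := by exact_mod_cast hMm
    have h2 : (Mm:ℝ) / d ≤ Mm := div_le_self (Nat.cast_nonneg _) hd0
    linarith
  have hlogu : Real.log Y ≤ (n:ℝ) + 1 := by
    have h1 : (Y:ℝ) ≤ 2 ^ (n + 1) := by
      have : (1:ℝ) ≤ 2 ^ n := one_le_pow₀ (by norm_num)
      rw [pow_succ]
      linarith
    calc Real.log Y ≤ Real.log ((2:ℝ) ^ (n + 1)) := Real.log_le_log hYpos h1
      _ = ((n + 1 : ℕ):ℝ) * Real.log 2 := Real.log_pow _ _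
      _ ≤ ((n + 1 : ℕ):ℝ) * 1 := by gcongr
      _ = (n:ℝ) + 1 := by push_cast; ring
  -- the moment
  obtain ⟨x, hx⟩ : ∃ x : ℝ, x = (Real.log Y) ^ (1 - ε) := ⟨_, rfl⟩
  have hx1 : 1 ≤ x := by
    rw [hx]
    exact Real.one_le_rpow hlogY1 h1ε.le
  obtain ⟨k, hk⟩ : ∃ k : ℕ, k = ⌊x⌋₊ := ⟨_, rfl⟩
  have hk1 : 1 ≤ k := by
    rw [hk]
    exact Nat.le_floor (by simpa using hx1)
  have hkx : (k:ℝ) ≤ x := by
    rw [hk]
    exact Nat.floor_le (by linarith)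
  have hxk : x / 2 ≤ k := by
    have h1 : x < (k:ℝ) + 1 := by
      rw [hk]
      exact Nat.lt_floor_add_one x
    have h2 : (1:ℝ) ≤ k := by exact_mod_cast hk1
    linarith
  have hkpos : (0:ℝ) < k := by
    have h2 : (1:ℝ) ≤ k := by exact_mod_cast hk1
    linarith
  -- the torus
  have hY'le : Y' ≤ 2 * Y := by
    rw [hY'def, hYdef]
    exact Yd'_le Mm d hd
  obtain ⟨B, M, hM2, hFit⟩ := exists_torus (F ∪ {1}) (Ico 1 (Y' + 1))
    (by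
      intro q hq
      rcases Finset.mem_union.mp hq with h | h
      · have := hFpos q h
        omega
      · rw [Finset.mem_singleton] at h
        omega)
    (by
      intro a ha
      have := (Finset.mem_Ico.mp ha).1
      omega)
  have : NeZero M := ⟨by omega⟩
  have hFits : ∀ a ∈ Ico 1 (Y' + 1), Fits B M a := by
    intro a ha
    have := hFit 1 (by simp) a ha
    simpa using this
  have hNn : Nn Mm d = Ico Y Y' := by
    rw [hYdef, hY'def]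
    exact Nn_eq Mm d hd
  have hFitP : FitsProd B M F (Ico Y Y') := by
    intro q hq a ha
    obtain ⟨ha1, ha2⟩ := Finset.mem_Ico.mp ha
    exact hFit q (Finset.mem_union_left _ hq) a (Finset.mem_Ico.mpr ⟨by omega, by omega⟩)
  have hKLb := hY0 Y Y' hY0Y hY'le β hMA k hk1 (by rw [← hx]; exact hkx) B M hM2 hFits
  have hMom := BB_moment (B := B) (M := M) k hk1 F (Ico Y Y') β hFitP
  rw [hNn]
  -- the size of `|F|^(1/k)`
  have hKpos : (0:ℝ) < F.card := by exact_mod_cast hF1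
  have hlogK := log_card_le n F.card hF1 hFcard
  have hlogK0 : 0 ≤ Real.log F.card := Real.log_natCast_nonneg _
  have hnpos : (0:ℝ) < (n:ℝ) + 1 := by linarith
  have hc'n : c' * ((n:ℝ) + 1) ≤ Real.log Y := by
    have : c' * ((n:ℝ) + 1) ≤ c₄ * n * Real.log 2 := by
      rw [hc']
      have hcpos : 0 < c₄ * Real.log 2 := by positivity
      have : ((n:ℝ) + 1) ≤ 2 * n := by linarith
      have h3 := mul_le_mul_of_nonneg_left this hcpos.le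
      nlinarith
    linarith
  have hxl : c' ^ (1 - ε) * ((n:ℝ) + 1) ^ (1 - ε) ≤ x := by
    rw [hx, ← Real.mul_rpow hc'pos.le hnpos.le]
    exact Real.rpow_le_rpow (by positivity) hc'n h1ε.le
  have hratio : Real.log F.card / k ≤ C1 * ((n:ℝ) + 1) ^ ε := by
    rw [div_le_iff₀ hkpos]
    have hcp : 0 < c' ^ (1 - ε) := by positivity
    have hnp : 0 < ((n:ℝ) + 1) ^ ε := by positivity
    have hnp' : 0 < ((n:ℝ) + 1) ^ (1 - ε) := by positivity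
    have hsplit : ((n:ℝ) + 1) ^ ε * ((n:ℝ) + 1) ^ (1 - ε) = (n:ℝ) + 1 := by
      rw [← Real.rpow_add hnpos]
      simp
    have hk' : c' ^ (1 - ε) * ((n:ℝ) + 1) ^ (1 - ε) / 2 ≤ k := by linarith
    have hC1k : C1 * ((n:ℝ) + 1) ^ ε * (c' ^ (1 - ε) * ((n:ℝ) + 1) ^ (1 - ε) / 2)
        = 102 * ((n:ℝ) + 1) := by
      rw [hC1]
      field_simp
      rw [mul_assoc, hsplit]
      ring
    calc Real.log F.card ≤ 102 * ((n:ℝ) + 1) := hlogK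
      _ = C1 * ((n:ℝ) + 1) ^ ε * (c' ^ (1 - ε) * ((n:ℝ) + 1) ^ (1 - ε) / 2) := hC1k.symm
      _ ≤ C1 * ((n:ℝ) + 1) ^ ε * k := by gcongr
  have hFk : (F.card : ℝ) ^ ((1:ℝ) / k) ≤ Real.exp (C1 * ((n:ℝ) + 1) ^ ε) := by
    rw [Real.rpow_def_of_pos hKpos]
    apply Real.exp_le_exp.mpr
    calc Real.log F.card * ((1:ℝ) / k) = Real.log F.card / k := by ring
      _ ≤ _ := hratio
  -- the `log Y` power
  have hlogε : (Real.log Y) ^ ε ≤ ((n:ℝ) + 1) ^ ε :=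
    Real.rpow_le_rpow (by linarith) hlogu hε.le
  -- assemble
  have hFsplit : (F.card : ℝ) ^ (1 + (1:ℝ) / k) = (F.card : ℝ) * (F.card : ℝ) ^ ((1:ℝ) / k) := by
    rw [Real.rpow_add hKpos, Real.rpow_one]
  have hexp2 : Real.exp (C1 * ((n:ℝ) + 1) ^ ε) * Real.exp ((Real.log Y) ^ ε)
      ≤ Real.exp ((C1 + 1) * ((n:ℝ) + 1) ^ ε) := by
    rw [← Real.exp_add]
    apply Real.exp_le_exp.mpr
    linarith
  calc (BBc F (Ico Y Y') (Ico Y Y') β).re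
      ≤ (F.card : ℝ) ^ (1 + (1:ℝ) / k) * nr k (fun ω : Om B M => ‖SS β (Ico Y Y') ω‖ ^ 2) := hMom
    _ ≤ (F.card : ℝ) ^ (1 + (1:ℝ) / k) * (Y * Real.exp ((Real.log Y) ^ ε)) := by
        gcongr
    _ = (F.card : ℝ) * (Y * ((F.card : ℝ) ^ ((1:ℝ) / k) * Real.exp ((Real.log Y) ^ ε))) := by
        rw [hFsplit]; ring
    _ ≤ (F.card : ℝ) * (((Mm:ℝ) / d + 1) * (Real.exp (C1 * ((n:ℝ) + 1) ^ ε) * Real.exp ((Real.log Y) ^ ε))) := by
        gcongr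
    _ ≤ (F.card : ℝ) * (((Mm:ℝ) / d + 1) * Real.exp ((C1 + 1) * ((n:ℝ) + 1) ^ ε)) := by
        gcongr
    _ = _ := by ring

end

end Vale.Agent.Lib.P028K
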