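import Vale.Agent.Lib.P028K.MLgood
import Vale.Agent.Lib.P028T.Tau

/-! Part MLsmall: small d. Blueprint section 12. -/

open Finset

namespace Vale.Agent.Lib.P028K

open Vale.Agent.Lib.P028
open Vale.Agent.Lib.P028T
open Vale.Agent.Lib.P028G

noncomputable section

lemma dn_sub_le_add (a b : ℝ) : dn (a - b) ≤ dn a + dn b := by
  have h := dn_le_abs_sub (a - b) (round a - round b)
  push_cast at h
  calc dn (a - b) ≤ |a - b - ((round a : ℝ) - round b)| := h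
    _ = |(a - round a) - (b - round b)| := by ring_nf
    _ ≤ |a - round a| + |b - round b| := abs_sub _ _
    _ = dn a + dn b := rfl

/-- A return at height `N` forces `N` to be large. -/
lemma lt_of_dn {γ c₀ : ℝ} {κ : ℕ} (hγ : Dio γ c₀ κ) (hc₀ : 0 < c₀) (hκ : 1 ≤ κ) {η : ℝ} (hη : 0 < η)
    {N : ℕ} (hN : 1 ≤ N) (h : dn ((N : ℝ) * γ) < 2 * η) :
    (c₀ / (2 * η)) ^ ((1 : ℝ) / κ) < N := by
  have hN0 : (0 : ℝ) < N := by exact_mod_cast hN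
  have h1 := hγ N hN
  have hpow : (0 : ℝ) < (N : ℝ) ^ κ := by positivity
  have h2 : c₀ / (N : ℝ) ^ κ < 2 * η := lt_of_le_of_lt h1 h
  have h3 : c₀ / (2 * η) < (N : ℝ) ^ κ := by
    rw [div_lt_iff₀ (by positivity)]
    rw [div_lt_iff₀ hpow] at h2
    linarith
  have hκ0 : (0 : ℝ) < (1 : ℝ) / κ := by
    have : (0 : ℝ) < κ := by exact_mod_cast hκ
    positivity
  have h4 := Real.rpow_lt_rpow (by positivity) h3 hκ0
  have h5 : ((N : ℝ) ^ κ) ^ ((1 : ℝ) / κ) = N := by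
    rw [one_div]
    exact Real.pow_rpow_inv_natCast hN0.le (by omega)
  rwa [h5] at h4

/-- Two returns at `n m`, `n m'` are far apart. -/
lemma gap_of_dn {γ c₀ : ℝ} {κ : ℕ} (hγ : Dio γ c₀ κ) (hc₀ : 0 < c₀) (hκ : 1 ≤ κ) {η : ℝ} (hη : 0 < η)
    {n m m' : ℕ} (hn : 1 ≤ n) (hmm : m < m') (h1 : dn (((n * m : ℕ) : ℝ) * γ) < η)
    (h2 : dn (((n * m' : ℕ) : ℝ) * γ) < η) :
    (c₀ / (2 * η)) ^ ((1 : ℝ) / κ) < (n : ℝ) * ((m' : ℝ) - m) := by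
  have hN : 1 ≤ n * (m' - m) := Nat.mul_pos hn (Nat.sub_pos_of_lt hmm)
  have hcast : ((n * (m' - m) : ℕ) : ℝ) = (n : ℝ) * ((m' : ℝ) - m) := by
    push_cast [Nat.cast_sub hmm.le]
    ring
  have h3 : dn (((n * (m' - m) : ℕ) : ℝ) * γ) < 2 * η := by
    have h4 : ((n * (m' - m) : ℕ) : ℝ) * γ = ((n * m' : ℕ) : ℝ) * γ - ((n * m : ℕ) : ℝ) * γ := by
      rw [hcast]
      push_cast
      ring
    rw [h4]
    have := dn_sub_le_add (((n * m' : ℕ) : ℝ) * γ) (((n * m : ℕ) : ℝ) * γ)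
    linarith
  have := lt_of_dn hγ hc₀ hκ hη hN h3
  rwa [hcast] at this

/-- The floor map is injective on the returns. -/
lemma floor_injOn {γ c₀ : ℝ} {κ : ℕ} (hγ : Dio γ c₀ κ) (hc₀ : 0 < c₀) (hκ : 1 ≤ κ) {η : ℝ} (hη : 0 < η)
    {n : ℕ} (hn : 1 ≤ n) {g : ℝ} (hg : g = (c₀ / (2 * η)) ^ ((1 : ℝ) / κ) / n) (hg0 : 0 < g) (X : ℕ) :
    Set.InjOn (fun m : ℕ => ⌊(m : ℝ) / g⌋₊)
      (((Icc 1 X).filter (fun m : ℕ => dn (((n * m : ℕ) : ℝ) * γ) < η) : Finset ℕ) : Set ℕ) := by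
  have hn0 : (0 : ℝ) < n := by exact_mod_cast hn
  have key : ∀ m m' : ℕ, dn (((n * m : ℕ) : ℝ) * γ) < η → dn (((n * m' : ℕ) : ℝ) * γ) < η → m < m' →
      ⌊(m : ℝ) / g⌋₊ ≠ ⌊(m' : ℝ) / g⌋₊ := by
    intro m m' h1 h2 hmm hfl
    have h3 := gap_of_dn hγ hc₀ hκ hη hn hmm h1 h2
    have h4 : (m' : ℝ) / g < ⌊(m' : ℝ) / g⌋₊ + 1 := Nat.lt_floor_add_one _
    have h5 : (⌊(m : ℝ) / g⌋₊ : ℝ) ≤ (m : ℝ) / g := Nat.floor_le (by positivity)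
    rw [← hfl] at h4
    have h6 : (m' : ℝ) / g - (m : ℝ) / g < 1 := by linarith
    have h7 : (m' : ℝ) - m < g := by
      have : ((m' : ℝ) - m) / g < 1 := by rw [sub_div]; exact h6
      rwa [div_lt_one hg0] at this
    have h8 : (n : ℝ) * ((m' : ℝ) - m) < (c₀ / (2 * η)) ^ ((1 : ℝ) / κ) := by
      rw [hg, lt_div_iff₀ hn0] at h7
      linarith
    linarith
  intro m hm m' hm' hfl
  have h1 := (Finset.mem_filter.1 (Finset.mem_coe.1 hm)).2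
  have h2 := (Finset.mem_filter.1 (Finset.mem_coe.1 hm')).2
  rcases lt_trichotomy m m' with h | h | h
  · exact absurd hfl (key m m' h1 h2 h)
  · exact h
  · exact absurd hfl.symm (key m' m h2 h1 h)

/-- Returns to a Bohr set are sparse. -/
lemma bad_count {γ c₀ : ℝ} {κ : ℕ} (hγ : Dio γ c₀ κ) (hc₀ : 0 < c₀) (hκ : 1 ≤ κ) (n X : ℕ) (hn : 1 ≤ n) (η : ℝ) (hη : 0 < η) :
    (((Icc 1 X).filter (fun m : ℕ => dn (((n * m : ℕ):ℝ) * γ) < η)).card : ℝ)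
      ≤ (n:ℝ) * X / (c₀ / (2 * η)) ^ ((1:ℝ) / κ) + 1 := by
  have hn0 : (0 : ℝ) < n := by exact_mod_cast hn
  have hD0 : 0 < (c₀ / (2 * η)) ^ ((1 : ℝ) / κ) := Real.rpow_pos_of_pos (by positivity) _
  obtain ⟨g, hg⟩ : ∃ g : ℝ, g = (c₀ / (2 * η)) ^ ((1 : ℝ) / κ) / n := ⟨_, rfl⟩
  have hg0 : 0 < g := by rw [hg]; positivity
  have hinj := floor_injOn hγ hc₀ hκ hη hn hg hg0 X
  have hc : ((Icc 1 X).filter (fun m : ℕ => dn (((n * m : ℕ) : ℝ) * γ) < η)).card ≤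
      (range (⌊(X : ℝ) / g⌋₊ + 1)).card := by
    refine Finset.card_le_card_of_injOn _ ?_ hinj
    intro m hm
    have hm1 := (Finset.mem_filter.1 (Finset.mem_coe.1 hm)).1
    have hmX := (Finset.mem_Icc.1 hm1).2
    refine Finset.mem_coe.2 (Finset.mem_range.2 (Nat.lt_succ_of_le (Nat.floor_le_floor ?_)))
    have : (m : ℝ) ≤ X := by exact_mod_cast hmX
    exact div_le_div_of_nonneg_right this hg0.le
  rw [Finset.card_range] at hc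
  have h1 : (⌊(X : ℝ) / g⌋₊ : ℝ) ≤ (X : ℝ) / g := Nat.floor_le (by positivity)
  have h2 : (X : ℝ) / g = (n : ℝ) * X / (c₀ / (2 * η)) ^ ((1 : ℝ) / κ) := by
    rw [hg]
    field_simp
  have h3 : (((Icc 1 X).filter (fun m : ℕ => dn (((n * m : ℕ) : ℝ) * γ) < η)).card : ℝ) ≤
      (⌊(X : ℝ) / g⌋₊ : ℝ) + 1 := by exact_mod_cast hc
  linarith

/-- The reciprocal sum over returns. -/
lemma bad_inv_sum {γ c₀ : ℝ} {κ : ℕ} (hγ : Dio γ c₀ κ) (hc₀ : 0 < c₀) (hκ : 1 ≤ κ) (n X : ℕ) (hn : 1 ≤ n)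
    (hX : 1 ≤ X) (η : ℝ) (hη : 0 < η) (hD : 1 ≤ (c₀ / (2 * η)) ^ ((1 : ℝ) / κ)) :
    ∑ m ∈ (Icc 1 X).filter (fun m : ℕ => dn (((n * m : ℕ) : ℝ) * γ) < η), (1 : ℝ) / m ≤
      (n : ℝ) / (c₀ / (2 * η)) ^ ((1 : ℝ) / κ) * (1 + Real.log ((X : ℝ) * n)) := by
  have hn0 : (0 : ℝ) < n := by exact_mod_cast hn
  obtain ⟨D, hDdef⟩ : ∃ D : ℝ, D = (c₀ / (2 * η)) ^ ((1 : ℝ) / κ) := ⟨_, rfl⟩
  rw [← hDdef] at hD ⊢
  have hD0 : 0 < D := by linarith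
  obtain ⟨g, hg⟩ : ∃ g : ℝ, g = D / n := ⟨_, rfl⟩
  have hg0 : 0 < g := by rw [hg]; positivity
  have hinj := floor_injOn hγ hc₀ hκ hη hn (g := g) (by rw [hg, hDdef]) hg0 X
  set A := (Icc 1 X).filter (fun m : ℕ => dn (((n * m : ℕ) : ℝ) * γ) < η) with hA
  obtain ⟨k, hk⟩ : ∃ k : ℕ, k = ⌊(X : ℝ) / g⌋₊ := ⟨_, rfl⟩
  -- the floor is at least one on `A`
  have hprop : ∀ m ∈ A, 1 ≤ ⌊(m : ℝ) / g⌋₊ ∧ ⌊(m : ℝ) / g⌋₊ ≤ k ∧
      (1 : ℝ) / m ≤ (1 / g) * ((1 : ℝ) / (⌊(m : ℝ) / g⌋₊ : ℝ)) := by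
    intro m hm
    obtain ⟨hm1, hm2⟩ := Finset.mem_filter.1 hm
    obtain ⟨hm3, hm4⟩ := Finset.mem_Icc.1 hm1
    have hm0 : (0 : ℝ) < m := by exact_mod_cast hm3
    have hN : 1 ≤ n * m := Nat.mul_pos hn hm3
    have h1 := lt_of_dn hγ hc₀ hκ hη hN (by linarith [hη, hm2] : dn (((n * m : ℕ) : ℝ) * γ) < 2 * η)
    rw [← hDdef] at h1
    have h2 : g < m := by
      rw [hg, div_lt_iff₀ hn0]
      push_cast at h1
      linarith
    have h3 : 1 ≤ ⌊(m : ℝ) / g⌋₊ := by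
      apply Nat.le_floor
      rw [Nat.cast_one, le_div_iff₀ hg0]
      linarith
    have h4 : (⌊(m : ℝ) / g⌋₊ : ℝ) ≤ (m : ℝ) / g := Nat.floor_le (by positivity)
    have h3' : (1 : ℝ) ≤ (⌊(m : ℝ) / g⌋₊ : ℝ) := by exact_mod_cast h3
    refine ⟨h3, ?_, ?_⟩
    · rw [hk]
      apply Nat.floor_le_floor
      have : (m : ℝ) ≤ X := by exact_mod_cast hm4
      exact div_le_div_of_nonneg_right this hg0.le
    · rw [one_div_mul_one_div]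
      apply one_div_le_one_div_of_le (by positivity)
      rw [le_div_iff₀ hg0] at h4
      linarith
  have h1 : ∑ m ∈ A, (1 : ℝ) / m ≤ ∑ m ∈ A, (1 / g) * ((1 : ℝ) / (⌊(m : ℝ) / g⌋₊ : ℝ)) :=
    Finset.sum_le_sum fun m hm => (hprop m hm).2.2
  rw [← Finset.mul_sum] at h1
  have h2 : ∑ m ∈ A, (1 : ℝ) / (⌊(m : ℝ) / g⌋₊ : ℝ) ≤ ∑ i ∈ Icc 1 k, (1 : ℝ) / i := by
    have h3 : ∑ m ∈ A, (1 : ℝ) / (⌊(m : ℝ) / g⌋₊ : ℝ) =
        ∑ i ∈ A.image (fun m : ℕ => ⌊(m : ℝ) / g⌋₊), (1 : ℝ) / i := by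
      rw [Finset.sum_image]
      exact hinj
    rw [h3]
    refine Finset.sum_le_sum_of_subset_of_nonneg ?_ (fun _ _ _ => by positivity)
    intro i hi
    obtain ⟨m, hm, rfl⟩ := Finset.mem_image.1 hi
    exact Finset.mem_Icc.2 ⟨(hprop m hm).1, (hprop m hm).2.1⟩
  have h3 : ∑ i ∈ Icc 1 k, (1 : ℝ) / i ≤ 1 + Real.log k := by
    have h := harmonic_le_one_add_log k
    rw [harmonic_eq_sum_Icc] at h
    push_cast at h
    simpa [one_div] using h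
  have hX0 : (1 : ℝ) ≤ (X : ℝ) := by exact_mod_cast hX
  have hn1 : (1 : ℝ) ≤ (n : ℝ) := by exact_mod_cast hn
  have hXn : (1 : ℝ) ≤ (X : ℝ) * n := by nlinarith
  have h4 : Real.log k ≤ Real.log ((X : ℝ) * n) := by
    rcases Nat.eq_zero_or_pos k with h0 | h0
    · rw [h0]
      simp only [Nat.cast_zero, Real.log_zero]
      exact Real.log_nonneg hXn
    · apply Real.log_le_log (by exact_mod_cast h0)
      have h5 : (k : ℝ) ≤ (X : ℝ) / g := by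
        rw [hk]
        exact Nat.floor_le (by positivity)
      have h6 : (X : ℝ) / g = (X : ℝ) * n / D := by
        rw [hg]
        field_simp
      rw [h6] at h5
      refine h5.trans ?_
      exact div_le_self (by positivity) hD
  have h5 : (0 : ℝ) ≤ 1 / g := by positivity
  calc ∑ m ∈ A, (1 : ℝ) / m ≤ (1 / g) * ∑ m ∈ A, (1 : ℝ) / (⌊(m : ℝ) / g⌋₊ : ℝ) := h1
    _ ≤ (1 / g) * (1 + Real.log ((X : ℝ) * n)) := by
        apply mul_le_mul_of_nonneg_left _ h5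
        linarith
    _ = (n : ℝ) / D * (1 + Real.log ((X : ℝ) * n)) := by
        rw [hg]
        congr 1
        field_simp

/-- Pairs with a given product. -/
lemma pairs_sum (P : ℕ → Prop) [DecidablePred P] (L0 D0 X : ℕ) (T : ℝ) (hT : 0 ≤ T) (hX : L0 * D0 ≤ X)
    (hτ : ∀ m ∈ Icc 1 X, ((m.divisors.card : ℕ) : ℝ) ≤ T) :
    ∑ j ∈ Ico 1 L0, ∑ d ∈ Icc 1 D0, (if P (j * d) then (1 : ℝ) / d else 0) ≤
      (L0 : ℝ) * T * ∑ m ∈ (Icc 1 X).filter P, (1 : ℝ) / m := by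
  classical
  set Pairs := ((Ico 1 L0) ×ˢ (Icc 1 D0)).filter (fun p : ℕ × ℕ => P (p.1 * p.2)) with hPairs
  have h1 : ∑ j ∈ Ico 1 L0, ∑ d ∈ Icc 1 D0, (if P (j * d) then (1 : ℝ) / d else 0) =
      ∑ p ∈ Pairs, (1 : ℝ) / p.2 := by
    rw [hPairs, Finset.sum_filter, Finset.sum_product]
  rw [h1]
  have hmem : ∀ p ∈ Pairs, 1 ≤ p.1 ∧ p.1 < L0 ∧ 1 ≤ p.2 ∧ p.2 ≤ D0 ∧ P (p.1 * p.2) := by
    intro p hp
    obtain ⟨h2, h3⟩ := Finset.mem_filter.1 hp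
    obtain ⟨h4, h5⟩ := Finset.mem_product.1 h2
    obtain ⟨h6, h7⟩ := Finset.mem_Ico.1 h4
    obtain ⟨h8, h9⟩ := Finset.mem_Icc.1 h5
    exact ⟨h6, h7, h8, h9, h3⟩
  have h2 : ∀ p ∈ Pairs, (1 : ℝ) / p.2 ≤ (L0 : ℝ) * ((1 : ℝ) / ((p.1 * p.2 : ℕ) : ℝ)) := by
    intro p hp
    obtain ⟨h3, h4, h5, _, _⟩ := hmem p hp
    have h30 : (0 : ℝ) < p.1 := by exact_mod_cast h3
    have h50 : (0 : ℝ) < p.2 := by exact_mod_cast h5
    have h40 : (p.1 : ℝ) ≤ L0 := by exact_mod_cast h4.le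
    push_cast
    rw [mul_one_div, div_le_div_iff₀ h50 (by positivity)]
    nlinarith
  have hmaps : ∀ p ∈ Pairs, p.1 * p.2 ∈ (Icc 1 X).filter P := by
    intro p hp
    obtain ⟨h3, h4, h5, h6, h7⟩ := hmem p hp
    refine Finset.mem_filter.2 ⟨Finset.mem_Icc.2 ⟨Nat.mul_pos h3 h5, ?_⟩, h7⟩
    exact (Nat.mul_le_mul h4.le h6).trans hX
  have h3 : ∑ p ∈ Pairs, (1 : ℝ) / ((p.1 * p.2 : ℕ) : ℝ) ≤
      T * ∑ m ∈ (Icc 1 X).filter P, (1 : ℝ) / m := by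
    rw [← Finset.sum_fiberwise_of_maps_to hmaps, Finset.mul_sum]
    refine Finset.sum_le_sum fun m hm => ?_
    have hm1 := (Finset.mem_filter.1 hm).1
    have hm2 := (Finset.mem_Icc.1 hm1).1
    have hfib : (Pairs.filter (fun p : ℕ × ℕ => p.1 * p.2 = m)).card ≤ m.divisors.card := by
      refine Finset.card_le_card_of_injOn (fun p => p.2) ?_ ?_
      · intro p hp
        have hp' := Finset.mem_filter.1 (Finset.mem_coe.1 hp)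
        refine Finset.mem_coe.2 (Nat.mem_divisors.2 ⟨⟨p.1, ?_⟩, by omega⟩)
        rw [← hp'.2, mul_comm]
      · intro p hp p' hp' hpp
        have h4 := Finset.mem_filter.1 (Finset.mem_coe.1 hp)
        have h5 := Finset.mem_filter.1 (Finset.mem_coe.1 hp')
        have h6 := (hmem p h4.1).2.2.1
        have hpp' : p.2 = p'.2 := hpp
        have h7 : p.1 * p.2 = p'.1 * p.2 := by rw [h4.2, hpp', h5.2]
        have h8 : p.1 = p'.1 := Nat.eq_of_mul_eq_mul_right h6 h7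
        exact Prod.ext h8 hpp'
    have h4 : ∑ p ∈ Pairs.filter (fun p : ℕ × ℕ => p.1 * p.2 = m), (1 : ℝ) / ((p.1 * p.2 : ℕ) : ℝ) =
        ((Pairs.filter (fun p : ℕ × ℕ => p.1 * p.2 = m)).card : ℝ) * ((1 : ℝ) / m) := by
      rw [← nsmul_eq_mul, ← Finset.sum_const]
      refine Finset.sum_congr rfl fun p hp => ?_
      rw [(Finset.mem_filter.1 hp).2]
    rw [h4]
    apply mul_le_mul_of_nonneg_right _ (by positivity)
    exact le_trans (by exact_mod_cast hfib) (hτ m hm1)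
  have hL : (0 : ℝ) ≤ L0 := Nat.cast_nonneg _
  calc ∑ p ∈ Pairs, (1 : ℝ) / p.2 ≤ ∑ p ∈ Pairs, (L0 : ℝ) * ((1 : ℝ) / ((p.1 * p.2 : ℕ) : ℝ)) :=
        Finset.sum_le_sum h2
    _ = (L0 : ℝ) * ∑ p ∈ Pairs, (1 : ℝ) / ((p.1 * p.2 : ℕ) : ℝ) := by rw [Finset.mul_sum]
    _ ≤ (L0 : ℝ) * (T * ∑ m ∈ (Icc 1 X).filter P, (1 : ℝ) / m) :=
        mul_le_mul_of_nonneg_left h3 hL
    _ = _ := by ring

lemma Yd_facts {M d : ℕ} (hM : 1 ≤ M) (hd : 1 ≤ d) (hdM : d ≤ M) :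
    (M : ℝ) / d ≤ (Yd M d : ℝ) ∧ Yd M d ≤ M ∧ d * Yd M d ≤ 2 * M ∧ M ≤ d * Yd M d := by
  obtain ⟨Y, hY⟩ : ∃ Y, Y = Yd M d := ⟨_, rfl⟩
  rw [← hY]
  have h1 := Nat.div_add_mod (M + d - 1) d
  have h2 := Nat.mod_lt (M + d - 1) hd
  have hY' : (M + d - 1) / d = Y := by rw [hY]; rfl
  rw [hY'] at h1
  obtain ⟨t, ht⟩ : ∃ t, t = d * Y := ⟨_, rfl⟩
  rw [← ht] at h1
  have h3 : M ≤ t := by omega
  have h4 : t ≤ 2 * M := by omega
  have hd0 : (0 : ℝ) < d := by exact_mod_cast hd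
  refine ⟨?_, ?_, by rw [← ht]; exact h4, by rw [← ht]; exact h3⟩
  · rw [div_le_iff₀ hd0]
    have : (M : ℝ) ≤ t := by exact_mod_cast h3
    rw [ht] at this
    push_cast at this
    linarith
  · by_contra hcon
    push Not at hcon
    have h5 : d * (M + 1) ≤ t := by
      rw [ht]
      exact Nat.mul_le_mul_left d hcon
    have h6 : d * M ≥ M := Nat.le_mul_of_pos_left M hd
    have h7 : d * (M + 1) = d * M + d := by ring
    omega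

/-- A pair that is good in the uniform sense satisfies the hypothesis of `ML_good`. -/
lemma MA_of_good {γ : ℝ} {M d j : ℕ} {c ν : ℝ} (hM : 1 ≤ M) (hd : 1 ≤ d) (hc0 : 0 < c) (hc1 : c ≤ 1)
    (hν : 0 < ν) (hdle : d ≤ ⌊(M : ℝ) ^ (1 - c)⌋₊)
    (hgood : ∀ n' ∈ Icc 1 ⌊(M : ℝ) ^ ν⌋₊, (M : ℝ) ^ (-(c / 4)) ≤ dn (((n' * (j * d) : ℕ) : ℝ) * γ)) :
    MA (((j * d : ℕ) : ℝ) * γ) ⌊((Yd M d : ℕ) : ℝ) ^ ν⌋₊ (((Yd M d : ℕ) : ℝ) ^ (-(1 / 4 : ℝ))) := by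
  have hM0 : (0 : ℝ) < M := by exact_mod_cast hM
  have hM1' : (1 : ℝ) ≤ M := by exact_mod_cast hM
  have hd0 : (0 : ℝ) < d := by exact_mod_cast hd
  have hdr : (d : ℝ) ≤ (M : ℝ) ^ (1 - c) := (Nat.le_floor_iff (by positivity)).1 hdle
  have hdM : d ≤ M := by
    have h1 : (M : ℝ) ^ (1 - c) ≤ (M : ℝ) ^ (1 : ℝ) :=
      Real.rpow_le_rpow_of_exponent_le hM1' (by linarith)
    rw [Real.rpow_one] at h1
    exact_mod_cast hdr.trans h1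
  obtain ⟨hY1, hY2, _, _⟩ := Yd_facts hM hd hdM
  have hMc : (M : ℝ) ^ c ≤ (M : ℝ) / d := by
    rw [le_div_iff₀ hd0]
    calc (M : ℝ) ^ c * d ≤ (M : ℝ) ^ c * (M : ℝ) ^ (1 - c) :=
          mul_le_mul_of_nonneg_left hdr (by positivity)
      _ = M := by
          rw [← Real.rpow_add hM0]
          simp
  have hYlow : (M : ℝ) ^ c ≤ (Yd M d : ℝ) := hMc.trans hY1
  have hMc0 : 0 < (M : ℝ) ^ c := by positivity
  intro n' h1 h2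
  have hY0 : (0 : ℝ) ≤ (Yd M d : ℝ) := Nat.cast_nonneg _
  have h3 : n' ≤ ⌊(M : ℝ) ^ ν⌋₊ := by
    refine h2.trans (Nat.floor_le_floor ?_)
    exact Real.rpow_le_rpow hY0 (by exact_mod_cast hY2) hν.le
  have h4 := hgood n' (Finset.mem_Icc.2 ⟨h1, h3⟩)
  have h5 : ((Yd M d : ℕ) : ℝ) ^ (-(1 / 4 : ℝ)) ≤ (M : ℝ) ^ (-(c / 4)) := by
    have h6 : (((M : ℝ) ^ c) ^ (-(1 / 4 : ℝ))) = (M : ℝ) ^ (-(c / 4)) := by
      rw [← Real.rpow_mul hM0.le]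
      congr 1
      ring
    rw [← h6]
    exact Real.rpow_le_rpow_of_nonpos hMc0 hYlow (by norm_num)
  have h7 : (((n' * (j * d) : ℕ) : ℝ) * γ) = (n' : ℝ) * (((j * d : ℕ) : ℝ) * γ) := by
    push_cast
    ring
  rw [h7] at h4
  exact h5.trans h4

/-- The trivial bound for one pair. -/
lemma bad_term {n : ℕ} {F : Finset ℕ} (hn : 1 ≤ n) (hF : ∀ q ∈ F, 1 ≤ q) (hK1 : 1 ≤ F.card)
    (hK2 : (2 : ℝ) ^ n ≤ F.card) (hK : (F.card : ℝ) ≤ 2 * 2 ^ n * GG n) {M d : ℕ} (hM : 1 ≤ M)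
    (hMN : M ≤ 2 ^ n) (hd : 1 ≤ d) (hdM : d ≤ M) (θ : ℝ) :
    (BBc F (Nn M d) (Nn M d) θ).re ≤ 4 * ((F.card : ℝ) * GG n * M) * ((1 : ℝ) / d) := by
  obtain ⟨hY1, hY2, hY3, hY4⟩ := Yd_facts hM hd hdM
  have hd0 : (0 : ℝ) < d := by exact_mod_cast hd
  have hA : ∀ x ∈ Nn M d, 1 ≤ x ∧ x ≤ 2 * Yd M d := by
    intro x hx
    obtain ⟨_, h2, h3⟩ := Finset.mem_filter.1 hx
    have hx1 : 1 ≤ x := by
      rcases Nat.eq_zero_or_pos x with h | h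
      · rw [h] at h2
        omega
      · exact h
    refine ⟨hx1, ?_⟩
    have h4 : d * x < d * (2 * Yd M d) := by
      calc d * x < 2 * M := h3
        _ ≤ 2 * (d * Yd M d) := by omega
        _ = d * (2 * Yd M d) := by ring
    exact (Nat.lt_of_mul_lt_mul_left h4).le
  have hcard : 2 ^ n ≤ F.card := by exact_mod_cast hK2
  have hY : 2 * Yd M d ≤ F.card ^ 2 := by
    have h1 : 2 * 2 ^ n ≤ 2 ^ n * 2 ^ n := by
      apply Nat.mul_le_mul_right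
      calc 2 = 2 ^ 1 := rfl
        _ ≤ 2 ^ n := Nat.pow_le_pow_right (by norm_num) hn
    have h2 : 2 ^ n * 2 ^ n ≤ F.card ^ 2 := by
      rw [pow_two]
      exact Nat.mul_le_mul hcard hcard
    omega
  have h := BB_trivial n F (Nn M d) θ (Yd M d) hF hK1 hK hA hY
  refine h.trans ?_
  have hK0 : (0 : ℝ) ≤ (F.card : ℝ) * GG n := by
    unfold GG
    positivity
  have hY5 : (Yd M d : ℝ) * d ≤ 2 * M := by
    have : ((d * Yd M d : ℕ) : ℝ) ≤ ((2 * M : ℕ) : ℝ) := by exact_mod_cast hY3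
    push_cast at this
    linarith
  have h6 : 2 * (Yd M d : ℝ) ≤ 4 * (M : ℝ) * ((1 : ℝ) / d) := by
    rw [mul_one_div, le_div_iff₀ hd0]
    linarith
  calc 2 * (Yd M d : ℝ) * F.card * GG n = 2 * (Yd M d : ℝ) * ((F.card : ℝ) * GG n) := by ring
    _ ≤ (4 * (M : ℝ) * ((1 : ℝ) / d)) * ((F.card : ℝ) * GG n) :=
        mul_le_mul_of_nonneg_right h6 hK0
    _ = _ := by ring

/-- All the pairs, with the numeric facts as hypotheses. -/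
lemma ml_core_bad {γ c₀ : ℝ} {κ : ℕ} (hγ : Dio γ c₀ κ) (hc₀ : 0 < c₀) (hκ : 1 ≤ κ) {n : ℕ}
    {M L0 N0 D0 : ℕ} (hM1 : 1 ≤ M) (hMN : M ≤ 2 ^ n) (hL1 : 1 ≤ L0) (hLN : L0 ≤ 2 ^ n)
    (hD0 : D0 ≤ M) (hN0 : N0 ≤ M) {η₀ ν Cτ δ : ℝ} (hη₀ : 0 < η₀) (hν0 : 0 < ν)
    (hN0r : (N0 : ℝ) ≤ (M : ℝ) ^ ν) (hCτ : 0 < Cτ) (hδ : 0 < δ)
    (hτ : ∀ m : ℕ, 1 ≤ m → ((m.divisors.card : ℕ) : ℝ) ≤ Cτ * (m : ℝ) ^ δ)
    (hD1 : 1 ≤ (c₀ / (2 * η₀)) ^ ((1 : ℝ) / κ)) :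
    ∑ j ∈ Ico 1 L0, ∑ d ∈ Icc 1 D0,
      (if (∃ n' ∈ Icc 1 N0, dn (((n' * (j * d) : ℕ) : ℝ) * γ) < η₀) then (1 : ℝ) / d else 0) ≤
      (L0 : ℝ) * (Cτ * (((2 : ℝ) ^ n) ^ 2) ^ δ) *
        ((M : ℝ) ^ (2 * ν) / (c₀ / (2 * η₀)) ^ ((1 : ℝ) / κ) * (1 + 3 * (n : ℝ))) := by
  obtain ⟨D, hDdef⟩ : ∃ D : ℝ, D = (c₀ / (2 * η₀)) ^ ((1 : ℝ) / κ) := ⟨_, rfl⟩
  rw [← hDdef] at hD1 ⊢
  have hD0' : 0 < D := by linarith
  obtain ⟨X, hXdef⟩ : ∃ X : ℕ, X = L0 * M := ⟨_, rfl⟩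
  have hX1 : 1 ≤ X := by rw [hXdef]; exact Nat.mul_pos hL1 hM1
  have hXle : X ≤ (2 ^ n) ^ 2 := by
    rw [hXdef, pow_two]
    exact Nat.mul_le_mul hLN hMN
  obtain ⟨T, hT⟩ : ∃ T : ℝ, T = Cτ * (((2 : ℝ) ^ n) ^ 2) ^ δ := ⟨_, rfl⟩
  have hT0 : 0 ≤ T := by rw [hT]; positivity
  have hτ' : ∀ m ∈ Icc 1 X, ((m.divisors.card : ℕ) : ℝ) ≤ T := by
    intro m hm
    obtain ⟨h1, h2⟩ := Finset.mem_Icc.1 hm
    refine (hτ m h1).trans ?_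
    rw [hT]
    apply mul_le_mul_of_nonneg_left _ hCτ.le
    apply Real.rpow_le_rpow (Nat.cast_nonneg _) _ hδ.le
    have : m ≤ (2 ^ n) ^ 2 := h2.trans hXle
    exact_mod_cast this
  let hdec : DecidablePred (fun m : ℕ => ∃ n' ∈ Icc 1 N0, dn (((n' * m : ℕ) : ℝ) * γ) < η₀) :=
    fun m => inferInstance
  have h1 := pairs_sum (fun m => ∃ n' ∈ Icc 1 N0, dn (((n' * m : ℕ) : ℝ) * γ) < η₀) L0 D0 X T hT0
    (by rw [hXdef]; exact Nat.mul_le_mul_left L0 hD0) hτ'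
  rw [← hT]
  refine h1.trans ?_
  apply mul_le_mul_of_nonneg_left _ (by positivity)
  -- the sum over returns
  have h2 : ∑ m ∈ (Icc 1 X).filter (fun m => ∃ n' ∈ Icc 1 N0, dn (((n' * m : ℕ) : ℝ) * γ) < η₀),
      (1 : ℝ) / m ≤ ∑ n' ∈ Icc 1 N0,
        ∑ m ∈ (Icc 1 X).filter (fun m : ℕ => dn (((n' * m : ℕ) : ℝ) * γ) < η₀), (1 : ℝ) / m := by
    simp only [Finset.sum_filter]
    rw [Finset.sum_comm]
    refine Finset.sum_le_sum fun m _ => ?_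
    by_cases h : ∃ n' ∈ Icc 1 N0, dn (((n' * m : ℕ) : ℝ) * γ) < η₀
    · rw [if_pos h]
      obtain ⟨n', hn', hlt⟩ := h
      have h3 : (if dn (((n' * m : ℕ) : ℝ) * γ) < η₀ then (1 : ℝ) / m else 0) = (1 : ℝ) / m := if_pos hlt
      exact h3.symm.le.trans (Finset.single_le_sum (f := fun n' : ℕ =>
        if dn (((n' * m : ℕ) : ℝ) * γ) < η₀ then (1 : ℝ) / m else 0)
        (fun _ _ => by positivity) hn')
    · rw [if_neg h]
      exact Finset.sum_nonneg fun _ _ => by positivity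
  refine h2.trans ?_
  have h3 : ∀ n' ∈ Icc 1 N0,
      ∑ m ∈ (Icc 1 X).filter (fun m : ℕ => dn (((n' * m : ℕ) : ℝ) * γ) < η₀), (1 : ℝ) / m ≤
        (N0 : ℝ) / D * (1 + 3 * (n : ℝ)) := by
    intro n' hn'
    obtain ⟨h4, h5⟩ := Finset.mem_Icc.1 hn'
    have h6 := bad_inv_sum hγ hc₀ hκ n' X h4 hX1 η₀ hη₀ (by rw [← hDdef]; exact hD1)
    rw [← hDdef] at h6
    refine h6.trans ?_
    have h7 : (0 : ℝ) < (n' : ℝ) := by exact_mod_cast h4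
    have h8 : ((X : ℝ) * n') ≤ (2 : ℝ) ^ (3 * n) := by
      have h9 : X * n' ≤ 2 ^ (3 * n) := by
        calc X * n' ≤ (2 ^ n) ^ 2 * 2 ^ n := Nat.mul_le_mul hXle ((h5.trans hN0).trans hMN)
          _ = 2 ^ (3 * n) := by ring
      exact_mod_cast h9
    have hX0 : (0 : ℝ) < X := by exact_mod_cast hX1
    have h10 : Real.log ((X : ℝ) * n') ≤ 3 * (n : ℝ) := by
      have h11 := Real.log_le_log (by positivity) h8
      rw [Real.log_pow] at h11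
      have h12 : Real.log 2 ≤ 1 := by
        have := Real.log_two_lt_d9
        linarith
      push_cast at h11
      have h13 : (0 : ℝ) ≤ 3 * (n : ℝ) := by positivity
      nlinarith
    have h14 : 0 ≤ 1 + Real.log ((X : ℝ) * n') := by
      have : 0 ≤ Real.log ((X : ℝ) * n') := by
        apply Real.log_nonneg
        have h15 : (1 : ℝ) ≤ X := by exact_mod_cast hX1
        have h16 : (1 : ℝ) ≤ n' := by exact_mod_cast h4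
        nlinarith
      linarith
    have h15 : (n' : ℝ) ≤ N0 := by exact_mod_cast h5
    apply mul_le_mul (div_le_div_of_nonneg_right h15 hD0'.le) (by linarith) h14 (by positivity)
  refine (Finset.sum_le_sum h3).trans ?_
  rw [Finset.sum_const, Nat.card_Icc, nsmul_eq_mul]
  simp only [Nat.add_sub_cancel]
  have hn3 : (0 : ℝ) ≤ 1 + 3 * (n : ℝ) := by positivity
  have hN2 : (N0 : ℝ) * N0 ≤ (M : ℝ) ^ (2 * ν) := by
    have h16 : (M : ℝ) ^ (2 * ν) = (M : ℝ) ^ ν * (M : ℝ) ^ ν := by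
      rw [← Real.rpow_add (by exact_mod_cast hM1)]
      congr 1
      ring
    rw [h16]
    exact mul_le_mul hN0r hN0r (Nat.cast_nonneg _) (by positivity)
  calc (N0 : ℝ) * ((N0 : ℝ) / D * (1 + 3 * (n : ℝ))) = ((N0 : ℝ) * N0) / D * (1 + 3 * (n : ℝ)) := by
        ring
    _ ≤ (M : ℝ) ^ (2 * ν) / D * (1 + 3 * (n : ℝ)) := by
        apply mul_le_mul_of_nonneg_right _ hn3
        exact div_le_div_of_nonneg_right hN2 hD0'.le

/-- The sum of `M/d + 1`. -/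
lemma sum_good_le {M D0 n : ℕ} (hM1 : 1 ≤ M) (hMN : M ≤ 2 ^ n) (hD0 : D0 ≤ M) :
    ∑ d ∈ Icc 1 D0, ((M : ℝ) / d + 1) ≤ 2 * (M : ℝ) * (1 + (n : ℝ)) := by
  have hM0 : (0 : ℝ) < M := by exact_mod_cast hM1
  have h1 : ∀ d ∈ Icc 1 D0, ((M : ℝ) / d + 1) ≤ 2 * (M : ℝ) * ((1 : ℝ) / d) := by
    intro d hd
    obtain ⟨h2, h3⟩ := Finset.mem_Icc.1 hd
    have h4 : (0 : ℝ) < d := by exact_mod_cast h2
    have h5 : (d : ℝ) ≤ M := by exact_mod_cast h3.trans hD0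
    rw [mul_one_div, div_add_one h4.ne', div_le_div_iff_of_pos_right h4]
    linarith
  refine (Finset.sum_le_sum h1).trans ?_
  rw [← Finset.mul_sum]
  apply mul_le_mul_of_nonneg_left _ (by positivity)
  have h := harmonic_le_one_add_log D0
  rw [harmonic_eq_sum_Icc] at h
  push_cast at h
  have h6 : ∑ i ∈ Icc 1 D0, (1 : ℝ) / i ≤ 1 + Real.log D0 := by
    simpa [one_div] using h
  refine h6.trans ?_
  have h7 : Real.log D0 ≤ (n : ℝ) := by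
    rcases Nat.eq_zero_or_pos D0 with h0 | h0
    · rw [h0]
      simp
    · have h8 : (D0 : ℝ) ≤ (2 : ℝ) ^ n := by exact_mod_cast hD0.trans hMN
      have h9 := Real.log_le_log (by exact_mod_cast h0) h8
      rw [Real.log_pow] at h9
      have h10 : Real.log 2 ≤ 1 := by
        have := Real.log_two_lt_d9
        linarith
      have hn0 : (0 : ℝ) ≤ n := Nat.cast_nonneg _
      nlinarith
  linarith

/-- The pointwise split, summed. -/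
lemma ml_core {γ c₀ : ℝ} {κ : ℕ} (hγ : Dio γ c₀ κ) (hc₀ : 0 < c₀) (hκ : 1 ≤ κ) {n : ℕ} (hn : 1 ≤ n)
    {F : Finset ℕ} (hF : ∀ q ∈ F, 1 ≤ q) (hK1 : 1 ≤ F.card) (hK2 : (2 : ℝ) ^ n ≤ F.card)
    (hK : (F.card : ℝ) ≤ 2 * 2 ^ n * GG n) {M L0 : ℕ} (hM1 : 1 ≤ M) (hMN : M ≤ 2 ^ n) (hL1 : 1 ≤ L0)
    (hLN : L0 ≤ 2 ^ n) {c ν E Cτ δ : ℝ} (hc0 : 0 < c) (hc1 : c ≤ 1) (hν0 : 0 < ν) (hν1 : ν ≤ 1)
    (hE : 0 ≤ E) (hCτ : 0 < Cτ) (hδ : 0 < δ)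
    (hτ : ∀ m : ℕ, 1 ≤ m → ((m.divisors.card : ℕ) : ℝ) ≤ Cτ * (m : ℝ) ^ δ)
    (hgood : ∀ d j : ℕ, 1 ≤ d → d ≤ ⌊(M : ℝ) ^ (1 - c)⌋₊ →
      MA (((j * d : ℕ) : ℝ) * γ) ⌊((Yd M d : ℕ) : ℝ) ^ ν⌋₊ (((Yd M d : ℕ) : ℝ) ^ (-(1 / 4 : ℝ))) →
      (BBc F (Nn M d) (Nn M d) (((j * d : ℕ) : ℝ) * γ)).re ≤ (F.card : ℝ) * ((M : ℝ) / d + 1) * E)
    (hD1 : 1 ≤ (c₀ / (2 * (M : ℝ) ^ (-(c / 4)))) ^ ((1 : ℝ) / κ))
    (hnum : 4 * GG n * (Cτ * (((2 : ℝ) ^ n) ^ 2) ^ δ) *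
      ((M : ℝ) ^ (2 * ν) / (c₀ / (2 * (M : ℝ) ^ (-(c / 4)))) ^ ((1 : ℝ) / κ) * (1 + 3 * (n : ℝ))) ≤ 1 / 2) :
    ∑ j ∈ Ico 1 L0, ∑ d ∈ Icc 1 ⌊(M : ℝ) ^ (1 - c)⌋₊,
        (BBc F (Nn M d) (Nn M d) (((j * d : ℕ) : ℝ) * γ)).re
      ≤ (L0 : ℝ) * F.card * M * (2 * (1 + (n : ℝ)) * E + 1 / 2) := by
  have hM0 : (0 : ℝ) < M := by exact_mod_cast hM1
  have hM1' : (1 : ℝ) ≤ M := by exact_mod_cast hM1
  obtain ⟨D0, hD0def⟩ : ∃ D0 : ℕ, D0 = ⌊(M : ℝ) ^ (1 - c)⌋₊ := ⟨_, rfl⟩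
  obtain ⟨N0, hN0def⟩ : ∃ N0 : ℕ, N0 = ⌊(M : ℝ) ^ ν⌋₊ := ⟨_, rfl⟩
  obtain ⟨η₀, hη₀def⟩ : ∃ η₀ : ℝ, η₀ = (M : ℝ) ^ (-(c / 4)) := ⟨_, rfl⟩
  have hη₀ : 0 < η₀ := by rw [hη₀def]; positivity
  rw [← hη₀def] at hD1 hnum
  rw [← hD0def]
  have hpow_le : ∀ x : ℝ, x ≤ 1 → (M : ℝ) ^ x ≤ M := by
    intro x hx
    have := Real.rpow_le_rpow_of_exponent_le hM1' hx
    rwa [Real.rpow_one] at this
  have hD0M : D0 ≤ M := by
    rw [hD0def]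
    have h1 : (⌊(M : ℝ) ^ (1 - c)⌋₊ : ℝ) ≤ (M : ℝ) ^ (1 - c) := Nat.floor_le (by positivity)
    have h2 := hpow_le (1 - c) (by linarith)
    exact_mod_cast h1.trans h2
  have hN0r : (N0 : ℝ) ≤ (M : ℝ) ^ ν := by
    rw [hN0def]
    exact Nat.floor_le (by positivity)
  have hN0M : N0 ≤ M := by exact_mod_cast hN0r.trans (hpow_le ν hν1)
  have hGG : 0 ≤ GG n := by
    unfold GG
    positivity
  obtain ⟨Bd, hBd⟩ : ∃ Bd : ℝ, Bd = 4 * ((F.card : ℝ) * GG n * M) := ⟨_, rfl⟩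
  have hBd0 : 0 ≤ Bd := by rw [hBd]; positivity
  -- the pointwise bound
  have hterm : ∀ j ∈ Ico 1 L0, ∀ d ∈ Icc 1 D0,
      (BBc F (Nn M d) (Nn M d) (((j * d : ℕ) : ℝ) * γ)).re ≤
        (F.card : ℝ) * ((M : ℝ) / d + 1) * E + Bd *
          (if (∃ n' ∈ Icc 1 N0, dn (((n' * (j * d) : ℕ) : ℝ) * γ) < η₀) then (1 : ℝ) / d else 0) := by
    intro j _ d hd
    obtain ⟨hd1, hd2⟩ := Finset.mem_Icc.1 hd
    have hdM := hd2.trans hD0M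
    have hA0 : 0 ≤ (F.card : ℝ) * ((M : ℝ) / d + 1) * E := by positivity
    by_cases hbad : ∃ n' ∈ Icc 1 N0, dn (((n' * (j * d) : ℕ) : ℝ) * γ) < η₀
    · rw [if_pos hbad]
      have := bad_term hn hF hK1 hK2 hK hM1 hMN hd1 hdM (((j * d : ℕ) : ℝ) * γ)
      rw [← hBd] at this
      linarith
    · rw [if_neg hbad, mul_zero, add_zero]
      push Not at hbad
      apply hgood d j hd1 (by rw [← hD0def]; exact hd2)
      apply MA_of_good hM1 hd1 hc0 hc1 hν0 (by rw [← hD0def]; exact hd2)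
      intro n' hn'
      rw [← hN0def] at hn'
      rw [← hη₀def]
      exact hbad n' hn'
  have hstep1 := Finset.sum_le_sum fun j hj => Finset.sum_le_sum (hterm j hj)
  refine hstep1.trans ?_
  have hsplit : ∑ j ∈ Ico 1 L0, ∑ d ∈ Icc 1 D0, ((F.card : ℝ) * ((M : ℝ) / d + 1) * E + Bd *
          (if (∃ n' ∈ Icc 1 N0, dn (((n' * (j * d) : ℕ) : ℝ) * γ) < η₀) then (1 : ℝ) / d else 0)) =
      ∑ j ∈ Ico 1 L0, ∑ d ∈ Icc 1 D0, (F.card : ℝ) * ((M : ℝ) / d + 1) * E +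
        Bd * ∑ j ∈ Ico 1 L0, ∑ d ∈ Icc 1 D0,
          (if (∃ n' ∈ Icc 1 N0, dn (((n' * (j * d) : ℕ) : ℝ) * γ) < η₀) then (1 : ℝ) / d else 0) := by
    rw [Finset.mul_sum, ← Finset.sum_add_distrib]
    refine Finset.sum_congr rfl fun j _ => ?_
    rw [Finset.mul_sum, ← Finset.sum_add_distrib]
  rw [hsplit]
  -- the good part
  have hgoodsum : ∑ j ∈ Ico 1 L0, ∑ d ∈ Icc 1 D0, (F.card : ℝ) * ((M : ℝ) / d + 1) * E ≤
      (L0 : ℝ) * F.card * M * (2 * (1 + (n : ℝ)) * E) := by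
    have h1 : ∀ j ∈ Ico 1 L0, ∑ d ∈ Icc 1 D0, (F.card : ℝ) * ((M : ℝ) / d + 1) * E ≤
        (F.card : ℝ) * M * (2 * (1 + (n : ℝ)) * E) := by
      intro j _
      have h2 := sum_good_le (n := n) hM1 hMN hD0M
      calc ∑ d ∈ Icc 1 D0, (F.card : ℝ) * ((M : ℝ) / d + 1) * E
          = (F.card : ℝ) * E * ∑ d ∈ Icc 1 D0, ((M : ℝ) / d + 1) := by
            rw [Finset.mul_sum]
            exact Finset.sum_congr rfl fun d _ => by ring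
        _ ≤ (F.card : ℝ) * E * (2 * (M : ℝ) * (1 + (n : ℝ))) :=
            mul_le_mul_of_nonneg_left h2 (by positivity)
        _ = _ := by ring
    refine (Finset.sum_le_sum h1).trans ?_
    rw [Finset.sum_const, Nat.card_Ico, nsmul_eq_mul]
    have h3 : ((L0 - 1 : ℕ) : ℝ) ≤ L0 := by exact_mod_cast Nat.sub_le _ _
    calc ((L0 - 1 : ℕ) : ℝ) * ((F.card : ℝ) * M * (2 * (1 + (n : ℝ)) * E))
        ≤ (L0 : ℝ) * ((F.card : ℝ) * M * (2 * (1 + (n : ℝ)) * E)) :=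
          mul_le_mul_of_nonneg_right h3 (by positivity)
      _ = _ := by ring
  -- the bad part
  have hbad := ml_core_bad (M := M) (L0 := L0) (N0 := N0) (D0 := D0) hγ hc₀ hκ hM1 hMN hL1 hLN hD0M hN0M
    hη₀ hν0 hN0r hCτ hδ hτ hD1
  have hbadsum : Bd * ∑ j ∈ Ico 1 L0, ∑ d ∈ Icc 1 D0,
      (if (∃ n' ∈ Icc 1 N0, dn (((n' * (j * d) : ℕ) : ℝ) * γ) < η₀) then (1 : ℝ) / d else 0) ≤
      (L0 : ℝ) * F.card * M * (1 / 2) := by
    refine (mul_le_mul_of_nonneg_left hbad hBd0).trans ?_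
    have h2 : 0 ≤ (L0 : ℝ) * F.card * M := by positivity
    calc Bd * ((L0 : ℝ) * (Cτ * (((2 : ℝ) ^ n) ^ 2) ^ δ) *
          ((M : ℝ) ^ (2 * ν) / (c₀ / (2 * η₀)) ^ ((1 : ℝ) / κ) * (1 + 3 * (n : ℝ))))
        = ((L0 : ℝ) * F.card * M) * (4 * GG n * (Cτ * (((2 : ℝ) ^ n) ^ 2) ^ δ) *
          ((M : ℝ) ^ (2 * ν) / (c₀ / (2 * η₀)) ^ ((1 : ℝ) / κ) * (1 + 3 * (n : ℝ)))) := by
          rw [hBd]
          ring
      _ ≤ _ := mul_le_mul_of_nonneg_left hnum h2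
  calc ∑ j ∈ Ico 1 L0, ∑ d ∈ Icc 1 D0, (F.card : ℝ) * ((M : ℝ) / d + 1) * E +
        Bd * ∑ j ∈ Ico 1 L0, ∑ d ∈ Icc 1 D0,
          (if (∃ n' ∈ Icc 1 N0, dn (((n' * (j * d) : ℕ) : ℝ) * γ) < η₀) then (1 : ℝ) / d else 0)
      ≤ (L0 : ℝ) * F.card * M * (2 * (1 + (n : ℝ)) * E) + (L0 : ℝ) * F.card * M * (1 / 2) :=
        add_le_add hgoodsum hbadsum
    _ = _ := by ring

/-- `log x ≤ r x` eventually. -/
lemma ev_log_le (r : ℝ) (hr : 0 < r) : ∀ᶠ x : ℝ in Filter.atTop, Real.log x ≤ r * x := by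
  filter_upwards [Real.isLittleO_log_id_atTop.def hr, Filter.eventually_gt_atTop 0] with x hx hx0
  have h1 : Real.log x ≤ ‖Real.log x‖ := le_abs_self _
  have h2 : ‖id x‖ = x := by
    simp [abs_of_pos hx0]
  rw [h2] at hx
  linarith

/-- The slowly growing terms. -/
lemma ev_small (a A : ℝ) (ha : 0 < a) :
    ∀ᶠ n : ℕ in Filter.atTop, A + Real.log (1 + 3 * (n : ℝ)) + 100 * AA n ≤ a * n := by
  have t0 : Filter.Tendsto (fun n : ℕ => (n : ℝ)) Filter.atTop Filter.atTop :=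
    tendsto_natCast_atTop_atTop
  have t1 : Filter.Tendsto (fun n : ℕ => 1 + 3 * (n : ℝ)) Filter.atTop Filter.atTop :=
    Filter.tendsto_atTop_add_const_left _ _ (t0.const_mul_atTop (by norm_num))
  have t2 : Filter.Tendsto (fun n : ℕ => (n : ℝ) + 2) Filter.atTop Filter.atTop :=
    Filter.tendsto_atTop_add_const_right _ _ t0
  have e1 := t1.eventually (ev_log_le (a / 12) (by positivity))
  have e2 := t2.eventually (ev_log_le ((a / 300) ^ 2 / 6) (by positivity))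
  have e3 := (t0.const_mul_atTop (show 0 < a / 3 by positivity)).eventually_ge_atTop A
  filter_upwards [e1, e2, e3, Filter.eventually_ge_atTop 1] with n h1 h2 h3 hn
  have hn1 : (1 : ℝ) ≤ n := by exact_mod_cast hn
  have h4 : Real.log (1 + 3 * (n : ℝ)) ≤ a / 3 * n := by
    refine h1.trans ?_
    nlinarith
  have h5 : AA n ≤ a / 300 * n := by
    unfold AA
    rw [Real.sqrt_le_iff]
    refine ⟨by positivity, ?_⟩
    have h6 : Real.log ((n : ℝ) + 2) ≤ (a / 300) ^ 2 / 6 * (3 * n) := by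
      refine h2.trans ?_
      apply mul_le_mul_of_nonneg_left (by linarith) (by positivity)
    have h7 : ((n : ℝ) + 1) * Real.log ((n : ℝ) + 2) ≤ (2 * n) * ((a / 300) ^ 2 / 6 * (3 * n)) := by
      have h8 : 0 ≤ Real.log ((n : ℝ) + 2) := Real.log_nonneg (by linarith)
      exact mul_le_mul (by linarith) h6 h8 (by positivity)
    calc ((n : ℝ) + 1) * Real.log ((n : ℝ) + 2) ≤ (2 * n) * ((a / 300) ^ 2 / 6 * (3 * n)) := h7
      _ = (a / 300 * n) ^ 2 := by ring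
  have h9 : 100 * AA n ≤ a / 3 * n := by
    have : 100 * (a / 300 * (n : ℝ)) = a / 3 * n := by ring
    linarith
  have h10 : a / 3 * (n : ℝ) + a / 3 * n + a / 3 * n = a * n := by ring
  linarith

/-- The good sum against the exponential. -/
lemma ev_good (ε C : ℝ) (hε : 0 < ε) :
    ∀ᶠ n : ℕ in Filter.atTop, 4 * ((n : ℝ) + 1) * Real.exp (C * ((n : ℝ) + 1) ^ (ε / 4)) ≤
      Real.exp (((n : ℝ) + 1) ^ ε / 2) := by
  have hreal : ∀ᶠ x : ℝ in Filter.atTop, Real.log (4 * x) + C * x ^ (ε / 4) ≤ x ^ ε / 2 := by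
    have e1 := (isLittleO_log_rpow_atTop hε).def (show (0 : ℝ) < 1 / 8 by norm_num)
    have e2 := (tendsto_rpow_atTop hε).eventually_ge_atTop (8 * Real.log 4)
    have e3 := (tendsto_rpow_atTop (show 0 < 3 * ε / 4 by positivity)).eventually_ge_atTop (4 * C)
    filter_upwards [e1, e2, e3, Filter.eventually_gt_atTop 0] with x h1 h2 h3 hx
    have hp : 0 < x ^ ε := by positivity
    have h4 : Real.log x ≤ 1 / 8 * x ^ ε := by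
      have h5 : Real.log x ≤ ‖Real.log x‖ := le_abs_self _
      have h6 : ‖x ^ ε‖ = x ^ ε := by
        rw [Real.norm_eq_abs, abs_of_pos hp]
      rw [h6] at h1
      linarith
    have h7 : Real.log (4 * x) = Real.log 4 + Real.log x :=
      Real.log_mul (by norm_num) hx.ne'
    have h8 : x ^ ε = x ^ (ε / 4) * x ^ (3 * ε / 4) := by
      rw [← Real.rpow_add hx]
      congr 1
      ring
    have h9 : 0 < x ^ (ε / 4) := by positivity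
    have h10 : C * x ^ (ε / 4) ≤ 1 / 4 * x ^ ε := by
      rw [h8]
      nlinarith
    rw [h7]
    linarith
  have t : Filter.Tendsto (fun n : ℕ => (n : ℝ) + 1) Filter.atTop Filter.atTop :=
    Filter.tendsto_atTop_add_const_right _ _ tendsto_natCast_atTop_atTop
  filter_upwards [t.eventually hreal] with n hn
  have hx : (0 : ℝ) < (n : ℝ) + 1 := by positivity
  have h1 : 4 * ((n : ℝ) + 1) = Real.exp (Real.log (4 * ((n : ℝ) + 1))) :=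
    (Real.exp_log (by positivity)).symm
  rw [h1, ← Real.exp_add]
  exact Real.exp_le_exp.2 hn

/-- The numeric heart. -/
lemma ev_num (κ : ℕ) (hκ : 1 ≤ κ) (c₀ Cτ : ℝ) (hc₀ : 0 < c₀) (hCτ : 0 < Cτ) :
    ∀ᶠ n : ℕ in Filter.atTop, ∀ M : ℝ, ((2 : ℝ) ^ n) ^ ((1 : ℝ) / (4 * ((κ : ℝ) + 1))) ≤ M → M ≤ (2 : ℝ) ^ n →
      1 ≤ (c₀ / (2 * M ^ (-(((1 : ℝ) / (8 * κ)) / 4)))) ^ ((1 : ℝ) / κ) ∧
      4 * GG n * (Cτ * (((2 : ℝ) ^ n) ^ 2) ^ ((1 : ℝ) / (1024 * (κ : ℝ) ^ 2 * ((κ : ℝ) + 1)))) *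
        (M ^ (2 * ((1 : ℝ) / (128 * (κ : ℝ) ^ 2))) /
          (c₀ / (2 * M ^ (-(((1 : ℝ) / (8 * κ)) / 4)))) ^ ((1 : ℝ) / κ) * (1 + 3 * (n : ℝ))) ≤ 1 / 2 := by
  have hk1 : (1 : ℝ) ≤ κ := by exact_mod_cast hκ
  obtain ⟨k, hk⟩ : ∃ k : ℝ, k = (κ : ℝ) := ⟨_, rfl⟩
  rw [← hk] at hk1 ⊢
  have hk0 : 0 < k := by linarith
  have hlog2 : 0 < Real.log 2 := Real.log_pos (by norm_num)
  obtain ⟨b, hb⟩ : ∃ b : ℝ, b = 1 / (256 * k ^ 2 * (k + 1)) := ⟨_, rfl⟩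
  have hb0 : 0 < b := by rw [hb]; positivity
  obtain ⟨A₀, hA₀⟩ : ∃ A₀ : ℝ, A₀ = Real.log 8 + Real.log Cτ - (1 / k) * Real.log (c₀ / 2) := ⟨_, rfl⟩
  have e1 := ev_small (b / 2 * Real.log 2) A₀ (by positivity)
  have e2 := (tendsto_natCast_atTop_atTop.const_mul_atTop
    (show 0 < (1 / (8 * k)) / 4 * (1 / (4 * (k + 1))) * Real.log 2 by positivity)).eventually_ge_atTop
    (-Real.log (c₀ / 2))
  filter_upwards [e1, e2] with n h1 h2 M hM1 hM2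
  have hN0 : (0 : ℝ) < (2 : ℝ) ^ n := by positivity
  have hM0 : 0 < M := lt_of_lt_of_le (by positivity) hM1
  obtain ⟨x, hx⟩ : ∃ x : ℝ, x = Real.log M := ⟨_, rfl⟩
  obtain ⟨L, hL⟩ : ∃ L : ℝ, L = (n : ℝ) * Real.log 2 := ⟨_, rfl⟩
  have hlogN : Real.log ((2 : ℝ) ^ n) = L := by rw [Real.log_pow, hL]
  have hx1 : (1 / (4 * (k + 1))) * L ≤ x := by
    have h3 := Real.log_le_log (by positivity) hM1
    rw [Real.log_rpow hN0, hlogN, ← hx] at h3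
    exact h3
  have hc₀2 : 0 < c₀ / 2 := by positivity
  -- the denominator
  obtain ⟨dd, hdd⟩ : ∃ dd : ℝ, dd = (1 / k) * (Real.log (c₀ / 2) + (1 / (8 * k)) / 4 * x) := ⟨_, rfl⟩
  have hD : (c₀ / (2 * M ^ (-((1 / (8 * k)) / 4)))) ^ ((1 : ℝ) / k) = Real.exp dd := by
    have h3 : c₀ / (2 * M ^ (-((1 / (8 * k)) / 4))) = (c₀ / 2) * M ^ ((1 / (8 * k)) / 4) := by
      rw [Real.rpow_neg hM0.le]
      field_simp
    rw [h3, Real.rpow_def_of_pos (by positivity), Real.log_mul hc₀2.ne' (by positivity),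
      Real.log_rpow hM0, ← hx, hdd]
    congr 1
    ring
  rw [hD]
  constructor
  · apply Real.one_le_exp
    rw [hdd]
    apply mul_nonneg (by positivity)
    have h3 : (1 / (8 * k)) / 4 * (1 / (4 * (k + 1))) * L ≤ (1 / (8 * k)) / 4 * x := by
      have h4 : 0 ≤ (1 / (8 * k)) / 4 := by positivity
      have := mul_le_mul_of_nonneg_left hx1 h4
      calc (1 / (8 * k)) / 4 * (1 / (4 * (k + 1))) * L
          = (1 / (8 * k)) / 4 * ((1 / (4 * (k + 1))) * L) := by ring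
        _ ≤ _ := this
    have h5 : (1 / (8 * k)) / 4 * (1 / (4 * (k + 1))) * L =
        (1 / (8 * k)) / 4 * (1 / (4 * (k + 1))) * Real.log 2 * (n : ℝ) := by
      rw [hL]
      ring
    rw [h5] at h3
    linarith
  · -- the main inequality, through the exponent
    have hT : (((2 : ℝ) ^ n) ^ 2) ^ ((1 : ℝ) / (1024 * k ^ 2 * (k + 1))) =
        Real.exp (2 * L * ((1 : ℝ) / (1024 * k ^ 2 * (k + 1)))) := by
      rw [Real.rpow_def_of_pos (by positivity), Real.log_pow, hlogN]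
      norm_num
    have hMp : M ^ (2 * ((1 : ℝ) / (128 * k ^ 2))) = Real.exp (2 * ((1 : ℝ) / (128 * k ^ 2)) * x) := by
      rw [Real.rpow_def_of_pos hM0, ← hx]
      congr 1
      ring
    rw [hT, hMp]
    obtain ⟨y, hy⟩ : ∃ y : ℝ, y = Real.log (1 + 3 * (n : ℝ)) := ⟨_, rfl⟩
    have hn0 : (0 : ℝ) < 1 + 3 * (n : ℝ) := by positivity
    have hy' : 1 + 3 * (n : ℝ) = Real.exp y := by
      rw [hy, Real.exp_log hn0]
    have hC' : Cτ = Real.exp (Real.log Cτ) := (Real.exp_log hCτ).symm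
    have h8' : (8 : ℝ) = Real.exp (Real.log 8) := (Real.exp_log (by norm_num)).symm
    obtain ⟨E1, hE1⟩ : ∃ E1 : ℝ, E1 = Real.log 8 + 100 * AA n + Real.log Cτ +
        2 * L * ((1 : ℝ) / (1024 * k ^ 2 * (k + 1))) + 2 * ((1 : ℝ) / (128 * k ^ 2)) * x - dd + y := ⟨_, rfl⟩
    have hkey : 8 * GG n * (Cτ * Real.exp (2 * L * ((1 : ℝ) / (1024 * k ^ 2 * (k + 1))))) *
        (Real.exp (2 * ((1 : ℝ) / (128 * k ^ 2)) * x) / Real.exp dd * (1 + 3 * (n : ℝ))) = Real.exp E1 := by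
      rw [hE1, Real.exp_add, Real.exp_sub, Real.exp_add, Real.exp_add, Real.exp_add, Real.exp_add]
      rw [← h8', ← hC', ← hy']
      unfold GG
      ring
    have hE1le : E1 ≤ 0 := by
      -- the linear algebra in the exponents
      have hx2 : (1 / (64 * k ^ 2)) * ((1 / (4 * (k + 1))) * L) ≤ (1 / (64 * k ^ 2)) * x :=
        mul_le_mul_of_nonneg_left hx1 (by positivity)
      have hbL : (1 / (64 * k ^ 2)) * ((1 / (4 * (k + 1))) * L) = b * L := by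
        rw [hb]
        field_simp
        ring
      have hcoef : 2 * ((1 : ℝ) / (128 * k ^ 2)) * x - (1 / k) * ((1 / (8 * k)) / 4 * x) =
          -((1 / (64 * k ^ 2)) * x) := by
        field_simp
        ring
      have hT2 : 2 * L * ((1 : ℝ) / (1024 * k ^ 2 * (k + 1))) = b / 2 * L := by
        rw [hb]
        field_simp
        ring
      have hdd' : dd = (1 / k) * Real.log (c₀ / 2) + (1 / k) * ((1 / (8 * k)) / 4 * x) := by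
        rw [hdd]
        ring
      have h1' : A₀ + y + 100 * AA n ≤ b / 2 * L := by
        rw [hy]
        have : b / 2 * Real.log 2 * (n : ℝ) = b / 2 * L := by
          rw [hL]
          ring
        rw [← this]
        exact h1
      rw [hE1, hT2, hdd']
      rw [hA₀] at h1'
      linarith
    have hle : Real.exp E1 ≤ 1 := by
      rw [← Real.exp_zero]
      exact Real.exp_le_exp.2 hE1le
    have h9 : 8 * (GG n * (Cτ * Real.exp (2 * L * ((1 : ℝ) / (1024 * k ^ 2 * (k + 1))))) *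
        (Real.exp (2 * ((1 : ℝ) / (128 * k ^ 2)) * x) / Real.exp dd * (1 + 3 * (n : ℝ)))) ≤ 1 := by
      rw [← hkey] at hle
      linarith
    linarith

/-- `M^c ≤ M / d` for `d ≤ ⌊M^(1-c)⌋`. -/
lemma rpow_le_div_of_le_floor {M d : ℕ} {c : ℝ} (hM : 1 ≤ M) (hd : 1 ≤ d)
    (hdle : d ≤ ⌊(M : ℝ) ^ (1 - c)⌋₊) : (M : ℝ) ^ c ≤ (M : ℝ) / d := by
  have hM0 : (0 : ℝ) < M := by exact_mod_cast hM
  have hd0 : (0 : ℝ) < d := by exact_mod_cast hd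
  have hdr : (d : ℝ) ≤ (M : ℝ) ^ (1 - c) := (Nat.le_floor_iff (by positivity)).1 hdle
  rw [le_div_iff₀ hd0]
  calc (M : ℝ) ^ c * d ≤ (M : ℝ) ^ c * (M : ℝ) ^ (1 - c) :=
        mul_le_mul_of_nonneg_left hdr (by positivity)
    _ = M := by
        rw [← Real.rpow_add hM0]
        simp

/-- Small `d`: good pairs by `ML_good`, bad pairs sparse and bounded by `BB_trivial`. -/
theorem ML_small {γ c₀ : ℝ} {κ : ℕ} (hγ : Dio γ c₀ κ) (hc₀ : 0 < c₀) (hκ : 1 ≤ κ) (ε : ℝ) (hε : 0 < ε) (hε1 : ε ≤ 1 / 2) :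
    ∃ n0 : ℕ, ∀ n : ℕ, n0 ≤ n → ∀ F : Finset ℕ, (∀ q ∈ F, 1 ≤ q) → 1 ≤ F.card →
      (2:ℝ) ^ n ≤ F.card → (F.card : ℝ) ≤ 2 * 2 ^ n * GG n → ∀ Mm L0 : ℕ, ((2:ℝ) ^ n) ^ ((1:ℝ) / (4 * ((κ:ℝ) + 1))) ≤ Mm → Mm ≤ 2 ^ n →
      1 ≤ L0 → L0 ≤ 2 ^ n →
      ∑ j ∈ Ico 1 L0, ∑ d ∈ Icc 1 ⌊(Mm:ℝ) ^ (1 - (1:ℝ) / (8 * κ))⌋₊, (BBc F (Nn Mm d) (Nn Mm d) (((j * d : ℕ):ℝ) * γ)).re
        ≤ (L0:ℝ) * F.card * Mm * Real.exp (((n:ℝ) + 1) ^ ε / 2) := by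
  have hk1 : (1 : ℝ) ≤ κ := by exact_mod_cast hκ
  have hk0 : (0 : ℝ) < κ := by linarith
  obtain ⟨a, ha⟩ : ∃ a : ℝ, a = (1 : ℝ) / (4 * ((κ : ℝ) + 1)) := ⟨_, rfl⟩
  have ha0 : 0 < a := by rw [ha]; positivity
  obtain ⟨c, hc⟩ : ∃ c : ℝ, c = (1 : ℝ) / (8 * κ) := ⟨_, rfl⟩
  have hc0 : 0 < c := by rw [hc]; positivity
  have hc1 : c ≤ 1 := by
    rw [hc, div_le_one (by positivity)]
    linarith
  obtain ⟨ν, hν⟩ : ∃ ν : ℝ, ν = (1 : ℝ) / (128 * (κ : ℝ) ^ 2) := ⟨_, rfl⟩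
  have hν0 : 0 < ν := by rw [hν]; positivity
  have hν16 : ν ≤ 1 / 16 := by
    rw [hν, div_le_div_iff₀ (by positivity) (by norm_num)]
    nlinarith
  obtain ⟨δ, hδ⟩ : ∃ δ : ℝ, δ = (1 : ℝ) / (1024 * (κ : ℝ) ^ 2 * ((κ : ℝ) + 1)) := ⟨_, rfl⟩
  have hδ0 : 0 < δ := by rw [hδ]; positivity
  obtain ⟨n1, C, hC, hML⟩ := ML_good (a * c) (ε / 4) ν (by positivity) (by positivity) (by linarith) hν0 hν16
  obtain ⟨Cτ, hCτ, hτ⟩ := tau_le δ hδ0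
  have ev := (ev_num κ hκ c₀ Cτ hc₀ hCτ).and (ev_good ε C hε)
  obtain ⟨n2, hn2⟩ := Filter.eventually_atTop.1 ev
  refine ⟨max (max n1 n2) 1, ?_⟩
  intro n hn F hF hK1 hK2 hK Mm L0 hM1 hM2 hL1 hL2
  have hn1 : n1 ≤ n := (le_max_left _ _).trans ((le_max_left _ _).trans hn)
  have hn2' : n2 ≤ n := (le_max_right _ _).trans ((le_max_left _ _).trans hn)
  have hn3 : 1 ≤ n := (le_max_right _ _).trans hn
  obtain ⟨hnum, hgoodnum⟩ := hn2 n hn2'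
  have hN1 : (1 : ℝ) ≤ (2 : ℝ) ^ n := one_le_pow₀ (by norm_num)
  have hpowa : (1 : ℝ) ≤ ((2 : ℝ) ^ n) ^ ((1 : ℝ) / (4 * ((κ : ℝ) + 1))) :=
    Real.one_le_rpow hN1 (by positivity)
  have hMm1 : 1 ≤ Mm := by
    have : (1 : ℝ) ≤ Mm := hpowa.trans hM1
    exact_mod_cast this
  have hM0 : (0 : ℝ) < Mm := by exact_mod_cast hMm1
  have hM2' : (Mm : ℝ) ≤ (2 : ℝ) ^ n := by exact_mod_cast hM2
  obtain ⟨hD1, hnum2⟩ := hnum (Mm : ℝ) hM1 hM2'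
  rw [← hc, ← hν, ← hδ] at hnum2
  rw [← hc] at hD1
  rw [← hc]
  have hgood : ∀ d j : ℕ, 1 ≤ d → d ≤ ⌊(Mm : ℝ) ^ (1 - c)⌋₊ →
      MA (((j * d : ℕ) : ℝ) * γ) ⌊((Yd Mm d : ℕ) : ℝ) ^ ν⌋₊ (((Yd Mm d : ℕ) : ℝ) ^ (-(1 / 4 : ℝ))) →
      (BBc F (Nn Mm d) (Nn Mm d) (((j * d : ℕ) : ℝ) * γ)).re ≤
        (F.card : ℝ) * ((Mm : ℝ) / d + 1) * Real.exp (C * ((n : ℝ) + 1) ^ (ε / 4)) := by
    intro d j hd hdle hMA
    refine hML n hn1 F hF hK1 hK Mm d _ hd ?_ hM2 hMA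
    refine le_trans ?_ (rpow_le_div_of_le_floor hMm1 hd hdle)
    rw [Real.rpow_mul (by positivity)]
    apply Real.rpow_le_rpow (by positivity) _ hc0.le
    rw [ha]
    exact hM1
  have hcore := ml_core hγ hc₀ hκ hn3 hF hK1 hK2 hK hMm1 hM2 hL1 hL2 (c := c) (ν := ν)
    (E := Real.exp (C * ((n : ℝ) + 1) ^ (ε / 4))) (Cτ := Cτ) (δ := δ) hc0 hc1 hν0 (by linarith)
    (Real.exp_pos _).le hCτ hδ0 hτ hgood hD1 hnum2
  refine hcore.trans ?_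
  apply mul_le_mul_of_nonneg_left _ (by positivity)
  have hX1 : (1 : ℝ) ≤ Real.exp (((n : ℝ) + 1) ^ ε / 2) := by
    apply Real.one_le_exp
    positivity
  have h3 : 2 * (1 + (n : ℝ)) * Real.exp (C * ((n : ℝ) + 1) ^ (ε / 4)) =
      (4 * ((n : ℝ) + 1) * Real.exp (C * ((n : ℝ) + 1) ^ (ε / 4))) / 2 := by ring
  rw [h3]
  linarith

end

end Vale.Agent.Lib.P028K
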