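import Vale.Agent.Lib.P028K.Basics

/-! Part Menshov: removal of the condition `bigP b < minFac u`. -/

open Finset

namespace Vale.Agent.Lib.P028K

open Vale.Agent.Lib.P028
open Vale.Agent.Lib.P028T

noncomputable section

variable {B M : ℕ} [NeZero M]

/-- The binary decomposition by induction on the number of bits. -/
private lemma dyadic_aux (L π : ℕ) (hπ : π < 2 ^ L) :
    ∃ x : ℕ → ℕ, ∃ S : Finset ℕ, S ⊆ range L ∧ (∀ ℓ ∈ S, x ℓ < 2 ^ L) ∧
      (∀ g : ℕ → ℂ, ∑ i ∈ range π, g i = ∑ ℓ ∈ S, ∑ i ∈ Ico (x ℓ * 2 ^ ℓ) ((x ℓ + 1) * 2 ^ ℓ), g i) := by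
  induction L generalizing π with
  | zero =>
    have h0 : π = 0 := by simpa using hπ
    subst h0
    exact ⟨fun _ => 0, ∅, by simp, by simp, by simp⟩
  | succ L ih =>
    by_cases hlt : π < 2 ^ L
    · obtain ⟨x, S, hS, hx, hg⟩ := ih π hlt
      refine ⟨x, S, hS.trans (range_subset_range.2 (Nat.le_succ L)), ?_, hg⟩
      intro ℓ hℓ
      have := hx ℓ hℓ
      have h2 : 2 ^ L ≤ 2 ^ (L + 1) := Nat.pow_le_pow_right (by norm_num) (Nat.le_succ L)
      omega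
    · have hle : 2 ^ L ≤ π := not_lt.1 hlt
      have hpow : 2 ^ (L + 1) = 2 * 2 ^ L := by rw [pow_succ]; ring
      obtain ⟨π', rfl⟩ := Nat.exists_eq_add_of_le hle
      have hπ' : π' < 2 ^ L := by omega
      obtain ⟨x, S, hS, hx, hg⟩ := ih π' hπ'
      refine ⟨fun ℓ => if ℓ = L then 0 else x ℓ + 2 ^ (L - ℓ), insert L S, ?_, ?_, ?_⟩
      · intro ℓ hℓ
        rcases mem_insert.1 hℓ with rfl | h
        · simp
        · have := mem_range.1 (hS h)
          exact mem_range.2 (by omega)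
      · intro ℓ hℓ
        rcases mem_insert.1 hℓ with rfl | h
        · simp
        · have hℓL : ℓ < L := mem_range.1 (hS h)
          have hne : ℓ ≠ L := by omega
          simp only [hne, if_false]
          have h1 := hx ℓ h
          have h2 : 2 ^ (L - ℓ) ≤ 2 ^ L := Nat.pow_le_pow_right (by norm_num) (Nat.sub_le _ _)
          omega
      · intro g
        have hnot : L ∉ S := fun h => by
          have := mem_range.1 (hS h)
          omega
        rw [sum_insert hnot]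
        have hshift := hg (fun i => g (2 ^ L + i))
        rw [Finset.sum_range_add]
        congr 1
        · simp only [if_true, zero_mul, zero_add, one_mul]
          rw [Finset.range_eq_Ico]
        · rw [hshift]
          apply sum_congr rfl
          intro ℓ hℓ
          have hℓL : ℓ < L := mem_range.1 (hS hℓ)
          have hne : ℓ ≠ L := by omega
          simp only [hne, if_false]
          have hsplit : 2 ^ (L - ℓ) * 2 ^ ℓ = 2 ^ L := by
            rw [← pow_add]; congr 1; omega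
          have e1 : (x ℓ + 2 ^ (L - ℓ)) * 2 ^ ℓ = 2 ^ L + x ℓ * 2 ^ ℓ := by
            rw [add_mul, hsplit]; ring
          have e2 : (x ℓ + 2 ^ (L - ℓ) + 1) * 2 ^ ℓ = 2 ^ L + (x ℓ + 1) * 2 ^ ℓ := by
            have : x ℓ + 2 ^ (L - ℓ) + 1 = (x ℓ + 1) + 2 ^ (L - ℓ) := by ring
            rw [this, add_mul, hsplit]; ring
          rw [e1, e2, Finset.sum_Ico_add (fun i => g i) (x ℓ * 2 ^ ℓ) ((x ℓ + 1) * 2 ^ ℓ) (2 ^ L)]
          simp only [add_comm]

/-- Binary decomposition of an initial segment. -/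
theorem exists_dyadic_decomp (Lm π : ℕ) (hπ : π < 2 ^ (Lm + 1)) :
    ∃ x : ℕ → ℕ, ∃ S : Finset ℕ, S ⊆ range (Lm + 1) ∧ (∀ ℓ ∈ S, x ℓ < 2 ^ (Lm + 1)) ∧
      (∀ g : ℕ → ℂ, ∑ i ∈ range π, g i = ∑ ℓ ∈ S, ∑ i ∈ Ico (x ℓ * 2 ^ ℓ) ((x ℓ + 1) * 2 ^ ℓ), g i) :=
  dyadic_aux (Lm + 1) π hπ

/-- The sum over a filter by values of `f` in a finite set. -/
private lemma sum_fiberwise_filter (b : Finset ℕ) (f : ℕ → ℕ) (T : Finset ℕ) (F : ℕ → ℂ) :
    ∑ i ∈ T, ∑ x ∈ b.filter (fun x => f x = i), F x = ∑ x ∈ b.filter (fun x => f x ∈ T), F x := by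
  rw [← Finset.sum_fiberwise_of_maps_to (s := b.filter (fun x => f x ∈ T)) (t := T) (g := f)
    (fun x hx => (mem_filter.1 hx).2)]
  apply sum_congr rfl
  intro i hi
  apply sum_congr _ (fun _ _ => rfl)
  ext x
  simp only [mem_filter]
  constructor
  · rintro ⟨hx, rfl⟩
    exact ⟨⟨hx, hi⟩, rfl⟩
  · rintro ⟨⟨hx, _⟩, h⟩
    exact ⟨hx, h⟩

/-- The pointwise inequality (Cauchy over the levels, then positivity: `u` becomes an arbitrary integer `n`). -/
theorem menshov_apply (Lm : ℕ) (U b N : Finset ℕ) (hUN : U ⊆ N) (hLm : ∀ u ∈ U, u.minFac < 2 ^ (Lm + 1))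
    (c : ℕ → ℕ → ℂ) (φ : ℕ → ℂ) :
    ∑ u ∈ U, ‖∑ x ∈ b.filter (fun x => bigP x < u.minFac), φ x * c u x‖ ^ 2
      ≤ ((Lm:ℝ) + 1) * ∑ ℓ ∈ range (Lm + 1), ∑ y ∈ range (2 ^ (Lm + 1)), ∑ n ∈ N,
          ‖∑ x ∈ b.filter (fun x => bigP x / 2 ^ ℓ = y), φ x * c n x‖ ^ 2 := by
  -- the pointwise bound for one `u`
  have key : ∀ u ∈ U, ‖∑ x ∈ b.filter (fun x => bigP x < u.minFac), φ x * c u x‖ ^ 2
      ≤ ((Lm:ℝ) + 1) * ∑ ℓ ∈ range (Lm + 1), ∑ y ∈ range (2 ^ (Lm + 1)),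
          ‖∑ x ∈ b.filter (fun x => bigP x / 2 ^ ℓ = y), φ x * c u x‖ ^ 2 := by
    intro u hu
    obtain ⟨x₀, S, hS, hx₀, hg⟩ := exists_dyadic_decomp Lm u.minFac (hLm u hu)
    set F : ℕ → ℂ := fun x => φ x * c u x with hF
    set g : ℕ → ℂ := fun i => ∑ x ∈ b.filter (fun x => bigP x = i), F x with hgdef
    have h1 : ∑ x ∈ b.filter (fun x => bigP x < u.minFac), F x = ∑ i ∈ range u.minFac, g i := by
      rw [hgdef, sum_fiberwise_filter]
      apply sum_congr _ (fun _ _ => rfl)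
      ext x
      simp
    have h2 : ∀ ℓ y : ℕ, ∑ i ∈ Ico (y * 2 ^ ℓ) ((y + 1) * 2 ^ ℓ), g i
        = ∑ x ∈ b.filter (fun x => bigP x / 2 ^ ℓ = y), F x := by
      intro ℓ y
      rw [hgdef, sum_fiberwise_filter]
      apply sum_congr _ (fun _ _ => rfl)
      ext x
      simp only [mem_filter, mem_Ico, and_congr_right_iff]
      intro _
      have hpos : 0 < 2 ^ ℓ := by positivity
      constructor
      · rintro ⟨h1, h2⟩
        apply Nat.div_eq_of_lt_le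
        · simpa [mul_comm] using h1
        · simpa [mul_comm] using h2
      · rintro rfl
        constructor
        · exact Nat.div_mul_le_self _ _
        · have := Nat.lt_div_mul_add hpos (a := bigP x)
          rw [add_mul, one_mul]
          exact this
    have h3 : ∑ x ∈ b.filter (fun x => bigP x < u.minFac), F x
        = ∑ ℓ ∈ S, ∑ x ∈ b.filter (fun x => bigP x / 2 ^ ℓ = x₀ ℓ), F x := by
      rw [h1, hg g]
      exact sum_congr rfl (fun ℓ _ => h2 ℓ (x₀ ℓ))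
    rw [h3]
    have hcard : ((S.card : ℝ)) ≤ (Lm:ℝ) + 1 := by
      have := card_le_card hS
      rw [card_range] at this
      exact_mod_cast this
    calc ‖∑ ℓ ∈ S, ∑ x ∈ b.filter (fun x => bigP x / 2 ^ ℓ = x₀ ℓ), F x‖ ^ 2
        ≤ (∑ ℓ ∈ S, ‖∑ x ∈ b.filter (fun x => bigP x / 2 ^ ℓ = x₀ ℓ), F x‖) ^ 2 := by
          gcongr
          exact norm_sum_le _ _
      _ ≤ (S.card : ℝ) * ∑ ℓ ∈ S, ‖∑ x ∈ b.filter (fun x => bigP x / 2 ^ ℓ = x₀ ℓ), F x‖ ^ 2 :=
          sq_sum_le_card_mul_sum_sq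
      _ ≤ ((Lm:ℝ) + 1) * ∑ ℓ ∈ S, ‖∑ x ∈ b.filter (fun x => bigP x / 2 ^ ℓ = x₀ ℓ), F x‖ ^ 2 := by
          apply mul_le_mul_of_nonneg_right hcard
          exact sum_nonneg (fun _ _ => by positivity)
      _ ≤ ((Lm:ℝ) + 1) * ∑ ℓ ∈ range (Lm + 1), ∑ y ∈ range (2 ^ (Lm + 1)),
            ‖∑ x ∈ b.filter (fun x => bigP x / 2 ^ ℓ = y), F x‖ ^ 2 := by
          apply mul_le_mul_of_nonneg_left _ (by positivity)
          calc ∑ ℓ ∈ S, ‖∑ x ∈ b.filter (fun x => bigP x / 2 ^ ℓ = x₀ ℓ), F x‖ ^ 2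
              ≤ ∑ ℓ ∈ S, ∑ y ∈ range (2 ^ (Lm + 1)),
                  ‖∑ x ∈ b.filter (fun x => bigP x / 2 ^ ℓ = y), F x‖ ^ 2 := by
                apply sum_le_sum
                intro ℓ hℓ
                exact single_le_sum
                  (f := fun y => ‖∑ x ∈ b.filter (fun x => bigP x / 2 ^ ℓ = y), F x‖ ^ 2)
                  (fun _ _ => by positivity) (mem_range.2 (hx₀ ℓ hℓ))
            _ ≤ ∑ ℓ ∈ range (Lm + 1), ∑ y ∈ range (2 ^ (Lm + 1)),
                  ‖∑ x ∈ b.filter (fun x => bigP x / 2 ^ ℓ = y), F x‖ ^ 2 :=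
                sum_le_sum_of_subset_of_nonneg hS
                  (fun _ _ _ => sum_nonneg (fun _ _ => by positivity))
  calc ∑ u ∈ U, ‖∑ x ∈ b.filter (fun x => bigP x < u.minFac), φ x * c u x‖ ^ 2
      ≤ ∑ u ∈ U, ((Lm:ℝ) + 1) * ∑ ℓ ∈ range (Lm + 1), ∑ y ∈ range (2 ^ (Lm + 1)),
          ‖∑ x ∈ b.filter (fun x => bigP x / 2 ^ ℓ = y), φ x * c u x‖ ^ 2 := sum_le_sum key
    _ = ((Lm:ℝ) + 1) * ∑ ℓ ∈ range (Lm + 1), ∑ y ∈ range (2 ^ (Lm + 1)), ∑ u ∈ U,
          ‖∑ x ∈ b.filter (fun x => bigP x / 2 ^ ℓ = y), φ x * c u x‖ ^ 2 := by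
        rw [← mul_sum]
        congr 1
        rw [sum_comm]
        apply sum_congr rfl
        intro ℓ _
        rw [sum_comm]
    _ ≤ ((Lm:ℝ) + 1) * ∑ ℓ ∈ range (Lm + 1), ∑ y ∈ range (2 ^ (Lm + 1)), ∑ n ∈ N,
          ‖∑ x ∈ b.filter (fun x => bigP x / 2 ^ ℓ = y), φ x * c n x‖ ^ 2 := by
        apply mul_le_mul_of_nonneg_left _ (by positivity)
        apply sum_le_sum
        intro ℓ _
        apply sum_le_sum
        intro y _
        exact sum_le_sum_of_subset_of_nonneg hUN (fun _ _ _ => by positivity)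

end

end Vale.Agent.Lib.P028K
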