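import Vale.Agent.Lib.P028K.PSa

/-! Part PSb: the off-diagonal count. Blueprint section 6. -/

open Finset

namespace Vale.Agent.Lib.P028K

open Vale.Agent.Lib.P028
open Vale.Agent.Lib.P028T

noncomputable section

private lemma hh_le_top (θ : ℝ) (U m : ℕ) : hh θ U m ≤ 4 * (U:ℝ) ^ 2 := by
  unfold hh
  split_ifs
  · exact le_rfl
  · exact min_le_left _ _

private lemma hh_le_of_dn (θ : ℝ) (U m : ℕ) (a : ℝ) (ha : 0 < a) (hd : a ≤ dn (θ * m)) :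
    hh θ U m ≤ 1 / (4 * a ^ 2) := by
  have hpos : 0 < dn (θ * m) := lt_of_lt_of_le ha hd
  unfold hh
  rw [if_neg hpos.ne']
  refine (min_le_right _ _).trans ?_
  apply one_div_le_one_div_of_le (by positivity)
  have : a ^ 2 ≤ dn (θ * m) ^ 2 := pow_le_pow_left₀ ha.le hd 2
  linarith

private lemma hh_mul (θ : ℝ) (U g d : ℕ) : hh θ U (g * d) = hh (θ * g) U d := by
  unfold hh
  have : θ * ((g * d : ℕ) : ℝ) = θ * g * d := by push_cast; ring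
  rw [this]

private lemma dn_sub_le' (s t : ℝ) : dn (s - t) ≤ dn s + dn t := by
  have h := dn_le_abs_sub (s - t) (round s - round t)
  have e : s - t - ((round s - round t : ℤ) : ℝ) = (s - round s) - (t - round t) := by
    push_cast; ring
  rw [e] at h
  refine h.trans ((abs_sub _ _).trans ?_)
  exact le_rfl

private lemma sum_inv_le (G : ℕ) : ∑ g ∈ Icc 1 G, (1:ℝ) / (g:ℝ) ≤ 1 + Real.log G := by
  have h := harmonic_le_one_add_log G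
  rw [harmonic_eq_sum_Icc] at h
  push_cast at h
  simpa [one_div] using h

private lemma tau_sum_le (X : ℕ) :
    ∑ m ∈ Ico 1 X, (m.divisors.card : ℝ) ≤ X * (1 + Real.log X) := by
  have h1 : ∀ m ∈ Ico 1 X, (m.divisors.card : ℝ) = ∑ d ∈ Icc 1 X, if d ∣ m then (1:ℝ) else 0 := by
    intro m hm
    rw [mem_Ico] at hm
    have : m.divisors = (Icc 1 X).filter (· ∣ m) := by
      ext d
      simp only [Nat.mem_divisors, mem_filter, mem_Icc]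
      constructor
      · rintro ⟨hd, _⟩
        have h2 := Nat.le_of_dvd (by omega) hd
        have h3 := Nat.pos_of_dvd_of_pos hd (by omega)
        exact ⟨⟨by omega, by omega⟩, hd⟩
      · rintro ⟨_, hd⟩
        exact ⟨hd, by omega⟩
    rw [this, card_filter]
    push_cast
    rfl
  rw [sum_congr rfl h1, sum_comm]
  calc ∑ d ∈ Icc 1 X, ∑ m ∈ Ico 1 X, (if d ∣ m then (1:ℝ) else 0)
      ≤ ∑ d ∈ Icc 1 X, (X:ℝ) * (1 / (d:ℝ)) := by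
        apply sum_le_sum
        intro d hd
        rw [mem_Icc] at hd
        have h2 : ∑ m ∈ Ico 1 X, (if d ∣ m then (1:ℝ) else 0) = (((Ico 1 X).filter (d ∣ ·)).card : ℝ) := by
          rw [card_filter]
          push_cast
          rfl
        rw [h2]
        have h3 : ((Ico 1 X).filter (d ∣ ·)).card ≤ ((Ioc 0 X).filter (d ∣ ·)).card := by
          apply card_le_card
          intro m hm
          simp only [mem_filter, mem_Ico, mem_Ioc] at hm ⊢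
          exact ⟨⟨by omega, by omega⟩, hm.2⟩
        rw [Nat.Ioc_filter_dvd_card_eq_div] at h3
        have h4 : (((Ico 1 X).filter (d ∣ ·)).card : ℝ) ≤ ((X / d : ℕ) : ℝ) := by exact_mod_cast h3
        have h5 : ((X / d : ℕ) : ℝ) ≤ (X:ℝ) / d := Nat.cast_div_le
        calc _ ≤ (X:ℝ) / d := h4.trans h5
          _ = (X:ℝ) * (1 / (d:ℝ)) := by ring
    _ = X * ∑ d ∈ Icc 1 X, (1:ℝ) / (d:ℝ) := by rw [mul_sum]
    _ ≤ X * (1 + Real.log X) := mul_le_mul_of_nonneg_left (sum_inv_le X) (Nat.cast_nonneg X)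

/-- Points of `Ico 1 X` with a small return are sparse. -/
private lemma sparse_card (θ : ℝ) (N0 X : ℕ) (η : ℝ) (hN : 1 ≤ N0)
    (hMA : ∀ n : ℕ, 1 ≤ n → n ≤ N0 → η ≤ dn ((n:ℝ) * θ)) (S : Finset ℕ)
    (hS : ∀ m ∈ S, m < X ∧ 1 ≤ m ∧ dn (θ * m) < η / 2) :
    (S.card : ℝ) ≤ (X:ℝ) / N0 := by
  have hbig : ∀ m ∈ S, N0 < m := by
    intro m hm
    obtain ⟨_, h1, h2⟩ := hS m hm
    by_contra hc
    have h3 := hMA m h1 (by omega)
    have h4 : dn ((m:ℝ) * θ) = dn (θ * m) := by rw [mul_comm]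
    have h5 := dn_nonneg (θ * m)
    rw [h4] at h3
    linarith
  have key : ∀ m ∈ S, ∀ m' ∈ S, m < m' → N0 < m' - m := by
    intro m hm m' hm' hlt
    by_contra hc
    have h3 := hMA (m' - m) (by omega) (by omega)
    have e : ((m' - m : ℕ) : ℝ) * θ = θ * m' - θ * m := by
      rw [Nat.cast_sub hlt.le]; ring
    rw [e] at h3
    have h4 := dn_sub_le' (θ * m') (θ * m)
    have h5 := (hS m hm).2.2
    have h6 := (hS m' hm').2.2
    linarith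
  have h1 : S.card ≤ (Icc 1 (X / N0)).card := by
    apply card_le_card_of_injOn (fun m => m / N0)
    · intro m hm
      have hm1 := hbig m hm
      have hm2 := (hS m hm).1
      simp only [coe_Icc, Set.mem_Icc]
      constructor
      · exact (Nat.one_le_div_iff (by omega)).2 hm1.le
      · exact Nat.div_le_div_right hm2.le
    · intro m hm m' hm' he
      simp only at he
      by_contra hne
      have aux : ∀ a b : ℕ, a ∈ S → b ∈ S → a < b → a / N0 = b / N0 → False := by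
        intro a b ha hb hab hq
        have h2 := key a ha b hb hab
        have h3 := Nat.div_add_mod a N0
        have h4 := Nat.div_add_mod b N0
        have h5 := Nat.mod_lt a (show 0 < N0 by omega)
        have h6 := Nat.mod_lt b (show 0 < N0 by omega)
        rw [hq] at h3
        omega
      rcases lt_or_gt_of_ne hne with h | h
      · exact aux m m' hm hm' h he
      · exact aux m' m hm' hm h he.symm
  rw [Nat.card_Icc] at h1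
  have h2 : (S.card : ℝ) ≤ ((X / N0 : ℕ) : ℝ) := by
    have h3 : S.card ≤ X / N0 := by simpa using h1
    exact_mod_cast h3
  exact h2.trans Nat.cast_div_le

/-- The bad multipliers for a fixed return time. -/
private lemma bad_sum (θ : ℝ) (N0 G n : ℕ) (η : ℝ) (hη : 0 < η) (hn : 1 ≤ n) (hnN : n ≤ N0)
    (hMA : ∀ n : ℕ, 1 ≤ n → n ≤ N0 → η ≤ dn ((n:ℝ) * θ)) :
    ∑ g ∈ (Icc 1 G).filter (fun g : ℕ => dn ((n:ℝ) * (θ * g)) ≤ η / 8), (1:ℝ) / (g:ℝ)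
      ≤ ((n:ℝ) / N0) * (1 + Real.log G) := by
  set S := (Icc 1 G).filter (fun g : ℕ => dn ((n:ℝ) * (θ * g)) ≤ η / 8) with hS
  have hN : 1 ≤ N0 := by omega
  have hN0 : (0:ℝ) < N0 := by exact_mod_cast hN
  have hn0 : (0:ℝ) < n := by exact_mod_cast hn
  have hmem : ∀ g ∈ S, 1 ≤ g ∧ g ≤ G ∧ dn ((n:ℝ) * (θ * g)) ≤ η / 8 := by
    intro g hg
    rw [hS, mem_filter, mem_Icc] at hg
    exact ⟨hg.1.1, hg.1.2, hg.2⟩
  have hbig : ∀ g ∈ S, N0 < n * g := by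
    intro g hg
    obtain ⟨h1, _, h3⟩ := hmem g hg
    by_contra hc
    have h4 := hMA (n * g) (Nat.mul_pos hn h1) (by omega)
    have e : ((n * g : ℕ) : ℝ) * θ = (n:ℝ) * (θ * g) := by push_cast; ring
    rw [e] at h4
    linarith
  have key : ∀ g ∈ S, ∀ g' ∈ S, g < g' → N0 < n * g' - n * g := by
    intro g hg g' hg' hlt
    by_contra hc
    have hlt' : n * g < n * g' := Nat.mul_lt_mul_of_pos_left hlt hn
    have h4 := hMA (n * g' - n * g) (by omega) (by omega)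
    have e : ((n * g' - n * g : ℕ) : ℝ) * θ = (n:ℝ) * (θ * g') - (n:ℝ) * (θ * g) := by
      rw [Nat.cast_sub hlt'.le]; push_cast; ring
    rw [e] at h4
    have h5 := dn_sub_le' ((n:ℝ) * (θ * g')) ((n:ℝ) * (θ * g))
    have h6 := (hmem g hg).2.2
    have h7 := (hmem g' hg').2.2
    linarith
  have hj1 : ∀ g ∈ S, 1 ≤ n * g / N0 := fun g hg =>
    (Nat.one_le_div_iff (by omega)).2 (hbig g hg).le
  have hjle : ∀ g ∈ S, n * g / N0 ≤ G := by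
    intro g hg
    have h2 : n * g / N0 ≤ N0 * g / N0 := Nat.div_le_div_right (Nat.mul_le_mul_right g hnN)
    rw [Nat.mul_div_cancel_left g (by omega)] at h2
    exact h2.trans (hmem g hg).2.1
  have hinj : Set.InjOn (fun g => n * g / N0) (S : Set ℕ) := by
    have aux : ∀ a b : ℕ, a ∈ S → b ∈ S → a < b → n * a / N0 = n * b / N0 → False := by
      intro a b ha hb hab hq
      have h2 := key a ha b hb hab
      have h3 := Nat.div_add_mod (n * a) N0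
      have h4 := Nat.div_add_mod (n * b) N0
      have h5 := Nat.mod_lt (n * a) (show 0 < N0 by omega)
      have h6 := Nat.mod_lt (n * b) (show 0 < N0 by omega)
      rw [hq] at h3
      omega
    intro a ha b hb he
    simp only at he
    by_contra hne
    rcases lt_or_gt_of_ne hne with h | h
    · exact aux a b ha hb h he
    · exact aux b a hb ha h he.symm
  calc ∑ g ∈ S, (1:ℝ) / (g:ℝ)
      ≤ ∑ g ∈ S, ((n:ℝ) / N0) * ((1:ℝ) / ((n * g / N0 : ℕ) : ℝ)) := by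
        apply sum_le_sum
        intro g hg
        have hg1 : (0:ℝ) < g := by exact_mod_cast (hmem g hg).1
        have hj : (0:ℝ) < ((n * g / N0 : ℕ) : ℝ) := by exact_mod_cast hj1 g hg
        have h2 : ((n * g / N0 : ℕ) : ℝ) * N0 ≤ (n:ℝ) * g := by
          have := Nat.div_mul_le_self (n * g) N0
          exact_mod_cast this
        rw [div_mul_div_comm, mul_one, div_le_div_iff₀ hg1 (by positivity)]
        linarith
    _ = ((n:ℝ) / N0) * ∑ g ∈ S, (1:ℝ) / ((n * g / N0 : ℕ) : ℝ) := by rw [mul_sum]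
    _ ≤ ((n:ℝ) / N0) * (1 + Real.log G) := by
        apply mul_le_mul_of_nonneg_left _ (by positivity)
        refine le_trans ?_ (sum_inv_le G)
        have h2 : ∑ g ∈ S, (1:ℝ) / ((n * g / N0 : ℕ) : ℝ)
            = ∑ j ∈ S.image (fun g => n * g / N0), (1:ℝ) / (j:ℝ) := by
          rw [sum_image hinj]
        rw [h2]
        apply sum_le_sum_of_subset_of_nonneg
        · intro j hj
          rw [mem_image] at hj
          obtain ⟨g, hg, rfl⟩ := hj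
          rw [mem_Icc]
          exact ⟨hj1 g hg, hjle g hg⟩
        · intro i _ _
          positivity

/-- The divisor bound by the small divisors. -/
private lemma tau_hyperbola (h : ℕ → ℝ) (h0 : ∀ m, 0 ≤ h m) (X : ℕ) :
    ∑ m ∈ Ico 1 X, (m.divisors.card : ℝ) * h m
      ≤ 2 * ∑ g ∈ Icc 1 (Nat.sqrt X), ∑ d ∈ Icc 1 (X / g), h (g * d) := by
  set G := Nat.sqrt X with hG
  have step1 : ∀ m ∈ Ico 1 X, (m.divisors.card : ℝ) * h m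
      ≤ 2 * ∑ g ∈ Icc 1 G, if g ∣ m then h m else 0 := by
    intro m hm
    rw [mem_Ico] at hm
    set S := (Icc 1 G).filter (· ∣ m) with hS
    have h1 : m.divisors ⊆ S ∪ S.image (fun g => m / g) := by
      intro d hd
      rw [Nat.mem_divisors] at hd
      obtain ⟨k, hk⟩ := hd.1
      have hd0 : 0 < d := Nat.pos_of_ne_zero (by rintro rfl; simp at hk; omega)
      have hk0 : 0 < k := Nat.pos_of_ne_zero (by rintro rfl; simp at hk; omega)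
      rcases le_total d k with hle | hle
      · apply mem_union_left
        rw [hS, mem_filter, mem_Icc]
        refine ⟨⟨hd0, ?_⟩, hd.1⟩
        rw [hG, Nat.le_sqrt]
        have : d * d ≤ d * k := Nat.mul_le_mul_left d hle
        omega
      · apply mem_union_right
        rw [mem_image]
        refine ⟨k, ?_, ?_⟩
        · rw [hS, mem_filter, mem_Icc]
          refine ⟨⟨hk0, ?_⟩, ⟨d, by rw [hk, mul_comm]⟩⟩
          rw [hG, Nat.le_sqrt]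
          have : k * k ≤ d * k := Nat.mul_le_mul_right k hle
          omega
        · rw [hk, Nat.mul_div_cancel _ hk0]
    have h2 : m.divisors.card ≤ 2 * S.card := by
      have h3 := card_le_card h1
      have h4 := card_union_le S (S.image (fun g => m / g))
      have h5 : (S.image (fun g => m / g)).card ≤ S.card := card_image_le
      omega
    have h3 : ∑ g ∈ Icc 1 G, (if g ∣ m then h m else 0) = (S.card : ℝ) * h m := by
      rw [← sum_filter, sum_const, nsmul_eq_mul]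
    rw [h3]
    have h4 : (m.divisors.card : ℝ) ≤ 2 * (S.card : ℝ) := by exact_mod_cast h2
    calc (m.divisors.card : ℝ) * h m ≤ (2 * (S.card : ℝ)) * h m :=
          mul_le_mul_of_nonneg_right h4 (h0 m)
      _ = _ := by ring
  calc ∑ m ∈ Ico 1 X, (m.divisors.card : ℝ) * h m
      ≤ ∑ m ∈ Ico 1 X, 2 * ∑ g ∈ Icc 1 G, (if g ∣ m then h m else 0) := sum_le_sum step1
    _ = 2 * ∑ g ∈ Icc 1 G, ∑ m ∈ Ico 1 X, (if g ∣ m then h m else 0) := by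
        rw [← mul_sum, sum_comm]
    _ ≤ 2 * ∑ g ∈ Icc 1 G, ∑ d ∈ Icc 1 (X / g), h (g * d) := by
        apply mul_le_mul_of_nonneg_left _ (by norm_num)
        apply sum_le_sum
        intro g hg
        rw [mem_Icc] at hg
        have hg0 : 0 < g := hg.1
        rw [← sum_filter]
        have hinj : Set.InjOn (fun d => g * d) ((Icc 1 (X / g) : Finset ℕ) : Set ℕ) := by
          intro a _ b _ he
          exact Nat.eq_of_mul_eq_mul_left hg0 he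
        have e : ∑ d ∈ Icc 1 (X / g), h (g * d) = ∑ m ∈ (Icc 1 (X / g)).image (fun d => g * d), h m := by
          rw [sum_image hinj]
        rw [e]
        apply sum_le_sum_of_subset_of_nonneg
        · intro m hm
          rw [mem_filter, mem_Ico] at hm
          obtain ⟨⟨hm1, hm2⟩, k, hk⟩ := hm
          rw [mem_image]
          refine ⟨k, ?_, hk.symm⟩
          rw [mem_Icc]
          have hk0 : 0 < k := Nat.pos_of_ne_zero (by rintro rfl; simp at hk; omega)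
          refine ⟨hk0, ?_⟩
          rw [Nat.le_div_iff_mul_le hg0, mul_comm]
          omega
        · intro i _ _
          exact h0 i

private lemma log_eight_le : Real.log 8 ≤ 3 := by
  have h8 : (8:ℝ) = 2 ^ 3 := by norm_num
  rw [h8, Real.log_pow]
  have := Real.log_two_lt_d9
  push_cast
  linarith

private lemma sqrt_large (X0 : ℕ) (η R : ℝ) (hη : 0 < η) (hη1 : η ≤ 1) (hR : 1 ≤ R)
    (hcase : 16 * R ^ 2 / η ^ 2 ≤ X0) :
    8 * R ≤ (Nat.sqrt (8 * X0) : ℝ) * η ∧ 1 ≤ Nat.sqrt (8 * X0) ∧ Nat.sqrt (8 * X0) ≤ 8 * X0 := by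
  have hcase' : 16 * R ^ 2 ≤ (X0:ℝ) * η ^ 2 := by
    rwa [div_le_iff₀ (by positivity)] at hcase
  have hη2 : η ^ 2 ≤ 1 := by nlinarith
  have hR2 : 1 ≤ R ^ 2 := by nlinarith
  have hX016 : (16:ℝ) ≤ X0 := by nlinarith
  have hX016' : 16 ≤ X0 := by exact_mod_cast hX016
  generalize hG : Nat.sqrt (8 * X0) = G
  have hG2 : G * G ≤ 8 * X0 := hG ▸ Nat.sqrt_le (8 * X0)
  have hG3 : 8 * X0 < (G + 1) * (G + 1) := hG ▸ Nat.lt_succ_sqrt (8 * X0)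
  have hG4 : 3 ≤ G := by
    by_contra hc
    have h1 : G ≤ 2 := by omega
    have h2 : (G + 1) * (G + 1) ≤ 3 * 3 := Nat.mul_le_mul (by omega) (by omega)
    omega
  have hG5 : 4 * X0 ≤ G * G := by
    have h1 : (G + 1) * (G + 1) ≤ 2 * (G * G) := by nlinarith
    omega
  have hGr : (4:ℝ) * X0 ≤ (G:ℝ) * G := by exact_mod_cast hG5
  have h0 : (0:ℝ) < G := by
    have h1 : 0 < G := by omega
    exact_mod_cast h1
  refine ⟨?_, by omega, by nlinarith⟩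
  have h1 : (8 * R) ^ 2 ≤ ((G:ℝ) * η) ^ 2 := by nlinarith
  exact (abs_le_of_sq_le_sq' h1 (by positivity)).2

/-- The bound for one multiplier. -/
private lemma T_bound (θ : ℝ) (X G U : ℕ) (η R : ℝ) (hU : 1 ≤ U) (hη : 0 < η) (hR : 1 ≤ R)
    (hG2 : G * G ≤ X) (hGeta : 8 * R ≤ (G:ℝ) * η) (hG1 : 1 ≤ G) (g : ℕ) (hg : 1 ≤ g ∧ g ≤ G)
    (hgood : (∃ n ∈ Ico 1 ⌈R⌉₊, dn ((n:ℝ) * (θ * g)) ≤ η / 8) ∨
      ∑ d ∈ Icc 1 (X / g), hh θ U (g * d)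
        ≤ 200 * (X:ℝ) * ((U:ℝ) ^ 2 * (1 / (U:ℝ) + 1 / R)) * (1 / (g:ℝ))) :
    ∑ d ∈ Icc 1 (X / g), hh θ U (g * d) ≤ 200 * (X:ℝ) * ((U:ℝ) ^ 2 * (1 / (U:ℝ) + 1 / R)) * (1 / (g:ℝ))
      ∨ ∑ d ∈ Icc 1 (X / g), hh θ U (g * d) ≤ 4 * (X:ℝ) * (U:ℝ) ^ 2 * (1 / (g:ℝ)) := by
  have hg0 : (0:ℝ) < g := by exact_mod_cast hg.1
  have hWr : ((X / g : ℕ) : ℝ) ≤ (X:ℝ) / g := Nat.cast_div_le
  rcases hgood with _ | h
  · right
    have h1 : ∑ d ∈ Icc 1 (X / g), hh θ U (g * d) ≤ ∑ _d ∈ Icc 1 (X / g), 4 * (U:ℝ) ^ 2 :=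
      sum_le_sum fun d _ => hh_le_top θ U _
    rw [sum_const, Nat.card_Icc, nsmul_eq_mul, Nat.add_sub_cancel] at h1
    have h2 : ((X / g : ℕ) : ℝ) * (4 * (U:ℝ) ^ 2) ≤ (X:ℝ) / g * (4 * (U:ℝ) ^ 2) :=
      mul_le_mul_of_nonneg_right hWr (by positivity)
    have h3 : (X:ℝ) / g * (4 * (U:ℝ) ^ 2) = 4 * (X:ℝ) * (U:ℝ) ^ 2 * (1 / (g:ℝ)) := by ring
    linarith
  · left
    exact h

private lemma T_good (θ : ℝ) (X G U : ℕ) (η R : ℝ) (hU : 1 ≤ U) (hR : 1 ≤ R)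
    (hG2 : G * G ≤ X) (hGeta : 8 * R ≤ (G:ℝ) * η) (hG1 : 1 ≤ G) (g : ℕ) (hg : 1 ≤ g ∧ g ≤ G)
    (hnot : ¬ ∃ n ∈ Ico 1 ⌈R⌉₊, dn ((n:ℝ) * (θ * g)) ≤ η / 8) :
    ∑ d ∈ Icc 1 (X / g), hh θ U (g * d) ≤ 200 * (X:ℝ) * ((U:ℝ) ^ 2 * (1 / (U:ℝ) + 1 / R)) * (1 / (g:ℝ)) := by
  have hg0 : (0:ℝ) < g := by exact_mod_cast hg.1
  have hW : G ≤ X / g := by
    rw [Nat.le_div_iff_mul_le hg.1]
    exact (Nat.mul_le_mul_left G hg.2).trans hG2
  have hWr : ((X / g : ℕ) : ℝ) ≤ (X:ℝ) / g := Nat.cast_div_le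
  have hW1 : 1 ≤ X / g := by omega
  have hWG : (G:ℝ) ≤ ((X / g : ℕ) : ℝ) := by exact_mod_cast hW
  have hG0 : (0:ℝ) < G := by exact_mod_cast hG1
  have hret : ∀ n : ℕ, 1 ≤ n → (n:ℝ) < R → R / ((X / g : ℕ) : ℝ) < dn ((n:ℝ) * (θ * g)) := by
    intro n hn1 hnR
    have h1 : η / 8 < dn ((n:ℝ) * (θ * g)) := by
      by_contra hc
      exact hnot ⟨n, by rw [mem_Ico]; exact ⟨hn1, Nat.lt_ceil.2 hnR⟩, not_lt.1 hc⟩
    have hη : 0 < η := by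
      by_contra hc
      have h5 : (G:ℝ) * η ≤ 0 := mul_nonpos_of_nonneg_of_nonpos hG0.le (not_lt.1 hc)
      linarith
    have hWpos : (0:ℝ) < ((X / g : ℕ) : ℝ) := by linarith
    have h2 : R / ((X / g : ℕ) : ℝ) ≤ η / 8 := by
      rw [div_le_iff₀ hWpos]
      nlinarith
    linarith
  have h1 := equi_sum (θ * g) (X / g) U R hW1 hU hR hret
  have h3 : ∑ d ∈ Icc 1 (X / g), hh θ U (g * d) = ∑ t ∈ Icc 1 (X / g), hh (θ * g) U t :=
    sum_congr rfl fun d _ => hh_mul θ U g d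
  rw [h3]
  refine h1.trans ?_
  have hQ0 : 0 ≤ (U:ℝ) ^ 2 * (1 / (U:ℝ) + 1 / R) := by
    have hR0 : 0 < R := by linarith
    positivity
  have h5 : ((X / g : ℕ) : ℝ) * (200 * ((U:ℝ) ^ 2 * (1 / (U:ℝ) + 1 / R)))
      ≤ ((X:ℝ) / g) * (200 * ((U:ℝ) ^ 2 * (1 / (U:ℝ) + 1 / R))) :=
    mul_le_mul_of_nonneg_right hWr (by positivity)
  calc _ = ((X / g : ℕ) : ℝ) * (200 * ((U:ℝ) ^ 2 * (1 / (U:ℝ) + 1 / R))) := by ring
    _ ≤ _ := h5
    _ = _ := by ring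

/-- The sum over the bad multipliers. -/
private lemma bad_total (θ : ℝ) (N0 G : ℕ) (η R : ℝ) (hη : 0 < η) (hR : 1 ≤ R) (hRN : R ^ 3 ≤ N0)
    (hMA : ∀ n : ℕ, 1 ≤ n → n ≤ N0 → η ≤ dn ((n:ℝ) * θ)) (bad : ℕ → Prop) [DecidablePred bad]
    (hbad : ∀ g, bad g → ∃ n ∈ Ico 1 ⌈R⌉₊, dn ((n:ℝ) * (θ * g)) ≤ η / 8) :
    ∑ g ∈ Icc 1 G, (if bad g then (1:ℝ) / (g:ℝ) else 0) ≤ (1 / R) * (1 + Real.log G) := by
  classical
  have hR0 : 0 < R := by linarith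
  have hN0R : (1:ℝ) ≤ N0 := by
    have h1 : (1:ℝ) ≤ R ^ 3 := one_le_pow₀ hR
    linarith
  have hN0r : (0:ℝ) < N0 := by linarith
  have hlogG0 : 0 ≤ Real.log G := Real.log_natCast_nonneg G
  have hnN : ∀ n : ℕ, n ∈ Ico 1 ⌈R⌉₊ → n ≤ N0 := by
    intro n hn
    rw [mem_Ico] at hn
    have h1 : (n:ℝ) < R := Nat.lt_ceil.1 hn.2
    have h2 : R ≤ R ^ 3 := by
      have h3 : R ^ 1 ≤ R ^ 3 := pow_le_pow_right₀ hR (by norm_num)
      simpa using h3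
    have h3 : (n:ℝ) ≤ N0 := by linarith
    exact_mod_cast h3
  have h1 : ∀ g ∈ Icc 1 G, (if bad g then (1:ℝ) / (g:ℝ) else 0)
      ≤ ∑ n ∈ Ico 1 ⌈R⌉₊, if dn ((n:ℝ) * (θ * g)) ≤ η / 8 then (1:ℝ) / (g:ℝ) else 0 := by
    intro g _
    have hterm : ∀ n ∈ Ico 1 ⌈R⌉₊, 0 ≤ (if dn ((n:ℝ) * (θ * g)) ≤ η / 8 then (1:ℝ) / (g:ℝ) else 0) := by
      intro n _
      split_ifs <;> positivity
    split_ifs with hb
    · obtain ⟨n, hn, hd⟩ := hbad g hb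
      have h2 := single_le_sum hterm hn
      simpa only [if_pos hd] using h2
    · exact sum_nonneg hterm
  refine (sum_le_sum h1).trans ?_
  rw [sum_comm]
  have h2 : ∀ n ∈ Ico 1 ⌈R⌉₊, ∑ g ∈ Icc 1 G, (if dn ((n:ℝ) * (θ * g)) ≤ η / 8 then (1:ℝ) / (g:ℝ) else 0)
      ≤ (R / N0) * (1 + Real.log G) := by
    intro n hn
    rw [← sum_filter]
    have h3 := bad_sum θ N0 G n η hη (mem_Ico.1 hn).1 (hnN n hn) hMA
    refine h3.trans ?_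
    apply mul_le_mul_of_nonneg_right _ (by linarith)
    apply div_le_div_of_nonneg_right _ hN0r.le
    exact (Nat.lt_ceil.1 (mem_Ico.1 hn).2).le
  refine (sum_le_sum h2).trans ?_
  rw [sum_const, Nat.card_Ico, nsmul_eq_mul, ← mul_assoc]
  have h4 : ((⌈R⌉₊ - 1 : ℕ) : ℝ) ≤ R := by
    have hK1 : 1 ≤ ⌈R⌉₊ := Nat.one_le_ceil_iff.2 hR0
    rw [Nat.cast_sub hK1]
    have h5 := Nat.ceil_lt_add_one hR0.le
    push_cast
    linarith
  have h5 : ((⌈R⌉₊ - 1 : ℕ) : ℝ) * (R / N0) ≤ 1 / R := by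
    have h6 : ((⌈R⌉₊ - 1 : ℕ) : ℝ) * (R / N0) ≤ R * (R / N0) :=
      mul_le_mul_of_nonneg_right h4 (by positivity)
    refine h6.trans ?_
    rw [← mul_div_assoc, div_le_div_iff₀ hN0r hR0]
    nlinarith
  exact mul_le_mul_of_nonneg_right h5 (by linarith)

private lemma log_sqrt_le (X0 G : ℕ) (hX0 : 1 ≤ X0) (hG1 : 1 ≤ G) (hG : G ≤ 8 * X0) :
    1 + Real.log G ≤ 4 * (1 + Real.log X0) := by
  have hX0r : (1:ℝ) ≤ X0 := by exact_mod_cast hX0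
  have hG0 : (0:ℝ) < G := by exact_mod_cast hG1
  have hlogX0 : 0 ≤ Real.log X0 := Real.log_natCast_nonneg X0
  have hGr2 : (G:ℝ) ≤ 8 * X0 := by exact_mod_cast hG
  have h1 : Real.log G ≤ Real.log (8 * X0) := Real.log_le_log hG0 hGr2
  rw [Real.log_mul (by norm_num) (by linarith)] at h1
  have h2 := log_eight_le
  linarith

private lemma case_one_sum (θ : ℝ) (N0 X G U : ℕ) (η R : ℝ) (hU : 1 ≤ U) (hη : 0 < η)
    (hR : 1 ≤ R) (hRN : R ^ 3 ≤ N0) (hMA : ∀ n : ℕ, 1 ≤ n → n ≤ N0 → η ≤ dn ((n:ℝ) * θ))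
    (hG2 : G * G ≤ X) (hGeta : 8 * R ≤ (G:ℝ) * η) (hG1 : 1 ≤ G) (Q : ℝ)
    (hQ : Q = (U:ℝ) ^ 2 * (1 / (U:ℝ) + 1 / R)) :
    ∑ g ∈ Icc 1 G, ∑ d ∈ Icc 1 (X / g), hh θ U (g * d)
      ≤ 200 * (X:ℝ) * Q * (1 + Real.log G) + 4 * (X:ℝ) * (U:ℝ) ^ 2 * ((1 / R) * (1 + Real.log G)) := by
  classical
  have hR0 : 0 < R := by linarith
  have hQ0 : 0 ≤ Q := by rw [hQ]; positivity
  set bad : ℕ → Prop := fun g => ∃ n ∈ Ico 1 ⌈R⌉₊, dn ((n:ℝ) * (θ * g)) ≤ η / 8 with hbaddef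
  have hT : ∀ g ∈ Icc 1 G, ∑ d ∈ Icc 1 (X / g), hh θ U (g * d)
      ≤ 200 * (X:ℝ) * Q * (1 / (g:ℝ)) + 4 * (X:ℝ) * (U:ℝ) ^ 2 * (if bad g then (1:ℝ) / (g:ℝ) else 0) := by
    intro g hg
    rw [mem_Icc] at hg
    have hg0 : (0:ℝ) < g := by exact_mod_cast hg.1
    have hmain : 0 ≤ 200 * (X:ℝ) * Q * (1 / (g:ℝ)) := by positivity
    by_cases hb : bad g
    · rw [if_pos hb]
      have h1 := T_bound θ X G U η R hU hη hR hG2 hGeta hG1 g hg (Or.inl hb)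
      rw [← hQ] at h1
      have h2 : 0 ≤ 4 * (X:ℝ) * (U:ℝ) ^ 2 * (1 / (g:ℝ)) := by positivity
      rcases h1 with h1 | h1 <;> linarith
    · rw [if_neg hb, mul_zero, add_zero, hQ]
      exact T_good θ X G U η R hU hR hG2 hGeta hG1 g hg hb
  refine (sum_le_sum hT).trans ?_
  rw [sum_add_distrib, ← mul_sum, ← mul_sum]
  have hH := sum_inv_le G
  have h2 : 200 * (X:ℝ) * Q * ∑ g ∈ Icc 1 G, (1:ℝ) / (g:ℝ) ≤ 200 * (X:ℝ) * Q * (1 + Real.log G) :=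
    mul_le_mul_of_nonneg_left hH (by positivity)
  have h4 := bad_total θ N0 G η R hη hR hRN hMA bad (fun g hg => hg)
  have h3 : 4 * (X:ℝ) * (U:ℝ) ^ 2 * ∑ g ∈ Icc 1 G, (if bad g then (1:ℝ) / (g:ℝ) else 0)
      ≤ 4 * (X:ℝ) * (U:ℝ) ^ 2 * ((1 / R) * (1 + Real.log G)) :=
    mul_le_mul_of_nonneg_left h4 (by positivity)
  linarith

private lemma arith_one (X0 X Q Uq Rinv H H' L : ℝ) (hX : X = 8 * X0) (hX0 : 0 ≤ X0) (hQ0 : 0 ≤ Q)
    (hU : Uq * Rinv ≤ Q) (hH : 0 ≤ H) (hHH : H ≤ 4 * L) (_hH' : H' = H)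
    (S : ℝ) (hS : S ≤ 200 * X * Q * H + 4 * X * Uq * (Rinv * H)) :
    2 * S ≤ 13056 * (X0 * (Q * L)) := by
  subst hX
  have h1 : 4 * (8 * X0) * Uq * (Rinv * H) ≤ 4 * (8 * X0) * Q * H := by
    have h2 : 4 * (8 * X0) * (Uq * Rinv) * H ≤ 4 * (8 * X0) * Q * H :=
      mul_le_mul_of_nonneg_right (mul_le_mul_of_nonneg_left hU (by positivity)) hH
    calc _ = 4 * (8 * X0) * (Uq * Rinv) * H := by ring
      _ ≤ _ := h2
  have h3 : (X0 * Q) * H ≤ (X0 * Q) * (4 * L) := mul_le_mul_of_nonneg_left hHH (by positivity)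
  nlinarith

/-- First case: `X0` large. -/
lemma tau_sum_case_one (θ : ℝ) (N0 X0 U : ℕ) (η R : ℝ) (hX0 : 1 ≤ X0) (hU : 1 ≤ U) (hη : 0 < η) (hη1 : η ≤ 1)
    (hR : 1 ≤ R) (hRN : R ^ 3 ≤ N0) (hMA : ∀ n : ℕ, 1 ≤ n → n ≤ N0 → η ≤ dn ((n:ℝ) * θ))
    (hcase : 16 * R ^ 2 / η ^ 2 ≤ X0) :
    ∑ m ∈ Ico 1 (8 * X0), (m.divisors.card : ℝ) * hh θ U m
      ≤ 100000 * (X0:ℝ) * (U:ℝ) ^ 2 * (1 + Real.log (X0:ℝ)) * (1 / (U:ℝ) + 1 / R) := by
  obtain ⟨hGeta, hG1, hGle⟩ := sqrt_large X0 η R hη hη1 hR hcase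
  have hstart := tau_hyperbola (hh θ U) (hh_nonneg θ U) (8 * X0)
  have hG2 : Nat.sqrt (8 * X0) * Nat.sqrt (8 * X0) ≤ 8 * X0 := Nat.sqrt_le (8 * X0)
  have hsum := case_one_sum θ N0 (8 * X0) (Nat.sqrt (8 * X0)) U η R hU hη hR hRN hMA hG2 hGeta hG1 _ rfl
  have hlogG := log_sqrt_le X0 (Nat.sqrt (8 * X0)) hX0 hG1 hGle
  have hX0r : (1:ℝ) ≤ X0 := by exact_mod_cast hX0
  have hR0 : 0 < R := by linarith
  have hlogX0 : 0 ≤ Real.log X0 := Real.log_natCast_nonneg X0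
  have hlogG0 : 0 ≤ Real.log (Nat.sqrt (8 * X0)) := Real.log_natCast_nonneg _
  have hXr : ((8 * X0 : ℕ):ℝ) = 8 * (X0:ℝ) := by push_cast; ring
  have hU2R : (U:ℝ) ^ 2 * (1 / R) ≤ (U:ℝ) ^ 2 * (1 / (U:ℝ) + 1 / R) := by
    apply mul_le_mul_of_nonneg_left _ (by positivity)
    have h1 : 0 ≤ 1 / (U:ℝ) := by positivity
    linarith
  have h := arith_one (X0:ℝ) ((8 * X0 : ℕ):ℝ) _ _ _ _ _ _ hXr (by linarith)
    (by positivity) hU2R (by linarith : 0 ≤ 1 + Real.log (Nat.sqrt (8 * X0))) hlogG rfl _ hsum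
  have hP : 0 ≤ (X0:ℝ) * ((U:ℝ) ^ 2 * (1 / (U:ℝ) + 1 / R) * (1 + Real.log X0)) := by positivity
  calc _ ≤ 2 * ∑ g ∈ Icc 1 (Nat.sqrt (8 * X0)), ∑ d ∈ Icc 1 (8 * X0 / g), hh θ U (g * d) := hstart
    _ ≤ 13056 * ((X0:ℝ) * ((U:ℝ) ^ 2 * (1 / (U:ℝ) + 1 / R) * (1 + Real.log X0))) := h
    _ ≤ 100000 * ((X0:ℝ) * ((U:ℝ) ^ 2 * (1 / (U:ℝ) + 1 / R) * (1 + Real.log X0))) :=
        mul_le_mul_of_nonneg_right (by norm_num) hP
    _ = _ := by ring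

private lemma part_A (θ : ℝ) (X0 U : ℕ) (R s : ℝ) (hX0 : 1 ≤ X0) (hR0 : 0 < R) (hs0 : 0 < s)
    (hs3 : 1 / (4 * s ^ 2) = (U:ℝ) ^ 2 / (4 * R)) (A : Finset ℕ) (hA : A ⊆ Ico 1 (8 * X0))
    (hAs : ∀ m ∈ A, s ≤ dn (θ * m)) :
    ∑ m ∈ A, (m.divisors.card : ℝ) * hh θ U m ≤ 8 * (X0:ℝ) * (U:ℝ) ^ 2 * (1 + Real.log X0) * (1 / R) := by
  have hX0r : (1:ℝ) ≤ X0 := by exact_mod_cast hX0
  have hlogX0 : 0 ≤ Real.log X0 := Real.log_natCast_nonneg X0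
  have h1 : ∑ m ∈ A, (m.divisors.card : ℝ) * hh θ U m
      ≤ ∑ m ∈ A, (m.divisors.card : ℝ) * ((U:ℝ) ^ 2 / (4 * R)) := by
    apply sum_le_sum
    intro m hm
    have h2 := hh_le_of_dn θ U m s hs0 (hAs m hm)
    rw [hs3] at h2
    exact mul_le_mul_of_nonneg_left h2 (Nat.cast_nonneg _)
  refine h1.trans ?_
  rw [← sum_mul]
  have h2 : ∑ m ∈ A, (m.divisors.card : ℝ) ≤ ∑ m ∈ Ico 1 (8 * X0), (m.divisors.card : ℝ) :=
    sum_le_sum_of_subset_of_nonneg hA (fun _ _ _ => Nat.cast_nonneg _)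
  have h3 := tau_sum_le (8 * X0)
  have hXr : ((8 * X0 : ℕ):ℝ) = 8 * (X0:ℝ) := by push_cast; ring
  rw [hXr] at h3
  have h4 : Real.log (8 * (X0:ℝ)) ≤ 3 + Real.log X0 := by
    rw [Real.log_mul (by norm_num) (by linarith)]
    have h5 := log_eight_le
    linarith
  have h5 : ∑ m ∈ A, (m.divisors.card : ℝ) ≤ 8 * (X0:ℝ) * (4 * (1 + Real.log X0)) := by
    refine h2.trans (h3.trans ?_)
    apply mul_le_mul_of_nonneg_left _ (by positivity)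
    linarith
  calc _ ≤ 8 * (X0:ℝ) * (4 * (1 + Real.log X0)) * ((U:ℝ) ^ 2 / (4 * R)) :=
        mul_le_mul_of_nonneg_right h5 (by positivity)
    _ = _ := by field_simp

private lemma part_B (θ : ℝ) (N0 X0 U : ℕ) (η R δ C₀ : ℝ) (hδ0 : 0 < δ) (hC₀ : 0 < C₀) (hX0 : 1 ≤ X0)
    (hR : 1 ≤ R) (hRN : R ^ 3 ≤ N0) (hδ1 : δ ≤ 1) (hXN : (X0:ℝ) ^ δ ≤ (N0:ℝ) ^ ((1:ℝ) / 4))
    (hτ : ∀ n : ℕ, 1 ≤ n → (n.divisors.card : ℝ) ≤ C₀ * (n:ℝ) ^ δ)
    (hMA : ∀ n : ℕ, 1 ≤ n → n ≤ N0 → η ≤ dn ((n:ℝ) * θ)) (B : Finset ℕ)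
    (hB : ∀ m ∈ B, m < 8 * X0 ∧ 1 ≤ m ∧ dn (θ * m) < η / 2) :
    ∑ m ∈ B, (m.divisors.card : ℝ) * hh θ U m
      ≤ 256 * C₀ * (X0:ℝ) * (U:ℝ) ^ 2 * (1 + Real.log X0) * (1 / R) := by
  have hX0r : (1:ℝ) ≤ X0 := by exact_mod_cast hX0
  have hR0 : 0 < R := by linarith
  have hN0R : (1:ℝ) ≤ N0 := by
    have h1 : (1:ℝ) ≤ R ^ 3 := one_le_pow₀ hR
    linarith
  have hN01 : 1 ≤ N0 := by exact_mod_cast hN0R
  have hN0r : (0:ℝ) < N0 := by linarith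
  have hlogX0 : 0 ≤ Real.log X0 := Real.log_natCast_nonneg X0
  generalize hw : (N0:ℝ) ^ ((1:ℝ) / 4) = w at hXN
  have hw1 : 1 ≤ w := by
    rw [← hw]
    exact Real.one_le_rpow hN0R (by norm_num)
  have hw4 : w ^ 4 = N0 := by
    rw [← hw, ← Real.rpow_natCast, ← Real.rpow_mul hN0r.le]
    norm_num
  have hRw : R ≤ w ^ 3 := by
    by_contra hc
    have h1 : w ^ 3 < R := not_le.1 hc
    have h2 : (w ^ 3) ^ 3 < R ^ 3 := pow_lt_pow_left₀ h1 (by positivity) (by norm_num)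
    have h3 : w ^ 4 ≤ (w ^ 3) ^ 3 := by
      rw [← pow_mul]
      exact pow_le_pow_right₀ hw1 (by norm_num)
    linarith
  have hXr : ((8 * X0 : ℕ):ℝ) = 8 * (X0:ℝ) := by push_cast; ring
  have hXδ : ((8 * X0 : ℕ):ℝ) ^ δ ≤ 8 * w := by
    rw [hXr, Real.mul_rpow (by norm_num) (by linarith)]
    have h1 : (8:ℝ) ^ δ ≤ 8 := by
      calc (8:ℝ) ^ δ ≤ (8:ℝ) ^ (1:ℝ) := Real.rpow_le_rpow_of_exponent_le (by norm_num) hδ1
        _ = 8 := Real.rpow_one 8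
    have h3 : (0:ℝ) ≤ (X0:ℝ) ^ δ := by positivity
    have h4 : (0:ℝ) ≤ (8:ℝ) ^ δ := by positivity
    nlinarith
  have hBcard : (B.card : ℝ) ≤ ((8 * X0 : ℕ):ℝ) / N0 := sparse_card θ N0 (8 * X0) η hN01 hMA B hB
  have h1 : ∀ m ∈ B, (m.divisors.card : ℝ) * hh θ U m ≤ (C₀ * (8 * w)) * (4 * (U:ℝ) ^ 2) := by
    intro m hm
    obtain ⟨hm2, hm1, _⟩ := hB m hm
    have h2 := hτ m hm1
    have hm0 : (0:ℝ) < m := by exact_mod_cast hm1
    have h3 : (m:ℝ) ^ δ ≤ ((8 * X0 : ℕ):ℝ) ^ δ := by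
      apply Real.rpow_le_rpow hm0.le _ hδ0.le
      exact_mod_cast hm2.le
    have h4 : (m.divisors.card : ℝ) ≤ C₀ * (8 * w) :=
      h2.trans (mul_le_mul_of_nonneg_left (h3.trans hXδ) hC₀.le)
    exact mul_le_mul h4 (hh_le_top θ U m) (hh_nonneg θ U m) (by positivity)
  have h2 := sum_le_sum h1
  rw [sum_const, nsmul_eq_mul] at h2
  refine h2.trans ?_
  have hw0 : 0 < w := by linarith
  have h3 : (B.card : ℝ) * ((C₀ * (8 * w)) * (4 * (U:ℝ) ^ 2)) ≤ (((8 * X0 : ℕ):ℝ) / N0) * ((C₀ * (8 * w)) * (4 * (U:ℝ) ^ 2)) :=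
    mul_le_mul_of_nonneg_right hBcard (by positivity)
  refine h3.trans ?_
  rw [hXr]
  have h4 : w / N0 ≤ 1 / R := by
    rw [div_le_div_iff₀ hN0r hR0, ← hw4]
    have h5 : w * R ≤ w * w ^ 3 := mul_le_mul_of_nonneg_left hRw (by linarith)
    calc w * R ≤ w * w ^ 3 := h5
      _ = 1 * w ^ 4 := by ring
  have h5 : 8 * (X0:ℝ) / N0 * (C₀ * (8 * w) * (4 * (U:ℝ) ^ 2)) = 256 * C₀ * (X0:ℝ) * (U:ℝ) ^ 2 * (w / N0) := by
    ring
  rw [h5]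
  have h6 : 256 * C₀ * (X0:ℝ) * (U:ℝ) ^ 2 * (w / N0) ≤ 256 * C₀ * (X0:ℝ) * (U:ℝ) ^ 2 * (1 / R) :=
    mul_le_mul_of_nonneg_left h4 (by positivity)
  refine h6.trans ?_
  have h7 : 0 ≤ 256 * C₀ * (X0:ℝ) * (U:ℝ) ^ 2 * (1 / R) := by positivity
  have h8 : 256 * C₀ * (X0:ℝ) * (U:ℝ) ^ 2 * (1 + Real.log X0) * (1 / R)
      = (256 * C₀ * (X0:ℝ) * (U:ℝ) ^ 2 * (1 / R)) * (1 + Real.log X0) := by ring
  rw [h8]
  have h9 : (1:ℝ) ≤ 1 + Real.log X0 := by linarith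
  calc _ = 256 * C₀ * (X0:ℝ) * (U:ℝ) ^ 2 * (1 / R) * 1 := by ring
    _ ≤ _ := mul_le_mul_of_nonneg_left h9 h7

/-- Second case: `U` large. -/
lemma tau_sum_case_two (D : ℝ) (hD : 1 ≤ D) : ∃ C : ℝ, 0 < C ∧ ∀ (θ : ℝ) (N0 X0 U : ℕ) (η R : ℝ),
    1 ≤ X0 → 1 ≤ U → 0 < η → η ≤ 1 → 1 ≤ R → R ^ 3 ≤ N0 → (X0:ℝ) ≤ (N0:ℝ) ^ D →
    (∀ n : ℕ, 1 ≤ n → n ≤ N0 → η ≤ dn ((n:ℝ) * θ)) → 2 * Real.sqrt R / η ≤ U →
    ∑ m ∈ Ico 1 (8 * X0), (m.divisors.card : ℝ) * hh θ U m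
      ≤ C * (X0:ℝ) * (U:ℝ) ^ 2 * (1 + Real.log (X0:ℝ)) * (1 / R) := by
  have hD0 : 0 < D := by linarith
  obtain ⟨δ, hδ⟩ : ∃ δ : ℝ, δ = 1 / (4 * D) := ⟨_, rfl⟩
  have hδ0 : 0 < δ := by rw [hδ]; positivity
  have hδ1 : δ ≤ 1 := by
    rw [hδ, div_le_one (by positivity)]
    linarith
  obtain ⟨C₀, hC₀, hτ⟩ := tau_le δ hδ0
  refine ⟨8 + 256 * C₀, by positivity, ?_⟩
  intro θ N0 X0 U η R hX0 hU hη hη1 hR hRN hXN hMA hUbig
  have hX0r : (1:ℝ) ≤ X0 := by exact_mod_cast hX0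
  have hUr : (1:ℝ) ≤ U := by exact_mod_cast hU
  have hU0 : (0:ℝ) < U := by linarith
  have hR0 : 0 < R := by linarith
  have hN0R : (1:ℝ) ≤ N0 := by
    have h1 : (1:ℝ) ≤ R ^ 3 := one_le_pow₀ hR
    linarith
  have hN0r : (0:ℝ) < N0 := by linarith
  obtain ⟨s, hs⟩ : ∃ s : ℝ, s = Real.sqrt R / U := ⟨_, rfl⟩
  have hsqrt : 0 < Real.sqrt R := Real.sqrt_pos.2 hR0
  have hs0 : 0 < s := by rw [hs]; positivity
  have hs2 : s ≤ η / 2 := by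
    rw [div_le_iff₀ hη] at hUbig
    rw [hs, div_le_iff₀ hU0]
    linarith
  have hs3 : 1 / (4 * s ^ 2) = (U:ℝ) ^ 2 / (4 * R) := by
    rw [hs, div_pow, Real.sq_sqrt hR0.le]
    field_simp
  have hXN' : (X0:ℝ) ^ δ ≤ (N0:ℝ) ^ ((1:ℝ) / 4) := by
    calc (X0:ℝ) ^ δ ≤ ((N0:ℝ) ^ D) ^ δ := Real.rpow_le_rpow (by linarith) hXN hδ0.le
      _ = _ := by
        rw [← Real.rpow_mul hN0r.le]
        congr 1
        rw [hδ]
        field_simp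
  classical
  have hsplit := (sum_filter_add_sum_filter_not (Ico 1 (8 * X0)) (fun m : ℕ => s ≤ dn (θ * m))
    (fun m : ℕ => (m.divisors.card : ℝ) * hh θ U m)).symm
  rw [hsplit]
  have hAle := part_A θ X0 U R s hX0 hR0 hs0 hs3 ((Ico 1 (8 * X0)).filter (fun m : ℕ => s ≤ dn (θ * m)))
    (filter_subset _ _) (fun m hm => (mem_filter.1 hm).2)
  have hBle := part_B θ N0 X0 U η R δ C₀ hδ0 hC₀ hX0 hR hRN hδ1 hXN' hτ hMA
    ((Ico 1 (8 * X0)).filter (fun m : ℕ => ¬ s ≤ dn (θ * m))) (by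
      intro m hm
      rw [mem_filter, mem_Ico] at hm
      refine ⟨hm.1.2, hm.1.1, ?_⟩
      have h1 := not_le.1 hm.2
      linarith)
  calc _ ≤ 8 * (X0:ℝ) * (U:ℝ) ^ 2 * (1 + Real.log X0) * (1 / R)
        + 256 * C₀ * (X0:ℝ) * (U:ℝ) ^ 2 * (1 + Real.log X0) * (1 / R) := add_le_add hAle hBle
    _ = _ := by ring

/-- The off-diagonal bound. -/
theorem p1_bound (D : ℝ) (hD : 1 ≤ D) : ∃ C : ℝ, 0 < C ∧ ∀ (θ : ℝ) (N0 X0 U : ℕ) (η R : ℝ),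
    1 ≤ X0 → 1 ≤ U → 0 < η → η ≤ 1 → 1 ≤ R → R ^ 3 ≤ N0 → (X0:ℝ) ≤ (N0:ℝ) ^ D →
    (∀ n : ℕ, 1 ≤ n → n ≤ N0 → η ≤ dn ((n:ℝ) * θ)) →
    (16 * R ^ 2 / η ^ 2 ≤ X0 ∨ 2 * Real.sqrt R / η ≤ U) →
    ∑ x ∈ Ico X0 (8 * X0), ∑ x' ∈ (Ico X0 (8 * X0)).filter (· ≠ x),
        (Nat.gcd x x' : ℝ) * hh θ U (max x x' - min x x')
      ≤ C * (X0:ℝ) ^ 2 * (U:ℝ) ^ 2 * (1 + Real.log (X0:ℝ)) * (1 / (U:ℝ) + 1 / R) := by
  obtain ⟨C, hC, hcase2⟩ := tau_sum_case_two D hD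
  refine ⟨28 * (100000 + C), by positivity, ?_⟩
  intro θ N0 X0 U η R hX0 hU hη hη1 hR hRN hXN hMA hcase
  have hX0r : (1:ℝ) ≤ X0 := by exact_mod_cast hX0
  have hUr : (1:ℝ) ≤ U := by exact_mod_cast hU
  have hR0 : 0 < R := by linarith
  have hlogX0 : 0 ≤ Real.log X0 := Real.log_natCast_nonneg X0
  have hstart := gcd_to_tau (hh θ U) (hh_nonneg θ U) X0 hX0
  set Z : ℝ := (X0:ℝ) * (U:ℝ) ^ 2 * (1 + Real.log (X0:ℝ)) * (1 / (U:ℝ) + 1 / R) with hZ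
  have hZ0 : 0 ≤ Z := by positivity
  have hmid : ∑ m ∈ Ico 1 (8 * X0), (m.divisors.card : ℝ) * hh θ U m ≤ (100000 + C) * Z := by
    rcases hcase with hc | hc
    · have h1 := tau_sum_case_one θ N0 X0 U η R hX0 hU hη hη1 hR hRN hMA hc
      have h2 : 100000 * (X0:ℝ) * (U:ℝ) ^ 2 * (1 + Real.log (X0:ℝ)) * (1 / (U:ℝ) + 1 / R) = 100000 * Z := by
        rw [hZ]; ring
      rw [h2] at h1
      nlinarith
    · have h1 := hcase2 θ N0 X0 U η R hX0 hU hη hη1 hR hRN hXN hMA hc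
      have h2 : C * (X0:ℝ) * (U:ℝ) ^ 2 * (1 + Real.log (X0:ℝ)) * (1 / R) ≤ C * Z := by
        rw [hZ]
        have h3 : (0:ℝ) ≤ C * (X0:ℝ) * (U:ℝ) ^ 2 * (1 + Real.log (X0:ℝ)) := by positivity
        have h4 : 1 / R ≤ 1 / (U:ℝ) + 1 / R := by
          have : 0 ≤ 1 / (U:ℝ) := by positivity
          linarith
        have h5 := mul_le_mul_of_nonneg_left h4 h3
        calc _ ≤ _ := h5
          _ = _ := by ring
      nlinarith
  calc _ ≤ 28 * (X0:ℝ) * ∑ m ∈ Ico 1 (8 * X0), (m.divisors.card : ℝ) * hh θ U m := hstart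
    _ ≤ 28 * (X0:ℝ) * ((100000 + C) * Z) := mul_le_mul_of_nonneg_left hmid (by positivity)
    _ = _ := by rw [hZ]; ring

end

end Vale.Agent.Lib.P028K
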