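import Vale.Agent.Lib.P028K.HyperCor

/-! Part ZLevel: diagonal and off-diagonal of the square function. -/

open Finset

namespace Vale.Agent.Lib.P028K

open Vale.Agent.Lib.P028
open Vale.Agent.Lib.P028T

noncomputable section

variable {B M : ℕ} [NeZero M]

private lemma sm_mul_rg (P x : ℕ) (hx : x ≠ 0) : smP P x * rgP P x = x := by
  unfold smP rgP
  have h : (x.primeFactors.filter (P ≤ ·)) = x.primeFactors.filter (fun p => ¬ p < P) := by
    apply filter_congr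
    intro p _
    simp
  rw [h, prod_filter_mul_prod_filter_not]
  have := Nat.prod_factorization_pow_eq_self hx
  rwa [Finsupp.prod, Nat.support_factorization] at this

omit [NeZero M] in
private lemma fits_of_dvd {d x : ℕ} (h : Fits B M x) (hd : d ∣ x) : Fits B M d := by
  obtain ⟨hx, hp, hf⟩ := h
  have hd0 : d ≠ 0 := by
    rintro rfl
    exact hx (Nat.eq_zero_of_zero_dvd hd)
  refine ⟨hd0, fun p hpd => hp p (Nat.primeFactors_mono hd hx hpd), fun p => ?_⟩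
  have h1 := (Nat.factorization_le_iff_dvd hd0 hx).2 hd p
  have h2 := hf p
  omega

private lemma rep_count (s X0 c c' : ℕ) (T : Finset (ℕ × ℕ)) (hc : c ≠ 0) (hX0 : 1 ≤ X0)
    (hX : X0 ≤ s * c) (hT : ∀ p ∈ T, X0 ≤ s * p.1 ∧ s * p.1 < 8 * X0) :
    ((T.filter (fun p' => p'.1 * c' = p'.2 * c)).card : ℝ) ≤ 8 * (Nat.gcd c c' : ℝ) := by
  have hg : 0 < Nat.gcd c c' := Nat.gcd_pos_of_pos_left _ (Nat.pos_of_ne_zero hc)
  obtain ⟨u, v, huv, hcu, hcv⟩ := Nat.exists_coprime c c'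
  set g := Nat.gcd c c' with hgdef
  have hu : 0 < u := by
    rcases Nat.eq_zero_or_pos u with h | h
    · rw [h, zero_mul] at hcu
      exact absurd hcu hc
    · exact h
  have hs : 0 < s := by
    rcases Nat.eq_zero_or_pos s with h | h
    · rw [h, zero_mul] at hX
      omega
    · exact h
  have hw : 0 < s * u := Nat.mul_pos hs hu
  have hXw : X0 ≤ s * u * g := by
    calc X0 ≤ s * c := hX
      _ = s * u * g := by rw [hcu, mul_assoc]
  set F := T.filter (fun p' => p'.1 * c' = p'.2 * c) with hF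
  have hform : ∀ p ∈ F, ∃ t, p.1 = u * t ∧ p.2 = t * v := by
    intro p hp
    have h1 := (mem_filter.1 hp).2
    have h2 : p.1 * v = p.2 * u := by
      have : (p.1 * v) * g = (p.2 * u) * g := by
        calc (p.1 * v) * g = p.1 * (v * g) := by ring
          _ = p.1 * c' := by rw [← hcv]
          _ = p.2 * c := h1
          _ = p.2 * (u * g) := by rw [← hcu]
          _ = (p.2 * u) * g := by ring
      exact Nat.eq_of_mul_eq_mul_right hg this
    have h3 : u ∣ p.1 := by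
      have : u ∣ p.1 * v := ⟨p.2, by rw [h2]; ring⟩
      exact huv.dvd_of_dvd_mul_right this
    obtain ⟨t, ht⟩ := h3
    refine ⟨t, ht, ?_⟩
    have : p.2 * u = (t * v) * u := by
      rw [← h2, ht]; ring
    exact Nat.eq_of_mul_eq_mul_right hu this
  have hinj : Set.InjOn (fun p : ℕ × ℕ => p.1 / u) (F : Set (ℕ × ℕ)) := by
    intro p hp q hq hpq
    obtain ⟨t, h1, h2⟩ := hform p hp
    obtain ⟨t', h1', h2'⟩ := hform q hq
    simp only at hpq
    rw [h1, h1', Nat.mul_div_cancel_left _ hu, Nat.mul_div_cancel_left _ hu] at hpq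
    apply Prod.ext
    · rw [h1, h1', hpq]
    · rw [h2, h2', hpq]
  have hcard : F.card ≤ 7 * g := by
    rw [← card_image_of_injOn hinj]
    set Tt := F.image (fun p : ℕ × ℕ => p.1 / u) with hTt
    have hbd : ∀ t ∈ Tt, X0 ≤ s * u * t ∧ s * u * t < 8 * X0 := by
      intro t ht
      obtain ⟨p, hp, rfl⟩ := mem_image.1 ht
      obtain ⟨t', h1, _⟩ := hform p hp
      have h3 := hT p (mem_filter.1 hp).1
      have : s * u * (p.1 / u) = s * p.1 := by
        rw [h1, Nat.mul_div_cancel_left _ hu]; ring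
      rw [this]
      exact h3
    by_cases hne : Tt.Nonempty
    · set t0 := Tt.min' hne with ht0
      have hsub : Tt ⊆ Ico t0 (t0 + 7 * g) := by
        intro t ht
        refine mem_Ico.2 ⟨min'_le _ _ ht, ?_⟩
        have h1 := (hbd t ht).2
        have h2 := (hbd t0 (min'_mem _ _)).1
        have h3 : s * u * t < s * u * (t0 + 7 * g) := by
          have : s * u * (t0 + 7 * g) = s * u * t0 + 7 * (s * u * g) := by ring
          rw [this]
          omega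
        exact Nat.lt_of_mul_lt_mul_left h3
      have := card_le_card hsub
      simpa using this
    · rw [not_nonempty_iff_eq_empty] at hne
      rw [hne]
      simp
  have h7 : ((F.card : ℕ) : ℝ) ≤ ((7 * g : ℕ) : ℝ) := by exact_mod_cast hcard
  have hg0 : (0:ℝ) ≤ (g : ℝ) := by positivity
  push_cast at h7
  linarith

private lemma sq_norm_sum_expand {ι : Type*} (A : Finset ι) (a : ι → ℂ) :
    (((‖∑ x ∈ A, a x‖ ^ 2 : ℝ)) : ℂ)
      = ∑ x ∈ A, ∑ x' ∈ A, a x * (starRingEnd ℂ) (a x') := by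
  push_cast
  rw [← Complex.mul_conj', map_sum, Finset.sum_mul_sum]

/-- Only pairs in the same block occur; they are all bounded through `P1` over all pairs.
Blueprint section 5. -/
theorem zlevel (k : ℕ) (hk : 1 ≤ k) (lam : ℝ) (hlam : 50 * (k:ℝ) ≤ lam) (P j X0 : ℕ) (hX0 : 1 ≤ X0)
    (Sm b N Ys : Finset ℕ) (c : ℕ → ℕ → ℂ) (blk : ℕ → ℕ)
    (hb : ∀ x ∈ b, X0 ≤ x ∧ x < 8 * X0 ∧ Fits B M x ∧ smP P x ∈ Sm ∧ OO (rgP P x) ≤ j) :
    nr k (fun ω : Om B M => ∑ y ∈ Ys, ∑ n ∈ N, ‖∑ x ∈ b.filter (fun x => blk x = y), ff ω x * c n x‖ ^ 2)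
      ≤ ∑ x ∈ b, ∑ n ∈ N, ‖c n x‖ ^ 2 + 3 * (Sm.card : ℝ) * lam ^ j * Real.sqrt
          (∑ x ∈ b, ∑ x' ∈ b.filter (· ≠ x), (Nat.gcd x x' : ℝ) *
            ‖∑ n ∈ N, c n x * (starRingEnd ℂ) (c n x')‖ ^ 2) := by
  classical
  have hk1 : (1:ℝ) ≤ (k:ℝ) := by exact_mod_cast hk
  have hlam1 : 1 ≤ lam := by linarith
  have hlam0 : 0 ≤ lam := by linarith
  set Γ : ℕ → ℕ → ℂ := fun x x' => ∑ n ∈ N, c n x * (starRingEnd ℂ) (c n x') with hΓ
  set W' : Finset (ℕ × ℕ) := (b ×ˢ b).filter (fun p => blk p.1 = blk p.2 ∧ blk p.1 ∈ Ys) with hW'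
  set W : Finset (ℕ × ℕ) := W'.filter (fun p => ¬ p.1 = p.2) with hW
  set Z : Om B M → ℂ := fun ω =>
    ∑ p ∈ W, ff ω p.1 * (starRingEnd ℂ) (ff ω p.2) * Γ p.1 p.2 with hZ
  set D' : ℝ := ∑ x ∈ b.filter (fun x => blk x ∈ Ys), ∑ n ∈ N, ‖c n x‖ ^ 2 with hD'
  have hD'le : D' ≤ ∑ x ∈ b, ∑ n ∈ N, ‖c n x‖ ^ 2 :=
    sum_le_sum_of_subset_of_nonneg (filter_subset _ _)
      (fun _ _ _ => sum_nonneg (fun _ _ => by positivity))
  have hD'0 : 0 ≤ D' := sum_nonneg (fun _ _ => sum_nonneg (fun _ _ => by positivity))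
  -- Step A: the pointwise expansion
  have hexp : ∀ ω : Om B M,
      (((∑ y ∈ Ys, ∑ n ∈ N, ‖∑ x ∈ b.filter (fun x => blk x = y), ff ω x * c n x‖ ^ 2 : ℝ)) : ℂ)
        = (D' : ℂ) + Z ω := by
    intro ω
    set A : ℕ × ℕ → ℂ := fun p => ff ω p.1 * (starRingEnd ℂ) (ff ω p.2) * Γ p.1 p.2 with hA
    have h1 : ∀ y ∈ Ys, (((∑ n ∈ N, ‖∑ x ∈ b.filter (fun x => blk x = y), ff ω x * c n x‖ ^ 2 : ℝ)) : ℂ)
        = ∑ p ∈ W'.filter (fun p => blk p.1 = y), A p := by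
      intro y hy
      rw [Complex.ofReal_sum]
      simp_rw [sq_norm_sum_expand]
      rw [sum_comm]
      have hset : W'.filter (fun p => blk p.1 = y)
          = (b.filter (fun x => blk x = y)) ×ˢ (b.filter (fun x => blk x = y)) := by
        ext p
        simp only [hW', mem_filter, mem_product]
        constructor
        · rintro ⟨⟨⟨h1, h2⟩, h3, _⟩, h5⟩
          exact ⟨⟨h1, h5⟩, h2, by rw [← h3]; exact h5⟩
        · rintro ⟨⟨h1, h2⟩, h3, h4⟩
          exact ⟨⟨⟨h1, h3⟩, by rw [h2, h4], by rw [h2]; exact hy⟩, h2⟩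
      rw [hset, sum_product]
      apply sum_congr rfl
      intro x _
      rw [sum_comm]
      apply sum_congr rfl
      intro x' _
      simp only [hA, hΓ]
      rw [mul_sum]
      apply sum_congr rfl
      intro n _
      rw [map_mul]
      ring
    have h2 : ∑ y ∈ Ys, ∑ p ∈ W'.filter (fun p => blk p.1 = y), A p = ∑ p ∈ W', A p :=
      sum_fiberwise_of_maps_to (fun p hp => (mem_filter.1 hp).2.2) _
    have h3 : ∑ p ∈ W', A p = ∑ p ∈ W'.filter (fun p => p.1 = p.2), A p + Z ω :=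
      (sum_filter_add_sum_filter_not W' (fun p => p.1 = p.2) A).symm
    have h4 : ∑ p ∈ W'.filter (fun p => p.1 = p.2), A p = (D' : ℂ) := by
      have hset : W'.filter (fun p => p.1 = p.2)
          = (b.filter (fun x => blk x ∈ Ys)).image (fun x => (x, x)) := by
        ext p
        simp only [hW', mem_filter, mem_product, mem_image]
        constructor
        · rintro ⟨⟨⟨h1, _⟩, _, h3⟩, h4⟩
          exact ⟨p.1, ⟨h1, h3⟩, Prod.ext rfl h4⟩
        · rintro ⟨x, ⟨h1, h2⟩, rfl⟩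
          exact ⟨⟨⟨h1, h1⟩, rfl, h2⟩, rfl⟩
      rw [hset, sum_image (fun x _ y _ h => (Prod.ext_iff.1 h).1), hD', Complex.ofReal_sum]
      apply sum_congr rfl
      intro x _
      simp only [hA, hΓ]
      have hone : ff ω x * (starRingEnd ℂ) (ff ω x) = 1 := by
        rw [Complex.mul_conj', norm_ff]
        simp
      rw [hone, one_mul, Complex.ofReal_sum]
      apply sum_congr rfl
      intro n _
      rw [Complex.mul_conj']
      push_cast
      rfl
    rw [Complex.ofReal_sum, sum_congr rfl h1, h2, h3, h4]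
  -- Step B: reduction to `mm`
  have hB : nr k (fun ω : Om B M => ∑ y ∈ Ys, ∑ n ∈ N, ‖∑ x ∈ b.filter (fun x => blk x = y), ff ω x * c n x‖ ^ 2)
      ≤ D' + mm k Z := by
    calc nr k (fun ω : Om B M => ∑ y ∈ Ys, ∑ n ∈ N, ‖∑ x ∈ b.filter (fun x => blk x = y), ff ω x * c n x‖ ^ 2)
        ≤ nr k (fun ω => D' + ‖Z ω‖) := by
          apply nr_mono k hk
          intro ω
          rw [abs_of_nonneg (add_nonneg hD'0 (norm_nonneg _))]
          have := hexp ω
          have h2 := congrArg norm this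
          rw [Complex.norm_real, Real.norm_eq_abs] at h2
          rw [h2]
          calc ‖(D' : ℂ) + Z ω‖ ≤ ‖(D' : ℂ)‖ + ‖Z ω‖ := norm_add_le _ _
            _ = D' + ‖Z ω‖ := by
              rw [Complex.norm_real, Real.norm_eq_abs, abs_of_nonneg hD'0]
      _ ≤ nr k (fun _ => D') + nr k (fun ω => ‖Z ω‖) := nr_add k hk _ _
      _ = D' + nr k (fun ω => ‖Z ω‖) := by rw [nr_const k hk D' hD'0]
      _ ≤ D' + mm k Z := by
          have := nr_norm_le_mm k hk Z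
          linarith
  -- Step C: the off-diagonal part
  have hbne : ∀ x ∈ b, x ≠ 0 := fun x hx => (hb x hx).2.2.1.1
  have hWb : ∀ p ∈ W, p.1 ∈ b ∧ p.2 ∈ b := by
    intro p hp
    have h1 := (mem_filter.1 (mem_filter.1 hp).1).1
    exact mem_product.1 h1
  set Sq := Sm ×ˢ Sm with hSq
  set gq : ℕ × ℕ → ℕ × ℕ := fun p => (smP P p.1, smP P p.2) with hgq
  have hmaps : ∀ p ∈ W, gq p ∈ Sq := by
    intro p hp
    obtain ⟨h1, h2⟩ := hWb p hp
    exact mem_product.2 ⟨(hb _ h1).2.2.2.1, (hb _ h2).2.2.2.1⟩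
  set Wq : ℕ × ℕ → Finset (ℕ × ℕ) := fun q => W.filter (fun p => gq p = q) with hWq
  set Y : ℕ × ℕ → Om B M → ℂ := fun q ω =>
    ∑ p ∈ Wq q, ff ω (rgP P p.1) * (starRingEnd ℂ) (ff ω (rgP P p.2)) * Γ p.1 p.2 with hY
  set Pq : ℕ × ℕ → ℝ := fun q =>
    ∑ p ∈ Wq q, (Nat.gcd p.1 p.2 : ℝ) * ‖Γ p.1 p.2‖ ^ 2 with hPq
  have hPq0 : ∀ q, 0 ≤ Pq q := fun q => sum_nonneg (fun _ _ => by positivity)
  -- decomposition of `Z`
  have hZdec : ∀ ω : Om B M, Z ω
      = ∑ q ∈ Sq, (ff ω q.1 * (starRingEnd ℂ) (ff ω q.2)) * Y q ω := by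
    intro ω
    simp only [hZ]
    rw [← sum_fiberwise_of_maps_to hmaps]
    apply sum_congr rfl
    intro q _
    simp only [hY]
    rw [mul_sum]
    apply sum_congr rfl
    intro p hp
    have hp' := mem_filter.1 hp
    obtain ⟨h1, h2⟩ := hWb p hp'.1
    have hq : gq p = q := hp'.2
    have e1 : q.1 = smP P p.1 := by rw [← hq]
    have e2 : q.2 = smP P p.2 := by rw [← hq]
    have m1 := sm_mul_rg P p.1 (hbne _ h1)
    have m2 := sm_mul_rg P p.2 (hbne _ h2)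
    have n1 : smP P p.1 ≠ 0 := fun h => hbne _ h1 (by rw [← m1, h, zero_mul])
    have n2 : smP P p.2 ≠ 0 := fun h => hbne _ h2 (by rw [← m2, h, zero_mul])
    have r1 : rgP P p.1 ≠ 0 := fun h => hbne _ h1 (by rw [← m1, h, mul_zero])
    have r2 : rgP P p.2 ≠ 0 := fun h => hbne _ h2 (by rw [← m2, h, mul_zero])
    have f1 : ff ω p.1 = ff ω (smP P p.1) * ff ω (rgP P p.1) := by
      rw [← ff_mul ω n1 r1, m1]
    have f2 : ff ω p.2 = ff ω (smP P p.2) * ff ω (rgP P p.2) := by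
      rw [← ff_mul ω n2 r2, m2]
    rw [e1, e2, f1, f2, map_mul]
    ring
  -- bound of one piece
  have hpiece : ∀ q ∈ Sq, mm k (Y q) ≤ 3 * lam ^ j * Real.sqrt (Pq q) := by
    intro q _
    set T := (Wq q).image (fun p : ℕ × ℕ => (rgP P p.1, rgP P p.2)) with hT
    set Γ' : ℕ × ℕ → ℂ := fun r => Γ (q.1 * r.1) (q.2 * r.2) with hΓ'
    have hfacts : ∀ p ∈ Wq q, q.1 * rgP P p.1 = p.1 ∧ q.2 * rgP P p.2 = p.2 := by
      intro p hp
      have hp' := mem_filter.1 hp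
      obtain ⟨h1, h2⟩ := hWb p hp'.1
      have hq : gq p = q := hp'.2
      have e1 : q.1 = smP P p.1 := by rw [← hq]
      have e2 : q.2 = smP P p.2 := by rw [← hq]
      exact ⟨by rw [e1]; exact sm_mul_rg P p.1 (hbne _ h1),
        by rw [e2]; exact sm_mul_rg P p.2 (hbne _ h2)⟩
    have hinj : Set.InjOn (fun p : ℕ × ℕ => (rgP P p.1, rgP P p.2)) (Wq q : Set (ℕ × ℕ)) := by
      intro p hp p' hp' h
      obtain ⟨h1, h2⟩ := hfacts p hp
      obtain ⟨h1', h2'⟩ := hfacts p' hp'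
      have e := Prod.ext_iff.1 h
      simp only at e
      apply Prod.ext
      · rw [← h1, ← h1', e.1]
      · rw [← h2, ← h2', e.2]
    have hYT : Y q = fun ω : Om B M =>
        ∑ r ∈ T, ff ω r.1 * (starRingEnd ℂ) (ff ω r.2) * Γ' r := by
      funext ω
      simp only [hY, hT]
      rw [sum_image hinj]
      apply sum_congr rfl
      intro p hp
      obtain ⟨h1, h2⟩ := hfacts p hp
      simp only [hΓ', h1, h2]
    have hTfacts : ∀ r ∈ T, ∃ p ∈ Wq q, r = (rgP P p.1, rgP P p.2) := by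
      intro r hr
      obtain ⟨p, hp, rfl⟩ := mem_image.1 hr
      exact ⟨p, hp, rfl⟩
    have hWqb : ∀ p ∈ Wq q, p.1 ∈ b ∧ p.2 ∈ b := fun p hp => hWb p (mem_filter.1 hp).1
    have hrg1 : ∀ x, x ∈ b → rgP P x ∣ x := fun x hx =>
      ⟨smP P x, by rw [mul_comm]; exact (sm_mul_rg P x (hbne x hx)).symm⟩
    have hTT : ∀ r ∈ T, Fits B M r.1 ∧ Fits B M r.2 ∧ OO r.1 ≤ j ∧ OO r.2 ≤ j := by
      intro r hr
      obtain ⟨p, hp, rfl⟩ := hTfacts r hr
      obtain ⟨h1, h2⟩ := hWqb p hp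
      exact ⟨fits_of_dvd (hb _ h1).2.2.1 (hrg1 _ h1), fits_of_dvd (hb _ h2).2.2.1 (hrg1 _ h2),
        (hb _ h1).2.2.2.2, (hb _ h2).2.2.2.2⟩
    have hTbd : ∀ r ∈ T, X0 ≤ q.1 * r.1 ∧ q.1 * r.1 < 8 * X0 := by
      intro r hr
      obtain ⟨p, hp, rfl⟩ := hTfacts r hr
      obtain ⟨h1, _⟩ := hWqb p hp
      have := (hfacts p hp).1
      simp only
      rw [this]
      exact ⟨(hb _ h1).1, (hb _ h1).2.1⟩
    have hhp := hyper_pairs (B := B) (M := M) k hk lam hlam hlam1 j T Γ' hTT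
    have hsum : ∑ r ∈ T, ((T.filter (fun p' => p'.1 * r.2 = p'.2 * r.1)).card : ℝ) * ‖Γ' r‖ ^ 2
        ≤ 8 * Pq q := by
      simp only [hT, hPq]
      rw [sum_image hinj, mul_sum]
      apply sum_le_sum
      intro p hp
      obtain ⟨h1, h2⟩ := hfacts p hp
      obtain ⟨hb1, hb2⟩ := hWqb p hp
      have hΓ'p : Γ' (rgP P p.1, rgP P p.2) = Γ p.1 p.2 := by
        simp only [hΓ', h1, h2]
      simp only [hΓ'p]
      rw [← mul_assoc]
      apply mul_le_mul_of_nonneg_right _ (by positivity)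
      have hc : rgP P p.1 ≠ 0 := fun h => hbne _ hb1 (by rw [← h1, h, mul_zero])
      have hrc := rep_count q.1 X0 (rgP P p.1) (rgP P p.2) T hc hX0
        (by rw [h1]; exact (hb _ hb1).1) hTbd
      have hg : Nat.gcd (rgP P p.1) (rgP P p.2) ≤ Nat.gcd p.1 p.2 := by
        apply Nat.le_of_dvd (Nat.gcd_pos_of_pos_left _ (Nat.pos_of_ne_zero (hbne _ hb1)))
        exact Nat.gcd_dvd_gcd_of_dvd_left _ (hrg1 _ hb1) |>.trans
          (Nat.gcd_dvd_gcd_of_dvd_right _ (hrg1 _ hb2))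
      have hg' : (Nat.gcd (rgP P p.1) (rgP P p.2) : ℝ) ≤ (Nat.gcd p.1 p.2 : ℝ) := by
        exact_mod_cast hg
      linarith
    have hsq : mm k (Y q) ^ 2 ≤ (3 * lam ^ j * Real.sqrt (Pq q)) ^ 2 := by
      rw [hYT]
      calc mm k (fun ω : Om B M => ∑ r ∈ T, ff ω r.1 * (starRingEnd ℂ) (ff ω r.2) * Γ' r) ^ 2
          ≤ lam ^ (2 * j) * ∑ r ∈ T, ((T.filter (fun p' => p'.1 * r.2 = p'.2 * r.1)).card : ℝ) * ‖Γ' r‖ ^ 2 := hhp
        _ ≤ lam ^ (2 * j) * (8 * Pq q) :=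
            mul_le_mul_of_nonneg_left hsum (by positivity)
        _ ≤ (3 * lam ^ j * Real.sqrt (Pq q)) ^ 2 := by
            have h1 : (3 * lam ^ j * Real.sqrt (Pq q)) ^ 2
                = 9 * (lam ^ (2 * j) * Pq q) := by
              rw [mul_pow, mul_pow, Real.sq_sqrt (hPq0 q), ← pow_mul, mul_comm j 2]
              ring
            rw [h1]
            have h2 : 0 ≤ lam ^ (2 * j) * Pq q := mul_nonneg (by positivity) (hPq0 q)
            nlinarith
    exact (sq_le_sq₀ (mm_nonneg k _) (by positivity)).1 hsq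
  -- summing the pieces
  have hC : mm k Z ≤ 3 * (Sm.card : ℝ) * lam ^ j * Real.sqrt
      (∑ x ∈ b, ∑ x' ∈ b.filter (· ≠ x), (Nat.gcd x x' : ℝ) *
            ‖∑ n ∈ N, c n x * (starRingEnd ℂ) (c n x')‖ ^ 2) := by
    set P1 : ℝ := ∑ x ∈ b, ∑ x' ∈ b.filter (· ≠ x), (Nat.gcd x x' : ℝ) *
            ‖∑ n ∈ N, c n x * (starRingEnd ℂ) (c n x')‖ ^ 2 with hP1
    have hsumP : ∑ q ∈ Sq, Pq q ≤ P1 := by
      have h1 : ∑ q ∈ Sq, Pq q = ∑ p ∈ W, (Nat.gcd p.1 p.2 : ℝ) * ‖Γ p.1 p.2‖ ^ 2 :=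
        sum_fiberwise_of_maps_to hmaps _
      rw [h1]
      have h2 : P1 = ∑ p ∈ (b ×ˢ b).filter (fun p => p.2 ≠ p.1),
          (Nat.gcd p.1 p.2 : ℝ) * ‖Γ p.1 p.2‖ ^ 2 := by
        rw [hP1, sum_filter, sum_product]
        apply sum_congr rfl
        intro x _
        rw [sum_filter]
      rw [h2]
      apply sum_le_sum_of_subset_of_nonneg
      · intro p hp
        have h3 := mem_filter.1 hp
        have h4 := mem_filter.1 h3.1
        exact mem_filter.2 ⟨h4.1, fun h => h3.2 h.symm⟩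
      · intro _ _ _
        positivity
    have hP10 : 0 ≤ ∑ q ∈ Sq, Pq q := sum_nonneg (fun q _ => hPq0 q)
    have hcauchy : ∑ q ∈ Sq, Real.sqrt (Pq q) ≤ (Sm.card : ℝ) * Real.sqrt P1 := by
      have h1 : (∑ q ∈ Sq, Real.sqrt (Pq q)) ^ 2 ≤ (Sq.card : ℝ) * ∑ q ∈ Sq, Real.sqrt (Pq q) ^ 2 :=
        sq_sum_le_card_mul_sum_sq
      have h2 : ∑ q ∈ Sq, Real.sqrt (Pq q) ^ 2 = ∑ q ∈ Sq, Pq q :=
        sum_congr rfl (fun q _ => Real.sq_sqrt (hPq0 q))
      have h3 : (Sq.card : ℝ) = (Sm.card : ℝ) ^ 2 := by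
        rw [hSq, card_product]
        push_cast
        ring
      have hP1' : 0 ≤ P1 := le_trans hP10 hsumP
      have h4 : (∑ q ∈ Sq, Real.sqrt (Pq q)) ^ 2 ≤ ((Sm.card : ℝ) * Real.sqrt P1) ^ 2 := by
        rw [mul_pow, Real.sq_sqrt hP1', ← h3]
        rw [h2] at h1
        exact h1.trans (mul_le_mul_of_nonneg_left hsumP (by positivity))
      exact (sq_le_sq₀ (sum_nonneg (fun _ _ => Real.sqrt_nonneg _)) (by positivity)).1 h4
    have hZeq : Z = fun ω : Om B M => ∑ q ∈ Sq, (ff ω q.1 * (starRingEnd ℂ) (ff ω q.2)) * Y q ω :=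
      funext hZdec
    rw [hZeq]
    calc mm k (fun ω : Om B M => ∑ q ∈ Sq, (ff ω q.1 * (starRingEnd ℂ) (ff ω q.2)) * Y q ω)
        ≤ ∑ q ∈ Sq, mm k (fun ω : Om B M => (ff ω q.1 * (starRingEnd ℂ) (ff ω q.2)) * Y q ω) :=
          mm_sum k hk Sq _
      _ = ∑ q ∈ Sq, mm k (Y q) := by
          apply sum_congr rfl
          intro q _
          apply mm_unimod k hk
          intro ω
          rw [norm_mul, RCLike.norm_conj, norm_ff, norm_ff, one_mul]
      _ ≤ ∑ q ∈ Sq, 3 * lam ^ j * Real.sqrt (Pq q) := sum_le_sum hpiece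
      _ = 3 * lam ^ j * ∑ q ∈ Sq, Real.sqrt (Pq q) := by rw [mul_sum]
      _ ≤ 3 * lam ^ j * ((Sm.card : ℝ) * Real.sqrt P1) :=
          mul_le_mul_of_nonneg_left hcauchy (by positivity)
      _ = 3 * (Sm.card : ℝ) * lam ^ j * Real.sqrt P1 := by ring
  linarith

end

end Vale.Agent.Lib.P028K
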