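import Vale.Agent.Lib.P028K.ChainIter
import Vale.Agent.Lib.P028K.Menshov
import Vale.Agent.Lib.P028K.ZLevel
import Vale.Agent.Lib.P028K.PS

/-! Part MType: bound for fixed `q, r, U`. Blueprint section 9. -/

open Finset

namespace Vale.Agent.Lib.P028K

open Vale.Agent.Lib.P028
open Vale.Agent.Lib.P028T

noncomputable section

variable {B M : ℕ} [NeZero M]

/-- An order convex finite set of naturals is an interval. -/
private lemma exists_Ico_of_convex (S : Finset ℕ)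
    (hS : ∀ a ∈ S, ∀ b ∈ S, ∀ c, a ≤ c → c ≤ b → c ∈ S) : ∃ a b, S = Ico a b := by
  by_cases hne : S.Nonempty
  · refine ⟨S.min' hne, S.max' hne + 1, ?_⟩
    ext c
    simp only [Finset.mem_Ico]
    constructor
    · intro hc
      exact ⟨Finset.min'_le _ _ hc, Nat.lt_succ_of_le (Finset.le_max' _ _ hc)⟩
    · rintro ⟨h1, h2⟩
      exact hS _ (Finset.min'_mem _ hne) _ (Finset.max'_mem _ hne) c h1 (Nat.le_of_lt_succ h2)
  · refine ⟨0, 0, ?_⟩
    rw [Finset.not_nonempty_iff_eq_empty.1 hne]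
    simp

/-- The geometric sum against the size function. -/
lemma gamma_le (θ : ℝ) (q x x' U Y Y' : ℕ) (hq : 1 ≤ q) (hx : 1 ≤ x) (hx' : 1 ≤ x') :
    ‖∑ n ∈ Ico U (2 * U), (if q * n * x ∈ Ico Y Y' then ee (θ * ((q * n * x : ℕ):ℝ)) else 0) *
        (starRingEnd ℂ) (if q * n * x' ∈ Ico Y Y' then ee (θ * ((q * n * x' : ℕ):ℝ)) else 0)‖ ^ 2
      ≤ hh (θ * q) U (max x x' - min x x') := by
  classical
  set S : Finset ℕ := (Ico U (2 * U)).filter
    (fun n => q * n * x ∈ Ico Y Y' ∧ q * n * x' ∈ Ico Y Y') with hS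
  set t : ℝ := θ * q * ((x : ℝ) - x') with ht
  have hsum : ∑ n ∈ Ico U (2 * U), (if q * n * x ∈ Ico Y Y' then ee (θ * ((q * n * x : ℕ):ℝ)) else 0) *
        (starRingEnd ℂ) (if q * n * x' ∈ Ico Y Y' then ee (θ * ((q * n * x' : ℕ):ℝ)) else 0)
      = ∑ n ∈ S, ee (t * n) := by
    rw [hS, Finset.sum_filter]
    refine Finset.sum_congr rfl ?_
    intro n _
    by_cases h1 : q * n * x ∈ Ico Y Y'
    · by_cases h2 : q * n * x' ∈ Ico Y Y'
      · rw [if_pos h1, if_pos h2, if_pos ⟨h1, h2⟩, ← ee_sub]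
        congr 1
        rw [ht]
        push_cast
        ring
      · have hn : ¬(q * n * x ∈ Ico Y Y' ∧ q * n * x' ∈ Ico Y Y') := fun h => h2 h.2
        rw [if_neg h2, if_neg hn]
        simp
    · have hn : ¬(q * n * x ∈ Ico Y Y' ∧ q * n * x' ∈ Ico Y Y') := fun h => h1 h.1
      rw [if_neg h1, if_neg hn]
      simp
  rw [hsum]
  have hconv : ∀ a ∈ S, ∀ b ∈ S, ∀ c, a ≤ c → c ≤ b → c ∈ S := by
    intro a ha b hb c hac hcb
    obtain ⟨ha1, ha2, ha3⟩ := Finset.mem_filter.1 ha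
    obtain ⟨hb1, hb2, hb3⟩ := Finset.mem_filter.1 hb
    simp only [Finset.mem_Ico] at ha1 ha2 ha3 hb1 hb2 hb3
    refine Finset.mem_filter.2 ⟨?_, ?_, ?_⟩
    · simp only [Finset.mem_Ico]
      omega
    · simp only [Finset.mem_Ico]
      have h1 : q * a * x ≤ q * c * x := Nat.mul_le_mul_right _ (Nat.mul_le_mul_left _ hac)
      have h2 : q * c * x ≤ q * b * x := Nat.mul_le_mul_right _ (Nat.mul_le_mul_left _ hcb)
      omega
    · simp only [Finset.mem_Ico]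
      have h1 : q * a * x' ≤ q * c * x' := Nat.mul_le_mul_right _ (Nat.mul_le_mul_left _ hac)
      have h2 : q * c * x' ≤ q * b * x' := Nat.mul_le_mul_right _ (Nat.mul_le_mul_left _ hcb)
      omega
  obtain ⟨a, b, hab⟩ := exists_Ico_of_convex S hconv
  -- trivial bound
  have htriv : ‖∑ n ∈ S, ee (t * n)‖ ≤ (U : ℝ) := by
    refine (norm_sum_le _ _).trans ?_
    simp only [norm_ee, Finset.sum_const, nsmul_eq_mul, mul_one]
    have h1 : S.card ≤ (Ico U (2 * U)).card := Finset.card_le_card (Finset.filter_subset _ _)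
    rw [Nat.card_Ico] at h1
    have h2 : S.card ≤ U := by omega
    exact_mod_cast h2
  have hU0 : (0 : ℝ) ≤ U := Nat.cast_nonneg _
  have htriv2 : ‖∑ n ∈ S, ee (t * n)‖ ^ 2 ≤ 4 * (U : ℝ) ^ 2 := by
    have := pow_le_pow_left₀ (norm_nonneg _) htriv 2
    nlinarith [sq_nonneg (U : ℝ)]
  -- the distance
  have hdn : dn (θ * q * ((max x x' - min x x' : ℕ) : ℝ)) = dn t := by
    rcases le_total x' x with h | h
    · rw [max_eq_left h, min_eq_right h, Nat.cast_sub h]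
    · rw [max_eq_right h, min_eq_left h, Nat.cast_sub h, ht, ← dn_neg]
      congr 1
      ring
  unfold hh
  rw [hdn]
  split_ifs with h0
  · exact htriv2
  · refine le_min htriv2 ?_
    have hpos : 0 < dn t := lt_of_le_of_ne (dn_nonneg t) (Ne.symm h0)
    have hg : ‖∑ n ∈ S, ee (t * n)‖ ≤ 1 / (2 * dn t) := by
      rw [hab]
      exact geom_bound t hpos a b
    have := pow_le_pow_left₀ (norm_nonneg _) hg 2
    refine this.trans (le_of_eq ?_)
    field_simp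
    ring

/-- One family. Chain for the top primes, then Menshov, then the diagonal and off-diagonal. -/
theorem mtype (k : ℕ) (hk : 1 ≤ k) (hM : 2 ≤ M) (lam : ℝ) (hlam : 50 * (k:ℝ) ≤ lam) (β : ℝ)
    (P S2 j Y Y' q r U Lm X0 : ℕ) (Pbar : ℝ) (hq : 1 ≤ q) (hX0 : 1 ≤ X0) (hU1 : 1 ≤ U) (hLm : Y' < 2 ^ (Lm + 1))
    (Ub b : Finset ℕ)
    (hUb : ∀ u ∈ Ub, U ≤ u ∧ u < 2 * U ∧ u.minFac ≤ Y' ∧ Squarefree u ∧ u.primeFactors.card = r ∧
      ∀ p ∈ u.primeFactors, p < B)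
    (hb : ∀ x ∈ b, Fits B M x ∧ smP P x ≤ S2 ∧ OO (rgP P x) ≤ j ∧ X0 ≤ x ∧ x < 8 * X0)
    (hPbar : ∑ x ∈ Ico X0 (8 * X0), ∑ x' ∈ (Ico X0 (8 * X0)).filter (· ≠ x),
        (Nat.gcd x x' : ℝ) * hh (β * q) U (max x x' - min x x') ≤ Pbar) :
    mm k (fun ω : Om B M => ∑ u ∈ Ub, ff ω u *
        ∑ x ∈ b.filter (fun x => bigP x < u.minFac ∧ q * u * x ∈ Ico Y Y'), ff ω x * ee (β * ((q * u * x : ℕ):ℝ))) ^ 2
      ≤ (50 * (k:ℝ) ^ 2) ^ r * (((Lm:ℝ) + 1) ^ 2 *
          (∑ x ∈ b, (((Ico U (2 * U)).filter (fun n => q * n * x ∈ Ico Y Y')).card : ℝ)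
            + 3 * (S2:ℝ) * lam ^ j * Real.sqrt Pbar)) := by
  classical
  have hk0 : (0 : ℝ) ≤ k := Nat.cast_nonneg _
  have hlam0 : 0 ≤ lam := by linarith
  set R : ℕ → Om B M → ℂ := fun u ω =>
    ∑ x ∈ b.filter (fun x => bigP x < u.minFac ∧ q * u * x ∈ Ico Y Y'),
      ff ω x * ee (β * ((q * u * x : ℕ):ℝ)) with hR
  set c : ℕ → ℕ → ℂ := fun n x =>
    if q * n * x ∈ Ico Y Y' then ee (β * ((q * n * x : ℕ):ℝ)) else 0 with hc
  -- Step 1: the chain
  have hdep : ∀ u ∈ Ub, DepBelow u.minFac (R u) := by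
    intro u _ ω ω' hω
    rw [hR]
    refine Finset.sum_congr rfl ?_
    intro x hx
    obtain ⟨_, hx2, _⟩ := Finset.mem_filter.1 hx
    have hdepx : DepBelow (B := B) (M := M) u.minFac (fun ω => ff ω x) := by
      refine ff_dep ?_
      intro p hp
      have h1 : p ≤ bigP x := by
        unfold bigP
        exact Finset.le_sup (f := id) hp
      omega
    have : ff ω x = ff ω' x := hdepx ω ω' hω
    rw [this]
  have hstep1 := chain_iter (B := B) (M := M) k hk hM r Ub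
    (fun u hu => ⟨(hUb u hu).2.2.2.1, (hUb u hu).2.2.2.2.1, (hUb u hu).2.2.2.2.2⟩) R hdep
  refine hstep1.trans ?_
  refine mul_le_mul_of_nonneg_left ?_ (by positivity)
  -- Step 2: Menshov
  set N : Finset ℕ := Ico U (2 * U) with hN
  have hUN : Ub ⊆ N := by
    intro u hu
    exact Finset.mem_Ico.2 ⟨(hUb u hu).1, (hUb u hu).2.1⟩
  have hLmU : ∀ u ∈ Ub, u.minFac < 2 ^ (Lm + 1) := fun u hu =>
    lt_of_le_of_lt (hUb u hu).2.2.1 hLm
  set Z : ℕ → Om B M → ℝ := fun ℓ ω =>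
    ∑ y ∈ range (2 ^ (Lm + 1)), ∑ n ∈ N,
      ‖∑ x ∈ b.filter (fun x => bigP x / 2 ^ ℓ = y), ff ω x * c n x‖ ^ 2 with hZ
  have hRc : ∀ u ω, R u ω = ∑ x ∈ b.filter (fun x => bigP x < u.minFac), ff ω x * c u x := by
    intro u ω
    rw [hR]
    simp only [hc]
    rw [Finset.sum_filter, Finset.sum_filter]
    refine Finset.sum_congr rfl ?_
    intro x _
    by_cases h1 : bigP x < u.minFac
    · by_cases h2 : q * u * x ∈ Ico Y Y'
      · rw [if_pos ⟨h1, h2⟩, if_pos h1, if_pos h2]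
      · rw [if_neg (fun h => h2 h.2), if_pos h1, if_neg h2, mul_zero]
    · rw [if_neg (fun h => h1 h.1), if_neg h1]
  have hpt : ∀ ω : Om B M, ∑ u ∈ Ub, ‖R u ω‖ ^ 2 ≤ ((Lm : ℝ) + 1) * ∑ ℓ ∈ range (Lm + 1), Z ℓ ω := by
    intro ω
    simp only [hRc]
    exact menshov_apply Lm Ub b N hUN hLmU c (fun x => ff ω x)
  have hZ0 : ∀ ℓ ω, 0 ≤ Z ℓ ω := by
    intro ℓ ω
    exact Finset.sum_nonneg fun _ _ => Finset.sum_nonneg fun _ _ => by positivity
  have hstep2 : nr k (fun ω : Om B M => ∑ u ∈ Ub, ‖R u ω‖ ^ 2) ≤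
      nr k (fun ω : Om B M => ((Lm : ℝ) + 1) * ∑ ℓ ∈ range (Lm + 1), Z ℓ ω) := by
    refine nr_mono k hk ?_
    intro ω
    have h1 : 0 ≤ ∑ u ∈ Ub, ‖R u ω‖ ^ 2 := Finset.sum_nonneg fun _ _ => by positivity
    have h2 : 0 ≤ ((Lm : ℝ) + 1) * ∑ ℓ ∈ range (Lm + 1), Z ℓ ω :=
      mul_nonneg (by positivity) (Finset.sum_nonneg fun ℓ _ => hZ0 ℓ ω)
    rw [abs_of_nonneg h1, abs_of_nonneg h2]
    exact hpt ω
  refine hstep2.trans ?_
  rw [nr_const_mul k hk _ (by positivity)]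
  -- Step 3: each level
  set E : ℝ := ∑ x ∈ b, (((Ico U (2 * U)).filter (fun n => q * n * x ∈ Ico Y Y')).card : ℝ)
            + 3 * (S2:ℝ) * lam ^ j * Real.sqrt Pbar with hE
  have hlevel : ∀ ℓ ∈ range (Lm + 1), nr k (Z ℓ) ≤ E := by
    intro ℓ _
    set Sm : Finset ℕ := Icc 1 S2 with hSm
    have hsm : ∀ x ∈ b, smP P x ∈ Sm := by
      intro x hx
      obtain ⟨hf, h2, _⟩ := hb x hx
      refine Finset.mem_Icc.2 ⟨?_, h2⟩
      unfold smP
      refine Nat.one_le_iff_ne_zero.2 ?_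
      refine Finset.prod_ne_zero_iff.2 ?_
      intro p hp
      have hpp : p.Prime := Nat.prime_of_mem_primeFactors (Finset.mem_filter.1 hp).1
      exact pow_ne_zero _ hpp.ne_zero
    have hz := zlevel (B := B) (M := M) k hk lam hlam P j X0 hX0 Sm b N (range (2 ^ (Lm + 1))) c
      (fun x => bigP x / 2 ^ ℓ)
      (fun x hx => ⟨(hb x hx).2.2.2.1, (hb x hx).2.2.2.2, (hb x hx).1, hsm x hx, (hb x hx).2.2.1⟩)
    refine hz.trans ?_
    have hdiag : ∑ x ∈ b, ∑ n ∈ N, ‖c n x‖ ^ 2 =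
        ∑ x ∈ b, (((Ico U (2 * U)).filter (fun n => q * n * x ∈ Ico Y Y')).card : ℝ) := by
      refine Finset.sum_congr rfl ?_
      intro x _
      rw [Finset.card_filter, Nat.cast_sum]
      refine Finset.sum_congr rfl ?_
      intro n _
      simp only [hc]
      split_ifs with h
      · rw [norm_ee]
        simp
      · simp
    have hoff : ∑ x ∈ b, ∑ x' ∈ b.filter (· ≠ x), (Nat.gcd x x' : ℝ) *
            ‖∑ n ∈ N, c n x * (starRingEnd ℂ) (c n x')‖ ^ 2 ≤ Pbar := by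
      refine le_trans ?_ hPbar
      have hbsub : b ⊆ Ico X0 (8 * X0) := fun x hx =>
        Finset.mem_Ico.2 ⟨(hb x hx).2.2.2.1, (hb x hx).2.2.2.2⟩
      have hpos : ∀ x : ℕ, x ∈ b → 1 ≤ x := fun x hx => by
        have := (hb x hx).2.2.2.1
        omega
      calc ∑ x ∈ b, ∑ x' ∈ b.filter (· ≠ x), (Nat.gcd x x' : ℝ) *
            ‖∑ n ∈ N, c n x * (starRingEnd ℂ) (c n x')‖ ^ 2
          ≤ ∑ x ∈ b, ∑ x' ∈ b.filter (· ≠ x), (Nat.gcd x x' : ℝ) *
              hh (β * q) U (max x x' - min x x') := by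
            refine Finset.sum_le_sum fun x hx => Finset.sum_le_sum fun x' hx' => ?_
            refine mul_le_mul_of_nonneg_left ?_ (Nat.cast_nonneg _)
            exact gamma_le β q x x' U Y Y' hq (hpos x hx) (hpos x' (Finset.mem_filter.1 hx').1)
        _ ≤ ∑ x ∈ b, ∑ x' ∈ (Ico X0 (8 * X0)).filter (· ≠ x), (Nat.gcd x x' : ℝ) *
              hh (β * q) U (max x x' - min x x') := by
            refine Finset.sum_le_sum fun x _ => ?_
            refine Finset.sum_le_sum_of_subset_of_nonneg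
              (Finset.filter_subset_filter _ hbsub) ?_
            intro y _ _
            exact mul_nonneg (Nat.cast_nonneg _) (hh_nonneg _ _ _)
        _ ≤ _ := by
            refine Finset.sum_le_sum_of_subset_of_nonneg hbsub ?_
            intro x _ _
            exact Finset.sum_nonneg fun y _ => mul_nonneg (Nat.cast_nonneg _) (hh_nonneg _ _ _)
    rw [hdiag, hE]
    have hS2 : ((Sm.card : ℕ) : ℝ) = S2 := by
      rw [hSm, Nat.card_Icc]
      simp
    rw [hS2]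
    have hsq := Real.sqrt_le_sqrt hoff
    have hcoef : 0 ≤ 3 * (S2 : ℝ) * lam ^ j := by positivity
    have := mul_le_mul_of_nonneg_left hsq hcoef
    linarith
  have hsum := nr_sum k hk (range (Lm + 1)) Z
  have hfinal : nr k (fun ω : Om B M => ∑ ℓ ∈ range (Lm + 1), Z ℓ ω) ≤ ((Lm : ℝ) + 1) * E := by
    refine hsum.trans ?_
    refine (Finset.sum_le_sum hlevel).trans (le_of_eq ?_)
    rw [Finset.sum_const, Finset.card_range, nsmul_eq_mul]
    push_cast
    ring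
  have hmul := mul_le_mul_of_nonneg_left hfinal (by positivity : (0 : ℝ) ≤ (Lm : ℝ) + 1)
  refine hmul.trans (le_of_eq ?_)
  ring

end

end Vale.Agent.Lib.P028K
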