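import Vale.Agent.Lib.P028K.Defs
import Vale.Agent.Lib.P028T.Tau

/-! Part PSa: the size function, gcd to divisors, equidistribution. Blueprint section 6. -/

open Finset

namespace Vale.Agent.Lib.P028K

open Vale.Agent.Lib.P028
open Vale.Agent.Lib.P028T

noncomputable section

lemma hh_nonneg (θ : ℝ) (U m : ℕ) : 0 ≤ hh θ U m := by
  unfold hh
  split_ifs with h
  · positivity
  · apply le_min
    · positivity
    · positivity

/-- Multiples of `d` in an interval of length `L`. -/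
private lemma mult_count (a L d : ℕ) (hd : 1 ≤ d) (hL : 1 ≤ L) :
    d * ((Ico a (a + L)).filter (fun x => d ∣ x)).card ≤ L - 1 + d := by
  set S := (Ico a (a + L)).filter (fun x => d ∣ x) with hS
  by_cases hne : S.Nonempty
  · set x₁ := S.min' hne with hx₁
    have hx₁S : x₁ ∈ S := S.min'_mem hne
    have hx₁a := (mem_filter.mp hx₁S).1
    have hx₁d := (mem_filter.mp hx₁S).2
    have hcard : S.card ≤ (L - 1) / d + 1 := by
      have : S.card ≤ (range ((L - 1) / d + 1)).card := by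
        apply card_le_card_of_injOn (fun x => (x - x₁) / d)
        · intro x hx
          have hxS : x ∈ S := hx
          have hxa := (mem_filter.mp hxS).1
          have hle : x₁ ≤ x := S.min'_le x hxS
          simp only [coe_range, Set.mem_Iio]
          have h1 : x - x₁ ≤ L - 1 := by
            have := (mem_Ico.mp hxa).2
            have := (mem_Ico.mp hx₁a).1
            omega
          have h2 := Nat.div_le_div_right (c := d) h1
          omega
        · intro x hx y hy hxy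
          have hxS : x ∈ S := hx
          have hyS : y ∈ S := hy
          have hxd := (mem_filter.mp hxS).2
          have hyd := (mem_filter.mp hyS).2
          have hle : x₁ ≤ x := S.min'_le x hxS
          have hle' : x₁ ≤ y := S.min'_le y hyS
          have hd1 : d ∣ x - x₁ := Nat.dvd_sub hxd hx₁d
          have hd2 : d ∣ y - x₁ := Nat.dvd_sub hyd hx₁d
          have hxy' : (x - x₁) / d = (y - x₁) / d := hxy
          have := Nat.div_mul_cancel hd1
          have h3 := Nat.div_mul_cancel hd2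
          have h4 : x - x₁ = y - x₁ := by
            rw [← this, ← h3, hxy']
          omega
      simpa using this
    calc d * S.card ≤ d * ((L - 1) / d + 1) := Nat.mul_le_mul_left _ hcard
      _ = d * ((L - 1) / d) + d := by ring
      _ ≤ L - 1 + d := by
        have := Nat.mul_div_le (L - 1) d
        omega
  · rw [not_nonempty_iff_eq_empty] at hne
    simp [hne]

/-- From `gcd` to the divisor function. -/
lemma gcd_to_tau (h : ℕ → ℝ) (hh0 : ∀ m, 0 ≤ h m) (X0 : ℕ) (hX0 : 1 ≤ X0) :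
    ∑ x ∈ Ico X0 (8 * X0), ∑ x' ∈ (Ico X0 (8 * X0)).filter (· ≠ x),
        (Nat.gcd x x' : ℝ) * h (max x x' - min x x')
      ≤ 28 * (X0:ℝ) * ∑ m ∈ Ico 1 (8 * X0), (m.divisors.card : ℝ) * h m := by
  classical
  set I := Ico X0 (8 * X0) with hI
  -- the term attached to a quadruple
  let G : ℕ → ℕ → ℕ → ℕ → ℝ := fun x x' m d =>
    if max x x' - min x x' = m ∧ Nat.gcd x x' = d then (d:ℝ) * h m else 0
  have hstep1 : ∀ x ∈ I, ∀ x' ∈ I.filter (· ≠ x),
      (Nat.gcd x x' : ℝ) * h (max x x' - min x x')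
        = ∑ m ∈ Ico 1 (8 * X0), ∑ d ∈ m.divisors, G x x' m d := by
    intro x hx x' hx'
    have hx'I := (mem_filter.mp hx').1
    have hne := (mem_filter.mp hx').2
    have hxb := mem_Ico.mp hx
    have hx'b := mem_Ico.mp hx'I
    set m₀ := max x x' - min x x' with hm₀
    have hm₀pos : 1 ≤ m₀ := by
      rw [hm₀]
      rcases le_total x x' with hle | hle
      · rw [max_eq_right hle, min_eq_left hle]; omega
      · rw [max_eq_left hle, min_eq_right hle]; omega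
    have hm₀lt : m₀ < 8 * X0 := by
      rw [hm₀]
      rcases le_total x x' with hle | hle
      · rw [max_eq_right hle, min_eq_left hle]; omega
      · rw [max_eq_left hle, min_eq_right hle]; omega
    have hgd : Nat.gcd x x' ∣ m₀ := by
      rw [hm₀]
      rcases le_total x x' with hle | hle
      · rw [max_eq_right hle, min_eq_left hle]
        exact Nat.dvd_sub (Nat.gcd_dvd_right x x') (Nat.gcd_dvd_left x x')
      · rw [max_eq_left hle, min_eq_right hle]
        exact Nat.dvd_sub (Nat.gcd_dvd_left x x') (Nat.gcd_dvd_right x x')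
    rw [Finset.sum_eq_single m₀, Finset.sum_eq_single (Nat.gcd x x')]
    · simp [G, ← hm₀]
    · intro d _ hd
      have : ¬ (max x x' - min x x' = m₀ ∧ Nat.gcd x x' = d) := fun hc => hd hc.2.symm
      simp only [G]
      rw [if_neg this]
    · intro hnot
      exact absurd (Nat.mem_divisors.mpr ⟨hgd, by omega⟩) hnot
    · intro m _ hm
      apply Finset.sum_eq_zero
      intro d _
      have : ¬ (max x x' - min x x' = m ∧ Nat.gcd x x' = d) := fun hc => hm hc.1.symm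
      simp only [G]
      rw [if_neg this]
    · intro hnot
      exact absurd (mem_Ico.mpr ⟨hm₀pos, hm₀lt⟩) hnot
  -- bound for a fixed `x`, `m`, `d`
  have hstep2 : ∀ m ∈ Ico 1 (8 * X0), ∀ d ∈ m.divisors, ∀ x ∈ I,
      ∑ x' ∈ I.filter (· ≠ x), G x x' m d
        ≤ (if d ∣ x then (2:ℝ) else 0) * ((d:ℝ) * h m) := by
    intro m _ d _ x _
    have hnn : 0 ≤ (d:ℝ) * h m := mul_nonneg (Nat.cast_nonneg _) (hh0 m)
    have hsub : (I.filter (· ≠ x)).filter
        (fun x' => max x x' - min x x' = m ∧ Nat.gcd x x' = d) ⊆ {x + m, x - m} := by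
      intro x' hx'
      have hx'2 := (mem_filter.mp hx').2
      have hne := (mem_filter.mp (mem_filter.mp hx').1).2
      have hm := hx'2.1
      simp only [mem_insert, mem_singleton]
      rcases le_total x x' with hle | hle
      · rw [max_eq_right hle, min_eq_left hle] at hm
        left; omega
      · rw [max_eq_left hle, min_eq_right hle] at hm
        right; omega
    have hcard2 : ((I.filter (· ≠ x)).filter
        (fun x' => max x x' - min x x' = m ∧ Nat.gcd x x' = d)).card ≤ 2 :=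
      (card_le_card hsub).trans (card_le_two)
    have hsum : ∑ x' ∈ I.filter (· ≠ x), G x x' m d
        = ∑ x' ∈ (I.filter (· ≠ x)).filter
            (fun x' => max x x' - min x x' = m ∧ Nat.gcd x x' = d), (d:ℝ) * h m := by
      symm
      rw [Finset.sum_filter (s := I.filter (· ≠ x))
        (p := fun x' => max x x' - min x x' = m ∧ Nat.gcd x x' = d)]
    rw [hsum, Finset.sum_const, nsmul_eq_mul]
    by_cases hdx : d ∣ x
    · rw [if_pos hdx]
      apply mul_le_mul_of_nonneg_right _ hnn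
      exact_mod_cast hcard2
    · rw [if_neg hdx]
      have hempty : (I.filter (· ≠ x)).filter
          (fun x' => max x x' - min x x' = m ∧ Nat.gcd x x' = d) = ∅ := by
        apply filter_eq_empty_iff.mpr
        intro x' _ hc
        exact hdx (hc.2 ▸ Nat.gcd_dvd_left x x')
      rw [hempty]
      simp
  -- fixed `m`, `d`
  have hstep3 : ∀ m ∈ Ico 1 (8 * X0), ∀ d ∈ m.divisors,
      ∑ x ∈ I, ∑ x' ∈ I.filter (· ≠ x), G x x' m d ≤ 28 * (X0:ℝ) * h m := by
    intro m hm d hd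
    have hm' := mem_Ico.mp hm
    have hdm := Nat.mem_divisors.mp hd
    have hd1 : 1 ≤ d := Nat.pos_of_mem_divisors hd
    have hdle : d ≤ m := Nat.le_of_dvd (by omega) hdm.1
    have hhm := hh0 m
    -- `m` is really a difference below `7 X0` when some pair exists; otherwise the sum is zero.
    by_cases hm7 : m < 7 * X0
    · calc ∑ x ∈ I, ∑ x' ∈ I.filter (· ≠ x), G x x' m d
          ≤ ∑ x ∈ I, (if d ∣ x then (2:ℝ) else 0) * ((d:ℝ) * h m) :=
            Finset.sum_le_sum (fun x hx => hstep2 m hm d hd x hx)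
        _ = 2 * (((I.filter (fun x => d ∣ x)).card : ℝ) * ((d:ℝ) * h m)) := by
            rw [← Finset.sum_mul, Finset.sum_ite, Finset.sum_const_zero, add_zero,
              Finset.sum_const, nsmul_eq_mul]
            ring
        _ ≤ 28 * (X0:ℝ) * h m := by
            have hc := mult_count X0 (7 * X0) d hd1 (by omega)
            have hI' : Ico X0 (X0 + 7 * X0) = I := by
              rw [hI]; congr 1; ring
            rw [hI'] at hc
            have hc2 : d * (I.filter (fun x => d ∣ x)).card ≤ 14 * X0 := by omega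
            have hc3 : ((d:ℝ) * ((I.filter (fun x => d ∣ x)).card : ℝ)) ≤ 14 * (X0:ℝ) := by
              exact_mod_cast hc2
            nlinarith [mul_le_mul_of_nonneg_right hc3 hhm]
    · have hzero : ∀ x ∈ I, ∑ x' ∈ I.filter (· ≠ x), G x x' m d = 0 := by
        intro x hx
        apply Finset.sum_eq_zero
        intro x' hx'
        have hx'I := (mem_filter.mp hx').1
        have hxb := mem_Ico.mp hx
        have hx'b := mem_Ico.mp hx'I
        have hnot : ¬ (max x x' - min x x' = m ∧ Nat.gcd x x' = d) := by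
          rintro ⟨hc, _⟩
          rcases le_total x x' with hle | hle
          · rw [max_eq_right hle, min_eq_left hle] at hc; omega
          · rw [max_eq_left hle, min_eq_right hle] at hc; omega
        simp only [G]
        rw [if_neg hnot]
      rw [Finset.sum_eq_zero hzero]
      positivity
  calc ∑ x ∈ I, ∑ x' ∈ I.filter (· ≠ x), (Nat.gcd x x' : ℝ) * h (max x x' - min x x')
      = ∑ x ∈ I, ∑ x' ∈ I.filter (· ≠ x), ∑ m ∈ Ico 1 (8 * X0), ∑ d ∈ m.divisors, G x x' m d := by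
        apply Finset.sum_congr rfl
        intro x hx
        apply Finset.sum_congr rfl
        intro x' hx'
        exact hstep1 x hx x' hx'
    _ = ∑ m ∈ Ico 1 (8 * X0), ∑ d ∈ m.divisors, ∑ x ∈ I, ∑ x' ∈ I.filter (· ≠ x), G x x' m d := by
        have h1 : ∀ x ∈ I, ∑ x' ∈ I.filter (· ≠ x), ∑ m ∈ Ico 1 (8 * X0), ∑ d ∈ m.divisors, G x x' m d
            = ∑ m ∈ Ico 1 (8 * X0), ∑ d ∈ m.divisors, ∑ x' ∈ I.filter (· ≠ x), G x x' m d := by
          intro x _
          rw [Finset.sum_comm]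
          apply Finset.sum_congr rfl
          intro m _
          rw [Finset.sum_comm]
        rw [Finset.sum_congr rfl h1, Finset.sum_comm]
        apply Finset.sum_congr rfl
        intro m _
        rw [Finset.sum_comm]
    _ ≤ ∑ m ∈ Ico 1 (8 * X0), ∑ d ∈ m.divisors, 28 * (X0:ℝ) * h m := by
        apply Finset.sum_le_sum
        intro m hm
        apply Finset.sum_le_sum
        intro d hd
        exact hstep3 m hm d hd
    _ = 28 * (X0:ℝ) * ∑ m ∈ Ico 1 (8 * X0), (m.divisors.card : ℝ) * h m := by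
        rw [Finset.mul_sum]
        apply Finset.sum_congr rfl
        intro m _
        rw [Finset.sum_const, nsmul_eq_mul]
        ring

/-- The lattice step: points of a block with reduced denominator. -/
private lemma block_count (θ x₀ η₁ : ℝ) (Q : ℕ) (a : ℤ) (t₀ : ℕ) (hQ : 1 ≤ Q) (hη : 0 ≤ η₁)
    (hcop : IsCoprime a (Q:ℤ)) (herr : |(Q:ℝ) * θ - a| ≤ 1 / Q) :
    (((range Q).filter (fun j : ℕ => dn (((t₀ + j : ℕ):ℝ) * θ - x₀) < η₁)).card : ℝ)
      ≤ 2 * (Q:ℝ) * η₁ + 3 := by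
  classical
  have hQpos : (0:ℝ) < Q := by exact_mod_cast hQ
  set S := (range Q).filter (fun j : ℕ => dn (((t₀ + j : ℕ):ℝ) * θ - x₀) < η₁) with hS
  set y : ℝ := (t₀:ℝ) * θ - x₀ with hy
  -- an integer attached to each point
  let z : ℕ → ℤ := fun j => round (((t₀ + j : ℕ):ℝ) * θ - x₀)
  let v : ℕ → ℤ := fun j => (j:ℤ) * a - z j * Q
  set lo : ℝ := -(y * Q) - Q * η₁ - 1 with hlo
  set hi : ℝ := -(y * Q) + Q * η₁ + 1 with hhi
  have hv : ∀ j ∈ S, lo ≤ (v j : ℝ) ∧ (v j : ℝ) ≤ hi := by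
    intro j hj
    have hjS := mem_filter.mp hj
    have hjr : j < Q := mem_range.mp hjS.1
    have hd := hjS.2
    have hdn : |((t₀ + j : ℕ):ℝ) * θ - x₀ - (z j : ℝ)| < η₁ := hd
    have hjle : ((j:ℝ)) ≤ Q := by exact_mod_cast hjr.le
    have hj0 : (0:ℝ) ≤ j := Nat.cast_nonneg _
    have herr2 : |(j:ℝ) * ((Q:ℝ) * θ - a)| ≤ 1 := by
      rw [abs_mul, abs_of_nonneg hj0]
      calc (j:ℝ) * |(Q:ℝ) * θ - a| ≤ (Q:ℝ) * (1 / Q) := by
            apply mul_le_mul hjle herr (abs_nonneg _) hQpos.le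
        _ = 1 := by field_simp
    have hid : (v j : ℝ) = -(y * Q) + Q * (((t₀ + j : ℕ):ℝ) * θ - x₀ - (z j : ℝ)) - (j:ℝ) * ((Q:ℝ) * θ - a) := by
      simp only [v, hy]
      push_cast
      ring
    have h1 := abs_lt.mp hdn
    have h2 := abs_le.mp herr2
    have hmul1 := mul_lt_mul_of_pos_left h1.1 hQpos
    have hmul2 := mul_lt_mul_of_pos_left h1.2 hQpos
    rw [hid, hlo, hhi]
    constructor <;> nlinarith [h2.1, h2.2]
  have hinj : Set.InjOn v (S : Set ℕ) := by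
    intro j hj j' hj' hvv
    have hjr : j < Q := mem_range.mp (mem_filter.mp hj).1
    have hj'r : j' < Q := mem_range.mp (mem_filter.mp hj').1
    have hvv' : (j:ℤ) * a - z j * Q = (j':ℤ) * a - z j' * Q := hvv
    have hdvd : (Q:ℤ) ∣ ((j:ℤ) - j') * a := by
      refine ⟨z j - z j', ?_⟩
      linarith
    have hdvd2 : (Q:ℤ) ∣ ((j:ℤ) - j') := by
      exact hcop.symm.dvd_of_dvd_mul_right hdvd
    have hlt : |(j:ℤ) - j'| < Q := by
      rw [abs_lt]; constructor <;> omega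
    have h0 : (j:ℤ) - j' = 0 := Int.eq_zero_of_abs_lt_dvd hdvd2 hlt
    omega
  by_cases hle : lo ≤ hi
  · have hcard : S.card ≤ (Finset.Icc ⌈lo⌉ ⌊hi⌋).card := by
      apply card_le_card_of_injOn v _ hinj
      intro j hj
      have := hv j hj
      simp only [coe_Icc, Set.mem_Icc]
      exact ⟨Int.ceil_le.mpr this.1, Int.le_floor.mpr this.2⟩
    have hc2 : ((Finset.Icc ⌈lo⌉ ⌊hi⌋).card : ℝ) ≤ hi - lo + 1 := by
      rw [Int.card_Icc]
      have hfl := Int.floor_le hi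
      have hce := Int.le_ceil lo
      have hnn : (0:ℤ) ≤ ⌊hi⌋ + 1 - ⌈lo⌉ ∨ ⌊hi⌋ + 1 - ⌈lo⌉ < 0 := le_or_gt _ _
      rcases hnn with hn | hn
      · have : (((⌊hi⌋ + 1 - ⌈lo⌉).toNat : ℕ) : ℝ) = ((⌊hi⌋ + 1 - ⌈lo⌉ : ℤ) : ℝ) := by
          have := Int.toNat_of_nonneg hn
          exact_mod_cast this
        rw [this]
        push_cast
        linarith
      · have : (⌊hi⌋ + 1 - ⌈lo⌉).toNat = 0 := by omega
        rw [this]
        simp only [Nat.cast_zero]
        linarith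
    have hc3 : (S.card : ℝ) ≤ ((Finset.Icc ⌈lo⌉ ⌊hi⌋).card : ℝ) := by exact_mod_cast hcard
    have : hi - lo + 1 = 2 * (Q:ℝ) * η₁ + 3 := by
      rw [hhi, hlo]; ring
    linarith
  · exfalso
    apply hle
    rw [hlo, hhi]
    have : 0 ≤ (Q:ℝ) * η₁ := by positivity
    linarith

/-- Equidistribution of a rotation with no small return. -/
lemma equi_count (θ : ℝ) (W : ℕ) (R η₁ x₀ : ℝ) (hW : 1 ≤ W) (hR : 1 ≤ R) (hη : 0 ≤ η₁)
    (hret : ∀ n : ℕ, 1 ≤ n → (n:ℝ) < R → R / W < dn ((n:ℝ) * θ)) :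
    (((Icc 1 W).filter (fun t : ℕ => dn ((t:ℝ) * θ - x₀) < η₁)).card : ℝ) ≤ 8 * (W:ℝ) * (η₁ + 1 / R) := by
  classical
  have hWpos : (0:ℝ) < W := by exact_mod_cast hW
  have hRpos : (0:ℝ) < R := by linarith
  have hWR : (0:ℝ) ≤ 8 * (W:ℝ) * η₁ := by positivity
  set C := (Icc 1 W).filter (fun t : ℕ => dn ((t:ℝ) * θ - x₀) < η₁) with hC
  have hCW : (C.card : ℝ) ≤ W := by
    have : C.card ≤ (Icc 1 W).card := card_filter_le _ _
    rw [Nat.card_Icc] at this
    have h2 : C.card ≤ W := by omega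
    exact_mod_cast h2
  by_cases hR1 : R ≤ 8
  · -- small `R`: trivial bound
    have : (W:ℝ) ≤ 8 * (W:ℝ) * (1 / R) := by
      rw [mul_one_div, le_div_iff₀ hRpos]
      nlinarith
    nlinarith
  have hR8 : 8 < R := lt_of_not_ge hR1
  -- `W` is larger than `R`
  have hW2 : 2 * R < W := by
    have h1 := hret 1 le_rfl (by simpa using (by linarith : (1:ℝ) < R))
    have h2 := dn_le_half (((1:ℕ):ℝ) * θ)
    have h3 : R / W < 1 / 2 := lt_of_lt_of_le h1 h2
    rw [div_lt_iff₀ hWpos] at h3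
    linarith
  -- Dirichlet
  set N := ⌊(W:ℝ) / R⌋₊ with hN
  have hWRge : (1:ℝ) ≤ (W:ℝ) / R := by
    rw [le_div_iff₀ hRpos]; linarith
  have hN1 : 0 < N := Nat.floor_pos.mpr hWRge
  obtain ⟨Q₀, hQ₀pos, hQ₀le, hQ₀⟩ := Real.exists_nat_abs_mul_sub_round_le θ hN1
  have hNlt : (W:ℝ) / R < (N:ℝ) + 1 := Nat.lt_floor_add_one _
  have hNle : (N:ℝ) ≤ (W:ℝ) / R := Nat.floor_le (by positivity)
  have hsmall : (1:ℝ) / ((N:ℝ) + 1) < R / W := by
    rw [div_lt_div_iff₀ (by positivity) hWpos]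
    rw [div_lt_iff₀ hRpos] at hNlt
    linarith
  set a₀ : ℤ := round ((Q₀:ℝ) * θ) with ha₀
  -- reduce
  have hgpos : 0 < Int.gcd a₀ (Q₀:ℤ) := by
    apply Nat.pos_of_ne_zero
    intro h0
    have := (Int.gcd_eq_zero_iff.mp h0).2
    omega
  obtain ⟨a, Qz, hcop, ha, hQz⟩ := Int.exists_gcd_one hgpos
  set g := Int.gcd a₀ (Q₀:ℤ) with hg
  have hQzpos : 0 < Qz := by
    have h1 : ((Q₀:ℕ):ℤ) = Qz * (g:ℤ) := hQz
    have h2 : (0:ℤ) < (Q₀:ℤ) := by exact_mod_cast hQ₀pos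
    have h3 : (0:ℤ) < (g:ℤ) := by exact_mod_cast hgpos
    rw [h1] at h2
    exact (mul_pos_iff_of_pos_right h3).mp h2
  obtain ⟨Q, hQQz⟩ : ∃ Q : ℕ, Qz = (Q:ℤ) := ⟨Qz.toNat, (Int.toNat_of_nonneg hQzpos.le).symm⟩
  subst hQQz
  have hQ1 : 1 ≤ Q := by omega
  have hQ₀eq : Q₀ = Q * g := by
    have h1 : ((Q₀:ℕ):ℤ) = (Q:ℤ) * (g:ℤ) := hQz
    exact_mod_cast h1
  have hg1 : (1:ℝ) ≤ g := by exact_mod_cast hgpos
  have hQle : (Q:ℝ) ≤ (W:ℝ) / R := by
    have h1 : Q ≤ Q₀ := by rw [hQ₀eq]; exact Nat.le_mul_of_pos_right _ hgpos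
    have h2 : (Q₀:ℝ) ≤ N := by exact_mod_cast hQ₀le
    have h3 : (Q:ℝ) ≤ Q₀ := by exact_mod_cast h1
    linarith
  have hQpos : (0:ℝ) < Q := by exact_mod_cast hQ1
  -- the approximation error
  have herr0 : |(Q:ℝ) * θ - a| * g = |(Q₀:ℝ) * θ - a₀| := by
    have h1 : (a₀:ℝ) = (a:ℝ) * g := by
      have : a₀ = a * (g:ℤ) := ha
      rw [this]; push_cast; ring
    have h2 : (Q₀:ℝ) = (Q:ℝ) * g := by
      rw [hQ₀eq]; push_cast; ring
    rw [h1, h2, ← abs_of_nonneg (by linarith : (0:ℝ) ≤ (g:ℝ)), ← abs_mul, abs_of_nonneg (by linarith : (0:ℝ) ≤ (g:ℝ))]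
    congr 1
    ring
  have herr1 : |(Q:ℝ) * θ - a| ≤ |(Q₀:ℝ) * θ - a₀| := by
    rw [← herr0]
    have := abs_nonneg ((Q:ℝ) * θ - a)
    nlinarith
  have herr2 : |(Q:ℝ) * θ - a| < R / W := by
    calc |(Q:ℝ) * θ - a| ≤ |(Q₀:ℝ) * θ - a₀| := herr1
      _ ≤ 1 / ((N:ℝ) + 1) := hQ₀
      _ < R / W := hsmall
  have hQR : R ≤ Q := by
    by_contra hlt
    push Not at hlt
    have h1 := hret Q hQ1 hlt
    have h2 : dn ((Q:ℝ) * θ) ≤ |(Q:ℝ) * θ - a| := dn_le_abs_sub _ _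
    linarith
  have herr3 : |(Q:ℝ) * θ - a| ≤ 1 / Q := by
    have h1 : R / W ≤ 1 / Q := by
      rw [div_le_div_iff₀ hWpos hQpos]
      rw [le_div_iff₀ hRpos] at hQle
      linarith
    linarith
  have hcop' : IsCoprime a (Q:ℤ) := Int.isCoprime_iff_gcd_eq_one.mpr hcop
  -- blocks
  set B := (W - 1) / Q + 1 with hB
  have hcover : C ⊆ (range B).biUnion (fun q =>
      (((range Q).filter (fun j : ℕ => dn (((1 + q * Q + j : ℕ):ℝ) * θ - x₀) < η₁))).image
        (fun j => 1 + q * Q + j)) := by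
    intro t ht
    have ht1 := mem_filter.mp ht
    have hIcc := mem_Icc.mp ht1.1
    rw [mem_biUnion]
    refine ⟨(t - 1) / Q, ?_, ?_⟩
    · rw [mem_range, hB]
      have : (t - 1) / Q ≤ (W - 1) / Q := Nat.div_le_div_right (by omega)
      omega
    · rw [mem_image]
      refine ⟨(t - 1) % Q, ?_, ?_⟩
      · rw [mem_filter, mem_range]
        refine ⟨Nat.mod_lt _ (by omega), ?_⟩
        have hdm : 1 + (t - 1) / Q * Q + (t - 1) % Q = t := by
          have := Nat.div_add_mod' (t - 1) Q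
          omega
        rw [hdm]
        exact ht1.2
      · have := Nat.div_add_mod' (t - 1) Q
        omega
  have hblock : ∀ q ∈ range B,
      ((((range Q).filter (fun j : ℕ => dn (((1 + q * Q + j : ℕ):ℝ) * θ - x₀) < η₁))).image
        (fun j => 1 + q * Q + j)).card ≤ ((range Q).filter
          (fun j : ℕ => dn (((1 + q * Q + j : ℕ):ℝ) * θ - x₀) < η₁)).card := fun q _ => card_image_le
  have hcardC : (C.card : ℝ) ≤ (B:ℝ) * (2 * (Q:ℝ) * η₁ + 3) := by
    have h1 : C.card ≤ ∑ q ∈ range B, ((range Q).filter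
        (fun j : ℕ => dn (((1 + q * Q + j : ℕ):ℝ) * θ - x₀) < η₁)).card :=
      (card_le_card hcover).trans (card_biUnion_le.trans (Finset.sum_le_sum hblock))
    have h2 : (C.card : ℝ) ≤ ∑ q ∈ range B, (((range Q).filter
        (fun j : ℕ => dn (((1 + q * Q + j : ℕ):ℝ) * θ - x₀) < η₁)).card : ℝ) := by
      exact_mod_cast h1
    refine h2.trans ?_
    calc ∑ q ∈ range B, (((range Q).filter
          (fun j : ℕ => dn (((1 + q * Q + j : ℕ):ℝ) * θ - x₀) < η₁)).card : ℝ)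
        ≤ ∑ q ∈ range B, (2 * (Q:ℝ) * η₁ + 3) :=
          Finset.sum_le_sum (fun q _ => block_count θ x₀ η₁ Q a (1 + q * Q) hQ1 hη hcop' herr3)
      _ = (B:ℝ) * (2 * (Q:ℝ) * η₁ + 3) := by
          rw [Finset.sum_const, card_range, nsmul_eq_mul]
  have hQW : (Q:ℝ) ≤ W := by
    have h1 : (W:ℝ) / R ≤ W := div_le_self hWpos.le hR
    linarith
  have hBle : (B:ℝ) ≤ 2 * (W:ℝ) / Q := by
    have h1 : (((W - 1) / Q : ℕ) : ℝ) ≤ ((W - 1 : ℕ) : ℝ) / Q := Nat.cast_div_le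
    have h2 : ((W - 1 : ℕ) : ℝ) ≤ W := by
      have : W - 1 ≤ W := Nat.sub_le _ _
      exact_mod_cast this
    have h3 : ((W - 1 : ℕ) : ℝ) / Q ≤ (W:ℝ) / Q := div_le_div_of_nonneg_right h2 hQpos.le
    have h4 : (1:ℝ) ≤ (W:ℝ) / Q := by
      rw [le_div_iff₀ hQpos]; linarith
    have h5 : (B:ℝ) = (((W - 1) / Q : ℕ) : ℝ) + 1 := by
      rw [hB]; push_cast; ring
    have h6 : 2 * (W:ℝ) / Q = (W:ℝ) / Q + (W:ℝ) / Q := by ring
    rw [h5, h6]
    linarith
  have hfin : (2 * (W:ℝ) / Q) * (2 * (Q:ℝ) * η₁ + 3) = 4 * (W:ℝ) * η₁ + 6 * (W:ℝ) * (1 / Q) := by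
    field_simp
    ring
  have h1Q : (1:ℝ) / Q ≤ 1 / R := one_div_le_one_div_of_le hRpos hQR
  have hprod : (B:ℝ) * (2 * (Q:ℝ) * η₁ + 3) ≤ (2 * (W:ℝ) / Q) * (2 * (Q:ℝ) * η₁ + 3) :=
    mul_le_mul_of_nonneg_right hBle (by positivity)
  have h6 : 6 * (W:ℝ) * (1 / Q) ≤ 6 * (W:ℝ) * (1 / R) :=
    mul_le_mul_of_nonneg_left h1Q (by positivity)
  have hpos3 : 0 ≤ (W:ℝ) * η₁ := by positivity
  have hpos4 : 0 ≤ (W:ℝ) * (1 / R) := by positivity
  calc (C.card : ℝ) ≤ (B:ℝ) * (2 * (Q:ℝ) * η₁ + 3) := hcardC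
    _ ≤ 4 * (W:ℝ) * η₁ + 6 * (W:ℝ) * (1 / Q) := by rw [← hfin]; exact hprod
    _ ≤ 8 * (W:ℝ) * (η₁ + 1 / R) := by nlinarith

/-- The sum of the size function over a progression. -/
lemma equi_sum (θ : ℝ) (W U : ℕ) (R : ℝ) (hW : 1 ≤ W) (hU : 1 ≤ U) (hR : 1 ≤ R)
    (hret : ∀ n : ℕ, 1 ≤ n → (n:ℝ) < R → R / W < dn ((n:ℝ) * θ)) :
    ∑ t ∈ Icc 1 W, hh θ U t ≤ 200 * (W:ℝ) * (U:ℝ) ^ 2 * (1 / (U:ℝ) + 1 / R) := by
  classical
  have hUpos : (0:ℝ) < U := by exact_mod_cast hU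
  have hWpos : (0:ℝ) < W := by exact_mod_cast hW
  have hRpos : (0:ℝ) < R := by linarith
  -- counting function
  let cnt : ℝ → ℝ := fun η => (((Icc 1 W).filter (fun t : ℕ => dn ((t:ℝ) * θ) < η)).card : ℝ)
  have hcnt : ∀ η, 0 ≤ η → cnt η ≤ 8 * (W:ℝ) * (η + 1 / R) := by
    intro η hη
    have := equi_count θ W R η 0 hW hR hη hret
    simpa only [sub_zero] using this
  let ind : ℝ → ℕ → ℝ := fun η t => if dn ((t:ℝ) * θ) < η then 1 else 0
  have hsumind : ∀ η, ∑ t ∈ Icc 1 W, ind η t = cnt η := by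
    intro η
    simp only [ind, cnt]
    rw [Finset.sum_ite, Finset.sum_const_zero, add_zero, Finset.sum_const, nsmul_eq_mul, mul_one]
  -- pointwise layer cake
  have hpt : ∀ t ∈ Icc 1 W, hh θ U t ≤ 4 * (U:ℝ) ^ 2 * ind (1 / (U:ℝ)) t
      + ∑ i ∈ range U, ((U:ℝ) ^ 2 / (4 * 4 ^ i)) * ind ((2:ℝ) ^ (i + 1) / (U:ℝ)) t := by
    intro t _
    set δ := dn ((t:ℝ) * θ) with hδ
    have hδ0 : 0 ≤ δ := dn_nonneg _
    have hδe : dn (θ * (t:ℝ)) = δ := by rw [hδ, mul_comm]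
    have hsumnn : 0 ≤ ∑ i ∈ range U, ((U:ℝ) ^ 2 / (4 * 4 ^ i)) * ind ((2:ℝ) ^ (i + 1) / (U:ℝ)) t := by
      apply Finset.sum_nonneg
      intro i _
      apply mul_nonneg (by positivity)
      simp only [ind]
      split_ifs <;> norm_num
    by_cases hsm : δ < 1 / (U:ℝ)
    · have h1 : ind (1 / (U:ℝ)) t = 1 := by
        simp only [ind]
        rw [if_pos hsm]
      rw [h1, mul_one]
      have h2 : hh θ U t ≤ 4 * (U:ℝ) ^ 2 := by
        unfold hh
        split_ifs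
        · exact le_rfl
        · exact min_le_left _ _
      linarith
    · push Not at hsm
      have hδU : 1 ≤ δ * U := by
        rw [div_le_iff₀ hUpos] at hsm
        exact hsm
      obtain ⟨i, hi1, hi2⟩ := exists_nat_pow_near hδU (by norm_num : (1:ℝ) < 2)
      have hδpos : 0 < δ := by
        have : (0:ℝ) < 1 / U := by positivity
        linarith
      have hilt : i < U := by
        have hhalf : δ ≤ 1 / 2 := dn_le_half _
        have h1 : (2:ℝ) ^ i ≤ (U:ℝ) := by nlinarith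
        have h2 : U < 2 ^ U := Nat.lt_two_pow_self
        have h3 : (U:ℝ) < (2:ℝ) ^ U := by exact_mod_cast h2
        exact (pow_lt_pow_iff_right₀ (by norm_num : (1:ℝ) < 2)).mp (lt_of_le_of_lt h1 h3)
      have hind : ind ((2:ℝ) ^ (i + 1) / (U:ℝ)) t = 1 := by
        simp only [ind]
        rw [if_pos]
        rw [lt_div_iff₀ hUpos]
        exact hi2
      have hterm : ((U:ℝ) ^ 2 / (4 * 4 ^ i)) * ind ((2:ℝ) ^ (i + 1) / (U:ℝ)) t
          ≤ ∑ i ∈ range U, ((U:ℝ) ^ 2 / (4 * 4 ^ i)) * ind ((2:ℝ) ^ (i + 1) / (U:ℝ)) t := by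
        apply Finset.single_le_sum (f := fun i => ((U:ℝ) ^ 2 / (4 * 4 ^ i)) * ind ((2:ℝ) ^ (i + 1) / (U:ℝ)) t)
        · intro j _
          apply mul_nonneg (by positivity)
          simp only [ind]
          split_ifs <;> norm_num
        · exact mem_range.mpr hilt
      rw [hind, mul_one] at hterm
      have hh1 : hh θ U t ≤ (U:ℝ) ^ 2 / (4 * 4 ^ i) := by
        unfold hh
        rw [hδe]
        have hne : δ ≠ 0 := hδpos.ne'
        rw [if_neg hne]
        refine (min_le_right _ _).trans ?_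
        rw [div_le_div_iff₀ (by positivity) (by positivity)]
        have h4 : ((2:ℝ) ^ i) ^ 2 ≤ (δ * U) ^ 2 := pow_le_pow_left₀ (by positivity) hi1 2
        have h5 : (4:ℝ) ^ i = ((2:ℝ) ^ i) ^ 2 := by
          rw [← pow_mul, mul_comm, pow_mul]
          norm_num
        rw [h5]
        nlinarith
      have hind0 : 0 ≤ ind (1 / (U:ℝ)) t := by
        simp only [ind]
        split_ifs <;> norm_num
      have : 0 ≤ 4 * (U:ℝ) ^ 2 * ind (1 / (U:ℝ)) t := by positivity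
      linarith
  -- geometric sums
  have hgeo2 : ∀ n : ℕ, ∑ i ∈ range n, ((1:ℝ) / 2 ^ i) ≤ 2 := by
    intro n
    have : ∑ i ∈ range n, ((1:ℝ) / 2 ^ i) = 2 - 2 * (1 / 2) ^ n := by
      induction n with
      | zero => simp
      | succ k ih =>
        rw [Finset.sum_range_succ, ih, pow_succ (1 / 2 : ℝ) k, one_div_pow]
        ring
    rw [this]
    have : (0:ℝ) ≤ (1 / 2) ^ n := by positivity
    linarith
  have hgeo4 : ∀ n : ℕ, ∑ i ∈ range n, ((1:ℝ) / 4 ^ i) ≤ 2 := by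
    intro n
    refine (Finset.sum_le_sum (fun i _ => ?_)).trans (hgeo2 n)
    apply one_div_le_one_div_of_le (by positivity)
    exact pow_le_pow_left₀ (by norm_num) (by norm_num) i
  have hUR : 0 ≤ 1 / R := by positivity
  calc ∑ t ∈ Icc 1 W, hh θ U t
      ≤ ∑ t ∈ Icc 1 W, (4 * (U:ℝ) ^ 2 * ind (1 / (U:ℝ)) t
          + ∑ i ∈ range U, ((U:ℝ) ^ 2 / (4 * 4 ^ i)) * ind ((2:ℝ) ^ (i + 1) / (U:ℝ)) t) :=
        Finset.sum_le_sum hpt
    _ = 4 * (U:ℝ) ^ 2 * cnt (1 / (U:ℝ))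
          + ∑ i ∈ range U, ((U:ℝ) ^ 2 / (4 * 4 ^ i)) * cnt ((2:ℝ) ^ (i + 1) / (U:ℝ)) := by
        rw [Finset.sum_add_distrib, ← Finset.mul_sum, hsumind, Finset.sum_comm]
        congr 1
        apply Finset.sum_congr rfl
        intro i _
        rw [← Finset.mul_sum, hsumind]
    _ ≤ 4 * (U:ℝ) ^ 2 * (8 * (W:ℝ) * (1 / (U:ℝ) + 1 / R))
          + ∑ i ∈ range U, ((U:ℝ) ^ 2 / (4 * 4 ^ i)) * (8 * (W:ℝ) * ((2:ℝ) ^ (i + 1) / (U:ℝ) + 1 / R)) := by
        apply add_le_add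
        · apply mul_le_mul_of_nonneg_left (hcnt _ (by positivity)) (by positivity)
        · apply Finset.sum_le_sum
          intro i _
          apply mul_le_mul_of_nonneg_left (hcnt _ (by positivity)) (by positivity)
    _ = 32 * (W:ℝ) * (U:ℝ) ^ 2 * (1 / (U:ℝ) + 1 / R)
          + (4 * (W:ℝ) * (U:ℝ) * ∑ i ∈ range U, ((1:ℝ) / 2 ^ i)
            + 2 * (W:ℝ) * (U:ℝ) ^ 2 * (1 / R) * ∑ i ∈ range U, ((1:ℝ) / 4 ^ i)) := by
        congr 1
        · ring
        · rw [Finset.mul_sum, Finset.mul_sum, ← Finset.sum_add_distrib]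
          apply Finset.sum_congr rfl
          intro i _
          have h4 : (4:ℝ) ^ i = (2:ℝ) ^ i * (2:ℝ) ^ i := by
            rw [← mul_pow]; norm_num
          rw [h4]
          field_simp
          ring
    _ ≤ 32 * (W:ℝ) * (U:ℝ) ^ 2 * (1 / (U:ℝ) + 1 / R)
          + (4 * (W:ℝ) * (U:ℝ) * 2 + 2 * (W:ℝ) * (U:ℝ) ^ 2 * (1 / R) * 2) := by
        apply add_le_add_right
        apply add_le_add
        · apply mul_le_mul_of_nonneg_left (hgeo2 _) (by positivity)
        · apply mul_le_mul_of_nonneg_left (hgeo4 _) (by positivity)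
    _ ≤ 200 * (W:ℝ) * (U:ℝ) ^ 2 * (1 / (U:ℝ) + 1 / R) := by
        have hid : (W:ℝ) * (U:ℝ) = (W:ℝ) * (U:ℝ) ^ 2 * (1 / (U:ℝ)) := by
          field_simp
        have hA : 0 ≤ (W:ℝ) * (U:ℝ) ^ 2 * (1 / (U:ℝ)) := by positivity
        have hBB : 0 ≤ (W:ℝ) * (U:ℝ) ^ 2 * (1 / R) := by positivity
        have e1 : 32 * (W:ℝ) * (U:ℝ) ^ 2 * (1 / (U:ℝ) + 1 / R)
            = 32 * ((W:ℝ) * (U:ℝ) ^ 2 * (1 / (U:ℝ))) + 32 * ((W:ℝ) * (U:ℝ) ^ 2 * (1 / R)) := by ring
        have e2 : 200 * (W:ℝ) * (U:ℝ) ^ 2 * (1 / (U:ℝ) + 1 / R)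
            = 200 * ((W:ℝ) * (U:ℝ) ^ 2 * (1 / (U:ℝ))) + 200 * ((W:ℝ) * (U:ℝ) ^ 2 * (1 / R)) := by ring
        have e3 : 4 * (W:ℝ) * (U:ℝ) * 2 = 8 * ((W:ℝ) * (U:ℝ) ^ 2 * (1 / (U:ℝ))) := by
          rw [← hid]; ring
        have e4 : 2 * (W:ℝ) * (U:ℝ) ^ 2 * (1 / R) * 2 = 4 * ((W:ℝ) * (U:ℝ) ^ 2 * (1 / R)) := by ring
        rw [e1, e2, e3, e4]
        linarith

end

end Vale.Agent.Lib.P028K
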